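import Crest.Agent.R187.Defs

/-!
# Effective Brion bound I: tools

`up : P a n → P (a+1) n` shifts the blocks by one, block `0` is the marked point `ξ`.
* `coeff_mem_of_eval`: if a polynomial `Q ∈ A[s]` (`A` a `ℂ`-algebra) has all values `Q(s)`, `s ∈ ℂ`, in a subspace
  `W`, then so have its coefficients (apply a functional vanishing on `W`, `Submodule.exists_le_ker_of_notMem` or
  pass to the quotient `A ⧸ W`; a complex polynomial vanishing everywhere is zero).
* `prod_lin_mem`: polarisation: `∏_j y_j` is the coefficient of `t_1 ⋯ t_D` in `(∑ t_j y_j)^D / D!`; e.g. induction on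
  `D` with `coeff_mem_of_eval` applied to `(y + s z)^{D+1}` (coefficient of `s` is `(D+1) y^D z`).
* `key`: let `D = a N`, `Pp(s) = ∏_i (s l_i + m_i)^N ∈ (P (a+1) n)[s]`; its values are `vv (s l + m) ^ N`.
  `Pp = P₀ P'` with `P₀ = (s l₀ + m₀)^N`, `P'` of degree `≤ D` with `coeff D P' = up (vv l) ^ N`.
  Choose integers `c_k` with `(1+z)^N ∑_{k ≤ D} c_k z^k ≡ 1 mod z^{D+1}` (truncate `(∑_{k≤D} (-z)^k)^N`, or a power series
  inverse) and `Q(s) = ∑_{k ≤ D} c_k s^k l₀^k m₀^{D-k}`, so that `Q P₀ ≡ m₀^{N+D} mod s^{D+1}`.  Compare the coefficients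
  of `s^D` in `Q Pp = (Q P₀) P'`.
* `newton_mem`: with `y_i = m_i ∏_{i' ≠ i} l_{i'}`, `esymm_k(y) = vv(l)^{k-1} · coeff_k ∏_i (l_i + s m_i)` for `k ≥ 1`
  lies in `spanV k`; use `MvPolynomial.psum_eq_mul_esymm_sub_sum` (through `aeval y`) and strong induction.
-/

set_option autoImplicit false

namespace Crest.Agent.R187

open MvPolynomial Crest.AlgebraR.FoulkesHowe

/-- Span of the products `v(l_1) ⋯ v(l_b)`: the image of `Sym^b (Sym^a W)`. -/
noncomputable def spanV (a n b : ℕ) : Submodule ℂ (P a n) :=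
  Submodule.span ℂ {f | ∃ l : Fin b → Fin n → ℂ, f = ∏ j, vv a (l j)}

/-- Shift the blocks by one. -/
noncomputable def up {a n : ℕ} : P a n →ₐ[ℂ] P (a + 1) n := rename fun v => (v.1.succ, v.2)

/-- Forms of degree `D` in block `i`. -/
noncomputable def form {a : ℕ} (n : ℕ) (i : Fin a) (D : ℕ) : Submodule ℂ (P a n) :=
  Submodule.span ℂ {f | ∃ m : Fin D → Fin n → ℂ, f = ∏ j, lin (m j) i}

theorem coeff_mem_of_eval {A : Type} [CommRing A] [Algebra ℂ A] (W : Submodule ℂ A)
    (Q : Polynomial A) (h : ∀ s : ℂ, Q.eval (algebraMap ℂ A s) ∈ W) (k : ℕ) : Q.coeff k ∈ W := by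
  by_contra hk
  obtain ⟨φ, hφ, hW⟩ := Submodule.exists_le_ker_of_notMem hk
  have hq : (∑ i ∈ Finset.range (Q.natDegree + 1), Polynomial.monomial i (φ (Q.coeff i))) = 0 := by
    refine Polynomial.funext fun s => ?_
    have h1 : φ (Q.eval (algebraMap ℂ A s)) = 0 := hW (h s)
    rw [Polynomial.eval_eq_sum_range, map_sum] at h1
    rw [Polynomial.eval_finsetSum, Polynomial.eval_zero, ← h1]
    refine Finset.sum_congr rfl fun i _ => ?_
    rw [Polynomial.eval_monomial, ← map_pow, mul_comm (Q.coeff i), ← Algebra.smul_def, map_smul,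
      smul_eq_mul, mul_comm]
  have h2 := congrArg (fun p => Polynomial.coeff p k) hq
  simp only [Polynomial.finsetSum_coeff, Polynomial.coeff_monomial, Polynomial.coeff_zero,
    Finset.sum_ite_eq', Finset.mem_range] at h2
  split_ifs at h2 with h3
  · exact hφ h2
  · rw [Polynomial.coeff_eq_zero_of_natDegree_lt (by omega), map_zero] at hφ
    exact hφ rfl

theorem Brion1_span_mul {A ι : Type} [CommRing A] [Algebra ℂ A] (g : ι → A) {D D' : ℕ} {f f' : A}
    (hf : f ∈ Submodule.span ℂ {f | ∃ m : Fin D → ι, f = ∏ j, g (m j)})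
    (hf' : f' ∈ Submodule.span ℂ {f | ∃ m : Fin D' → ι, f = ∏ j, g (m j)}) :
    f * f' ∈ Submodule.span ℂ {f | ∃ m : Fin (D + D') → ι, f = ∏ j, g (m j)} := by
  have h := Submodule.mul_mem_mul hf hf'
  rw [Submodule.span_mul_span] at h
  refine Submodule.span_mono ?_ h
  rintro _ ⟨_, ⟨m, rfl⟩, _, ⟨m', rfl⟩, rfl⟩
  exact ⟨Fin.append m m', by simp [Fin.prod_univ_add]⟩

theorem Brion1_lin_comb {a n : ℕ} (s : ℂ) (l m : Fin n → ℂ) (i : Fin a) :
    lin (s • l + m) i = lin l i * algebraMap ℂ (P a n) s + lin m i := by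
  rw [mul_comm, ← Algebra.smul_def]
  simp only [lin, Pi.add_apply, Pi.smul_apply, smul_eq_mul, add_smul, Finset.sum_add_distrib,
    Finset.smul_sum, smul_smul]

theorem Brion1_coeff_pow {A : Type} [CommRing A] (l m : A) (N i : ℕ) :
    ((Polynomial.C l * Polynomial.X + Polynomial.C m) ^ N).coeff i =
      m ^ (N - i) * (N.choose i : A) * l ^ i := by
  have e : (Polynomial.C l * Polynomial.X + Polynomial.C m) ^ N =
      ((Polynomial.X + Polynomial.C m) ^ N).comp (Polynomial.C l * Polynomial.X) := by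
    simp
  rw [e, Polynomial.comp_C_mul_X_coeff, Polynomial.coeff_X_add_C_pow]

theorem form_mul {a n D D' : ℕ} {i : Fin a} {f g : P a n} (hf : f ∈ form n i D)
    (hg : g ∈ form n i D') : f * g ∈ form n i (D + D') := by
  exact Brion1_span_mul (fun m => lin m i) hf hg

theorem lin_pow_mem_form {a n : ℕ} (m : Fin n → ℂ) (i : Fin a) (D : ℕ) : lin m i ^ D ∈ form n i D := by
  exact Submodule.subset_span ⟨fun _ => m, by simp⟩

theorem form_le_span_pow {a n : ℕ} (i : Fin a) (D : ℕ) :
    form n i D ≤ Submodule.span ℂ {f | ∃ m : Fin n → ℂ, f = lin m i ^ D} := by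
  refine Submodule.span_le.2 ?_
  rintro _ ⟨m, rfl⟩
  induction D with
  | zero => exact Submodule.subset_span ⟨0, by simp⟩
  | succ D ih =>
    rw [Fin.prod_univ_succ]
    have h := ih fun j => m j.succ
    generalize (∏ j : Fin D, lin (m j.succ) i) = f at h
    change lin (m 0) i * f ∈ Submodule.span ℂ _
    induction h using Submodule.span_induction with
    | mem x hx =>
      obtain ⟨y, rfl⟩ := hx
      have h1 := coeff_mem_of_eval
        (Submodule.span ℂ {f : P a n | ∃ m : Fin n → ℂ, f = lin m i ^ (D + 1)})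
        ((Polynomial.C (lin (m 0) i) * Polynomial.X + Polynomial.C (lin y i)) ^ (D + 1))
        (fun s => Submodule.subset_span ⟨s • m 0 + y, by simp [Brion1_lin_comb]⟩) 1
      rw [Brion1_coeff_pow, Nat.choose_one_right, Nat.add_sub_cancel, pow_one] at h1
      have h2 := Submodule.smul_mem _ (((D + 1 : ℕ) : ℂ)⁻¹) h1
      have e : (((D + 1 : ℕ) : ℂ)⁻¹) • (lin y i ^ D * ((D + 1 : ℕ) : P a n) * lin (m 0) i) =
          lin (m 0) i * lin y i ^ D := by
        have e2 : lin y i ^ D * ((D + 1 : ℕ) : P a n) * lin (m 0) i =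
            ((D + 1 : ℕ) : ℂ) • (lin (m 0) i * lin y i ^ D) := by
          rw [Nat.cast_smul_eq_nsmul, nsmul_eq_mul]
          ring
        rw [e2, smul_smul, inv_mul_cancel₀ (Nat.cast_ne_zero.2 (Nat.succ_ne_zero D)), one_smul]
      rwa [e] at h2
    | zero => simp
    | add x y _ _ hx hy =>
      rw [mul_add]
      exact add_mem hx hy
    | smul c x _ hx =>
      rw [mul_smul_comm]
      exact Submodule.smul_mem _ _ hx

theorem spanV_mul {a n b c : ℕ} {f g : P a n} (hf : f ∈ spanV a n b) (hg : g ∈ spanV a n c) :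
    f * g ∈ spanV a n (b + c) := by
  exact Brion1_span_mul (vv a) hf hg

theorem vv_pow_mem {a n : ℕ} (l : Fin n → ℂ) (c : ℕ) : vv a l ^ c ∈ spanV a n c := by
  exact Submodule.subset_span ⟨fun _ => l, by simp⟩

theorem Brion1_lin_hom {a n : ℕ} (l : Fin n → ℂ) (i i' : Fin a) :
    IsWeightedHomogeneous (blockWeight i) (lin l i') (if i' = i then 1 else 0) := by
  rw [← mem_weightedHomogeneousSubmodule]
  refine Submodule.sum_mem _ fun k _ => Submodule.smul_mem _ _ ?_
  exact isWeightedHomogeneous_X ℂ (blockWeight i) (i', k)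

theorem Brion1_rename_lin {a a' n : ℕ} (σ : Fin a → Fin a') (l : Fin n → ℂ) (i : Fin a) :
    rename (fun v : Var a n => ((σ v.1, v.2) : Var a' n)) (lin l i) = lin l (σ i) := by
  simp [lin]

theorem vv_mem_blockSym {a n : ℕ} (l : Fin n → ℂ) : vv a l ∈ blockSym a n 1 := by
  refine mem_blockSym.2 ⟨fun i => ?_, fun σ => ?_⟩
  · have h := IsWeightedHomogeneous.prod Finset.univ (fun i' => lin l i')
      (fun i' => if i' = i then 1 else 0) (w := blockWeight i) fun i' _ => Brion1_lin_hom l i i'
    simpa [vv] using h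
  · unfold vv
    rw [map_prod, ← Equiv.prod_comp σ (fun i => lin l i)]
    exact Finset.prod_congr rfl fun i _ => Brion1_rename_lin σ l i

theorem spanV_le_blockSym (a n b : ℕ) : spanV a n b ≤ blockSym a n b := by
  refine Submodule.span_le.2 ?_
  rintro _ ⟨l, rfl⟩
  refine mem_blockSym.2 ⟨fun i => ?_, fun σ => ?_⟩
  · have h := IsWeightedHomogeneous.prod Finset.univ (fun j => vv a (l j))
      (fun _ => 1) (w := blockWeight i) fun j _ => (mem_blockSym.1 (vv_mem_blockSym (l j))).1 i
    simpa using h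
  · rw [map_prod]
    exact Finset.prod_congr rfl fun j _ => (mem_blockSym.1 (vv_mem_blockSym (l j))).2 σ

theorem Brion1_up_lin {a n : ℕ} (l : Fin n → ℂ) (i : Fin a) : up (lin l i) = lin l i.succ :=
  Brion1_rename_lin Fin.succ l i

theorem vv_succ {a n : ℕ} (l : Fin n → ℂ) : vv (a + 1) l = lin l 0 * up (vv a l) := by
  unfold vv
  rw [Fin.prod_univ_succ, map_prod]
  simp only [Brion1_up_lin]

theorem key {a n : ℕ} (N : ℕ) (l m : Fin n → ℂ) :
    up (vv a l) ^ N * lin m 0 ^ ((a + 1) * N) ∈ Submodule.span ℂ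
      {f : P (a + 1) n | ∃ (l' : Fin n → ℂ) (G : P (a + 1) n), G ∈ form n 0 (a * N) ∧
        f = vv (a + 1) l' ^ N * G} := by
  set W := Submodule.span ℂ
      {f : P (a + 1) n | ∃ (l' : Fin n → ℂ) (G : P (a + 1) n), G ∈ form n 0 (a * N) ∧
        f = vv (a + 1) l' ^ N * G} with hW
  set P' : Polynomial (P (a + 1) n) := ∏ i : Fin a,
    (Polynomial.C (lin l i.succ) * Polynomial.X + Polynomial.C (lin m i.succ)) ^ N with hP'
  have hT : ∀ G ∈ form n (0 : Fin (a + 1)) (a * N), ∀ j,
      (((Polynomial.C (lin l 0) * Polynomial.X + Polynomial.C (lin m 0)) ^ N * P').coeff j) * G ∈ W := by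
    intro G hG j
    rw [← Polynomial.coeff_mul_C]
    refine coeff_mem_of_eval W _ (fun s => Submodule.subset_span ⟨s • l + m, G, hG, ?_⟩) j
    simp only [hP', vv, Fin.prod_univ_succ, Brion1_lin_comb, Polynomial.eval_mul, Polynomial.eval_pow,
      Polynomial.eval_add, Polynomial.eval_C, Polynomial.eval_X, Polynomial.eval_prod, mul_pow,
      Finset.prod_pow]
  have hind : ∀ j, ∀ E, j + E = a * N → ∀ G ∈ form n (0 : Fin (a + 1)) E,
      P'.coeff j * lin m 0 ^ (N + j) * G ∈ W := by
    intro j
    induction j using Nat.strong_induction_on with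
    | _ j ih =>
      intro E hE G hG
      have h1 := hT (lin m 0 ^ j * G) (hE ▸ form_mul (lin_pow_mem_form m 0 j) hG) j
      rw [Polynomial.coeff_mul, Finset.sum_mul,
        ← Finset.add_sum_erase _ _ (a := (0, j)) (by simp)] at h1
      have h2 : ∑ x ∈ (Finset.HasAntidiagonal.antidiagonal j).erase (0, j),
          ((Polynomial.C (lin l 0) * Polynomial.X + Polynomial.C (lin m 0)) ^ N).coeff x.1 *
            P'.coeff x.2 * (lin m 0 ^ j * G) ∈ W := by
        refine Submodule.sum_mem _ ?_
        rintro ⟨i, k⟩ hx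
        rw [Finset.mem_erase, Finset.HasAntidiagonal.mem_antidiagonal] at hx
        obtain ⟨hx1, hx2⟩ := hx
        dsimp only at hx2 ⊢
        have hi : 0 < i := by
          rcases Nat.eq_zero_or_pos i with h0 | h0
          · exact absurd (by subst h0; simpa using hx2) hx1
          · exact h0
        rw [Brion1_coeff_pow]
        rcases le_or_gt i N with hN | hN
        · have h3 := ih k (by omega) (i + E) (by omega) _ (form_mul (lin_pow_mem_form l 0 i) hG)
          have h4 := Submodule.smul_mem W ((N.choose i : ℕ) : ℂ) h3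
          have e : lin m 0 ^ (N - i) * (N.choose i : P (a + 1) n) * lin l 0 ^ i * P'.coeff k *
              (lin m 0 ^ j * G) = ((N.choose i : ℕ) : ℂ) •
                (P'.coeff k * lin m 0 ^ (N + k) * (lin l 0 ^ i * G)) := by
            have e2 : N + k = (N - i) + j := by omega
            rw [e2, pow_add, Nat.cast_smul_eq_nsmul, nsmul_eq_mul]
            ring
          rw [e]
          exact h4
        · rw [Nat.choose_eq_zero_of_lt hN]
          simp
      have h5 := (Submodule.add_mem_iff_left W h2).1 h1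
      dsimp only at h5
      rw [Brion1_coeff_pow] at h5
      have e : P'.coeff j * lin m 0 ^ (N + j) * G =
          lin m 0 ^ (N - 0) * (N.choose 0 : P (a + 1) n) * lin l 0 ^ 0 * P'.coeff j *
            (lin m 0 ^ j * G) := by
        rw [Nat.choose_zero_right, Nat.sub_zero, pow_add]
        push_cast
        ring
      rw [e]
      exact h5
  have h6 := hind (a * N) 0 rfl _ (lin_pow_mem_form m 0 0)
  have h7 : P'.coeff (a * N) = up (vv a l) ^ N := by
    have h8 := Polynomial.coeff_prod_of_natDegree_le (s := (Finset.univ : Finset (Fin a)))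
      (fun i => (Polynomial.C (lin l i.succ) * Polynomial.X + Polynomial.C (lin m i.succ)) ^ N) N
      fun i _ => by
        simpa using Polynomial.natDegree_pow_le_of_le N
          (Polynomial.natDegree_linear_le (a := lin l i.succ) (b := lin m i.succ))
    rw [Finset.card_univ, Fintype.card_fin] at h8
    rw [hP', h8, vv, map_prod, ← Finset.prod_pow]
    refine Finset.prod_congr rfl fun i _ => ?_
    rw [Brion1_coeff_pow, Brion1_up_lin]
    simp
  rw [h7, pow_zero, mul_one] at h6
  have e : (a + 1) * N = N + a * N := by ring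
  rw [e]
  exact h6

theorem Brion1_prod_erase {A ι : Type} [CommRing A] [Fintype ι] [DecidableEq ι] (l : ι → A)
    {t : Finset ι} (ht : t.Nonempty) :
    ∏ i ∈ t, ∏ i' ∈ Finset.univ.erase i, l i' = (∏ i, l i) ^ (t.card - 1) * ∏ i ∈ Finset.univ \ t, l i := by
  induction ht using Finset.Nonempty.cons_induction with
  | singleton j => simp [Finset.sdiff_singleton_eq_erase]
  | cons j s hj hs ih =>
    have e : Finset.univ \ s = insert j (Finset.univ \ Finset.cons j s hj) := by
      ext x
      by_cases hx : x = j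
      · subst hx
        simp [hj]
      · simp [hx]
    have e2 : (Finset.cons j s hj).card - 1 = (s.card - 1) + 1 := by
      have := hs.card_pos
      rw [Finset.card_cons]
      omega
    rw [Finset.prod_cons, ih, e, Finset.prod_insert (by simp), e2, pow_succ,
      ← Finset.mul_prod_erase Finset.univ l (Finset.mem_univ j)]
    ring

theorem Brion1_mixed {a n : ℕ} (l m : Fin n → ℂ) (k : ℕ) :
    ∑ t ∈ Finset.powersetCard k (Finset.univ : Finset (Fin a)),
      (∏ i ∈ t, lin m i) * ∏ i ∈ Finset.univ \ t, lin l i ∈ spanV a n 1 := by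
  have h := coeff_mem_of_eval (spanV a n 1)
    (∏ i : Fin a, (Polynomial.C (lin m i) * Polynomial.X + Polynomial.C (lin l i)))
    (fun s => by
      have h1 := vv_pow_mem (a := a) (s • m + l) 1
      rw [pow_one] at h1
      simpa only [vv, Brion1_lin_comb, Polynomial.eval_mul, Polynomial.eval_add, Polynomial.eval_C,
        Polynomial.eval_X, Polynomial.eval_prod] using h1) k
  rw [Finset.prod_add, Polynomial.finsetSum_coeff] at h
  rw [Finset.powersetCard_eq_filter, Finset.sum_filter]
  convert h using 2 with t _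
  rw [Finset.prod_mul_distrib, Finset.prod_const, ← map_prod, ← map_prod, mul_right_comm, ← map_mul,
    Polynomial.coeff_C_mul_X_pow]
  simp only [eq_comm]

theorem Brion1_esymm {a n : ℕ} (l m : Fin n → ℂ) {k : ℕ} (hk : 0 < k) :
    aeval (fun i : Fin a => lin m i * ∏ i' ∈ Finset.univ.erase i, lin l i') (esymm (Fin a) ℂ k) ∈
      spanV a n k := by
  have h := spanV_mul (vv_pow_mem (a := a) l (k - 1)) (Brion1_mixed l m k)
  rw [Nat.sub_add_cancel hk, Finset.mul_sum] at h
  simp only [esymm, map_sum, map_prod, aeval_X]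
  convert h using 2 with t ht
  have hc := (Finset.mem_powersetCard.1 ht).2
  rw [Finset.prod_mul_distrib, Brion1_prod_erase _ (Finset.card_pos.1 (hc ▸ hk)), hc, vv]
  ring

theorem newton_mem {a n : ℕ} (l m : Fin n → ℂ) (c : ℕ) :
    ∑ i : Fin a, (lin m i * ∏ i' ∈ Finset.univ.erase i, lin l i') ^ c ∈ spanV a n c := by
  have e : ∀ c, ∑ i : Fin a, (lin m i * ∏ i' ∈ Finset.univ.erase i, lin l i') ^ c =
      aeval (fun i : Fin a => lin m i * ∏ i' ∈ Finset.univ.erase i, lin l i') (psum (Fin a) ℂ c) := by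
    intro c
    simp only [psum, map_sum, map_pow, aeval_X]
  induction c using Nat.strong_induction_on with
  | _ c ih =>
    rcases Nat.eq_zero_or_pos c with rfl | hc
    · refine Submodule.sum_mem _ fun i _ => ?_
      have h := vv_pow_mem (a := a) l 0
      rwa [pow_zero] at h ⊢
    · rw [e, psum_eq_mul_esymm_sub_sum _ _ c hc, map_sub, map_sum]
      have hs : ∀ (j : ℕ) (f : P a n), f ∈ spanV a n c → (-1) ^ j * f ∈ spanV a n c := by
        intro j f hf
        rcases neg_one_pow_eq_or (P a n) j with h | h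
        · rwa [h, one_mul]
        · rw [h, neg_one_mul]
          exact neg_mem hf
      refine sub_mem ?_ (Submodule.sum_mem _ ?_)
      · rw [map_mul, map_mul, map_pow, map_neg, map_one, map_natCast, mul_assoc]
        refine hs _ _ ?_
        rw [← nsmul_eq_mul]
        exact nsmul_mem (Brion1_esymm l m hc) c
      · rintro ⟨i, j⟩ hx
        rw [Finset.mem_filter, Finset.HasAntidiagonal.mem_antidiagonal] at hx
        obtain ⟨h1, h2, h3⟩ := hx
        dsimp only at h1 h2 h3 ⊢
        rw [map_mul, map_mul, map_pow, map_neg, map_one, mul_assoc, ← e]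
        refine hs _ _ ?_
        rw [← h1]
        exact spanV_mul (Brion1_esymm l m h2) (ih j (by omega))

end Crest.Agent.R187
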