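import Crest.Agent.R187.Brion1

/-!
# Effective Brion bound II: `Sym^b (Sym^a W) → Sym^a (Sym^b W)` is onto for `b ≥ (a-1)²`

* `mh_succ`: a multihomogeneous polynomial in `a+1` blocks is a combination of products `F(x_0) * up g`
  (split each monomial of the support).
* `lemJ`: induction on `a` (generalising `d`): `F * up (vv l ^ N * g')`, `F` of degree `d 0 ≥ (a+1) N` is a
  combination of `m^{(a+1)N} F'` (split the product of linear forms, `form_le_span_pow`), apply `key`.
* `elim`: induction on `t`: `F * up (vv l₁) ` with `deg F = c + t + 1 ≥ a + 1` is a combination of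
  `vv l' * G` with `deg G = c + t` (`key` with `N = 1`); `Tr (vv l' * h) = vv l' * Tr h`.
  Base case `t = 0`: `F = m^c`; `Tr (m(x_0)^c * up (vv l)^c) = a! • ∑_i (m_i ∏_{i' ≠ i} l_{i'})^c`
  (each `σ` contributes the term `i = σ 0`; `Equiv.Perm.decomposeFin` or fibre counting), `newton_mem`.
* `brion`: induction on `a`.  For `a + 1` blocks and `b ≥ a²`: `f = (1/(a+1)!) Tr f`; reduce to
  `F * up g`, then (`lemJ` with `N = a`) to `F * up (vv l ^ a * γ)`; `a! • Tr (F * up (vv l ^ a * γ)) =
  Tr (F * up (vv l ^ a * Tr γ))` (permutations fixing block `0`; `Tr ∘ rename σ = Tr`),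
  `Tr γ ∈ blockSym a n (b - a) ≤ spanV` since `b - a ≥ (a-1)²` (for `a = 0` handle directly: then `mh` is spanned by
  products of linear forms); finish with `elim`.
-/

set_option autoImplicit false

namespace Crest.Agent.R187

open MvPolynomial Crest.AlgebraR.FoulkesHowe

/-- Multihomogeneous polynomials. -/
noncomputable def mh (a n : ℕ) (d : Fin a → ℕ) : Submodule ℂ (P a n) :=
  ⨅ i : Fin a, weightedHomogeneousSubmodule ℂ (blockWeight i) (d i)

/-- Sum over all block permutations. -/
noncomputable def Tr (a n : ℕ) : P a n →ₗ[ℂ] P a n :=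
  ∑ σ : Equiv.Perm (Fin a), (rename (blockPerm σ) : P a n →ₐ[ℂ] P a n).toLinearMap

theorem Brion2_rename_wh {σ τ : Type} (e : σ → τ) (w : τ → ℕ) (w' : σ → ℕ)
    (hw : ∀ v, w (e v) = w' v) {f : MvPolynomial σ ℂ} {m : ℕ}
    (hf : IsWeightedHomogeneous w' f m) : IsWeightedHomogeneous w (rename e f) m := by
  rw [← f.support_sum_monomial_coeff, map_sum]
  refine IsWeightedHomogeneous.sum _ _ _ fun d hd => ?_
  rw [rename_monomial]
  refine isWeightedHomogeneous_monomial _ _ _ ?_
  rw [← hf (mem_support_iff.1 hd), Finsupp.weight_apply, Finsupp.weight_apply,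
    Finsupp.sum_mapDomain_index (by simp) (by simp [add_mul])]
  simp only [hw]

theorem Brion2_mem_mh {a n : ℕ} {d : Fin a → ℕ} {f : P a n} :
    f ∈ mh a n d ↔ ∀ i, IsWeightedHomogeneous (blockWeight i) f (d i) := by
  simp [mh, Submodule.mem_iInf]

theorem Brion2_Tr_apply {a n : ℕ} (f : P a n) :
    Tr a n f = ∑ σ : Equiv.Perm (Fin a), rename (blockPerm σ) f := by
  simp [Tr, LinearMap.sum_apply]

theorem Brion2_rename_rename {a n : ℕ} (σ τ : Equiv.Perm (Fin a)) (f : P a n) :
    rename (blockPerm σ) (rename (blockPerm τ) f) = rename (blockPerm (σ * τ)) f := by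
  rw [rename_rename]; rfl

theorem Brion2_Tr_rename {a n : ℕ} (τ : Equiv.Perm (Fin a)) (f : P a n) :
    Tr a n (rename (blockPerm τ) f) = Tr a n f := by
  rw [Brion2_Tr_apply, Brion2_Tr_apply]
  simp only [Brion2_rename_rename]
  exact Equiv.sum_comp (Equiv.mulRight τ) (fun σ => rename (blockPerm σ) f)

theorem Brion2_rename_lin {a n : ℕ} (σ : Equiv.Perm (Fin a)) (l : Fin n → ℂ) (i : Fin a) :
    rename (blockPerm σ) (lin l i : P a n) = lin l (σ i) := by
  simp [lin, blockPerm]

theorem Brion2_rename_vv {a n : ℕ} (σ : Equiv.Perm (Fin a)) (l : Fin n → ℂ) :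
    rename (blockPerm σ) (vv a l) = vv a l :=
  (mem_blockSym.1 (vv_mem_blockSym l)).2 σ

theorem Brion2_Tr_mul {a n : ℕ} {u : P a n} (hu : ∀ σ, rename (blockPerm σ) u = u) (h : P a n) :
    Tr a n (u * h) = u * Tr a n h := by
  rw [Brion2_Tr_apply, Brion2_Tr_apply, Finset.mul_sum]
  exact Finset.sum_congr rfl fun σ _ => by rw [map_mul, hu]

theorem Brion2_lin_wh {a n : ℕ} (l : Fin n → ℂ) (i j : Fin a) :
    IsWeightedHomogeneous (blockWeight j) (lin l i : P a n) (if i = j then 1 else 0) := by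
  unfold lin
  refine IsWeightedHomogeneous.sum _ _ _ fun k _ => ?_
  exact (weightedHomogeneousSubmodule ℂ _ _).smul_mem _
    (isWeightedHomogeneous_X ℂ (blockWeight j) (i, k))

theorem Brion2_form_wh {a n D : ℕ} {i : Fin a} {F : P a n} (hF : F ∈ form n i D) (j : Fin a) :
    IsWeightedHomogeneous (blockWeight j) F (if i = j then D else 0) := by
  have : form n i D ≤ weightedHomogeneousSubmodule ℂ (blockWeight j) (if i = j then D else 0) := by
    refine Submodule.span_le.2 ?_
    rintro _ ⟨m, rfl⟩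
    have h := IsWeightedHomogeneous.prod Finset.univ (fun k : Fin D => (lin (m k) i : P a n))
      (fun _ => if i = j then 1 else 0) (w := blockWeight j) (fun k _ => Brion2_lin_wh _ _ _)
    have e : ∑ _k : Fin D, (if i = j then 1 else 0) = if i = j then D else 0 := by
      split_ifs <;> simp
    rwa [e] at h
  exact this hF

theorem Brion2_mul_up_mem {a n : ℕ} (d : Fin (a + 1) → ℕ) {F : P (a + 1) n}
    (hF : F ∈ form n 0 (d 0)) {g : P a n} (hg : g ∈ mh a n fun i => d i.succ) :
    F * up g ∈ mh (a + 1) n d := by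
  rw [Brion2_mem_mh] at hg ⊢
  intro j
  refine Fin.cases ?_ (fun j => ?_) j
  · have h1 := Brion2_form_wh hF 0
    rw [if_pos rfl] at h1
    have h2 : IsWeightedHomogeneous (blockWeight (0 : Fin (a + 1))) (up g) 0 :=
      Brion2_rename_wh _ _ (fun _ => 0) (fun v => by simp [blockWeight])
        (fun d _ => by simp [Finsupp.weight_apply])
    simpa using h1.mul h2
  · have h1 := Brion2_form_wh hF j.succ
    rw [if_neg (Fin.succ_ne_zero j).symm] at h1
    have h2 : IsWeightedHomogeneous (blockWeight j.succ) (up g) (d j.succ) :=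
      Brion2_rename_wh _ _ (blockWeight j) (fun v => by simp [blockWeight]) (hg j)
    simpa using h1.mul h2

theorem Brion2_weight {a n : ℕ} (i : Fin a) (s : Var a n →₀ ℕ) :
    Finsupp.weight (blockWeight i) s = ∑ k, s (i, k) := by
  rw [Finsupp.weight_eq_sum, Fintype.sum_prod_type]
  simp [blockWeight]

theorem Brion2_prod_mem_form {a n : ℕ} (i : Fin a) (e : Fin n → ℕ) (s : Finset (Fin n)) :
    (∏ k ∈ s, X (i, k) ^ e k : P a n) ∈ form n i (∑ k ∈ s, e k) := by
  classical
  induction s using Finset.induction_on with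
  | empty =>
    exact Submodule.subset_span ⟨fun _ _ => 0, by simp⟩
  | insert k s hk ih =>
    rw [Finset.prod_insert hk, Finset.sum_insert hk]
    refine form_mul ?_ ih
    have h := lin_pow_mem_form (a := a) (Pi.single k (1 : ℂ)) i (e k)
    have e1 : (lin (Pi.single k (1 : ℂ)) i : P a n) = X (i, k) := by
      unfold lin
      rw [Finset.sum_eq_single k]
      · simp
      · intro b _ hb; simp [hb]
      · simp
    rwa [e1] at h

theorem Tr_mem {a n b : ℕ} {f : P a n} (hf : f ∈ mh a n fun _ => b) : Tr a n f ∈ blockSym a n b := by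
  rw [Brion2_mem_mh] at hf
  rw [mem_blockSym]
  refine ⟨fun i => ?_, fun τ => ?_⟩
  · rw [Brion2_Tr_apply]
    refine IsWeightedHomogeneous.sum _ _ _ fun σ _ => ?_
    refine Brion2_rename_wh _ _ (blockWeight (σ.symm i)) (fun v => ?_) (hf _)
    unfold blockWeight blockPerm
    exact if_congr (Equiv.eq_symm_apply σ).symm rfl rfl
  · rw [Brion2_Tr_apply, map_sum]
    simp only [Brion2_rename_rename]
    exact Equiv.sum_comp (Equiv.mulLeft τ) (fun σ => rename (blockPerm σ) f)

theorem mh_succ {a n : ℕ} (d : Fin (a + 1) → ℕ) : mh (a + 1) n d ≤ Submodule.span ℂ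
    {f | ∃ F ∈ form n (0 : Fin (a + 1)) (d 0), ∃ g ∈ mh a n fun i => d i.succ, f = F * up g} := by
  intro f hf
  rw [Brion2_mem_mh] at hf
  rw [← f.support_sum_monomial_coeff]
  refine Submodule.sum_mem _ fun s hs => ?_
  have hw : ∀ i, ∑ k, s (i, k) = d i := fun i => by
    rw [← Brion2_weight]; exact hf i (mem_support_iff.1 hs)
  have e : (monomial s (coeff s f) : P (a + 1) n) = coeff s f • ((∏ k, X (0, k) ^ s (0, k)) *
      up (∏ i : Fin a, ∏ k, X (i, k) ^ s (i.succ, k))) := by
    rw [monomial_eq, Finsupp.prod_fintype _ _ (by simp), Fintype.prod_prod_type,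
      Fin.prod_univ_succ, smul_eq_C_mul]
    simp [up]
  rw [e]
  refine Submodule.smul_mem _ _ (Submodule.subset_span ⟨_, ?_, _, ?_, rfl⟩)
  · rw [← hw 0]; exact Brion2_prod_mem_form _ _ _
  · rw [Brion2_mem_mh]
    intro j
    have h := IsWeightedHomogeneous.prod Finset.univ
      (fun i : Fin a => (∏ k, X (i, k) ^ s (i.succ, k) : P a n))
      (fun i => if i = j then d i.succ else 0) (w := blockWeight j) (fun i _ => by
        rw [← hw i.succ]; exact Brion2_form_wh (Brion2_prod_mem_form _ _ _) j)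
    simpa using h

/-- a linear map sends a span into a submodule if it does so on the generators -/
theorem Brion2_span_map {A B : Type} [AddCommGroup A] [Module ℂ A] [AddCommGroup B] [Module ℂ B]
    (φ : A →ₗ[ℂ] B) {S : Set A} {W : Submodule ℂ B} (h : ∀ x ∈ S, φ x ∈ W) {x : A}
    (hx : x ∈ Submodule.span ℂ S) : φ x ∈ W :=
  (Submodule.span_le.2 (show S ⊆ W.comap φ from h)) hx

theorem lemJ {a n : ℕ} (N : ℕ) (d : Fin a → ℕ) (hd : ∀ i, a * N ≤ d i) :
    mh a n d ≤ Submodule.span ℂ
      {f | ∃ (l : Fin n → ℂ) (g : P a n), g ∈ mh a n (fun i => d i - N) ∧ f = vv a l ^ N * g} := by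
  induction a with
  | zero =>
    intro f _
    refine Submodule.subset_span ⟨0, f, ?_, ?_⟩
    · rw [Brion2_mem_mh]; intro i; exact i.elim0
    · simp [vv]
  | succ a ih =>
    refine (mh_succ d).trans (Submodule.span_le.2 ?_)
    rintro _ ⟨F, hF, g, hg, rfl⟩
    have hg' := ih (fun i => d i.succ) (fun i => le_trans (by nlinarith) (hd i.succ)) hg
    refine Brion2_span_map ((LinearMap.mulLeft ℂ F).comp up.toLinearMap) ?_ hg'
    rintro _ ⟨l, g', hg'', rfl⟩
    refine Brion2_span_map (LinearMap.mulRight ℂ (up (vv a l ^ N * g'))) ?_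
      (form_le_span_pow 0 (d 0) hF)
    rintro _ ⟨m, rfl⟩
    obtain ⟨e, he⟩ : ∃ e, d 0 = (a + 1) * N + e := ⟨d 0 - (a + 1) * N, by have := hd 0; omega⟩
    have e1 : (LinearMap.mulRight ℂ (up (vv a l ^ N * g'))) (lin m 0 ^ d 0) =
        (LinearMap.mulRight ℂ (lin m 0 ^ e * up g')) (up (vv a l) ^ N * lin m 0 ^ ((a + 1) * N)) := by
      simp only [LinearMap.mulRight_apply, map_mul, map_pow, he, pow_add]
      ring
    rw [e1]
    refine Brion2_span_map _ ?_ (key N l m)
    rintro _ ⟨l', G, hG, rfl⟩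
    refine Submodule.subset_span ⟨l', (G * lin m 0 ^ e) * up g', ?_, ?_⟩
    · refine Brion2_mul_up_mem (fun i => d i - N) ?_ hg''
      have e2 : d 0 - N = a * N + e := by rw [he, add_mul]; omega
      show _ ∈ form n 0 (d 0 - N)
      rw [e2]
      exact form_mul hG (lin_pow_mem_form m 0 e)
    · simp only [LinearMap.mulRight_apply]; ring

theorem Brion2_rename_up_vv {a n : ℕ} (σ : Equiv.Perm (Fin (a + 1))) (l : Fin n → ℂ) :
    rename (blockPerm σ) (up (vv a l)) = ∏ i' ∈ Finset.univ.erase (σ 0), lin l i' := by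
  have e : rename (blockPerm σ) (up (vv a l)) = ∏ i : Fin a, lin l (σ i.succ) := by
    simp [up, vv, lin, blockPerm]
  rw [e]
  refine Finset.prod_nbij (fun i => σ i.succ) ?_ ?_ ?_ ?_
  · intro i _
    simp
  · intro i _ j _ h
    exact Fin.succ_injective _ (σ.injective h)
  · intro j hj
    have hj' : σ.symm j ≠ 0 := by
      intro h
      have : j = σ 0 := by rw [← h]; simp
      simp [this] at hj
    obtain ⟨i, hi⟩ := Fin.exists_succ_eq.2 hj'
    exact ⟨i, by simp, by simp [hi]⟩
  · intro i _; rfl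

theorem elim {a n : ℕ} (c t : ℕ) (hc : a ≤ c) (l : Fin n → ℂ) (F : P (a + 1) n)
    (hF : F ∈ form n 0 (c + t)) (g : P a n) (hg : g ∈ spanV a n t) :
    Tr (a + 1) n (F * up (vv a l ^ c * g)) ∈ spanV (a + 1) n (c + t) := by
  induction t generalizing F g with
  | zero =>
    refine Brion2_span_map ((Tr (a + 1) n).comp ((LinearMap.mulLeft ℂ F).comp
      (up.toLinearMap.comp (LinearMap.mulLeft ℂ (vv a l ^ c))))) ?_ hg
    rintro _ ⟨L, rfl⟩
    refine Brion2_span_map ((Tr (a + 1) n).comp
      (LinearMap.mulRight ℂ (up (vv a l ^ c * ∏ j, vv a (L j))))) ?_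
      (form_le_span_pow 0 (c + 0) hF)
    rintro _ ⟨m, rfl⟩
    show Tr (a + 1) n (lin m 0 ^ (c + 0) * up (vv a l ^ c * ∏ j, vv a (L j))) ∈ _
    rw [Fin.prod_univ_zero, mul_one, add_zero, map_pow, ← mul_pow, Brion2_Tr_apply]
    simp only [map_pow, map_mul, Brion2_rename_lin, Brion2_rename_up_vv]
    rw [← Equiv.sum_comp Equiv.Perm.decomposeFin.symm, Fintype.sum_prod_type, Finset.sum_comm]
    refine Submodule.sum_mem _ fun e _ => ?_
    simp only [Equiv.Perm.decomposeFin_symm_apply_zero]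
    exact newton_mem l m c
  | succ t ih =>
    refine Brion2_span_map ((Tr (a + 1) n).comp ((LinearMap.mulLeft ℂ F).comp
      (up.toLinearMap.comp (LinearMap.mulLeft ℂ (vv a l ^ c))))) ?_ hg
    rintro _ ⟨L, rfl⟩
    refine Brion2_span_map ((Tr (a + 1) n).comp
      (LinearMap.mulRight ℂ (up (vv a l ^ c * ∏ j, vv a (L j))))) ?_
      (form_le_span_pow 0 (c + (t + 1)) hF)
    rintro _ ⟨m, rfl⟩
    show Tr (a + 1) n (lin m 0 ^ (c + (t + 1)) * up (vv a l ^ c * ∏ j, vv a (L j))) ∈ _
    obtain ⟨e, he⟩ : ∃ e, c + t = a + e := ⟨c + t - a, by omega⟩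
    have hg1 : ∏ j : Fin t, vv a (L j.succ) ∈ spanV a n t :=
      Submodule.subset_span ⟨fun j => L j.succ, rfl⟩
    have e1 : lin m 0 ^ (c + (t + 1)) * up (vv a l ^ c * ∏ j, vv a (L j)) =
        (LinearMap.mulRight ℂ (lin m 0 ^ e * up (vv a l ^ c * ∏ j : Fin t, vv a (L j.succ))))
          (up (vv a (L 0)) ^ 1 * lin m 0 ^ ((a + 1) * 1)) := by
      have e0 : c + (t + 1) = (a + 1) * 1 + e := by omega
      rw [Fin.prod_univ_succ, e0]
      simp only [LinearMap.mulRight_apply, map_mul, map_pow, pow_add]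
      ring
    rw [e1]
    refine Brion2_span_map ((Tr (a + 1) n).comp (LinearMap.mulRight ℂ _)) ?_ (key 1 (L 0) m)
    rintro _ ⟨l', G, hG, rfl⟩
    have hG' : G * lin m 0 ^ e ∈ form n 0 (c + t) := by
      rw [he]
      have := form_mul hG (lin_pow_mem_form m 0 e)
      rwa [mul_one] at this
    have h1 := spanV_mul (vv_pow_mem l' 1) (ih _ hG' _ hg1)
    have e2 : 1 + (c + t) = c + (t + 1) := by omega
    rw [e2, ← Brion2_Tr_mul (fun σ => by rw [map_pow, Brion2_rename_vv])] at h1
    convert h1 using 1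
    simp only [LinearMap.comp_apply, LinearMap.mulRight_apply]
    congr 1
    ring

theorem Brion2_rename_form {a n D : ℕ} {i : Fin a} (σ : Equiv.Perm (Fin a)) (hσ : σ i = i)
    {F : P a n} (hF : F ∈ form n i D) : rename (blockPerm σ) F = F := by
  induction hF using Submodule.span_induction with
  | mem x hx =>
    obtain ⟨m, rfl⟩ := hx
    simp only [map_prod, Brion2_rename_lin, hσ]
  | zero => simp
  | add x y _ _ hx hy => rw [map_add, hx, hy]
  | smul r x _ hx => rw [map_smul, hx]

theorem Brion2_Tr_up_Tr {a n D : ℕ} {F : P (a + 1) n} (hF : F ∈ form n 0 D) (h : P a n) :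
    Tr (a + 1) n (F * up (Tr a n h)) =
      (Fintype.card (Equiv.Perm (Fin a)) : ℂ) • Tr (a + 1) n (F * up h) := by
  rw [Brion2_Tr_apply h, map_sum, Finset.mul_sum, map_sum]
  have : ∀ σ : Equiv.Perm (Fin a),
      Tr (a + 1) n (F * up (rename (blockPerm σ) h)) = Tr (a + 1) n (F * up h) := by
    intro σ
    rw [← Brion2_Tr_rename (Equiv.Perm.decomposeFin.symm (0, σ)) (F * up h)]
    congr 1
    rw [map_mul, Brion2_rename_form _ (Equiv.Perm.decomposeFin_symm_apply_zero 0 σ) hF]
    congr 1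
    unfold up
    rw [rename_rename, rename_rename]
    refine congrArg (fun φ : Var a n → Var (a + 1) n => (rename φ h : P (a + 1) n)) ?_
    funext v
    simp [blockPerm, Equiv.Perm.decomposeFin_symm_apply_succ]
  simp only [this]
  rw [Finset.sum_const, Finset.card_univ, Nat.cast_smul_eq_nsmul]

theorem brion (a n b : ℕ) (hb : (a - 1) ^ 2 ≤ b) : blockSym a n b ≤ spanV a n b := by
  induction a generalizing b with
  | zero =>
    intro f _
    rw [eq_C_of_isEmpty f, ← mul_one (C _), ← smul_eq_C_mul]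
    exact Submodule.smul_mem _ _ (Submodule.subset_span ⟨fun _ => 0, by simp [vv]⟩)
  | succ a ih =>
    intro f hf
    rw [Nat.add_sub_cancel] at hb
    have hab : a ≤ b := le_trans (by nlinarith) hb
    have hT : Tr (a + 1) n f ∈ spanV (a + 1) n b := by
      have hf' : f ∈ mh (a + 1) n fun _ => b := Brion2_mem_mh.2 (mem_blockSym.1 hf).1
      refine Brion2_span_map _ ?_ (mh_succ _ hf')
      rintro _ ⟨F, hF, g, hg, rfl⟩
      refine Brion2_span_map ((Tr (a + 1) n).comp ((LinearMap.mulLeft ℂ F).comp up.toLinearMap)) ?_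
        (lemJ a (fun _ => b) (fun _ => by nlinarith) hg)
      rintro _ ⟨l, γ, hγ, rfl⟩
      show Tr (a + 1) n (F * up (vv a l ^ a * γ)) ∈ _
      have hba : (a - 1) ^ 2 ≤ b - a := by
        rcases a with _ | a
        · simp
        · rw [Nat.add_sub_cancel]
          have : a ^ 2 + (a + 1) ≤ b := by nlinarith
          omega
      have h1 := elim a (b - a) le_rfl l F (by rwa [Nat.add_sub_cancel' hab]) _
        (ih (b - a) hba (Tr_mem hγ))
      rw [Nat.add_sub_cancel' hab,
        ← Brion2_Tr_mul (fun σ => by rw [map_pow, Brion2_rename_vv]), Brion2_Tr_up_Tr hF] at h1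
      exact (Submodule.smul_mem_iff _ (Nat.cast_ne_zero.2 Fintype.card_ne_zero)).1 h1
    rw [Brion2_Tr_apply] at hT
    simp only [(mem_blockSym.1 hf).2] at hT
    rw [Finset.sum_const, Finset.card_univ, ← Nat.cast_smul_eq_nsmul ℂ] at hT
    exact (Submodule.smul_mem_iff _ (Nat.cast_ne_zero.2 Fintype.card_ne_zero)).1 hT

theorem spanV_le_adjoin (a n b : ℕ) {f : P a n} (hf : f ∈ spanV a n b) :
    f ∈ Algebra.adjoin ℂ (blockSym a n 1 : Set (P a n)) := by
  have : spanV a n b ≤ Subalgebra.toSubmodule (Algebra.adjoin ℂ (blockSym a n 1 : Set (P a n))) := by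
    refine Submodule.span_le.2 ?_
    rintro _ ⟨l, rfl⟩
    exact Subalgebra.prod_mem _ fun j _ => Algebra.subset_adjoin (vv_mem_blockSym _)
  exact this hf

end Crest.Agent.R187
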