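import Crest.Agent.R187.EngK

/-!
# Row 187, part 2: soundness of the `S` engine

Put `sv j x a b c d : ℤ = (dig w (raw j b c d) (x L + a) % 2^(e j + 1) : ℕ) - 2^(e j)`, so `|sv| ≤ 2^(e j)`.
* For `j ≥ 1` (`e j < v` by `he`), `DS g e XJ raw j` is a `TRep` for `sv j` on `XJ j` (`dig_land`, `dig_cst`,
  `Nat.and_two_pow_sub_one_eq_mod`, `dig_add`, `Rep.mask`); for `j = 0` it is `B0 g` (`B0_rep`, `tf_zero`).
* Strong induction on `j ≤ J`: for `c < b`, `d < c`, `x < XJ j b c d`, `a < L`: `tf 6 j x a b c d = sv j x a b c d`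
  (`j ≥ 1`).  By induction `DS … i` is a `TRep` for `tf 6 i` on `XJ j` for `i < j` (`hX.anti`), so by `RK_rep` and `Rep.add`
  the block `RHS` represents `∑_{i<j} c6 (tf 6 i) (j - i) 6 = j * tf 6 j` (`tf_newton`); `chkKey` (reached through
  `allR_sound`, `hX.bnd`) and `Rep.modEq_of_eq` give `j * sv ≡ j * tf mod 2^v`.  `c6_bound` with `β = 2^(e i)` (for an
  unsorted smaller key sort it with `tf_anti`: six orders, and `0` for equal entries; the sorted key is still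
  componentwise `≤ (b, c, d)`; `d0_bound` for `i = 0`; `C(11,5) = 462`) and `he` give `|j sv - j tf| < 2^v`.
* `sLB_ok`: `hwd_eq_tf`, `dig_dig` (`(y >>> (w a)) % 2^(e+1) = dig w y a % 2^(e+1)` as `e + 1 ≤ w`).
-/

set_option autoImplicit false

namespace Crest.Agent.R187

theorem EngS_XRc (J E3 E2 E1 j b c d : ℕ) : XRc J E3 E2 E1 j b c d =
    if j ≤ J ∧ d ≤ E1 ∧ c + d ≤ E2 ∧ b + c + d ≤ E3 ∧ 4 * b + c + d ≤ 6 * J + 9 then
      (6 * J + 14 - (2 * b + c + d)) / 2 + 1 else 0 := by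
  unfold XRc
  simp only [bcase_ble, Nat.add_eq, Nat.mul_eq, Nat.sub_eq, Nat.succ_eq_add_one, ite_and]
  rfl

theorem XOK_c {J E3 E2 E1 J' B XM : ℕ} (h1 : J ≤ J') (h2 : 6 * J + 9 < 4 * B) (h3 : 3 * J + 8 ≤ XM) :
    XOK (XRc J E3 E2 E1) J' B XM := by
  refine ⟨fun j b c d j' b' c' d' a1 a2 a3 a4 => ?_, fun j b c d h => ?_, fun j b c d => ?_⟩
  · rw [EngS_XRc, EngS_XRc]
    split_ifs <;> omega
  · rw [EngS_XRc] at h
    split_ifs at h <;> omega
  · rw [EngS_XRc]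
    split_ifs <;> omega

theorem XOK_m {X1 X2 : ℕ → F3} {J B XM : ℕ} (h1 : XOK X1 J B XM) (h2 : XOK X2 J B XM) :
    XOK (XRm X1 X2) J B XM := by
  refine ⟨fun j b c d j' b' c' d' a1 a2 a3 a4 => ?_, fun j b c d h => ?_, fun j b c d => ?_⟩
  · unfold XRm
    rw [mx_eq, mx_eq]
    exact max_le_max (h1.anti _ _ _ _ _ _ _ _ a1 a2 a3 a4) (h2.anti _ _ _ _ _ _ _ _ a1 a2 a3 a4)
  · unfold XRm at h
    rw [mx_eq] at h
    by_cases h3 : X1 j b c d = 0
    · exact h2.bnd j b c d (by omega)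
    · exact h1.bnd j b c d h3
  · unfold XRm
    rw [mx_eq]
    exact max_le (h1.le _ _ _ _) (h2.le _ _ _ _)

theorem XOK.xanti {XJ : ℕ → F3} {J B XM : ℕ} (h : XOK XJ J B XM) (j : ℕ) : XAnti (XJ j) :=
  fun b c d b' c' d' h1 h2 h3 => h.anti j b c d j b' c' d' le_rfl h1 h2 h3

/-- the value encoded by the raw table -/
noncomputable def EngS_sv (g : Cfg) (e : ℕ → ℕ) (raw : ℕ → F3) (j : ℕ) : F5 := fun x a b c d =>
  ((dig g.w (raw j b c d) (x * g.L + a) % 2 ^ (e j + 1) : ℕ) : ℤ) - 2 ^ e j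

theorem EngS_sv_abs (g : Cfg) (e : ℕ → ℕ) (raw : ℕ → F3) (j x a b c d : ℕ) :
    |EngS_sv g e raw j x a b c d| ≤ 2 ^ e j := by
  unfold EngS_sv
  have h1 := Nat.mod_lt (dig g.w (raw j b c d) (x * g.L + a)) (Nat.two_pow_pos (e j + 1))
  generalize dig g.w (raw j b c d) (x * g.L + a) % 2 ^ (e j + 1) = y at h1
  have h2 : (y : ℤ) < 2 ^ (e j + 1) := by exact_mod_cast h1
  have h3 : (0 : ℤ) ≤ y := Int.natCast_nonneg y
  rw [pow_succ] at h2
  rw [abs_le]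
  constructor <;> linarith

theorem EngS_pow {g : Cfg} (hw : g.v + 5 ≤ g.w) {n : ℕ} (hn : n < 32) : n * 2 ^ g.v < 2 ^ g.w := by
  calc n * 2 ^ g.v < 32 * 2 ^ g.v := Nat.mul_lt_mul_of_pos_right hn (Nat.two_pow_pos _)
    _ = 2 ^ (g.v + 5) := by ring
    _ ≤ _ := Nat.pow_le_pow_right two_pos hw

theorem EngS_idx {L X x a : ℕ} (hx : x < X) (ha : a < L) : x * L + a < L * X := by
  calc x * L + a < (x + 1) * L := by rw [add_mul, one_mul]; omega
    _ ≤ X * L := Nat.mul_le_mul_right _ hx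
    _ = _ := mul_comm _ _

theorem EngS_DS {g : Cfg} {e : ℕ → ℕ} {XJ raw : ℕ → F3} (hw : g.v + 5 ≤ g.w) {j : ℕ} (hj : 1 ≤ j)
    (he : e j < g.v) : TRep g (XJ j) (DS g e XJ raw j) (EngS_sv g e raw j) := by
  intro b c d _ _
  obtain ⟨j, rfl⟩ : ∃ i, j = i + 1 := ⟨j - 1, by omega⟩
  have e1 : Nat.pred (Nat.shiftLeft 2 (e (j + 1))) = 2 ^ (e (j + 1) + 1) - 1 := by
    show (2 <<< e (j + 1)) - 1 = _
    rw [Nat.shiftLeft_eq, pow_succ']
  have e2 : Nat.sub (Nat.shiftLeft 1 g.v) (Nat.shiftLeft 1 (e (j + 1))) = 2 ^ g.v - 2 ^ e (j + 1) := by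
    show (1 <<< g.v) - (1 <<< e (j + 1)) = _
    rw [Nat.one_shiftLeft, Nat.one_shiftLeft]
  have p1 : 2 ^ (e (j + 1) + 1) ≤ 2 ^ g.v := Nat.pow_le_pow_right two_pos he
  have p2 : 2 ^ e (j + 1) ≤ 2 ^ g.v := Nat.pow_le_pow_right two_pos he.le
  have p3 : 2 ^ g.v < 2 ^ g.w := Nat.pow_lt_pow_right one_lt_two (by omega)
  have p4 := Nat.two_pow_pos (e (j + 1) + 1)
  have h1 : Rep g 1 (Nat.land (raw (j + 1) b c d)
      (cst g (Nat.pred (Nat.shiftLeft 2 (e (j + 1)))) (XJ (j + 1) b c d))) (XJ (j + 1) b c d)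
      fun x a => ((dig g.w (raw (j + 1) b c d) (x * g.L + a) % 2 ^ (e (j + 1) + 1) : ℕ) : ℤ) := by
    intro x hx a ha
    rw [dig_land, e1, dig_cst (by omega) (by omega), if_pos (EngS_idx hx ha),
      Nat.and_two_pow_sub_one_eq_mod]
    refine ⟨?_, Int.ModEq.refl _⟩
    have := Nat.mod_lt (dig g.w (raw (j + 1) b c d) (x * g.L + a)) p4
    omega
  have h2 : Rep g 1 (cst g (Nat.sub (Nat.shiftLeft 1 g.v) (Nat.shiftLeft 1 (e (j + 1))))
      (XJ (j + 1) b c d)) (XJ (j + 1) b c d) fun _ _ => -2 ^ e (j + 1) := by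
    intro x hx a ha
    rw [e2, dig_cst (by omega) (by omega), if_pos (EngS_idx hx ha)]
    refine ⟨by omega, ?_⟩
    rw [Nat.cast_sub p2]
    push_cast
    exact (Int.modEq_iff_dvd.2 ⟨-1, by ring⟩)
  exact ((h1.add (EngS_pow hw (by norm_num)) h2).mask (by omega)).mono le_rfl le_rfl
    fun x _ a _ => by simp only [EngS_sv, sub_eq_add_neg]

theorem EngS_sort {f : F5} (hf : AntiS f) {x a b c d : ℕ} {β : ℤ} (hβ : 0 ≤ β) (h1 : c ≤ b)
    (h2 : d ≤ c) (h : ∀ b' ≤ b, ∀ c' ≤ c, ∀ d' ≤ d, c' < b' → d' < c' → |f x a b' c' d'| ≤ β) :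
    ∀ b' ≤ b, ∀ c' ≤ c, ∀ d' ≤ d, |f x a b' c' d'| ≤ β := by
  have s1 : ∀ p q r, |f x a p q r| = |f x a q p r| := fun p q r => by rw [hf.1 x a q p r, abs_neg]
  have s2 : ∀ p q r, |f x a p q r| = |f x a p r q| := fun p q r => by rw [hf.2 x a p r q, abs_neg]
  have z1 : ∀ p r, |f x a p p r| ≤ β := fun p r => by
    have := hf.1 x a p p r
    rw [show f x a p p r = 0 by omega, abs_zero]
    exact hβ
  intro p hp q hq r hr
  rcases lt_trichotomy q p with a1 | rfl | a1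
  · rcases lt_trichotomy r q with a2 | rfl | a2
    · exact h p hp q hq r hr a1 a2
    · rw [s1, s2]
      exact z1 _ _
    · rcases lt_trichotomy r p with a3 | rfl | a3
      · rw [s2]
        exact h p hp r (by omega) q (by omega) a3 a2
      · rw [s2]
        exact z1 _ _
      · rw [s2, s1]
        exact h r (by omega) p (by omega) q (by omega) a3 a1
  · exact z1 _ _
  · rcases lt_trichotomy r p with a2 | rfl | a2
    · rw [s1]
      exact h q (by omega) p (by omega) r hr a1 a2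
    · rw [s2]
      exact z1 _ _
    · rcases lt_trichotomy r q with a3 | rfl | a3
      · rw [s1, s2]
        exact h q (by omega) r (by omega) p (by omega) a3 a2
      · rw [s1, s2]
        exact z1 _ _
      · rw [s1, s2, s1]
        exact h r (by omega) q (by omega) p (by omega) a3 a1

theorem EngS_RHS {g : Cfg} {XR : F3} {D : ℕ → F3} {f : ℕ → F5} {j : ℕ} (hm : g.m = 6)
    (hw : g.v + 5 ≤ g.w) (hj : j ≤ 24) (hX : XAnti XR) (hM : ∀ b c d, XR b c d ≤ g.XM)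
    (hf : ∀ i, AntiS (f i)) (hD : ∀ i < j, TRep g XR (D i) (f i)) {b c d : ℕ} (h1 : c < b)
    (h2 : d < c) (n : ℕ) (hn : n ≤ j) :
    Rep g n (ncase% n, 0, Sums g XR D j b c d) (XR b c d)
      fun x a => ∑ i ∈ Finset.range n, c6 (f i) (j - i) 6 x a b c d := by
  induction n with
  | zero => exact (Rep.zero g 0 _).mono le_rfl le_rfl fun _ _ _ _ => by simp
  | succ n ih =>
    have h3 := RK_rep (k := j - n) (by rw [hm]; exact EngS_pow hw (n := 21) (by norm_num)) hX hM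
      (by omega) (hf n) (hD n (by omega)) b c d h1 h2
    rw [hm] at h3
    exact ((ih (by omega)).add (EngS_pow hw (by omega)) h3).mono le_rfl le_rfl
      fun _ _ _ _ => by rw [Finset.sum_range_succ]

theorem EngS_main {g : Cfg} {e : ℕ → ℕ} {XJ raw : ℕ → F3} {J B : ℕ} (hm : g.m = 6)
    (hw : g.v + 5 ≤ g.w) (hJ : J ≤ 24) (hL : 6 ≤ g.L) (hX : XOK XJ J B g.XM)
    (he : ∀ j ≤ J, 462 * ∑ i ∈ Finset.range j, 2 ^ e i + j * 2 ^ e j < 2 ^ g.v)
    (hc : ∀ j, 1 ≤ j → j ≤ J → ∀ d < B, chkD g e XJ raw j B d = true) (j : ℕ) :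
    1 ≤ j → j ≤ J → ∀ b c d, c < b → d < c → ∀ x < XJ j b c d, ∀ a < g.L,
      tf 6 j x a b c d = EngS_sv g e raw j x a b c d := by
  have hev : ∀ j, 1 ≤ j → j ≤ J → e j < g.v := fun j h1 h2 => by
    have h3 := he j h2
    have h4 : 1 * 2 ^ e j ≤ j * 2 ^ e j := Nat.mul_le_mul_right _ h1
    exact (Nat.pow_lt_pow_iff_right one_lt_two).1 (by omega)
  induction j using Nat.strong_induction_on with
  | _ j ih =>
  intro hj1 hjJ b c d hcb hdc x hx a ha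
  have hD : ∀ i < j, TRep g (XJ j) (DS g e XJ raw i) (tf 6 i) := fun i hi => by
    rcases Nat.eq_zero_or_pos i with rfl | hi0
    · rw [tf_zero]
      exact B0_rep (XJ j) (by omega) hL
    · intro b c d h1 h2
      have h3 := hX.anti j b c d i b c d hi.le le_rfl le_rfl le_rfl
      exact (EngS_DS hw hi0 (hev i hi0 (by omega)) b c d h1 h2).mono le_rfl h3
        fun x hx a ha => (ih i hi hi0 (by omega) b c d h1 h2 x (by omega) a ha).symm
  have hR := EngS_RHS hm hw (hjJ.trans hJ) (hX.xanti j) (hX.le j) (tf_anti 6) hD hcb hdc j le_rfl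
  have hS := (EngS_DS (XJ := XJ) (raw := raw) hw hj1 (hev j hj1 hjJ) b c d hcb hdc).smul j
    (EngS_pow hw (by omega))
  have hX0 : XJ j b c d ≠ 0 := by omega
  have hbB := (hX.bnd j b c d hX0).2
  have k1 : chkC g (XJ j) (DS g e XJ raw) j B d c = true :=
    allR_sound (hc j hj1 hjJ d (by omega)) (by omega) (by simp only [Nat.sub_eq]; omega)
  have k2 : chkB g (XJ j) (DS g e XJ raw) j d c b = true :=
    allR_sound k1 (by omega) (by simp only [Nat.sub_eq]; omega)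
  have k3 : chkKey g (XJ j) (DS g e XJ raw) j b c d = true := by
    unfold chkB at k2
    rwa [ncase_eq _ _ fun _ => chkKey g (XJ j) (DS g e XJ raw) j b c d, if_neg hX0] at k2
  have k4 := Rep.modEq_of_eq (by omega) hS hR (Nat.eq_of_beq_eq_true k3) x hx a ha
  have k5 : |∑ i ∈ Finset.range j, c6 (tf 6 i) (j - i) 6 x a b c d| ≤
      462 * ∑ i ∈ Finset.range j, (2 : ℤ) ^ e i := by
    rw [Finset.mul_sum]
    refine (Finset.abs_sum_le_sum_abs _ _).trans (Finset.sum_le_sum fun i hi => ?_)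
    have hi' := Finset.mem_range.1 hi
    refine (c6_bound (β := 2 ^ e i) _ 6 fun x' hx' a' ha' => ?_).trans (le_of_eq (by norm_num [Nat.choose]))
    rcases Nat.eq_zero_or_pos i with rfl | hi0
    · intro b' _ c' _ d' _
      rw [tf_zero]
      exact (d0_bound _ _ _ _ _).trans (one_le_pow₀ one_le_two)
    · refine EngS_sort (tf_anti 6 i) (by positivity) hcb.le hdc.le fun b' hb' c' hc' d' hd' h1 h2 => ?_
      have h3 := hX.anti j b c d i b' c' d' hi'.le hb' hc' hd'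
      rw [ih i hi' hi0 (by omega) b' c' d' h1 h2 x' (by omega) a' (by omega)]
      exact EngS_sv_abs _ _ _ _ _ _ _ _ _
  rw [← tf_newton] at k4 k5
  have k6 : (462 : ℤ) * ∑ i ∈ Finset.range j, 2 ^ e i + j * 2 ^ e j < 2 ^ g.v := by
    exact_mod_cast he j hjJ
  have k7 : |(j : ℤ) * EngS_sv g e raw j x a b c d| ≤ j * 2 ^ e j := by
    rw [abs_mul, Nat.abs_cast]
    exact mul_le_mul_of_nonneg_left (EngS_sv_abs _ _ _ _ _ _ _ _ _) (Int.natCast_nonneg j)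
  have k8 := Int.eq_zero_of_abs_lt_dvd k4.dvd ((abs_sub _ _).trans_lt (by linarith))
  exact mul_left_cancel₀ (Nat.cast_ne_zero.2 (by omega : j ≠ 0)) (sub_eq_zero.1 k8)

theorem sLB_ok {g : Cfg} {e : ℕ → ℕ} {XJ raw : ℕ → F3} {J B : ℕ} (hm : g.m = 6) (hw : g.v + 5 ≤ g.w)
    (hJ : J ≤ 24) (hL : 6 ≤ g.L) (hX : XOK XJ J B g.XM)
    (he : ∀ j ≤ J, 462 * ∑ i ∈ Finset.range j, 2 ^ e i + j * 2 ^ e j < 2 ^ g.v)
    (hc : ∀ j, 1 ≤ j → j ≤ J → ∀ d < B, chkD g e XJ raw j B d = true) : TabOK (sLB g e XJ raw) := by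
  intro j l hl hs
  unfold sLB
  rw [bcase_ble, bcase_ble]
  split_ifs with h1 h2
  · exact Nat.zero_le _
  · exact Nat.zero_le _
  rcases Nat.eq_zero_or_pos j with rfl | hj
  · exact Nat.zero_le _
  have hjJ := (hX.bnd j _ _ _ (by omega : XJ j (l 3 + 2) (l 4 + 1) (l 5) ≠ 0)).1
  have a1 : l 4 ≤ l 3 := hl (by decide)
  have a2 : l 5 ≤ l 4 := hl (by decide)
  have h3 := EngS_main hm hw hJ hL hX he hc j hj hjJ (l 3 + 2) (l 4 + 1) (l 5) (by omega) (by omega)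
    (l 1 + 4) (by omega) (l 2 + 3) (by omega)
  rw [← hwd_eq_tf hl (by rw [hs, mul_comm])] at h3
  have hev : e j + 1 ≤ g.w := by
    have h4 := he j hjJ
    have h5 : 1 * 2 ^ e j ≤ j * 2 ^ e j := Nat.mul_le_mul_right _ hj
    have : e j < g.v := (Nat.pow_lt_pow_iff_right one_lt_two).1 (by omega)
    omega
  obtain ⟨i, rfl⟩ : ∃ i, j = i + 1 := ⟨j - 1, by omega⟩
  show (dig (g.w * g.L) (raw (i + 1) (l 3 + 2) (l 4 + 1) (l 5)) (l 1 + 4) >>> (g.w * (l 2 + 3))) %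
    (2 <<< e (i + 1)) - (1 <<< e (i + 1)) ≤ _
  unfold EngS_sv at h3
  rw [← dig_dig _ _ _ _ (not_le.1 h2), dig_eq g.w, Nat.mod_mod_of_dvd _ (pow_dvd_pow 2 hev)] at h3
  rw [Nat.shiftRight_eq_div_pow, Nat.one_shiftLeft, Nat.shiftLeft_eq, ← pow_succ']
  have h6 : ((2 ^ e (i + 1) : ℕ) : ℤ) = 2 ^ e (i + 1) := by push_cast; rfl
  omega

end Crest.Agent.R187
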