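import Crest.Agent.R187.Rec

/-!
# Row 187, part 2: digits and blocks

Base `2^u` digits `dig u y p = y / 2^(u p) % 2^u` (`dig_eq`).  `Nat.testBit` extensionality (`Nat.eq_of_testBit_eq`,
`Nat.testBit_mod_two_pow`, `Nat.testBit_shiftRight`, `Nat.testBit_shiftLeft`, `Nat.testBit_and`) handles `dig_land`,
`dig_dig`, `dig_shiftLeft`.  `dig_sum` and `dig_add` by induction on the number of digits
(`dig u y (p+1) = dig u (y / 2^u) p`).  `ones u n = ∑_{p<n} 2^(u p)` (`Nat.geomSum_eq`), so `cst g y X = ∑ y 2^(w p)`.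
For `Rep.neg`: `y' = y &&& MK g X` equals `∑_{p < L X} (dig y p % 2^v) 2^(w p)` (a number is determined by its digits:
`eq_of_dig_eq`), hence `BG g X - y' = ∑ (2^v - dig y p % 2^v) 2^(w p)`.
For `MA`: `MA g k = ∑_{x < XM} ∑_{a < L - k} (2^v - 1) 2^(w (x L + a))`; use `dig_dig` (rows are digits in base `2^(w L)`).
In `Rep.shiftA`, for `a < k` and `x > 0` the digit at `x L + a - k` lies in row `x - 1`, column `L + a - k ≥ L - k`
when `k ≤ L`; if `L < k` the mask is zero.
-/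

set_option autoImplicit false

namespace Crest.Agent.R187

theorem Dig_testBit (u y p i : ℕ) : (dig u y p).testBit i = (decide (i < u) && y.testBit (u * p + i)) := by
  rw [dig_eq, Nat.testBit_mod_two_pow, ← Nat.shiftRight_eq_div_pow, Nat.testBit_shiftRight]

theorem Dig_zero (u y : ℕ) : dig u y 0 = y % 2 ^ u := by
  rw [dig_eq]; simp

theorem Dig_succ (u y p : ℕ) : dig u y (p + 1) = dig u (y / 2 ^ u) p := by
  rw [dig_eq, dig_eq, Nat.div_div_eq_div_mul, ← pow_add]
  congr 3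
  ring

theorem Dig_of_zero (u p : ℕ) : dig u 0 p = 0 := by
  rw [dig_eq]; simp

theorem dig_lt (u y p : ℕ) : dig u y p < 2 ^ u := by
  rw [dig_eq]; exact Nat.mod_lt _ (by positivity)

theorem dig_land (u y y' p : ℕ) : dig u (Nat.land y y') p = dig u y p &&& dig u y' p := by
  apply Nat.eq_of_testBit_eq
  intro i
  have e : Nat.land y y' = y &&& y' := rfl
  rw [Nat.testBit_and, Dig_testBit, Dig_testBit, Dig_testBit, e, Nat.testBit_and]
  cases decide (i < u) <;> simp

theorem dig_shiftLeft (u y s p : ℕ) :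
    dig u (Nat.shiftLeft y (u * s)) p = if s ≤ p then dig u y (p - s) else 0 := by
  have e : Nat.shiftLeft y (u * s) = y <<< (u * s) := rfl
  apply Nat.eq_of_testBit_eq
  intro i
  rw [Dig_testBit, e, Nat.testBit_shiftLeft]
  split_ifs with h
  · rw [Dig_testBit]
    obtain ⟨r, rfl⟩ := Nat.exists_eq_add_of_le h
    have e1 : u * (s + r) + i - u * s = u * (s + r - s) + i := by
      rw [Nat.add_sub_cancel_left, Nat.mul_add]; omega
    have e2 : u * s ≤ u * (s + r) + i := by rw [Nat.mul_add]; omega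
    rw [e1]
    simp [e2]
  · by_cases hi : i < u
    · have h1 : p + 1 ≤ s := by omega
      have h2 : u * (p + 1) ≤ u * s := Nat.mul_le_mul_left u h1
      have h3 : ¬ (u * s ≤ u * p + i) := by rw [Nat.mul_add] at h2; omega
      simp [h3]
    · simp [hi]

theorem dig_dig (u L y x : ℕ) {a : ℕ} (ha : a < L) : dig u (dig (u * L) y x) a = dig u y (x * L + a) := by
  apply Nat.eq_of_testBit_eq
  intro i
  rw [Dig_testBit, Dig_testBit, Dig_testBit]
  by_cases hi : i < u
  · have h2 : u * (a + 1) ≤ u * L := Nat.mul_le_mul_left u ha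
    have h3 : u * a + i < u * L := by rw [Nat.mul_add] at h2; omega
    have e : u * L * x + (u * a + i) = u * (x * L + a) + i := by ring
    simp [hi, h3, e]
  · simp [hi]

theorem dig_sum (u n : ℕ) (f : ℕ → ℕ) (hf : ∀ p < n, f p < 2 ^ u) (q : ℕ) :
    dig u (∑ p ∈ Finset.range n, f p * 2 ^ (u * p)) q = if q < n then f q else 0 := by
  induction n generalizing f q with
  | zero => simp [Dig_of_zero]
  | succ n ih =>
    have e : ∑ p ∈ Finset.range (n + 1), f p * 2 ^ (u * p) =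
        f 0 + 2 ^ u * ∑ p ∈ Finset.range n, f (p + 1) * 2 ^ (u * p) := by
      rw [Finset.sum_range_succ', Finset.mul_sum, add_comm]
      congr 1
      · simp
      · refine Finset.sum_congr rfl fun p _ => ?_
        rw [Nat.mul_add, pow_add, mul_one]; ring
    have h0 : f 0 < 2 ^ u := hf 0 (by omega)
    rw [e]
    cases q with
    | zero => rw [Dig_zero, Nat.add_mul_mod_self_left, Nat.mod_eq_of_lt h0, if_pos (by omega)]
    | succ q =>
      rw [Dig_succ, Nat.add_mul_div_left _ _ (by positivity), Nat.div_eq_of_lt h0, zero_add,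
        ih (fun p => f (p + 1)) (fun p hp => hf (p + 1) (by omega))]
      by_cases hq : q < n
      · rw [if_pos hq, if_pos (by omega)]
      · rw [if_neg hq, if_neg (by omega)]

theorem dig_add {u n y y' : ℕ} (h : ∀ p < n, dig u y p + dig u y' p < 2 ^ u) {q : ℕ} (hq : q < n) :
    dig u (y + y') q = dig u y q + dig u y' q := by
  induction q generalizing n y y' with
  | zero =>
    have h0 := h 0 hq
    rw [Dig_zero, Dig_zero] at h0
    rw [Dig_zero, Dig_zero, Dig_zero, Nat.add_mod_of_add_mod_lt h0]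
  | succ q ih =>
    have h0 := h 0 (by omega)
    rw [Dig_zero, Dig_zero] at h0
    rw [Dig_succ, Dig_succ, Dig_succ, Nat.add_div_eq_of_add_mod_lt h0]
    refine ih (n := n - 1) (fun p hp => ?_) (by omega)
    rw [← Dig_succ, ← Dig_succ]
    exact h (p + 1) (by omega)

theorem eq_of_dig_eq {u y y' : ℕ} (hu : 1 ≤ u) (h : ∀ p, dig u y p = dig u y' p) : y = y' := by
  apply Nat.eq_of_testBit_eq
  intro i
  have h1 := congrArg (fun z => Nat.testBit z (i % u)) (h (i / u))
  simp only [Dig_testBit, Nat.div_add_mod] at h1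
  have h2 : i % u < u := Nat.mod_lt _ hu
  simpa [h2] using h1

theorem ones_eq {u : ℕ} (hu : 1 ≤ u) (n : ℕ) : ones u n = ∑ p ∈ Finset.range n, 2 ^ (u * p) := by
  have h2 : 2 ≤ 2 ^ u := by
    calc 2 = 2 ^ 1 := rfl
      _ ≤ 2 ^ u := Nat.pow_le_pow_right (by norm_num) hu
  have e : ones u n = (1 <<< (u * n) - 1) / (1 <<< u - 1) := rfl
  rw [e, Nat.one_shiftLeft, Nat.one_shiftLeft, pow_mul, ← Nat.geomSum_eq h2]
  exact Finset.sum_congr rfl fun p _ => (pow_mul 2 u p).symm

theorem cst_eq {g : Cfg} (hw : 1 ≤ g.w) (y X : ℕ) :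
    cst g y X = ∑ p ∈ Finset.range (g.L * X), y * 2 ^ (g.w * p) := by
  have e : cst g y X = ones g.w (g.L * X) * y := rfl
  rw [e, ones_eq hw, Finset.sum_mul]
  exact Finset.sum_congr rfl fun p _ => mul_comm _ _

theorem dig_cst {g : Cfg} (hw : 1 ≤ g.w) {y : ℕ} (hy : y < 2 ^ g.w) (X p : ℕ) :
    dig g.w (cst g y X) p = if p < g.L * X then y else 0 := by
  rw [cst_eq hw, dig_sum g.w (g.L * X) (fun _ => y) (fun _ _ => hy)]

theorem Dig_pos_lt {L X x a : ℕ} (hx : x < X) (ha : a < L) : x * L + a < L * X := by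
  have h2 : L * (x + 1) ≤ L * X := Nat.mul_le_mul_left L hx
  rw [Nat.mul_add, mul_comm L x] at h2
  omega

theorem Dig_two_pow_lt {v w : ℕ} (h : v < w) : 2 ^ v < 2 ^ w := Nat.pow_lt_pow_right (by norm_num) h

theorem Dig_MK_eq (g : Cfg) (X : ℕ) : MK g X = cst g (2 ^ g.v - 1) X := by
  have e : MK g X = cst g (1 <<< g.v - 1) X := rfl
  rw [e, Nat.one_shiftLeft]

theorem Dig_BG_eq (g : Cfg) (X : ℕ) : BG g X = cst g (2 ^ g.v) X := by
  have e : BG g X = cst g (1 <<< g.v) X := rfl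
  rw [e, Nat.one_shiftLeft]

theorem Dig_land_MK {g : Cfg} (hw : g.v < g.w) (y X p : ℕ) :
    dig g.w (Nat.land y (MK g X)) p = if p < g.L * X then dig g.w y p % 2 ^ g.v else 0 := by
  have h1 : 2 ^ g.v - 1 < 2 ^ g.w := lt_of_le_of_lt (Nat.sub_le _ _) (Dig_two_pow_lt hw)
  rw [dig_land, Dig_MK_eq, dig_cst (by omega) h1]
  split_ifs
  · exact Nat.and_two_pow_sub_one_eq_mod _ _
  · exact Nat.and_zero _

theorem Dig_sum_lt (u n : ℕ) (f : ℕ → ℕ) (hf : ∀ p < n, f p < 2 ^ u) :
    ∑ p ∈ Finset.range n, f p * 2 ^ (u * p) < 2 ^ (u * n) := by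
  induction n with
  | zero => simp
  | succ n ih =>
    have h1 := ih (fun p hp => hf p (by omega))
    have h2 : (f n + 1) * 2 ^ (u * n) ≤ 2 ^ u * 2 ^ (u * n) := Nat.mul_le_mul_right _ (hf n (by omega))
    rw [Finset.sum_range_succ, Nat.mul_add, mul_one, pow_add, mul_comm (2 ^ (u * n))]
    rw [add_mul, one_mul] at h2
    omega

theorem Dig_MA {g : Cfg} (hw : g.v < g.w) (k x : ℕ) {a : ℕ} (ha : a < g.L) :
    dig g.w (MA g k) (x * g.L + a) = if x < g.XM ∧ a < g.L - k then 2 ^ g.v - 1 else 0 := by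
  have h1 : 2 ^ g.v - 1 < 2 ^ g.w := lt_of_le_of_lt (Nat.sub_le _ _) (Dig_two_pow_lt hw)
  have e : MA g k = ones g.w (g.L - k) * (1 <<< g.v - 1) * ones (g.w * g.L) g.XM := rfl
  have hrow : ones g.w (g.L - k) * (2 ^ g.v - 1) =
      ∑ p ∈ Finset.range (g.L - k), (2 ^ g.v - 1) * 2 ^ (g.w * p) := by
    rw [ones_eq (by omega), Finset.sum_mul]
    exact Finset.sum_congr rfl fun p _ => mul_comm _ _
  have hlt : ∑ p ∈ Finset.range (g.L - k), (2 ^ g.v - 1) * 2 ^ (g.w * p) < 2 ^ (g.w * g.L) :=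
    (Dig_sum_lt g.w (g.L - k) (fun _ => 2 ^ g.v - 1) (fun _ _ => h1)).trans_le
      (Nat.pow_le_pow_right (by norm_num) (Nat.mul_le_mul_left _ (Nat.sub_le _ _)))
  have hwL : 1 ≤ g.w * g.L := Nat.mul_pos (by omega) (by omega)
  rw [← dig_dig g.w g.L _ x ha, e, Nat.one_shiftLeft, hrow, ones_eq hwL, Finset.mul_sum,
    dig_sum (g.w * g.L) g.XM (fun _ => ∑ p ∈ Finset.range (g.L - k), (2 ^ g.v - 1) * 2 ^ (g.w * p))
      (fun _ _ => hlt)]
  by_cases hx : x < g.XM
  · rw [if_pos hx, dig_sum g.w (g.L - k) (fun _ => 2 ^ g.v - 1) (fun _ _ => h1)]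
    simp [hx]
  · rw [if_neg hx, Dig_of_zero, if_neg (fun h => hx h.1)]

theorem Dig_land_MA {g : Cfg} (hw : g.v < g.w) (y k x : ℕ) {a : ℕ} (ha : a < g.L) :
    dig g.w (Nat.land y (MA g k)) (x * g.L + a) =
      if x < g.XM ∧ a < g.L - k then dig g.w y (x * g.L + a) % 2 ^ g.v else 0 := by
  rw [dig_land, Dig_MA hw k x ha]
  split_ifs
  · exact Nat.and_two_pow_sub_one_eq_mod _ _
  · exact Nat.and_zero _

theorem Dig_mod_modEq (d v : ℕ) : ((d % 2 ^ v : ℕ) : ℤ) ≡ (d : ℤ) [ZMOD 2 ^ v] := by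
  push_cast
  exact Int.mod_modEq _ _

theorem Dig_mod_le (d v : ℕ) : d % 2 ^ v ≤ 1 * 2 ^ v := by
  rw [one_mul]; exact (Nat.mod_lt _ (by positivity)).le

namespace Rep

variable {g : Cfg} {n n' y y' X X' : ℕ} {f f' : ℕ → ℕ → ℤ}

theorem mono (h : Rep g n y X f) (hn : n ≤ n') (hX : X' ≤ X) (hf : ∀ x < X', ∀ a < g.L, f x a = f' x a) :
    Rep g n' y X' f' := by
  exact fun x hx a ha => ⟨(h x (by omega) a ha).1.trans (Nat.mul_le_mul_right _ hn),
    hf x hx a ha ▸ (h x (by omega) a ha).2⟩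

theorem zero (g : Cfg) (n X : ℕ) : Rep g n 0 X fun _ _ => 0 := by
  intro x _ a _
  rw [Dig_of_zero]
  exact ⟨Nat.zero_le _, rfl⟩

theorem add (hw : (n + n') * 2 ^ g.v < 2 ^ g.w) (h : Rep g n y X f) (h' : Rep g n' y' X f') :
    Rep g (n + n') (Nat.add y y') X fun x a => f x a + f' x a := by
  intro x hx a ha
  have e : Nat.add y y' = y + y' := rfl
  have hd : dig g.w (y + y') (x * g.L + a) = dig g.w y (x * g.L + a) + dig g.w y' (x * g.L + a) := by
    refine dig_add (n := g.L * X) (fun p hp => ?_) (Dig_pos_lt hx ha)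
    have hL : 0 < g.L := by omega
    have h1 : p / g.L < X := Nat.div_lt_of_lt_mul hp
    have h2 : p % g.L < g.L := Nat.mod_lt _ hL
    have h3 := (h _ h1 _ h2).1
    have h4 := (h' _ h1 _ h2).1
    rw [Nat.div_add_mod'] at h3 h4
    rw [add_mul] at hw
    omega
  rw [e, hd]
  refine ⟨?_, ?_⟩
  · rw [add_mul]; exact add_le_add (h x hx a ha).1 (h' x hx a ha).1
  · push_cast
    exact (h x hx a ha).2.add (h' x hx a ha).2

theorem smul (r : ℕ) (hw : r * n * 2 ^ g.v < 2 ^ g.w) (h : Rep g n y X f) :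
    Rep g (r * n) (Nat.mul r y) X fun x a => r * f x a := by
  induction r with
  | zero =>
    have e : Nat.mul 0 y = 0 := Nat.zero_mul y
    rw [e]
    exact (zero g _ X).mono le_rfl le_rfl (fun _ _ _ _ => by simp)
  | succ r ih =>
    have e : Nat.mul (r + 1) y = Nat.add (Nat.mul r y) y := Nat.succ_mul r y
    have e2 : (r + 1) * n = r * n + n := by ring
    have h1 : r * n * 2 ^ g.v < 2 ^ g.w :=
      lt_of_le_of_lt (Nat.mul_le_mul_right _ (by rw [e2]; omega)) hw
    rw [e, e2]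
    exact ((ih h1).add (by rw [← e2]; exact hw) h).mono le_rfl le_rfl (fun _ _ _ _ => by push_cast; ring)

theorem mask (hw : g.v < g.w) (h : Rep g n y X f) : Rep g 1 (Nat.land y (MK g X)) X f := by
  intro x hx a ha
  rw [Dig_land_MK hw, if_pos (Dig_pos_lt hx ha)]
  exact ⟨Dig_mod_le _ _, (Dig_mod_modEq _ _).trans (h x hx a ha).2⟩

theorem neg (hw : g.v < g.w) (h : Rep g n y X f) :
    Rep g 1 (Nat.sub (BG g X) (Nat.land y (MK g X))) X fun x a => - f x a := by
  intro x hx a ha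
  have hv := Dig_two_pow_lt hw
  have hm : ∀ p, dig g.w y p % 2 ^ g.v < 2 ^ g.v := fun p => Nat.mod_lt _ (by positivity)
  have e1 : Nat.land y (MK g X) =
      ∑ p ∈ Finset.range (g.L * X), (dig g.w y p % 2 ^ g.v) * 2 ^ (g.w * p) := by
    refine eq_of_dig_eq (u := g.w) (by omega) fun p => ?_
    rw [Dig_land_MK hw, dig_sum g.w (g.L * X) (fun p => dig g.w y p % 2 ^ g.v)
      (fun p _ => (hm p).trans hv)]
  have e2 : Nat.sub (BG g X) (Nat.land y (MK g X)) =
      ∑ p ∈ Finset.range (g.L * X), (2 ^ g.v - dig g.w y p % 2 ^ g.v) * 2 ^ (g.w * p) := by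
    show BG g X - Nat.land y (MK g X) = _
    rw [e1, Dig_BG_eq, cst_eq (by omega)]
    apply Nat.sub_eq_of_eq_add
    rw [← Finset.sum_add_distrib]
    refine Finset.sum_congr rfl fun p _ => ?_
    rw [← add_mul, Nat.sub_add_cancel (hm p).le]
  rw [e2, dig_sum g.w (g.L * X) (fun p => 2 ^ g.v - dig g.w y p % 2 ^ g.v)
    (fun p _ => lt_of_le_of_lt (Nat.sub_le _ _) hv), if_pos (Dig_pos_lt hx ha)]
  refine ⟨by rw [one_mul]; exact Nat.sub_le _ _, ?_⟩
  rw [Nat.cast_sub (hm _).le]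
  have h1 := ((Dig_mod_modEq _ _).trans (h x hx a ha).2).neg
  have h2 : (((2 ^ g.v : ℕ) : ℤ)) ≡ 0 [ZMOD 2 ^ g.v] := by
    push_cast
    exact Int.modEq_zero_iff_dvd.2 dvd_rfl
  simpa [sub_eq_add_neg] using h2.add h1

theorem shiftA (hw : g.v < g.w) (hX : X ≤ g.XM) (k : ℕ) (h : Rep g n y X f) :
    Rep g 1 (Nat.shiftLeft (Nat.land y (MA g k)) (Nat.mul g.w k)) X
      fun x a => if k ≤ a then f x (a - k) else 0 := by
  intro x hx a ha
  have e : Nat.mul g.w k = g.w * k := rfl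
  rw [e, dig_shiftLeft]
  by_cases hk : k ≤ a
  · have e1 : x * g.L + a - k = x * g.L + (a - k) := by omega
    rw [if_pos (by omega), e1, Dig_land_MA hw y k x (a := a - k) (by omega), if_pos ⟨by omega, by omega⟩]
    simp only [if_pos hk]
    exact ⟨Dig_mod_le _ _, (Dig_mod_modEq _ _).trans (h x hx (a - k) (by omega)).2⟩
  · simp only [if_neg hk]
    have hz : (if k ≤ x * g.L + a then dig g.w (Nat.land y (MA g k)) (x * g.L + a - k) else 0) = 0 := by
      split_ifs with h1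
      · have hL : 0 < g.L := by omega
        set p := x * g.L + a - k with hp
        have h2 : p % g.L < g.L := Nat.mod_lt _ hL
        rw [← Nat.div_add_mod' p g.L, Dig_land_MA hw y k _ h2, if_neg]
        rintro ⟨-, h3⟩
        obtain ⟨x', rfl⟩ : ∃ x', x = x' + 1 := by
          cases x with
          | zero => omega
          | succ x' => exact ⟨x', rfl⟩
        have e2 : p = (g.L + a - k) + g.L * x' := by
          rw [hp, add_mul, one_mul, mul_comm x' g.L]; omega
        rw [e2, Nat.add_mul_mod_self_left, Nat.mod_eq_of_lt (by omega)] at h3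
        omega
      · rfl
    rw [hz]
    exact ⟨Nat.zero_le _, rfl⟩

theorem shiftX (hw : g.v < g.w) (k : ℕ) (h : Rep g n y X f) :
    Rep g 1 (Nat.shiftLeft (Nat.land y (MK g (Nat.sub X k))) (Nat.mul (Nat.mul g.w g.L) k)) X
      fun x a => if k ≤ x then f (x - k) a else 0 := by
  intro x hx a ha
  have e : Nat.mul (Nat.mul g.w g.L) k = g.w * (g.L * k) := mul_assoc g.w g.L k
  have e' : Nat.sub X k = X - k := rfl
  rw [e, e', dig_shiftLeft]
  by_cases hk : k ≤ x
  · obtain ⟨r, rfl⟩ := Nat.exists_eq_add_of_le hk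
    have e0 : (k + r) * g.L + a = g.L * k + (r * g.L + a) := by ring
    have e1 : (k + r) * g.L + a - g.L * k = r * g.L + a := by omega
    rw [if_pos (by omega), e1, Dig_land_MK hw, if_pos (Dig_pos_lt (by omega) ha)]
    simp only [if_pos hk, Nat.add_sub_cancel_left]
    exact ⟨Dig_mod_le _ _, (Dig_mod_modEq _ _).trans (h r (by omega) a ha).2⟩
  · simp only [if_neg hk]
    have h1 := Dig_pos_lt (X := k) (x := x) (by omega) ha
    rw [if_neg (by omega)]
    exact ⟨Nat.zero_le _, rfl⟩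

/-- equal masked blocks represent congruent functions -/
theorem modEq_of_eq (hw : g.v < g.w) (h : Rep g n y X f) (h' : Rep g n' y' X f')
    (e : Nat.land y (MK g X) = Nat.land y' (MK g X)) :
    ∀ x < X, ∀ a < g.L, f x a ≡ f' x a [ZMOD 2 ^ g.v] := by
  intro x hx a ha
  have h1 := (h.mask hw x hx a ha).2
  have h2 := (h'.mask hw x hx a ha).2
  rw [e] at h1
  exact h1.symm.trans h2

end Rep

end Crest.Agent.R187
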