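import Crest.Agent.R187.Stable
import Crest.Agent.R187.Dig

/-!
# Row 187, part 2: soundness of the stable upper bound

* `gam n = C(n+4, 4)` is monotone, and `|G_t n| ≤ gam n` for the eleven series: `geo 1` applied `i + 1` times to `dlt` is
  `C(n + i, i)`; `f ≤ f'` implies `geo k f ≤ geo 1 f'` and `f' ≤ geo 1 f'` (`geo_eq`, strong induction);
  `|difZ f n| ≤ max (f n) (f (n-1))`.  Hence `|gs G q y| ≤ gam y` and `|det5 G x a b c d| ≤ 120 ∏ gam`.
* `pack u f n = ∑_{i<n} f i 2^(u i)`; `rowX g G X p * 2^(w L p) = ∑_{x<X} gs G p x 2^(w L x)`;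
  `D4 G (rowA g G) … = ∑_{a<L} D4 G (gs G · a) … 2^(w a)` (linear in `H`);
  `(acc1 false y z sh A : ℤ) - acc1 true y z sh A' = y * z * 2^sh + (A - A')`.
  So `accU g false X b c d - accU g true X b c d = ∑_{x<X} ∑_{a<L} u x a 2^(w (x L + a))` in `ℤ`, where `u` is the right side
  of `tf_stable`, and `|u x a| ≤ 86400 ∏ gam < 2^(w-1)` when `okU ≠ 0`.
* Then `UZ = ∑_x (∑_a (2^(w-1) + u x a).toNat 2^(w a)) 2^(w L x)` (`cst_eq`), and `dig_sum` twice reads off the digit.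
-/

set_option autoImplicit false

namespace Crest.Agent.R187

open Finset

/-! ### Bounds for the series -/

theorem EngU_geo1_zero (f : ℕ → ℕ) : geo 1 f 0 = f 0 := by
  rw [geo_eq le_rfl, if_neg (by omega), add_zero]

theorem EngU_geo1_succ (f : ℕ → ℕ) (n : ℕ) : geo 1 f (n + 1) = f (n + 1) + geo 1 f n := by
  rw [geo_eq le_rfl, if_pos (by omega), Nat.add_sub_cancel]

theorem EngU_geo1_mono (f : ℕ → ℕ) : Monotone (geo 1 f) :=
  monotone_nat_of_le_succ fun n => by rw [EngU_geo1_succ]; omega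

theorem EngU_le_geo1 (f : ℕ → ℕ) (n : ℕ) : f n ≤ geo 1 f n := by
  rw [geo_eq le_rfl]
  omega

theorem EngU_geo_le {k : ℕ} (hk : 1 ≤ k) {f f' : ℕ → ℕ} (h : ∀ n, f n ≤ f' n) (n : ℕ) :
    geo k f n ≤ geo 1 f' n := by
  induction n using Nat.strong_induction_on with
  | _ n ih =>
    rw [geo_eq hk]
    split_ifs with h1
    · obtain ⟨m, rfl⟩ : ∃ m, n = m + 1 := ⟨n - 1, by omega⟩
      rw [EngU_geo1_succ]
      exact add_le_add (h _) ((ih _ (by omega)).trans (EngU_geo1_mono f' (by omega)))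
    · rw [add_zero]
      exact (h n).trans (EngU_le_geo1 f' n)

noncomputable def EngU_lev : ℕ → ℕ → ℕ
  | 0 => dlt
  | i + 1 => geo 1 (EngU_lev i)

theorem EngU_lev1 (n : ℕ) : EngU_lev 1 n = 1 := by
  induction n with
  | zero => exact EngU_geo1_zero _
  | succ n ih =>
    have h : EngU_lev 1 (n + 1) = 0 + EngU_lev 1 n := EngU_geo1_succ _ n
    omega

theorem EngU_lev2 (n : ℕ) : EngU_lev 2 n = n + 1 := by
  induction n with
  | zero => exact (EngU_geo1_zero _).trans (EngU_lev1 0)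
  | succ n ih =>
    have h : EngU_lev 2 (n + 1) = EngU_lev 1 (n + 1) + EngU_lev 2 n := EngU_geo1_succ _ n
    rw [h, ih, EngU_lev1]
    ring

theorem EngU_lev3 (n : ℕ) : 2 * EngU_lev 3 n = (n + 1) * (n + 2) := by
  induction n with
  | zero =>
    have h : EngU_lev 3 0 = EngU_lev 2 0 := EngU_geo1_zero _
    rw [h, EngU_lev2]
  | succ n ih =>
    have h : EngU_lev 3 (n + 1) = EngU_lev 2 (n + 1) + EngU_lev 3 n := EngU_geo1_succ _ n
    rw [h, mul_add, ih, EngU_lev2]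
    ring

theorem EngU_lev4 (n : ℕ) : 6 * EngU_lev 4 n = (n + 1) * (n + 2) * (n + 3) := by
  induction n with
  | zero =>
    have h : EngU_lev 4 0 = EngU_lev 3 0 := EngU_geo1_zero _
    have h1 := EngU_lev3 0
    omega
  | succ n ih =>
    have h : EngU_lev 4 (n + 1) = EngU_lev 3 (n + 1) + EngU_lev 4 n := EngU_geo1_succ _ n
    have h1 := EngU_lev3 (n + 1)
    rw [h, mul_add, ih, show 6 * EngU_lev 3 (n + 1) = 3 * (2 * EngU_lev 3 (n + 1)) by ring, h1]
    ring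

theorem EngU_lev5 (n : ℕ) : 24 * EngU_lev 5 n = (n + 1) * (n + 2) * ((n + 3) * (n + 4)) := by
  induction n with
  | zero =>
    have h : EngU_lev 5 0 = EngU_lev 4 0 := EngU_geo1_zero _
    have h1 := EngU_lev4 0
    omega
  | succ n ih =>
    have h : EngU_lev 5 (n + 1) = EngU_lev 4 (n + 1) + EngU_lev 5 n := EngU_geo1_succ _ n
    have h1 := EngU_lev4 (n + 1)
    rw [h, mul_add, ih, show 24 * EngU_lev 4 (n + 1) = 4 * (6 * EngU_lev 4 (n + 1)) by ring, h1]
    ring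

theorem EngU_gam_eq (n : ℕ) : gam n = EngU_lev 5 n := by
  show (n + 1) * (n + 2) * ((n + 3) * (n + 4)) / 24 = _
  rw [← EngU_lev5, Nat.mul_div_cancel_left _ (by norm_num)]

theorem EngU_gam_mono : Monotone gam := fun a b h => by
  rw [EngU_gam_eq, EngU_gam_eq]
  exact EngU_geo1_mono (EngU_lev 4) h

def EngU_Le (f : ℕ → ℕ) (i : ℕ) : Prop := ∀ n, f n ≤ EngU_lev i n

theorem EngU_Le0 : EngU_Le dlt 0 := fun _ => le_rfl

theorem EngU_Le.geo {f : ℕ → ℕ} {i : ℕ} (h : EngU_Le f i) (k : ℕ) (hk : 1 ≤ k := by decide) :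
    EngU_Le (geo k f) (i + 1) := EngU_geo_le hk h

theorem EngU_Le.up {f : ℕ → ℕ} {i : ℕ} (h : EngU_Le f i) : EngU_Le f (i + 1) :=
  fun n => (h n).trans (EngU_le_geo1 _ n)

def EngU_Bd (G : ℕ → ℤ) : Prop := ∀ n, |G n| ≤ gam n

theorem EngU_Le.pos {f : ℕ → ℕ} (h : EngU_Le f 5) : EngU_Bd (posZ f) := fun n => by
  rw [posZ_eq, Nat.abs_cast, EngU_gam_eq]
  exact_mod_cast h n

theorem EngU_Le.dif {f : ℕ → ℕ} (h : EngU_Le f 5) : EngU_Bd (difZ f) := fun n => by
  have h1 := h n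
  have h2 := h (n - 1)
  have h3 := EngU_gam_mono (Nat.sub_le n 1)
  rw [← EngU_gam_eq] at h1 h2
  rw [difZ_eq, abs_le]
  split_ifs <;> omega

theorem EngU_Bd.gs {G : ℕ → ℤ} (h : EngU_Bd G) (q y : ℕ) : |gs G q y| ≤ gam y := by
  rw [gs_eq]
  split_ifs
  · exact (h _).trans (by exact_mod_cast EngU_gam_mono (Nat.sub_le y q))
  · simp

theorem EngU_abs_mul {x y A B : ℤ} (hx : |x| ≤ A) (hy : |y| ≤ B) : |x * y| ≤ A * B := by
  rw [abs_mul]
  exact mul_le_mul hx hy (abs_nonneg _) ((abs_nonneg _).trans hx)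

theorem EngU_M2 (G : ℕ → ℤ) (c d s u : ℕ) :
    M2 G c d s u = gs G s c * gs G u d - gs G u c * gs G s d := rfl

theorem EngU_N3 (G : ℕ → ℤ) (b c d r s u : ℕ) : N3 G b c d r s u =
    gs G r b * M2 G c d s u - gs G s b * M2 G c d r u + gs G u b * M2 G c d r s := rfl

theorem EngU_D4 (G H : ℕ → ℤ) (b c d q r s u : ℕ) : D4 G H b c d q r s u =
    H q * N3 G b c d r s u - H r * N3 G b c d q s u + H s * N3 G b c d q r u
      - H u * N3 G b c d q r s := rfl

theorem EngU_Bd.M2 {G : ℕ → ℤ} (h : EngU_Bd G) (c d s u : ℕ) :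
    |M2 G c d s u| ≤ 2 * (gam c * gam d) := by
  have h1 := abs_le.1 (EngU_abs_mul (h.gs s c) (h.gs u d))
  have h2 := abs_le.1 (EngU_abs_mul (h.gs u c) (h.gs s d))
  rw [EngU_M2, abs_le]
  constructor <;> linarith [h1.1, h1.2, h2.1, h2.2]

theorem EngU_Bd.N3 {G : ℕ → ℤ} (h : EngU_Bd G) (b c d r s u : ℕ) :
    |N3 G b c d r s u| ≤ 6 * (gam b * (gam c * gam d)) := by
  have h1 := abs_le.1 (EngU_abs_mul (h.gs r b) (h.M2 c d s u))
  have h2 := abs_le.1 (EngU_abs_mul (h.gs s b) (h.M2 c d r u))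
  have h3 := abs_le.1 (EngU_abs_mul (h.gs u b) (h.M2 c d r s))
  rw [EngU_N3, abs_le]
  constructor <;> linarith [h1.1, h1.2, h2.1, h2.2, h3.1, h3.2]

theorem EngU_Bd.D4 {G : ℕ → ℤ} (h : EngU_Bd G) (a b c d q r s u : ℕ) :
    |D4 G (fun q => R187.gs G q a) b c d q r s u| ≤ 24 * (gam a * (gam b * (gam c * gam d))) := by
  have h1 := abs_le.1 (EngU_abs_mul (h.gs q a) (h.N3 b c d r s u))
  have h2 := abs_le.1 (EngU_abs_mul (h.gs r a) (h.N3 b c d q s u))
  have h3 := abs_le.1 (EngU_abs_mul (h.gs s a) (h.N3 b c d q r u))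
  have h4 := abs_le.1 (EngU_abs_mul (h.gs u a) (h.N3 b c d q r s))
  rw [EngU_D4, abs_le]
  constructor <;> linarith [h1.1, h1.2, h2.1, h2.2, h3.1, h3.2, h4.1, h4.2]

theorem EngU_Bd.det5 {G : ℕ → ℤ} (h : EngU_Bd G) (x a b c d : ℕ) :
    |det5 G x a b c d| ≤ 120 * (gam x * (gam a * (gam b * (gam c * gam d)))) := by
  have h1 := abs_le.1 (EngU_abs_mul (h.gs 4 x) (h.D4 a b c d 3 2 1 0))
  have h2 := abs_le.1 (EngU_abs_mul (h.gs 3 x) (h.D4 a b c d 4 2 1 0))
  have h3 := abs_le.1 (EngU_abs_mul (h.gs 2 x) (h.D4 a b c d 4 3 1 0))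
  have h4 := abs_le.1 (EngU_abs_mul (h.gs 1 x) (h.D4 a b c d 4 3 2 0))
  have h5 := abs_le.1 (EngU_abs_mul (h.gs 0 x) (h.D4 a b c d 4 3 2 1))
  rw [R187.det5, abs_le]
  constructor <;> linarith [h1.1, h1.2, h2.1, h2.2, h3.1, h3.2, h4.1, h4.2, h5.1, h5.2]

/-- the right side of `tf_stable` -/
noncomputable def EngU_u (x a b c d : ℕ) : ℤ :=
  det5 G0 x a b c d + 15 * det5 G1 x a b c d + 45 * det5 G2 x a b c d
    + 15 * det5 G3 x a b c d + 40 * det5 G4 x a b c d + 120 * det5 G5 x a b c d + 40 * det5 G6 x a b c d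
    + 90 * det5 G7 x a b c d + 90 * det5 G8 x a b c d + 144 * det5 G9 x a b c d
    + 120 * det5 G10 x a b c d

theorem EngU_u_le (x a b c d : ℕ) :
    |EngU_u x a b c d| ≤ 86400 * (gam x * (gam a * (gam b * (gam c * gam d)))) := by
  have b0 : EngU_Bd G0 := (((((EngU_Le0.geo 1).geo 1).geo 1).geo 1).geo 1).pos
  have b1 : EngU_Bd G1 := ((((EngU_Le0.geo 1).geo 1).geo 1).geo 2).up.pos
  have b2 : EngU_Bd G2 := (((EngU_Le0.geo 1).geo 2).geo 2).up.up.pos
  have b3 : EngU_Bd G3 := (((EngU_Le0.geo 2).geo 2).geo 2).up.up.dif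
  have b4 : EngU_Bd G4 := (((EngU_Le0.geo 1).geo 1).geo 3).up.up.pos
  have b5 : EngU_Bd G5 := ((EngU_Le0.geo 2).geo 3).up.up.up.pos
  have b6 : EngU_Bd G6 := ((EngU_Le0.geo 3).geo 3).up.up.up.dif
  have b7 : EngU_Bd G7 := ((EngU_Le0.geo 1).geo 4).up.up.up.pos
  have b8 : EngU_Bd G8 := ((EngU_Le0.geo 2).geo 4).up.up.up.dif
  have b9 : EngU_Bd G9 := (EngU_Le0.geo 5).up.up.up.up.pos
  have b10 : EngU_Bd G10 := (EngU_Le0.geo 6).up.up.up.up.dif
  have h0 := abs_le.1 (b0.det5 x a b c d)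
  have h1 := abs_le.1 (b1.det5 x a b c d)
  have h2 := abs_le.1 (b2.det5 x a b c d)
  have h3 := abs_le.1 (b3.det5 x a b c d)
  have h4 := abs_le.1 (b4.det5 x a b c d)
  have h5 := abs_le.1 (b5.det5 x a b c d)
  have h6 := abs_le.1 (b6.det5 x a b c d)
  have h7 := abs_le.1 (b7.det5 x a b c d)
  have h8 := abs_le.1 (b8.det5 x a b c d)
  have h9 := abs_le.1 (b9.det5 x a b c d)
  have h10 := abs_le.1 (b10.det5 x a b c d)
  generalize (gam x * (gam a * (gam b * (gam c * gam d))) : ℤ) = P at *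
  rw [EngU_u, abs_le]
  constructor <;> omega

/-! ### Packed evaluation -/

theorem EngU_pack (u : ℕ) (f : ℕ → ℤ) (n : ℕ) :
    pack u f n = ∑ i ∈ range n, f i * 2 ^ (u * i) := by
  induction n with
  | zero => rfl
  | succ n ih =>
    rw [sum_range_succ, ← ih]
    show pack u f n + f n * ((1 <<< (u * n) : ℕ) : ℤ) = _
    rw [Nat.one_shiftLeft]
    push_cast
    rfl

theorem EngU_rowX (g : Cfg) (G : ℕ → ℤ) (X p : ℕ) :
    rowX g G X p * 2 ^ (g.w * g.L * p) = ∑ x ∈ range X, gs G p x * 2 ^ (g.w * g.L * x) := by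
  show pack (g.w * g.L) G (X - p) * _ = _
  rw [EngU_pack]
  induction X with
  | zero => simp
  | succ X ih =>
    rw [sum_range_succ, ← ih, gs_eq]
    split_ifs with h
    · rw [Nat.succ_sub h, sum_range_succ, add_mul, mul_assoc (G _), ← pow_add, ← mul_add,
        Nat.sub_add_cancel h]
    · rw [show X + 1 - p = X - p by omega, zero_mul, add_zero]

theorem EngU_D4_row (g : Cfg) (G : ℕ → ℤ) (b c d q r s u : ℕ) :
    D4 G (rowA g G) b c d q r s u =
      ∑ a ∈ range g.L, D4 G (fun q => gs G q a) b c d q r s u * 2 ^ (g.w * a) := by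
  simp only [EngU_D4, rowA, EngU_pack, sum_mul, ← sum_sub_distrib, ← sum_add_distrib]
  exact sum_congr rfl fun a _ => by ring

theorem EngU_acc1 (y z : ℤ) (sh A A' : ℕ) :
    (acc1 false y z sh A : ℤ) - acc1 true y z sh A' = y * z * 2 ^ sh + (A - A') := by
  rcases y with y | y <;> rcases z with z | z
  · show ((A + y * (z <<< sh) : ℕ) : ℤ) - A' = (y : ℤ) * z * _ + _
    rw [Nat.shiftLeft_eq]
    push_cast
    ring
  · show (A : ℤ) - ((A' + y * ((z + 1) <<< sh) : ℕ) : ℤ) = (y : ℤ) * _ * _ + _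
    rw [Nat.shiftLeft_eq, Int.negSucc_eq]
    push_cast
    ring
  · show (A : ℤ) - ((A' + (y + 1) * (z <<< sh) : ℕ) : ℤ) = _ * (z : ℤ) * _ + _
    rw [Nat.shiftLeft_eq, Int.negSucc_eq]
    push_cast
    ring
  · show ((A + (y + 1) * ((z + 1) <<< sh) : ℕ) : ℤ) - A' = _
    rw [Nat.shiftLeft_eq, Int.negSucc_eq, Int.negSucc_eq]
    push_cast
    ring

/-- the packed table of `f` -/
def EngU_S (g : Cfg) (X : ℕ) (f : ℕ → ℕ → ℤ) : ℤ :=
  ∑ x ∈ range X, ∑ a ∈ range g.L, f x a * (2 ^ (g.w * g.L * x) * 2 ^ (g.w * a))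

theorem EngU_accT (g : Cfg) (G : ℕ → ℤ) (n : ℤ) (X b c d A A' : ℕ) :
    (accT g false G n (-n) X b c d A : ℤ) - accT g true G n (-n) X b c d A' =
      n * EngU_S g X (fun x a => det5 G x a b c d) + (A - A') := by
  have hS : EngU_S g X (fun x a => det5 G x a b c d) =
      rowX g G X 4 * 2 ^ (g.w * g.L * 4) * D4 G (rowA g G) b c d 3 2 1 0
        - rowX g G X 3 * 2 ^ (g.w * g.L * 3) * D4 G (rowA g G) b c d 4 2 1 0
        + rowX g G X 2 * 2 ^ (g.w * g.L * 2) * D4 G (rowA g G) b c d 4 3 1 0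
        - rowX g G X 1 * 2 ^ (g.w * g.L * 1) * D4 G (rowA g G) b c d 4 3 2 0
        + rowX g G X 0 * 2 ^ (g.w * g.L * 0) * D4 G (rowA g G) b c d 4 3 2 1 := by
    simp only [EngU_rowX, EngU_D4_row, sum_mul_sum, ← sum_sub_distrib, ← sum_add_distrib, EngU_S]
    refine sum_congr rfl fun x _ => sum_congr rfl fun a _ => ?_
    rw [det5]
    ring
  have e : ∀ q r s u m, tm g G m b c d q r s u = m * D4 G (rowA g G) b c d q r s u :=
    fun _ _ _ _ _ => rfl
  rw [accT, accT, EngU_acc1, EngU_acc1, EngU_acc1, EngU_acc1, EngU_acc1, hS]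
  simp only [e, Nat.mul_eq, mul_one, mul_zero, pow_zero]
  ring

theorem EngU_accU (g : Cfg) (X b c d : ℕ) :
    (accU g false X b c d : ℤ) - accU g true X b c d =
      EngU_S g X fun x a => EngU_u x a b c d := by
  rw [accU, accU, EngU_accT, EngU_accT, EngU_accT, EngU_accT, EngU_accT, EngU_accT, EngU_accT,
    EngU_accT, EngU_accT, EngU_accT, EngU_accT, sub_self, add_zero]
  simp only [EngU_S, mul_sum, ← sum_add_distrib]
  refine sum_congr rfl fun x _ => sum_congr rfl fun a _ => ?_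
  rw [EngU_u]
  ring

theorem EngU_sum_mul {M : Type} [AddCommMonoid M] (F : ℕ → M) (L X : ℕ) :
    ∑ p ∈ range (L * X), F p = ∑ x ∈ range X, ∑ a ∈ range L, F (x * L + a) := by
  induction X with
  | zero => simp
  | succ X ih => rw [mul_add_one, sum_range_add, ih, sum_range_succ, mul_comm L X]

theorem EngU_dig {g : Cfg} (hw : 1 ≤ g.w) {XR : F3} {b c d : ℕ}
    (hb : ∀ x < XR b c d, ∀ a < g.L, |EngU_u x a b c d| < 2 ^ (g.w - 1)) {x a : ℕ}
    (hx : x < XR b c d) (ha : a < g.L) :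
    (dig g.w (dig (g.w * g.L) (UZ g XR b c d) x) a : ℤ) = 2 ^ (g.w - 1) + EngU_u x a b c d := by
  set X := XR b c d with hX
  have hL : 0 < g.L := by omega
  have hdm : ∀ x, ∀ a < g.L, (x * g.L + a) / g.L = x ∧ (x * g.L + a) % g.L = a := fun x a ha => by
    rw [add_comm, Nat.add_mul_div_right _ _ hL, Nat.add_mul_mod_self_right, Nat.div_eq_of_lt ha,
      Nat.mod_eq_of_lt ha, zero_add]
    exact ⟨rfl, rfl⟩
  set f : ℕ → ℕ := fun p => (2 ^ (g.w - 1) + EngU_u (p / g.L) (p % g.L) b c d).toNat with hf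
  have hfe : ∀ x < X, ∀ a < g.L, (f (x * g.L + a) : ℤ) = 2 ^ (g.w - 1) + EngU_u x a b c d :=
    fun x hx a ha => by
      simp only [hf, (hdm x a ha).1, (hdm x a ha).2]
      refine Int.toNat_of_nonneg ?_
      linarith [(abs_lt.1 (hb x hx a ha)).1]
  have hpow : (2 : ℤ) ^ g.w = 2 ^ (g.w - 1) + 2 ^ (g.w - 1) := by
    rw [← two_mul, ← pow_succ', Nat.sub_add_cancel hw]
  have hlt : ∀ p < g.L * X, f p < 2 ^ g.w := fun p hp => by
    have h1 : p / g.L < X := Nat.div_lt_of_lt_mul hp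
    have h2 : p % g.L < g.L := Nat.mod_lt _ hL
    have h3 := hfe _ h1 _ h2
    rw [Nat.div_add_mod'] at h3
    have h4 : (f p : ℤ) < 2 ^ g.w := by
      rw [h3, hpow]
      linarith [(abs_lt.1 (hb _ h1 _ h2)).2]
    exact_mod_cast h4
  have hU : UZ g XR b c d = ∑ p ∈ range (g.L * X), f p * 2 ^ (g.w * p) := by
    show accU g false X b c d + cst g (1 <<< (g.w - 1)) X - accU g true X b c d = _
    have h1 : (accU g false X b c d : ℤ) - accU g true X b c d + cst g (1 <<< (g.w - 1)) X =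
        (∑ p ∈ range (g.L * X), f p * 2 ^ (g.w * p) : ℕ) := by
      rw [EngU_accU, cst_eq hw, Nat.one_shiftLeft, EngU_sum_mul, EngU_sum_mul, EngU_S]
      push_cast
      rw [← sum_add_distrib]
      refine sum_congr rfl fun x hx => ?_
      rw [← sum_add_distrib]
      refine sum_congr rfl fun a ha => ?_
      rw [hfe x (mem_range.1 hx) a (mem_range.1 ha), ← pow_add,
        show g.w * g.L * x + g.w * a = g.w * (x * g.L + a) by ring]
      ring
    omega
  have hp : x * g.L + a < g.L * X := by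
    have : (x + 1) * g.L ≤ X * g.L := Nat.mul_le_mul_right _ hx
    rw [add_mul, one_mul, mul_comm X] at this
    omega
  rw [dig_dig _ _ _ _ ha, hU, dig_sum _ _ _ hlt, if_pos hp, hfe x hx a ha]

theorem ubLe_ok {g : Cfg} {XR : F3} {x a b c d n : ℕ} (hw : 1 ≤ g.w) (h : ubLe g XR x a b c d n = true) :
    tf 700 6 x a b c d ≤ n := by
  unfold ubLe at h
  rw [bcase_ble, bcase_ble] at h
  split_ifs at h with h1 h2
  rw [Nat.ble_eq] at h
  unfold okU at h1
  rw [bcase_ble, bcase_ble] at h1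
  split_ifs at h1 with h3 h4
  · exact absurd (Nat.zero_le x) h1
  swap
  · exact absurd (Nat.zero_le x) h1
  have h3' : XR b c d + g.L + b + c + d ≤ 700 := h3
  have h4' : ¬ 1 <<< (g.w - 1) ≤ 86400 * (gam (XR b c d) * gam g.L * gam b * gam c * gam d) := h4
  have h5 : dig g.w (dig (g.w * g.L) (UZ g XR b c d) x) a ≤ 720 * n + 1 <<< (g.w - 1) := h
  rw [Nat.one_shiftLeft] at h4' h5
  have hb : ∀ x < XR b c d, ∀ a < g.L, |EngU_u x a b c d| < 2 ^ (g.w - 1) := fun x hx a ha => by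
    refine (EngU_u_le x a b c d).trans_lt ?_
    have h6 : 86400 * (gam x * (gam a * (gam b * (gam c * gam d)))) < 2 ^ (g.w - 1) := by
      refine lt_of_le_of_lt (Nat.mul_le_mul_left _ ?_) (not_le.1 h4')
      rw [mul_assoc, mul_assoc, mul_assoc]
      exact Nat.mul_le_mul (EngU_gam_mono hx.le) (Nat.mul_le_mul_right _ (EngU_gam_mono ha.le))
    exact_mod_cast h6
  have h6 := EngU_dig hw hb (not_le.1 h1) (not_le.1 h2)
  have h7 : 720 * tf 700 6 x a b c d = EngU_u x a b c d := tf_stable (by omega)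
  have h8 : (dig g.w (dig (g.w * g.L) (UZ g XR b c d) x) a : ℤ) ≤ 720 * n + 2 ^ (g.w - 1) := by
    exact_mod_cast h5
  linarith

end Crest.Agent.R187
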