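import Crest.Agent.R187.Poly

/-!
# Dividing a highest weight vector by the determinant

Let `n = a`, `Xm : Matrix (Fin a) (Fin a) (P a a)` the generic matrix, `d = det Xm`, `k = last`.
If `f` has weight `l` with `l k ≠ 0` and is killed by `E j k` for `j < k`, then `Xmᵀ *ᵥ (∂_{r k} f)_r = l_k f e_k`, so
by Cramer `d ∂_{r k} f = l_k f · cof_{r k}` for every `r`, where `cof_{r k}` (an entry of `adjugate`) is
nonzero and does not involve the variables of row `r`.  In the UFD `P a a`: if `d ∤ f`, there is a prime `p`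
with `p ∣ cof_{r k}` for all `r` (write `d = g d'`, `f = g f'` with `g = gcd`, `d'` a non-unit coprime to `f'`,
`p ∣ d'`); a divisor of a nonzero polynomial not involving a variable does not involve it
(`degreeOf_mul_eq`), so `p` is a constant: contradiction.  (`dvd_of_hw`.)
The quotient `f / d` is again killed by the `E i j`, `i < j` (`E i j d = 0`: determinant with two equal
columns, derivation of `det`), has weight `l - 1`, block degrees one less, and
`rename (blockPerm σ) d = sign σ • d`.  Divide twice: `f = d² g` with `g ∈ blockSym`.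
For `hwd_det` show that multiplication by `d²` maps `hw (blockSym a a c) l` *onto*
`hw (blockSym a a (c+2)) (l+2)` (`LinearMap.finrank_range_le`/`Submodule.finrank_map_le`).
Homogeneity of the quotient: compare `weightedHomogeneousComponent`s, or use Euler operators
(`wt_iff`, and the row analogue `∑_k x_{r k} ∂_{r k}`), or a general lemma: in a domain graded by `ℕ`-weights a
factor of a nonzero homogeneous polynomial by a homogeneous one is homogeneous.
-/

set_option autoImplicit false

namespace Crest.Agent.R187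

open MvPolynomial Crest.AlgebraR.FoulkesHowe

/-- The generic square matrix. -/
noncomputable def Xm (a : ℕ) : Matrix (Fin a) (Fin a) (P a a) := Matrix.of fun r k => X (r, k)

theorem det_Xm_ne_zero (a : ℕ) : (Xm a).det ≠ 0 := by
  exact Matrix.det_mvPolynomialX_ne_zero (Fin a) ℂ

/-- the cofactors of row `r` do not involve the variables of row `r` -/
theorem Det_adj_vars {a : ℕ} (k r j : Fin a) : (r, j) ∉ ((Xm a).adjugate k r).vars := by
  have h : (Xm a).adjugate k r ∈ supported ℂ {v : Var a a | v.1 ≠ r} := by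
    rw [Matrix.adjugate_apply, Matrix.det_apply']
    refine Subalgebra.sum_mem _ fun σ _ => Subalgebra.mul_mem _ (intCast_mem _ _)
      (Subalgebra.prod_mem _ fun i _ => ?_)
    rw [Matrix.updateRow_apply]
    split_ifs with h
    · rw [Pi.single_apply]
      split_ifs
      · exact Subalgebra.one_mem _
      · exact Subalgebra.zero_mem _
    · exact X_mem_supported.2 h
  intro hv
  exact mem_supported.1 h hv rfl

theorem Det_mul_adj {a : ℕ} (r r' : Fin a) :
    ∑ j, X (r, j) * (Xm a).adjugate j r' = if r = r' then (Xm a).det else 0 := by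
  have := congrFun (congrFun (Matrix.mul_adjugate (Xm a)) r) r'
  rw [Matrix.mul_apply, Matrix.smul_apply, Matrix.one_apply] at this
  simpa [Xm] using this

theorem Det_adj_mul {a : ℕ} (i j : Fin a) :
    ∑ r, X (r, i) * (Xm a).adjugate j r = if i = j then (Xm a).det else 0 := by
  have := congrFun (congrFun (Matrix.adjugate_mul (Xm a)) j) i
  rw [Matrix.mul_apply, Matrix.smul_apply, Matrix.one_apply] at this
  simpa [Xm, mul_comm, eq_comm] using this

theorem Det_pderiv {a : ℕ} (r k : Fin a) : pderiv (r, k) (Xm a).det = (Xm a).adjugate k r := by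
  have h := Det_mul_adj r r
  rw [if_pos rfl] at h
  rw [← h, map_sum, Finset.sum_eq_single k]
  · rw [Derivation.leibniz, pderiv_eq_zero_of_notMem_vars (Det_adj_vars k r k), pderiv_X_self]
    simp
  · intro j _ hj
    rw [Derivation.leibniz, pderiv_eq_zero_of_notMem_vars (Det_adj_vars j r k),
      pderiv_X_of_ne (by simpa using hj)]
    simp
  · simp

theorem Det_adj_ne_zero {a : ℕ} (k r : Fin a) : (Xm a).adjugate k r ≠ 0 := by
  intro h
  set A : Matrix (Fin a) (Fin a) ℂ := (Equiv.swap r k).permMatrix ℂ with hA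
  have h1 : A.adjugate k r = 0 := by
    have h2 := Matrix.mvPolynomialX_mapMatrix_aeval ℂ A
    rw [← h2, ← AlgHom.map_adjugate]
    show aeval _ ((Xm a).adjugate k r) = 0
    rw [h, map_zero]
  have h3 := congrFun (congrFun (Matrix.mul_adjugate A) r) r
  rw [hA, PEquiv.toMatrix_toPEquiv_mul] at h3
  simp only [Matrix.submatrix_apply, Equiv.swap_apply_left, id, Matrix.smul_apply,
    Matrix.one_apply_eq, smul_eq_mul, mul_one] at h3
  rw [← hA, h1, hA, Matrix.det_permutation] at h3
  rcases Int.units_eq_one_or (Equiv.Perm.sign (Equiv.swap r k)) with h4 | h4 <;>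
    simp [h4] at h3

theorem Det_hom {a : ℕ} {M : Type} [AddCommMonoid M] (w : Var a a → M) {n : M}
    (hw : ∀ σ : Equiv.Perm (Fin a), ∑ i, w (σ i, i) = n) :
    IsWeightedHomogeneous w (Xm a).det n := by
  rw [Matrix.det_apply']
  refine IsWeightedHomogeneous.sum _ _ _ fun σ _ => ?_
  have h1 : IsWeightedHomogeneous w (∏ i, Xm a (σ i) i) (∑ i, w (σ i, i)) :=
    IsWeightedHomogeneous.prod _ _ _ fun i _ => isWeightedHomogeneous_X ℂ w (σ i, i)
  rw [hw] at h1
  exact h1.C_mul ((Equiv.Perm.sign σ : ℤ) : ℂ)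

theorem Det_hom_col (a : ℕ) : IsWeightedHomogeneous colW (Xm a).det (fun _ => 1) :=
  Det_hom _ fun σ => by
    funext j
    simp [colW, Finset.sum_apply, Pi.single_apply]

theorem Det_hom_block {a : ℕ} (r : Fin a) : IsWeightedHomogeneous (blockWeight r) (Xm a).det 1 :=
  Det_hom _ fun σ => by
    refine (Equiv.sum_comp σ fun i => if i = r then 1 else 0).trans ?_
    simp

theorem Det_quot {σ M : Type} [AddCancelCommMonoid M] (w : σ → M) {d g : MvPolynomial σ ℂ}
    {i j : M} (hd : IsWeightedHomogeneous w d i) (hd0 : d ≠ 0)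
    (h : IsWeightedHomogeneous w (d * g) (i + j)) : IsWeightedHomogeneous w g j := by
  classical
  intro e he
  by_contra hne
  letI := weightedGradedAlgebra ℂ w
  have h1 := DirectSum.coe_decompose_mul_add_of_left_mem (weightedHomogeneousSubmodule ℂ w)
    (b := g) (j := Finsupp.weight w e) ((mem_weightedHomogeneousSubmodule ℂ w i d).2 hd)
  have h2 : ∀ (φ : MvPolynomial σ ℂ) (m : M),
      (DirectSum.decompose (weightedHomogeneousSubmodule ℂ w) φ m : MvPolynomial σ ℂ) =
        weightedHomogeneousComponent w m φ := weightedDecomposition.decompose'_apply ℂ w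
  rw [h2, h2, h.weightedHomogeneousComponent_ne _ (fun h' => hne (add_left_cancel h'))] at h1
  have h3 := (mul_eq_zero.1 h1.symm).resolve_left hd0
  have h4 := congrArg (coeff e) h3
  rw [coeff_weightedHomogeneousComponent, if_pos rfl, coeff_zero] at h4
  exact he h4

theorem E_det {a : ℕ} {i j : Fin a} (h : i ≠ j) : E a i j (Xm a).det = 0 := by
  rw [E_eq_sum]
  simp only [Det_pderiv]
  rw [Det_adj_mul, if_neg h]

theorem rename_det {a : ℕ} (σ : Equiv.Perm (Fin a)) :
    rename (blockPerm σ) (Xm a).det = ((Equiv.Perm.sign σ : ℤˣ) : ℤ) • (Xm a).det := by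
  have h : (rename (blockPerm σ) : P a a →ₐ[ℂ] P a a).mapMatrix (Xm a) = (Xm a).submatrix σ id := by
    ext r k
    simp [Xm, blockPerm]
  rw [AlgHom.map_det, h, Matrix.det_permute, zsmul_eq_mul]

theorem dvd_of_hw {a : ℕ} {f : P (a + 1) (a + 1)} {l : Fin (a + 1) → ℕ}
    (hw : IsWeightedHomogeneous colW f l) (hl : l (Fin.last a) ≠ 0)
    (hE : ∀ j : Fin (a + 1), j < Fin.last a → E (a + 1) j (Fin.last a) f = 0) :
    (Xm (a + 1)).det ∣ f := by
  set k := Fin.last a with hk
  have h1 : ∀ j, E (a + 1) j k f = if j = k then (l k : ℂ) • f else 0 := by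
    intro j
    split_ifs with hj
    · rw [hj]
      exact wt_iff.1 hw k
    · exact hE j (lt_of_le_of_ne (Fin.le_last j) hj)
  have h2 : ∀ r, (Xm (a + 1)).det * pderiv (r, k) f =
      (l k : ℂ) • (Xm (a + 1)).adjugate k r * f := by
    intro r
    have h3 : ∑ j, (Xm (a + 1)).adjugate j r * E (a + 1) j k f =
        (Xm (a + 1)).det * pderiv (r, k) f := by
      simp only [E_eq_sum, Finset.mul_sum]
      rw [Finset.sum_comm]
      have h4 : ∀ r', ∑ j, (Xm (a + 1)).adjugate j r * (X (r', j) * pderiv (r', k) f) =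
          if r' = r then (Xm (a + 1)).det * pderiv (r', k) f else 0 := by
        intro r'
        have h5 := congrArg (· * pderiv (r', k) f) (Det_mul_adj r' r)
        simp only [Finset.sum_mul, ite_mul, zero_mul] at h5
        rw [← h5]
        exact Finset.sum_congr rfl fun j _ => by ring
      simp only [h4]
      simp
    rw [← h3]
    simp only [h1, mul_ite, mul_zero]
    simp
  obtain ⟨d', f', g, hrel, hd, hf⟩ :=
    UniqueFactorizationMonoid.exists_reduced_factors _ (det_Xm_ne_zero (a + 1)) f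
  have hg : g ≠ 0 := fun h => det_Xm_ne_zero (a + 1) (by rw [← hd, h, zero_mul])
  have hd' : d' ≠ 0 := fun h => det_Xm_ne_zero (a + 1) (by rw [← hd, h, mul_zero])
  have hl' : (l k : ℂ) ≠ 0 := by exact_mod_cast hl
  have h6 : ∀ r, d' ∣ (Xm (a + 1)).adjugate k r := by
    intro r
    refine hrel.dvd_of_dvd_mul_right ⟨(l k : ℂ)⁻¹ • pderiv (r, k) f, ?_⟩
    apply mul_left_cancel₀ hg
    rw [← mul_assoc g d', hd, mul_smul_comm, h2 r, mul_left_comm, hf, smul_mul_assoc, smul_smul,
      inv_mul_cancel₀ hl', one_smul]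
  have h7 : d'.vars = ∅ := by
    refine Finset.eq_empty_of_forall_notMem fun v hv => Det_adj_vars k v.1 v.2 ?_
    obtain ⟨q, hq⟩ := h6 v.1
    have hq0 : q ≠ 0 := fun h => Det_adj_ne_zero k v.1 (by rw [hq, h, mul_zero])
    rw [hq, vars_def, degrees_mul_eq hd' hq0, Multiset.toFinset_add]
    rw [vars_def] at hv
    exact Finset.mem_union_left _ hv
  have h8 := vars_eq_empty_iff_eq_C.1 h7
  have h9 : IsUnit d' := by
    rw [h8]
    refine IsUnit.map C (Ne.isUnit fun h => hd' ?_)
    rw [h8, h, C_0]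
  rw [← hd, ← hf]
  exact mul_dvd_mul_left g h9.dvd

theorem Det_E_quot {a : ℕ} {i j : Fin a} (h : i ≠ j) {g : P a a}
    (hg : E a i j ((Xm a).det * g) = 0) : E a i j g = 0 := by
  rw [Derivation.leibniz, E_det h, smul_zero, add_zero, smul_eq_mul] at hg
  exact (mul_eq_zero.1 hg).resolve_left (det_Xm_ne_zero a)

theorem Det_step {a c : ℕ} {l : Fin (a + 1) → ℕ} {f : P (a + 1) (a + 1)}
    (hb : ∀ r, IsWeightedHomogeneous (blockWeight r) f (c + 1))
    (hw : IsWeightedHomogeneous colW f fun i => l i + 1)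
    (hE : ∀ i j : Fin (a + 1), i < j → E (a + 1) i j f = 0) :
    ∃ g, f = (Xm (a + 1)).det * g ∧ (∀ r, IsWeightedHomogeneous (blockWeight r) g c) ∧
      IsWeightedHomogeneous colW g l ∧ ∀ i j : Fin (a + 1), i < j → E (a + 1) i j g = 0 := by
  obtain ⟨g, rfl⟩ := dvd_of_hw hw (Nat.succ_ne_zero _) fun j hj => hE j _ hj
  refine ⟨g, rfl, fun r => Det_quot _ (Det_hom_block r) (det_Xm_ne_zero _) ?_,
    Det_quot _ (Det_hom_col _) (det_Xm_ne_zero _) ?_, fun i j hij => Det_E_quot hij.ne (hE i j hij)⟩
  · rw [add_comm 1 c]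
    exact hb r
  · rw [add_comm _ l]
    exact hw

theorem hwd_det {a c : ℕ} (l : Fin (a + 1) → ℕ) :
    hwd (a + 1) (a + 1) (c + 2) (fun i => l i + 2) ≤ hwd (a + 1) (a + 1) c l := by
  have h : hw (blockSym (a + 1) (a + 1) (c + 2)) (fun i => l i + 2) ≤
      (hw (blockSym (a + 1) (a + 1) c) l).map
        (LinearMap.mulLeft ℂ ((Xm (a + 1)).det * (Xm (a + 1)).det)) := by
    intro f hf
    obtain ⟨h1, h2, h3⟩ := mem_hw.1 hf
    obtain ⟨h4, h5⟩ := mem_blockSym.1 h1
    obtain ⟨g₁, rfl, b1, w1, e1⟩ := Det_step (c := c + 1) (l := fun i => l i + 1) h4 h2 h3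
    obtain ⟨g, rfl, b2, w2, e2⟩ := Det_step b1 w1 e1
    refine ⟨g, mem_hw.2 ⟨mem_blockSym.2 ⟨b2, fun σ => ?_⟩, w2, e2⟩, by simp [mul_assoc]⟩
    have h6 := h5 σ
    rw [map_mul, map_mul, rename_det] at h6
    apply mul_left_cancel₀ (det_Xm_ne_zero (a + 1))
    apply mul_left_cancel₀ (det_Xm_ne_zero (a + 1))
    rw [← h6]
    rcases Int.units_eq_one_or (Equiv.Perm.sign σ) with h7 | h7 <;> simp [h7]
  exact (Submodule.finrank_mono h).trans (Submodule.finrank_map_le _ _)

theorem hwd_det_iter {a c t : ℕ} (l : Fin (a + 1) → ℕ) :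
    hwd (a + 1) (a + 1) (c + 2 * t) (fun i => l i + 2 * t) ≤ hwd (a + 1) (a + 1) c l := by
  induction t with
  | zero => exact le_rfl
  | succ t ih => exact (hwd_det (c := c + 2 * t) fun i => l i + 2 * t).trans ih

end Crest.Agent.R187
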