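import Crest.Agent.R187.Det

/-!
# Gale duality

`θ : P 6 6 →ₐ P 6 6`, `x_{r k} ↦ (adjugate Xm) (rev k) r`.
* Column weight of `adjugate Xm k r` is `1 - e_k`, its degree in row `s` is `0` for `s = r` and `1` otherwise
  (`Matrix.adjugate_apply`/`adjugate_fin_succ_eq_det_submatrix`, `Matrix.det_apply`), so a monomial of weight `l`
  and row degrees `c` goes to weight `6c - l ∘ rev`, row degrees `5c`.
* For `i ≠ j`, apply the derivation `δ = E 6 i j` to `Xm * adjugate Xm = det • 1`:
  `δ Xm = Xm * e_{ij}`, `δ det = 0`, so `Xm * (e_{ij} * A + δ A) = 0`, hence `δ A = - e_{ij} A` (`det ≠ 0`).  Thus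
  `E i j (θ x) = - θ (E (rev j) (rev i) x)` on variables, hence on all polynomials.
* Row permutations: `rename (blockPerm σ) (θ x_{r k}) = sign σ • θ x_{σ r, k}`, and `f` is homogeneous of
  even total degree `6 c`, so `θ f` is block symmetric.
* `θ` is injective on homogeneous polynomials: `adjugate (adjugate X) = det X ^ 4 • X`
  (`Matrix.adjugate_adjugate`), `adjugate_transpose`, `adjugate_submatrix_equiv_self`/permuting columns changes a
  sign; so `θ (θ x_{rk}) = ± det^4 x_{rk}` and `θ (θ f) = ± det^{24 c} f`.  Alternative: to show `θ f = 0 → f = 0`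
  evaluate: every invertible complex matrix is (up to the transposition/reversal) the adjugate of some matrix, so
  `f · det` vanishes at every point (`MvPolynomial.funext`).  The second route is shorter:
  for `Y` invertible, `adjugate (t • Y⁻¹) = t^5 det(Y)⁻¹ • Y`, choose `t^5 = det Y`.
-/

set_option autoImplicit false

namespace Crest.Agent.R187

open MvPolynomial Crest.AlgebraR.FoulkesHowe

/-- The Gale substitution. -/
noncomputable def galeθ (a : ℕ) : P a a →ₐ[ℂ] P a a :=
  aeval fun v => (Xm a).adjugate (Fin.rev v.2) v.1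

theorem galeθ_X {a : ℕ} (v : Var a a) : galeθ a (X v) = (Xm a).adjugate (Fin.rev v.2) v.1 :=
  aeval_X _ _

theorem gale_aeval_hom {σ τ M : Type} [AddCommMonoid M] {w : τ → M} {g : σ → M}
    {φ : σ → MvPolynomial τ ℂ} (hφ : ∀ v, IsWeightedHomogeneous w (φ v) (g v))
    {f : MvPolynomial σ ℂ} {m : M} (hf : IsWeightedHomogeneous g f m) :
    IsWeightedHomogeneous w (aeval φ f) m := by
  rw [f.as_sum, map_sum]
  refine IsWeightedHomogeneous.sum _ _ _ fun d hd => ?_
  rw [aeval_monomial, ← hf (mem_support_iff.1 hd), Finsupp.weight_apply, ← zero_add (d.sum _)]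
  exact (isWeightedHomogeneous_C w _).mul
    (IsWeightedHomogeneous.prod _ _ _ fun v _ => (hφ v).pow (d v))

theorem gale_aeval_smul {σ R : Type} [CommRing R] [Algebra ℂ R] (ε : R) (φ : σ → R)
    {f : MvPolynomial σ ℂ} {m : ℕ} (hf : ∀ d ∈ f.support, d.sum (fun _ e => e) = m) :
    aeval (fun v => ε * φ v) f = ε ^ m * aeval φ f := by
  conv_lhs => rw [f.as_sum]
  conv_rhs => rw [f.as_sum]
  rw [map_sum, map_sum, Finset.mul_sum]
  refine Finset.sum_congr rfl fun d hd => ?_
  rw [aeval_monomial, aeval_monomial, ← hf d hd]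
  simp only [Finsupp.prod, Finsupp.sum, mul_pow, Finset.prod_mul_distrib, Finset.prod_pow_eq_pow_sum]
  ring

theorem gale_adj_hom {a : ℕ} {M : Type} [AddCommMonoid M] {w : Var a a → M} (p q : Fin a → M)
    (hw : ∀ r k, w (r, k) = p r + q k) (k r : Fin a) :
    IsWeightedHomogeneous w ((Xm a).adjugate k r)
      (∑ s ∈ Finset.univ.erase r, p s + ∑ i ∈ Finset.univ.erase k, q i) := by
  rw [Matrix.adjugate_apply, Matrix.det_apply']
  refine IsWeightedHomogeneous.sum _ _ _ fun σ _ => ?_
  by_cases h : σ k = r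
  · have e : ∑ s ∈ Finset.univ.erase r, p s + ∑ i ∈ Finset.univ.erase k, q i =
        0 + ∑ i ∈ Finset.univ.erase k, w (σ i, i) := by
      simp only [hw, Finset.sum_add_distrib, zero_add]
      congr 1
      refine (Finset.sum_equiv σ (fun i => ?_) fun _ _ => rfl).symm
      simp [← h]
    rw [e, ← Finset.mul_prod_erase _ _ (Finset.mem_univ k), h, Matrix.updateRow_self, Pi.single_eq_same,
      one_mul]
    refine IsWeightedHomogeneous.mul ?_ (IsWeightedHomogeneous.prod _ _ _ fun i hi => ?_)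
    · simpa using isWeightedHomogeneous_C w (((Equiv.Perm.sign σ : ℤˣ) : ℤ) : ℂ)
    · have hne : σ i ≠ r := fun h' => (Finset.mem_erase.1 hi).1 (σ.injective (h'.trans h.symm))
      rw [Matrix.updateRow_ne hne]
      exact isWeightedHomogeneous_X ℂ w _
  · have hne : σ.symm r ≠ k := fun h' => h (by rw [← h']; simp)
    rw [Finset.prod_eq_zero (Finset.mem_univ (σ.symm r)) (by simp [hne]), mul_zero]
    exact isWeightedHomogeneous_zero ℂ w _

theorem gale_E_adj {a : ℕ} {i j : Fin a} (h : i ≠ j) (k s : Fin a) :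
    E a i j ((Xm a).adjugate k s) = -if k = i then (Xm a).adjugate j s else 0 := by
  obtain ⟨B, hB⟩ : ∃ B : Matrix (Fin a) (Fin a) (P a a), B = Matrix.of fun k s =>
      E a i j ((Xm a).adjugate k s) + if k = i then (Xm a).adjugate j s else 0 := ⟨_, rfl⟩
  have h1 : Xm a * B = 0 := by
    ext1 r s
    have h2 := congrArg (E a i j) (congrFun (congrFun (Matrix.mul_adjugate (Xm a)) r) s)
    have h3 : E a i j (((Xm a).det • (1 : Matrix (Fin a) (Fin a) (P a a))) r s) = 0 := by
      rw [Matrix.smul_apply, Matrix.one_apply]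
      split_ifs <;> simp [E_det h]
    rw [h3, Matrix.mul_apply, map_sum] at h2
    rw [Matrix.mul_apply, Matrix.zero_apply, ← h2, hB]
    simp only [Matrix.of_apply, Derivation.leibniz, smul_eq_mul, mul_add, Finset.sum_add_distrib, Xm, E_X,
      mul_ite, mul_zero, Finset.sum_ite_eq', Finset.mem_univ, if_true]
    rw [mul_comm]
  have h4 : (Xm a).det • B = 0 := by
    rw [← Matrix.one_mul B, ← Matrix.smul_mul, ← Matrix.adjugate_mul, Matrix.mul_assoc, h1,
      Matrix.mul_zero]
  have h5 := congrFun (congrFun h4 k) s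
  rw [Matrix.smul_apply, smul_eq_mul, Matrix.zero_apply, mul_eq_zero, hB] at h5
  exact eq_neg_of_add_eq_zero_left (h5.resolve_left (det_Xm_ne_zero a))

theorem gale_E {a : ℕ} {i j : Fin a} (h : i ≠ j) (f : P a a) :
    E a i j (galeθ a f) = -galeθ a (E a (Fin.rev j) (Fin.rev i) f) := by
  induction f using MvPolynomial.induction_on with
  | C c => simp [← MvPolynomial.algebraMap_eq]
  | add p q hp hq => rw [map_add, map_add, map_add, map_add, hp, hq, neg_add]
  | mul_X p v hp =>
    have hv : E a i j (galeθ a (X v)) = -galeθ a (E a (Fin.rev j) (Fin.rev i) (X v)) := by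
      rw [galeθ_X, gale_E_adj h, E_X]
      by_cases h1 : v.2 = Fin.rev i
      · rw [if_pos h1, if_pos (by rw [h1, Fin.rev_rev]), galeθ_X, Fin.rev_rev]
      · rw [if_neg h1, if_neg (fun h2 => h1 (by rw [← h2, Fin.rev_rev])), map_zero]
    rw [map_mul, Derivation.leibniz, Derivation.leibniz, hp, hv]
    simp only [smul_eq_mul, map_add, map_mul]
    ring

theorem gale_rename_adj {a : ℕ} (σ : Equiv.Perm (Fin a)) (k r : Fin a) :
    rename (blockPerm σ) ((Xm a).adjugate k r) =
      (((Equiv.Perm.sign σ : ℤˣ) : ℤ) : P a a) * (Xm a).adjugate k (σ r) := by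
  have h1 := congrFun (congrFun
    (AlgHom.map_adjugate (rename (blockPerm σ) : P a a →ₐ[ℂ] P a a) (Xm a)) k) r
  have h2 : (rename (blockPerm σ) : P a a →ₐ[ℂ] P a a).mapMatrix (Xm a) = (Xm a).submatrix σ id := by
    ext1 r k
    simp [Xm, blockPerm]
  rw [h2] at h1
  refine h1.trans ?_
  rw [Matrix.adjugate_apply, Matrix.adjugate_apply, ← Matrix.det_permute]
  congr 1
  ext1 s i
  by_cases h : s = r
  · simp [h]
  · simp [Matrix.updateRow_ne h, Matrix.updateRow_ne (σ.injective.ne h)]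

theorem gale_inj {f : P 6 6} (h : galeθ 6 f = 0) : f = 0 := by
  have h1 : f * (Xm 6).det = 0 := by
    refine MvPolynomial.funext fun y => ?_
    rw [map_mul, map_zero]
    obtain ⟨Y, hY⟩ : ∃ Y : Matrix (Fin 6) (Fin 6) ℂ, Y = Matrix.of fun r k => y (r, k) := ⟨_, rfl⟩
    have e : eval y (Xm 6).det = Y.det := by
      rw [RingHom.map_det]
      congr 1
      ext r k
      simp [Xm, hY]
    rw [e]
    by_cases hd : Y.det = 0
    · rw [hd, mul_zero]
    refine mul_eq_zero_of_left ?_ _
    obtain ⟨W, hW⟩ : ∃ W : Matrix (Fin 6) (Fin 6) ℂ, W = (Y.submatrix id Fin.revPerm).transpose :=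
      ⟨_, rfl⟩
    have hW0 : W.det ≠ 0 := by
      rw [hW, Matrix.det_transpose, Matrix.det_permute']
      exact mul_ne_zero (by simp) hd
    obtain ⟨t, ht⟩ := IsAlgClosed.exists_pow_nat_eq (W.det ^ 4)⁻¹ (n := 5) (by norm_num)
    obtain ⟨Z, hZ⟩ : ∃ Z : Matrix (Fin 6) (Fin 6) ℂ, Z.adjugate = W := by
      refine ⟨t • W.adjugate, ?_⟩
      rw [Matrix.adjugate_smul, Matrix.adjugate_adjugate _ (by simp), smul_smul, Fintype.card_fin]
      rw [show 6 - 1 = 5 from rfl, show 6 - 2 = 4 from rfl, ht, inv_mul_cancel₀ (pow_ne_zero _ hW0),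
        one_smul]
    have h2 : (aeval fun v : Var 6 6 => Z v.1 v.2 : P 6 6 →ₐ[ℂ] ℂ).comp (galeθ 6) = aeval y := by
      refine MvPolynomial.algHom_ext fun v => ?_
      have h3 := congrFun (congrFun (AlgHom.map_adjugate
        (aeval fun v : Var 6 6 => Z v.1 v.2 : P 6 6 →ₐ[ℂ] ℂ) (Xm 6)) (Fin.rev v.2)) v.1
      have h4 : (aeval fun v : Var 6 6 => Z v.1 v.2 : P 6 6 →ₐ[ℂ] ℂ).mapMatrix (Xm 6) = Z := by
        ext r k
        simp [Xm]
      rw [h4, hZ, AlgHom.mapMatrix_apply, Matrix.map_apply] at h3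
      rw [AlgHom.comp_apply, galeθ_X, aeval_X, h3]
      simp [hW, hY]
    have h5 := congrArg (fun φ : P 6 6 →ₐ[ℂ] ℂ => φ f) h2
    simp only [AlgHom.comp_apply, h, map_zero] at h5
    rw [← coe_aeval_eq_eval]
    exact h5.symm
  exact (mul_eq_zero.1 h1).resolve_right (det_Xm_ne_zero 6)

theorem gale_deg {a n c : ℕ} {f : P a n} (hf : ∀ i : Fin a, IsWeightedHomogeneous (blockWeight i) f c)
    {d : Var a n →₀ ℕ} (hd : d ∈ f.support) : d.sum (fun _ e => e) = a * c := by
  have h1 : ∑ i : Fin a, Finsupp.weight (blockWeight i) d = a * c := by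
    rw [Finset.sum_congr rfl fun i _ => hf i (mem_support_iff.1 hd)]
    simp
  rw [← h1]
  simp only [Finsupp.weight_apply, Finsupp.sum]
  rw [Finset.sum_comm]
  refine Finset.sum_congr rfl fun v _ => ?_
  simp [blockWeight]

theorem hwd_gale (c : ℕ) (l : Fin 6 → ℕ) :
    hwd 6 6 c l ≤ hwd 6 6 (5 * c) fun i => 6 * c - l (Fin.rev i) := by
  refine hwd_le_of_map (galeθ 6).toLinearMap (fun f hf => ?_) fun f _ h => gale_inj h
  obtain ⟨h1, h2, h3⟩ := mem_hw.1 hf
  obtain ⟨h4, h5⟩ := mem_blockSym.1 h1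
  refine mem_hw.2 ⟨mem_blockSym.2 ⟨fun s => ?_, fun σ => ?_⟩, ?_, fun i j hij => ?_⟩
  · refine gale_aeval_hom (fun v => gale_adj_hom (fun r => if r = s then 1 else 0) 0
      (fun r k => by simp [blockWeight]) _ _) fun d hd => ?_
    have k1 := gale_deg h4 (mem_support_iff.2 hd)
    have k2 := h4 s hd
    have k3 : Finsupp.weight (fun v : Var 6 6 => ∑ r ∈ Finset.univ.erase v.1, (if r = s then 1 else 0) +
        ∑ i ∈ Finset.univ.erase (Fin.rev v.2), (0 : Fin 6 → ℕ) i) d + Finsupp.weight (blockWeight s) d =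
        d.sum fun _ e => e := by
      simp only [Finsupp.weight_apply, Finsupp.sum]
      rw [← Finset.sum_add_distrib]
      refine Finset.sum_congr rfl fun v _ => ?_
      by_cases h : v.1 = s
      · simp [blockWeight, h]
      · simp [blockWeight, h, Ne.symm h]
    omega
  · show rename (blockPerm σ) (galeθ 6 f) = galeθ 6 f
    have k1 : (rename (blockPerm σ) : P 6 6 →ₐ[ℂ] P 6 6).comp (galeθ 6) =
        aeval fun v => (((Equiv.Perm.sign σ : ℤˣ) : ℤ) : P 6 6) * galeθ 6 (X (blockPerm σ v)) := by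
      refine MvPolynomial.algHom_ext fun v => ?_
      rw [AlgHom.comp_apply, galeθ_X, aeval_X, gale_rename_adj, galeθ_X]
      rfl
    have k2 : (aeval fun v => galeθ 6 (X (blockPerm σ v)) : P 6 6 →ₐ[ℂ] P 6 6) =
        (galeθ 6).comp (rename (blockPerm σ)) := by
      refine MvPolynomial.algHom_ext fun v => ?_
      rw [AlgHom.comp_apply, aeval_X, rename_X]
    have k3 : (((Equiv.Perm.sign σ : ℤˣ) : ℤ) : P 6 6) ^ (6 * c) = 1 := by
      rw [← Int.cast_pow, ← Units.val_pow_eq_pow_val, show 6 * c = 2 * (3 * c) by ring, pow_mul,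
        Int.units_sq]
      simp
    rw [← AlgHom.comp_apply, k1, gale_aeval_smul _ _ fun d hd => gale_deg h4 hd, k3, one_mul, k2,
      AlgHom.comp_apply, h5]
  · refine gale_aeval_hom (fun v => gale_adj_hom 0 (fun k => Pi.single k 1)
      (fun r k => by simp [colW]) _ _) fun d hd => ?_
    have k1 := gale_deg h4 (mem_support_iff.2 hd)
    have k2 := h2 hd
    funext i
    have k3 : Finsupp.weight (fun v : Var 6 6 => ∑ r ∈ Finset.univ.erase v.1, (0 : Fin 6 → Fin 6 → ℕ) r +
        ∑ k ∈ Finset.univ.erase (Fin.rev v.2), (Pi.single k 1 : Fin 6 → ℕ)) d i +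
        Finsupp.weight colW d (Fin.rev i) = d.sum fun _ e => e := by
      simp only [Finsupp.weight_apply, Finsupp.sum, Finset.sum_apply]
      rw [← Finset.sum_add_distrib]
      refine Finset.sum_congr rfl fun v _ => ?_
      by_cases h : v.2 = Fin.rev i
      · simp [colW, h, Pi.single_apply]
      · have h' : i ≠ Fin.rev v.2 := fun h2 => h (by rw [h2, Fin.rev_rev])
        simp [colW, Pi.single_apply, Ne.symm h, h']
    rw [k2, k1] at k3
    exact Nat.eq_sub_of_add_eq k3
  · show E 6 i j (galeθ 6 f) = 0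
    rw [gale_E hij.ne, h3 _ _ (Fin.rev_lt_rev.2 hij), map_zero, neg_zero]

end Crest.Agent.R187
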