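import Crest.Agent.R187.Orbit

/-!
# Multiplying highest weight vectors

* `hwd_mulS` (product in `Sym (Sym^m W)`): for `f ∈ blockSym b n m`, `g ∈ blockSym j n m` put
  `f * g := ∑_{σ ∈ S_{b+j}} σ (rename (castAdd on blocks) f * rename (natAdd on blocks) g)`.
  It lies in `blockSym (b+j) n m`, weights add, `E` is a derivation commuting with all these renamings,
  and `Phi (f * g) = (b+j)! Phi f · Phi g`, so `f ↦ f * g` is injective for `g ≠ 0` (`Phi_inj`, domain).
  Use `hwd_le_of_map`; `0 < hwd` gives `g ≠ 0` in `hw` (`Module.finrank_pos_iff`).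
* `hwd_mulA`: plain multiplication in `P a n`.
* `hwd_first_pos`: the vector `(∏_r x_{r,0})^r`.
* `hwd_rect_pos` is not needed here.
-/

set_option autoImplicit false

namespace Crest.Agent.R187

open MvPolynomial Crest.AlgebraR.FoulkesHowe

/-- relabelling of the blocks -/
def MulS_bm {a a' n : ℕ} (ρ : Fin a → Fin a') : Var a n → Var a' n := fun v => (ρ v.1, v.2)

theorem MulS_wh {σ τ M : Type*} [AddCommMonoid M] (e : σ → τ) (w : τ → M) {f : MvPolynomial σ ℂ}
    {d : M} (h : IsWeightedHomogeneous (w ∘ e) f d) : IsWeightedHomogeneous w (rename e f) d := by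
  rw [← f.support_sum_monomial_coeff, map_sum]
  refine IsWeightedHomogeneous.sum _ _ _ fun m hm => ?_
  rw [rename_monomial]
  refine isWeightedHomogeneous_monomial _ _ _ ?_
  rw [← h (mem_support_iff.1 hm), Finsupp.weight_apply, Finsupp.weight_apply,
    Finsupp.sum_mapDomain_index (by simp) (by simp [add_smul])]
  rfl

theorem MulS_wh_zero {σ : Type*} (f : MvPolynomial σ ℂ) :
    IsWeightedHomogeneous (fun _ : σ => (0 : ℕ)) f 0 := by
  intro m _
  simp [Finsupp.weight_apply]

theorem MulS_E {a a' n : ℕ} (ρ : Fin a → Fin a') (i j : Fin n) (f : P a n) :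
    E a' i j (rename (MulS_bm ρ) f) = rename (MulS_bm ρ) (E a i j f) := by
  induction f using MvPolynomial.induction_on with
  | C c => simp
  | add p q hp hq => simp [hp, hq]
  | mul_X p v hp =>
    rw [map_mul, Derivation.leibniz, Derivation.leibniz, hp, rename_X, E_X, E_X]
    by_cases h : v.2 = j <;> simp [MulS_bm, h]

theorem MulS_row {b j n : ℕ} (m : Var b n →₀ ℕ) (m' : Var j n →₀ ℕ) :
    (∀ r, row (m.mapDomain (MulS_bm (Fin.castAdd j)) + m'.mapDomain (MulS_bm (Fin.natAdd b)))
      (Fin.castAdd j r) = row m r) ∧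
    ∀ s, row (m.mapDomain (MulS_bm (Fin.castAdd j)) + m'.mapDomain (MulS_bm (Fin.natAdd b)))
      (Fin.natAdd b s) = row m' s := by
  have i1 : Function.Injective (MulS_bm (n := n) (Fin.castAdd j : Fin b → Fin (b + j))) := by
    intro v w e
    simp only [MulS_bm, Prod.mk.injEq] at e
    exact Prod.ext (Fin.castAdd_injective _ _ e.1) e.2
  have i2 : Function.Injective (MulS_bm (n := n) (Fin.natAdd b : Fin j → Fin (b + j))) := by
    intro v w e
    simp only [MulS_bm, Prod.mk.injEq] at e
    exact Prod.ext (Fin.natAdd_injective _ _ e.1) e.2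
  have ne : ∀ (r : Fin b) (s : Fin j), Fin.castAdd j r ≠ Fin.natAdd b s := by
    intro r s e
    have := congrArg Fin.val e
    simp at this
    omega
  constructor
  · intro r
    ext k
    have a1 := Finsupp.mapDomain_apply i1 m (r, k)
    have a2 : m'.mapDomain (MulS_bm (Fin.natAdd b)) (Fin.castAdd j r, k) = 0 := by
      apply Finsupp.mapDomain_of_notMem_range
      rintro ⟨v, hv⟩
      exact ne r v.1 (congrArg Prod.fst hv).symm
    simp only [row, fs_apply, Finsupp.add_apply, a2, add_zero]
    exact a1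
  · intro s
    ext k
    have a1 := Finsupp.mapDomain_apply i2 m' (s, k)
    have a2 : m.mapDomain (MulS_bm (Fin.castAdd j)) (Fin.natAdd b s, k) = 0 := by
      apply Finsupp.mapDomain_of_notMem_range
      rintro ⟨v, hv⟩
      exact ne v.1 s (congrArg Prod.fst hv)
    simp only [row, fs_apply, Finsupp.add_apply, a2, zero_add]
    exact a1

theorem MulS_Phi {b j n : ℕ} (f : P b n) (g : P j n) :
    Phi (b + j) n (rename (MulS_bm (Fin.castAdd j)) f * rename (MulS_bm (Fin.natAdd b)) g) =
      Phi b n f * Phi j n g := by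
  induction f using MvPolynomial.induction_on' with
  | add p q hp hq => simp only [map_add, add_mul, hp, hq]
  | monomial m c =>
    induction g using MvPolynomial.induction_on' with
    | add p q hp hq => simp only [map_add, mul_add, hp, hq]
    | monomial m' c' =>
      rw [rename_monomial, rename_monomial, monomial_mul, Phi_monomial, Phi_monomial, Phi_monomial,
        Fin.prod_univ_add, smul_mul_smul_comm]
      simp only [(MulS_row m m').1, (MulS_row m m').2]

theorem MulS_exists {a n m : ℕ} {l : Fin n → ℕ} (h : 0 < hwd a n m l) :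
    ∃ g ∈ hw (blockSym a n m) l, g ≠ 0 := by
  unfold hwd at h
  rw [Module.finrank_pos_iff] at h
  obtain ⟨g, hg⟩ := exists_ne (0 : hw (blockSym a n m) l)
  exact ⟨g.1, g.2, fun e => hg (Subtype.ext e)⟩

theorem hwd_mulS {n m b j : ℕ} {l ν : Fin n → ℕ} (h : 0 < hwd j n m ν) :
    hwd b n m l ≤ hwd (b + j) n m (l + ν) := by
  obtain ⟨g, hg, hg0⟩ := MulS_exists h
  obtain ⟨hg1, hg2, hg3⟩ := mem_hw.1 hg
  obtain ⟨hg4, hg5⟩ := mem_blockSym.1 hg1
  let φ : P b n →ₗ[ℂ] P (b + j) n :=
    ∑ σ : Equiv.Perm (Fin (b + j)), (rename (blockPerm σ)).toLinearMap ∘ₗ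
      (LinearMap.mulRight ℂ (rename (MulS_bm (Fin.natAdd b)) g)) ∘ₗ
        (rename (MulS_bm (Fin.castAdd j))).toLinearMap
  have hφ : ∀ f, φ f = ∑ σ : Equiv.Perm (Fin (b + j)), rename (blockPerm σ)
      (rename (MulS_bm (Fin.castAdd j)) f * rename (MulS_bm (Fin.natAdd b)) g) := by
    intro f
    simp [φ, LinearMap.sum_apply]
  refine hwd_le_of_map φ (fun f hf => ?_) (fun f hf h0 => ?_)
  · obtain ⟨hf1, hf2, hf3⟩ := mem_hw.1 hf
    obtain ⟨hf4, -⟩ := mem_blockSym.1 hf1
    have hblock : ∀ i : Fin (b + j), IsWeightedHomogeneous (blockWeight i)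
        (rename (MulS_bm (Fin.castAdd j)) f * rename (MulS_bm (Fin.natAdd b)) g : P (b + j) n) m := by
      intro i
      refine Fin.addCases (fun r => ?_) (fun s => ?_) i
      · have a1 : IsWeightedHomogeneous (blockWeight (Fin.castAdd j r))
            (rename (MulS_bm (Fin.castAdd j)) f : P (b + j) n) m := by
          refine MulS_wh _ _ ?_
          convert hf4 r using 1
          funext v
          simp [blockWeight, MulS_bm]
        have a2 : IsWeightedHomogeneous (blockWeight (Fin.castAdd j r))
            (rename (MulS_bm (Fin.natAdd b)) g : P (b + j) n) 0 := by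
          refine MulS_wh _ _ ?_
          convert MulS_wh_zero g using 1
          funext v
          have : Fin.natAdd b v.1 ≠ Fin.castAdd j r := by
            intro e
            have := congrArg Fin.val e
            simp at this
            omega
          simp [blockWeight, MulS_bm, this]
        simpa using a1.mul a2
      · have a1 : IsWeightedHomogeneous (blockWeight (Fin.natAdd b s))
            (rename (MulS_bm (Fin.castAdd j)) f : P (b + j) n) 0 := by
          refine MulS_wh _ _ ?_
          convert MulS_wh_zero f using 1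
          funext v
          have : Fin.castAdd j v.1 ≠ Fin.natAdd b s := by
            intro e
            have := congrArg Fin.val e
            simp at this
            omega
          simp [blockWeight, MulS_bm, this]
        have a2 : IsWeightedHomogeneous (blockWeight (Fin.natAdd b s))
            (rename (MulS_bm (Fin.natAdd b)) g : P (b + j) n) m := by
          refine MulS_wh _ _ ?_
          convert hg4 s using 1
          funext v
          simp [blockWeight, MulS_bm]
        simpa using a1.mul a2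
    rw [hφ]
    refine mem_hw.2 ⟨mem_blockSym.2 ⟨fun i => ?_, fun τ => ?_⟩, ?_, fun i k hik => ?_⟩
    · refine IsWeightedHomogeneous.sum _ _ _ fun σ _ => MulS_wh _ _ ?_
      convert hblock (σ.symm i) using 1
      funext v
      simp [blockWeight, blockPerm, Equiv.eq_symm_apply]
    · rw [map_sum]
      refine Fintype.sum_equiv (Equiv.mulLeft τ) _ _ fun σ => ?_
      rw [rename_rename]
      rfl
    · refine IsWeightedHomogeneous.sum _ _ _ fun σ _ => MulS_wh _ _ ?_
      exact (MulS_wh (MulS_bm (Fin.castAdd j)) colW hf2).mul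
        (MulS_wh (MulS_bm (Fin.natAdd b)) colW hg2)
    · rw [map_sum]
      refine Finset.sum_eq_zero fun σ _ => ?_
      rw [E_rename, Derivation.leibniz, MulS_E, MulS_E, hf3 i k hik, hg3 i k hik]
      simp
  · obtain ⟨hf1, -, -⟩ := mem_hw.1 hf
    obtain ⟨-, hf5⟩ := mem_blockSym.1 hf1
    have h1 := congrArg (Phi (b + j) n) h0
    rw [hφ, map_sum, map_zero] at h1
    simp only [Phi_rename, MulS_Phi, Finset.sum_const, nsmul_eq_mul, mul_eq_zero, Nat.cast_eq_zero,
      Finset.card_eq_zero] at h1
    rcases h1 with h1 | h1 | h1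
    · exact absurd h1 Finset.univ_nonempty.ne_empty
    · exact Phi_inj hf5 h1
    · exact absurd (Phi_inj hg5 h1) hg0

theorem hwd_mulA {a n c r : ℕ} {l ν : Fin n → ℕ} (h : 0 < hwd a n r ν) :
    hwd a n c l ≤ hwd a n (c + r) (l + ν) := by
  obtain ⟨g, hg, hg0⟩ := MulS_exists h
  obtain ⟨hg1, hg2, hg3⟩ := mem_hw.1 hg
  obtain ⟨hg4, hg5⟩ := mem_blockSym.1 hg1
  refine hwd_le_of_map (LinearMap.mulRight ℂ g) (fun f hf => ?_) (fun f _ h0 => ?_)
  · obtain ⟨hf1, hf2, hf3⟩ := mem_hw.1 hf
    obtain ⟨hf4, hf5⟩ := mem_blockSym.1 hf1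
    rw [LinearMap.mulRight_apply]
    refine mem_hw.2 ⟨mem_blockSym.2 ⟨fun i => (hf4 i).mul (hg4 i), fun τ => ?_⟩, hf2.mul hg2,
      fun i k hik => ?_⟩
    · rw [map_mul, hf5, hg5]
    · rw [Derivation.leibniz, hf3 i k hik, hg3 i k hik]
      simp
  · rw [LinearMap.mulRight_apply] at h0
    exact (mul_eq_zero.1 h0).resolve_right hg0

theorem hwd_first_pos (a n r : ℕ) : 0 < hwd a (n + 1) r (Pi.single 0 (a * r)) := by
  have hmem : ((∏ s : Fin a, X (s, 0)) ^ r : P a (n + 1)) ∈
      hw (blockSym a (n + 1) r) (Pi.single 0 (a * r)) := by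
    refine mem_hw.2 ⟨mem_blockSym.2 ⟨fun i => ?_, fun τ => ?_⟩, ?_, fun i k hik => ?_⟩
    · have h1 := (IsWeightedHomogeneous.prod (R := ℂ) (w := blockWeight i) Finset.univ
        (fun s : Fin a => (X (s, 0) : P a (n + 1))) (fun s => blockWeight i (s, (0 : Fin (n + 1))))
        (fun s _ => isWeightedHomogeneous_X ℂ _ _)).pow r
      simpa [blockWeight] using h1
    · rw [map_pow, map_prod]
      congr 1
      simp only [rename_X, blockPerm]
      exact Equiv.prod_comp τ (fun s : Fin a => (X (s, 0) : P a (n + 1)))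
    · have h1 := (IsWeightedHomogeneous.prod (R := ℂ) (w := colW) Finset.univ
        (fun s : Fin a => (X (s, 0) : P a (n + 1))) (fun s => colW (s, (0 : Fin (n + 1))))
        (fun s _ => isWeightedHomogeneous_X ℂ _ _)).pow r
      convert h1 using 1
      funext k
      by_cases hk : k = 0
      · subst hk; simp [colW, mul_comm]
      · simp [colW, hk]
    · have h0 : E a i k (∏ s : Fin a, X (s, 0) : P a (n + 1)) = 0 := by
        have : (0 : Fin (n + 1)) ≠ k := by
          intro e
          rw [← e] at hik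
          exact absurd hik (Fin.not_lt_zero i)
        refine Finset.prod_induction _ (fun f => E a i k f = 0) (fun f g hf hg => ?_) (by simp)
          (fun s _ => ?_)
        · rw [Derivation.leibniz, hf, hg]; simp
        · rw [E_X, if_neg this]
      rw [Derivation.leibniz_pow, h0]
      simp
  unfold hwd
  rw [Module.finrank_pos_iff]
  refine ⟨⟨_, hmem⟩, 0, fun e => ?_⟩
  have e' := congrArg Subtype.val e
  exact pow_ne_zero r (Finset.prod_ne_zero_iff.2 fun s _ => X_ne_zero _) e'

end Crest.Agent.R187
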