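import Crest.Agent.R187.Rec1
import Crest.Agent.R187.MulS
import Crest.Agent.R187.Det
import Crest.Agent.R187.Gale

/-!
# Row 187, part 2: anchors, stable comparison, trees

* `lbv_ok`: unfold with `bcase_eq`, `bcase_ble`, `ncase_sub`, `ncase_succ`; generalise the fields `fld y _ _`.
  If all tests pass, `l = l⁰ + ν` with `ν = ![6 j - (ν₂ + ⋯ + ν₆), ν₂, …, ν₆]` and
  `l⁰ = ![6 l0 + 10 - (x0 + a0 + b0 + c0 + d0), x0 - 4, a0 - 3, b0 - 2, c0 - 1, d0]`, both antitone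
  (`Fin.antitone_iff_succ_le`, `fin_cases`, `omega`) of sizes `6 j`, `6 l0`.  `posOK` gives `0 < hwd j 6 6 ν` (for `j = 0`
  `ν = 0`, `hwd_first_pos 0 5 6`), then `hwd_mulS`.
* `hwd_le_div`: `l = (l - t) + t`, `hwd_det_iter` (`l 5 ≤ n` since `6 * l 5 ≤ ∑ l`).
* `hwd_le_stable`: `hwd_le_div`, `hwd_mulA` with `hwd_first_pos 6 5 (700 - (n - t))`, `hwd_eq_tf`.
* `hwd_le_dual`: `hwd_gale`; the dual weight `μ i = 6 n - l (rev i)` is antitone of size `6 (5 n)`, `μ 5 = 6 n - l 0`, and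
  `μ 5 - 2 (μ 5 / 2) = l 0 % 2`; apply `hwd_le_stable`.
* `hwd_le_succ`: `hwd_mulS` with `hwd_first_pos r 5 6`.
-/

set_option autoImplicit false

namespace Crest.Agent.R187

/-- the weight with shifted coordinates `(x, a, b, c, d)` and size `6 j` -/
def Lb_w (j x a b c d : ℕ) : Fin 6 → ℕ :=
  ![6 * j + 10 - (x + a + b + c + d), x - 4, a - 3, b - 2, c - 1, d]

theorem Lb_anti {l : Fin 6 → ℕ} (h0 : l 1 ≤ l 0) (h1 : l 2 ≤ l 1) (h2 : l 3 ≤ l 2) (h3 : l 4 ≤ l 3)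
    (h4 : l 5 ≤ l 4) : Antitone l := by
  rw [Fin.antitone_iff_succ_le]
  intro i
  fin_cases i
  exacts [h0, h1, h2, h3, h4]

theorem Lb_of_anti {l : Fin 6 → ℕ} (hl : Antitone l) :
    l 1 ≤ l 0 ∧ l 2 ≤ l 1 ∧ l 3 ≤ l 2 ∧ l 4 ≤ l 3 ∧ l 5 ≤ l 4 :=
  ⟨hl (by decide), hl (by decide), hl (by decide), hl (by decide), hl (by decide)⟩

theorem Lb_ext {l l' : Fin 6 → ℕ} (h0 : l 0 = l' 0) (h1 : l 1 = l' 1) (h2 : l 2 = l' 2)
    (h3 : l 3 = l' 3) (h4 : l 4 = l' 4) (h5 : l 5 = l' 5) : l = l' := by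
  funext i
  fin_cases i
  exacts [h0, h1, h2, h3, h4, h5]

theorem Lb_tab {T : Tab} (hT : TabOK T) {j x a b c d : ℕ} (h1 : d < c) (h2 : c < b) (h3 : b < a)
    (h4 : a < x) (h5 : x + x + a + b + c + d < 6 * j + 15) :
    T j x a b c d ≤ hwd j 6 6 (Lb_w j x a b c d) := by
  have h := hT j (Lb_w j x a b c d)
    (Lb_anti (show x - 4 ≤ 6 * j + 10 - (x + a + b + c + d) by omega) (show a - 3 ≤ x - 4 by omega)
      (show b - 2 ≤ a - 3 by omega) (show c - 1 ≤ b - 2 by omega) (show d ≤ c - 1 by omega))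
    (by
      rw [Fin.sum_univ_six]
      show 6 * j + 10 - (x + a + b + c + d) + (x - 4) + (a - 3) + (b - 2) + (c - 1) + d = 6 * j
      omega)
  have e1 : Lb_w j x a b c d 1 + 4 = x := show x - 4 + 4 = x by omega
  have e2 : Lb_w j x a b c d 2 + 3 = a := show a - 3 + 3 = a by omega
  have e3 : Lb_w j x a b c d 3 + 2 = b := show b - 2 + 2 = b by omega
  have e4 : Lb_w j x a b c d 4 + 1 = c := show c - 1 + 1 = c by omega
  have e5 : Lb_w j x a b c d 5 = d := rfl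
  rwa [e1, e2, e3, e4, e5] at h

theorem Lb_pos {T : ℕ → Tab} (hT : ∀ i, TabOK (T i)) {j x a b c d : ℕ}
    (h : (bcaseB% Nat.ble c d, false, bcaseB% Nat.ble b c, false, bcaseB% Nat.ble a b, false,
      bcaseB% Nat.ble x a, false, bcaseB% Nat.ble (6 * j + 15) (x + x + a + b + c + d), false,
        ncaseB% j, true, fun _ _ =>
          Nat.ble 1 (T 0 j x a b c d + T 1 j x a b c d + T 2 j x a b c d)) = true) :
    x + x + a + b + c + d < 6 * j + 15 ∧ 0 < hwd j 6 6 (Lb_w j x a b c d) := by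
  rw [bcase_ble, bcase_ble, bcase_ble, bcase_ble, bcase_ble] at h
  split_ifs at h with h1 h2 h3 h4 h5
  refine ⟨by omega, ?_⟩
  cases j with
  | zero =>
    have e : Lb_w 0 x a b c d = Pi.single 0 (0 * 6) :=
      Lb_ext (show 6 * 0 + 10 - (x + a + b + c + d) = 0 by omega) (show x - 4 = 0 by omega)
        (show a - 3 = 0 by omega) (show b - 2 = 0 by omega) (show c - 1 = 0 by omega)
        (show d = 0 by omega)
    rw [e]
    exact hwd_first_pos 0 5 6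
  | succ j =>
    have h6 : 1 ≤ T 0 (j + 1) x a b c d + T 1 (j + 1) x a b c d + T 2 (j + 1) x a b c d :=
      Nat.le_of_ble_eq_true h
    have h7 := fun i => Lb_tab (hT i) (j := j + 1) (not_le.1 h1) (not_le.1 h2) (not_le.1 h3)
      (not_le.1 h4) (not_le.1 h5)
    have := h7 0
    have := h7 1
    have := h7 2
    omega

theorem lbv_ok {T : ℕ → Tab} (hT : ∀ i, TabOK (T i)) (y : ℕ) {n : ℕ} {l : Fin 6 → ℕ} (hl : Antitone l)
    (hs : ∑ i, l i = 6 * n) : lbv T y n (l 1 + 4) (l 2 + 3) (l 3 + 2) (l 4 + 1) (l 5) ≤ hwd n 6 6 l := by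
  unfold lbv
  rw [bcase_eq]
  split_ifs with hp
  swap
  · exact Nat.zero_le _
  obtain ⟨p1, p2⟩ := Lb_pos hT (j := fld y 7 32) (x := fld y 12 128 + 4) (a := fld y 19 64 + 3)
    (b := fld y 25 64 + 2) (c := fld y 31 32 + 1) (d := fld y 36 16) hp
  generalize fld y 7 32 = j, fld y 12 128 = n2, fld y 19 64 = n3, fld y 25 64 = n4,
    fld y 31 32 = n5, fld y 36 16 = n6, fld y 5 4 = i at p1 p2 ⊢
  rw [ncase_sub]
  split_ifs with q0
  swap
  · exact Nat.zero_le _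
  rw [ncase_sub]
  split_ifs with q1
  swap
  · exact Nat.zero_le _
  rw [ncase_sub]
  split_ifs with q2
  swap
  · exact Nat.zero_le _
  rw [ncase_sub]
  split_ifs with q3
  swap
  · exact Nat.zero_le _
  rw [ncase_sub]
  split_ifs with q4
  swap
  · exact Nat.zero_le _
  rw [ncase_sub]
  split_ifs with q5
  swap
  · exact Nat.zero_le _
  rw [bcase_ble, bcase_ble, bcase_ble, bcase_ble, bcase_ble]
  simp only [Nat.add_eq, Nat.mul_eq]
  split_ifs with h1 h2 h3 h4 h5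
  iterate 5 exact Nat.zero_le _
  rw [Fin.sum_univ_six] at hs
  refine (Lb_tab (hT i) (not_le.1 h1) (not_le.1 h2) (not_le.1 h3) (not_le.1 h4)
    (not_le.1 h5)).trans ((hwd_mulS p2).trans (le_of_eq ?_))
  congr 1
  · omega
  · refine Lb_ext ?_ ?_ ?_ ?_ ?_ ?_ <;>
      simp only [Pi.add_apply, Lb_w, Matrix.cons_val] <;> omega

theorem hwd_le_div {n t : ℕ} {l : Fin 6 → ℕ} (hl : Antitone l) (hs : ∑ i, l i = 6 * n) (ht : 2 * t ≤ l 5) :
    2 * t ≤ n ∧ Antitone (fun i => l i - 2 * t) ∧ ∑ i, (l i - 2 * t) = 6 * (n - 2 * t) ∧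
      hwd 6 6 n l ≤ hwd 6 6 (n - 2 * t) fun i => l i - 2 * t := by
  obtain ⟨a0, a1, a2, a3, a4⟩ := Lb_of_anti hl
  have hs' := hs
  rw [Fin.sum_univ_six] at hs'
  have h1 : 2 * t ≤ n := by omega
  refine ⟨h1, fun i j hij => Nat.sub_le_sub_right (hl hij) _, by rw [Fin.sum_univ_six]; omega, ?_⟩
  have h := hwd_det_iter (a := 5) (c := n - 2 * t) (t := t) fun i => l i - 2 * t
  have e : (fun i => l i - 2 * t + 2 * t) = l := by
    funext i
    have : l 5 ≤ l i := hl (Fin.le_last i)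
    omega
  rwa [e, Nat.sub_add_cancel h1] at h

theorem Lb_stable {n : ℕ} {l : Fin 6 → ℕ} (hl : Antitone l) (hs : ∑ i, l i = 6 * n)
    (hn : n ≤ 700) : (hwd 6 6 n l : ℤ) ≤
      tf 700 6 (l 1 + 4) (l 2 + 3) (l 3 + 2) (l 4 + 1) (l 5) := by
  obtain ⟨a0, a1, a2, a3, a4⟩ := Lb_of_anti hl
  have h := hwd_mulA (c := n) (l := l) (hwd_first_pos 6 5 (700 - n))
  rw [Nat.add_sub_cancel' hn] at h
  set l' : Fin 6 → ℕ := l + Pi.single 0 (6 * (700 - n)) with hl'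
  have e0 : l' 0 = l 0 + 6 * (700 - n) := by simp [hl']
  have e : ∀ i, i ≠ 0 → l' i = l i := fun i hi => by simp [hl', hi]
  have e1 := e 1 (by decide)
  have e2 := e 2 (by decide)
  have e3 := e 3 (by decide)
  have e4 := e 4 (by decide)
  have e5 := e 5 (by decide)
  have h2 := hwd_eq_tf (j := 6) (m := 700) (l := l')
    (Lb_anti (by omega) (by omega) (by omega) (by omega) (by omega))
    (by rw [Fin.sum_univ_six] at hs ⊢; omega)
  rw [e1, e2, e3, e4, e5] at h2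
  rw [← h2]
  exact_mod_cast h

theorem hwd_le_stable {n t : ℕ} {l : Fin 6 → ℕ} (hl : Antitone l) (hs : ∑ i, l i = 6 * n) (hn : n ≤ 700)
    (ht : 2 * t ≤ l 5) : (hwd 6 6 n l : ℤ) ≤
      tf 700 6 (l 1 + 4 - 2 * t) (l 2 + 3 - 2 * t) (l 3 + 2 - 2 * t) (l 4 + 1 - 2 * t) (l 5 - 2 * t) := by
  obtain ⟨a0, a1, a2, a3, a4⟩ := Lb_of_anti hl
  obtain ⟨h1, h2, h3, h4⟩ := hwd_le_div hl hs ht
  have h := Lb_stable h2 h3 (by omega)
  rw [show l 1 + 4 - 2 * t = l 1 - 2 * t + 4 by omega, show l 2 + 3 - 2 * t = l 2 - 2 * t + 3 by omega,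
    show l 3 + 2 - 2 * t = l 3 - 2 * t + 2 by omega, show l 4 + 1 - 2 * t = l 4 - 2 * t + 1 by omega]
  exact le_trans (by exact_mod_cast h4) h

theorem hwd_le_dual {n : ℕ} {l : Fin 6 → ℕ} (hl : Antitone l) (hs : ∑ i, l i = 6 * n) (hn : n ≤ 140) :
    (hwd 6 6 n l : ℤ) ≤ tf 700 6 (l 0 - l 4 + l 0 % 2 + 4) (l 0 - l 3 + l 0 % 2 + 3) (l 0 - l 2 + l 0 % 2 + 2)
      (l 0 - l 1 + l 0 % 2 + 1) (l 0 % 2) := by
  obtain ⟨a0, a1, a2, a3, a4⟩ := Lb_of_anti hl
  rw [Fin.sum_univ_six] at hs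
  have h := hwd_gale n l
  set μ : Fin 6 → ℕ := fun i => 6 * n - l (Fin.rev i) with hμ
  have e0 : μ 0 = 6 * n - l 5 := rfl
  have e1 : μ 1 = 6 * n - l 4 := rfl
  have e2 : μ 2 = 6 * n - l 3 := rfl
  have e3 : μ 3 = 6 * n - l 2 := rfl
  have e4 : μ 4 = 6 * n - l 1 := rfl
  have e5 : μ 5 = 6 * n - l 0 := rfl
  have h2 := hwd_le_stable (n := 5 * n) (t := μ 5 / 2) (l := μ)
    (Lb_anti (by omega) (by omega) (by omega) (by omega) (by omega))
    (by rw [Fin.sum_univ_six]; omega) (by omega) (by omega)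
  rw [show μ 1 + 4 - 2 * (μ 5 / 2) = l 0 - l 4 + l 0 % 2 + 4 by omega,
    show μ 2 + 3 - 2 * (μ 5 / 2) = l 0 - l 3 + l 0 % 2 + 3 by omega,
    show μ 3 + 2 - 2 * (μ 5 / 2) = l 0 - l 2 + l 0 % 2 + 2 by omega,
    show μ 4 + 1 - 2 * (μ 5 / 2) = l 0 - l 1 + l 0 % 2 + 1 by omega,
    show μ 5 - 2 * (μ 5 / 2) = l 0 % 2 by omega] at h2
  exact le_trans (by exact_mod_cast h) h2

/-- adding to the first row increases the multiplicity in `Sym^n (Sym^6)` -/
theorem hwd_le_succ {n r : ℕ} {l l' : Fin 6 → ℕ} (h0 : l' 0 = l 0 + 6 * r) (h : ∀ i, i ≠ 0 → l' i = l i) :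
    hwd n 6 6 l ≤ hwd (n + r) 6 6 l' := by
  have e : l' = l + Pi.single 0 (r * 6) := by
    funext i
    by_cases hi : i = 0
    · subst hi
      simp [h0, mul_comm]
    · simp [h i hi, hi]
  rw [e]
  exact hwd_mulS (hwd_first_pos r 5 6)

theorem Lb_all_get {f : ℕ → Bool} {t : BT} (h : t.all f = true) (k : ℕ) : f (t.get k) = true := by
  induction t with
  | lf y => exact h
  | nd p l r ihl ihr =>
    have h' : (bcaseB% l.all f, r.all f, false) = true := h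
    rw [bcase_eq] at h'
    split_ifs at h' with h1
    show f (bcase% Nat.ble k p, l.get k, r.get k) = true
    rw [bcase_eq]
    split_ifs
    exacts [ihl h1, ihr h']

theorem Lb_leaf (f : ℕ → ℕ → ℕ → ℕ → ℕ → ℕ → ℕ → Bool) (y : ℕ) :
    leaf f y = f (Nat.shiftRight y 40) (fld y 31 32) (fld y 24 128) (fld y 18 64) (fld y 12 64)
      (fld y 6 64) (fld y 0 64) := rfl

theorem treeOK_of_all {f : ℕ → ℕ → ℕ → ℕ → ℕ → ℕ → ℕ → Bool}
    (hf : ∀ co l x a b c d, l < 32 → f co l x a b c d = true → GoodAt l x a b c d) {t : BT}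
    (h : t.all (leaf f) = true) : TreeOK t := by
  intro k
  have h1 := Lb_all_get h k
  rw [Lb_leaf] at h1
  exact hf _ _ _ _ _ _ _ (Nat.mod_lt _ (by norm_num)) h1

theorem treeOK_zero : TreeOK (.lf 0) := by
  intro k l _ _ h1
  have h2 : l 1 + 4 = fld 0 24 128 := h1
  have h3 : fld 0 24 128 = 0 := by decide
  omega

theorem tchk_ok {dir : BT} {TT : ℕ → BT} (hT : ∀ i, TreeOK (TT i)) {x a b c d l : ℕ}
    (h : tchk dir TT x a b c d l = true) : GoodAt l x a b c d := by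
  have h1 : leaf (fun _ l' x' a' b' c' d' => bcaseB% Nat.beq l l', (bcaseB% Nat.beq x x',
      (bcaseB% Nat.beq a a', (bcaseB% Nat.beq b b', (bcaseB% Nat.beq c c', Nat.beq d d', false),
        false), false), false), false)
      ((TT (dir.get (pkey l x a b c d))).get (pkey l x a b c d)) = true := h
  rw [Lb_leaf, bcase_beq, bcase_beq, bcase_beq, bcase_beq, bcase_beq] at h1
  have h2 := hT (dir.get (pkey l x a b c d)) (pkey l x a b c d)
  generalize (TT (dir.get (pkey l x a b c d))).get (pkey l x a b c d) = y at h1 h2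
  split_ifs at h1 with e1 e2 e3 e4 e5
  rw [e1, e2, e3, e4, e5, Nat.eq_of_beq_eq_true h1]
  exact h2

end Crest.Agent.R187
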