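import Crest.Agent.R187.EngK
import Crest.Agent.R187.EngU
import Crest.Agent.R187.Lb

/-!
# Row 187, part 2: the `A` engine and the two kinds of jobs

* `A6_rep`: `Aj g XR` is a `TRep` for `j! * tf m j`, for `j = 1, …, 6` in turn (`B0_rep`, `tf_zero`, `RK_rep`, `Rep.add`,
  `Rep.smul`, `Rep.mask`, `c6_smul`, `tf_newton` with `Finset.sum_range_succ`; `AntiS (n * tf)` from `tf_anti`).
  The digit bounds are at most `326 < 2^9` and `3 (m + 1) < 2^9`.
* `jobA_ok`: for `l` as in `GoodAt`, `t = d / 2`: `hwd_le_div`, `hwd_eq_tf` for `l - 2t`, so `0 ≤ 720 tf < 2^v` (`tf_bound`, `hb`),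
  the digit (`dig_dig`) is congruent to it mod `2^v`, hence at least `720 * hwd`; finish with `lbv_ok`.
* `jobD_ok`: `z = l 0 + 5`; `hwd_le_dual`, `ubLe_ok`, `lbv_ok`.
-/

set_option autoImplicit false

namespace Crest.Agent.R187

theorem Jobs_lt {g : Cfg} (hw : g.v + 9 ≤ g.w) {N : ℕ} (hN : N < 512) : N * 2 ^ g.v < 2 ^ g.w := by
  calc N * 2 ^ g.v < 512 * 2 ^ g.v := Nat.mul_lt_mul_of_pos_right hN (by positivity)
    _ = 2 ^ (g.v + 9) := by rw [pow_add]; ring
    _ ≤ 2 ^ g.w := Nat.pow_le_pow_right (by norm_num) hw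

theorem Jobs_RK {g : Cfg} {XR F : F3} (hw : g.v + 9 ≤ g.w) (hm : g.m ≤ 100) (hX : XAnti XR)
    (hM : ∀ b c d, XR b c d ≤ g.XM) {n : ℤ} {j : ℕ}
    (hF : TRep g XR F fun x a b c d => n * tf g.m j x a b c d) (k : ℕ) (hk : 1 ≤ k) {b c d : ℕ}
    (h1 : c < b) (h2 : d < c) :
    Rep g 1 (RK g XR F k b c d) (XR b c d) fun x a => n * c6 (tf g.m j) k g.m x a b c d := by
  have hA : AntiS fun x a b c d => n * tf g.m j x a b c d := by
    refine ⟨fun x a b c d => ?_, fun x a b c d => ?_⟩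
    · simp only [(tf_anti g.m j).1 x a b c d, mul_neg]
    · simp only [(tf_anti g.m j).2 x a b c d, mul_neg]
  exact (RK_rep (Jobs_lt hw (by omega)) hX hM hk hA hF b c d h1 h2).mono le_rfl le_rfl
    fun x _ a _ => c6_smul n _ k g.m x a b c d

theorem A6_rep {g : Cfg} {XR : F3} (hw : g.v + 9 ≤ g.w) (hm : g.m ≤ 100) (hL : 6 ≤ g.L) (hX : XAnti XR)
    (hM : ∀ b c d, XR b c d ≤ g.XM) : TRep g XR (A6 g XR) fun x a b c d => 720 * tf g.m 6 x a b c d := by
  have hv : g.v < g.w := by omega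
  have L : ∀ N : ℕ, N < 512 → N * 2 ^ g.v < 2 ^ g.w := fun N hN => Jobs_lt hw hN
  have h0 : TRep g XR (B0 g) fun x a b c d => 1 * tf g.m 0 x a b c d := by
    simp only [tf_zero, one_mul]
    exact B0_rep XR hv hL
  have h1 : TRep g XR (A1 g XR) fun x a b c d => 1 * tf g.m 1 x a b c d := by
    intro b c d p q
    refine (Jobs_RK hw hm hX hM h0 1 le_rfl p q).mono le_rfl le_rfl fun x _ a _ => ?_
    have := tf_newton g.m 1 x a b c d
    simp only [Finset.sum_range_succ, Finset.sum_range_zero] at this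
    push_cast at this ⊢
    linarith
  have h2 : TRep g XR (A2 g XR) fun x a b c d => 2 * tf g.m 2 x a b c d := by
    intro b c d p q
    refine ((Rep.add (L _ (by norm_num)) (Jobs_RK hw hm hX hM h1 1 le_rfl p q)
      (Jobs_RK hw hm hX hM h0 2 (by norm_num) p q)).mask hv).mono le_rfl le_rfl fun x _ a _ => ?_
    have := tf_newton g.m 2 x a b c d
    simp only [Finset.sum_range_succ, Finset.sum_range_zero] at this
    push_cast at this ⊢
    linarith
  have h3 : TRep g XR (A3 g XR) fun x a b c d => 6 * tf g.m 3 x a b c d := by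
    intro b c d p q
    refine ((Rep.add (L _ (by norm_num)) (Jobs_RK hw hm hX hM h2 1 le_rfl p q)
      (Rep.smul 2 (L _ (by norm_num)) (Rep.add (L _ (by norm_num))
        (Jobs_RK hw hm hX hM h1 2 (by norm_num) p q)
        (Jobs_RK hw hm hX hM h0 3 (by norm_num) p q)))).mask hv).mono le_rfl le_rfl fun x _ a _ => ?_
    have := tf_newton g.m 3 x a b c d
    simp only [Finset.sum_range_succ, Finset.sum_range_zero] at this
    push_cast at this ⊢
    linarith
  have h4 : TRep g XR (A4 g XR) fun x a b c d => 24 * tf g.m 4 x a b c d := by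
    intro b c d p q
    refine ((Rep.add (L _ (by norm_num)) (Jobs_RK hw hm hX hM h3 1 le_rfl p q)
      (Rep.smul 3 (L _ (by norm_num)) (Rep.add (L _ (by norm_num))
        (Jobs_RK hw hm hX hM h2 2 (by norm_num) p q)
        (Rep.smul 2 (L _ (by norm_num)) (Rep.add (L _ (by norm_num))
          (Jobs_RK hw hm hX hM h1 3 (by norm_num) p q)
          (Jobs_RK hw hm hX hM h0 4 (by norm_num) p q)))))).mask hv).mono le_rfl le_rfl
            fun x _ a _ => ?_
    have := tf_newton g.m 4 x a b c d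
    simp only [Finset.sum_range_succ, Finset.sum_range_zero] at this
    push_cast at this ⊢
    linarith
  have h5 : TRep g XR (A5 g XR) fun x a b c d => 120 * tf g.m 5 x a b c d := by
    intro b c d p q
    refine ((Rep.add (L _ (by norm_num)) (Jobs_RK hw hm hX hM h4 1 le_rfl p q)
      (Rep.smul 4 (L _ (by norm_num)) (Rep.add (L _ (by norm_num))
        (Jobs_RK hw hm hX hM h3 2 (by norm_num) p q)
        (Rep.smul 3 (L _ (by norm_num)) (Rep.add (L _ (by norm_num))
          (Jobs_RK hw hm hX hM h2 3 (by norm_num) p q)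
          (Rep.smul 2 (L _ (by norm_num)) (Rep.add (L _ (by norm_num))
            (Jobs_RK hw hm hX hM h1 4 (by norm_num) p q)
            (Jobs_RK hw hm hX hM h0 5 (by norm_num) p q)))))))).mask hv).mono le_rfl le_rfl
              fun x _ a _ => ?_
    have := tf_newton g.m 5 x a b c d
    simp only [Finset.sum_range_succ, Finset.sum_range_zero] at this
    push_cast at this ⊢
    linarith
  intro b c d p q
  refine ((Rep.add (L _ (by norm_num)) (Jobs_RK hw hm hX hM h5 1 le_rfl p q)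
    (Rep.smul 5 (L _ (by norm_num)) (Rep.add (L _ (by norm_num))
      (Jobs_RK hw hm hX hM h4 2 (by norm_num) p q)
      (Rep.smul 4 (L _ (by norm_num)) (Rep.add (L _ (by norm_num))
        (Jobs_RK hw hm hX hM h3 3 (by norm_num) p q)
        (Rep.smul 3 (L _ (by norm_num)) (Rep.add (L _ (by norm_num))
          (Jobs_RK hw hm hX hM h2 4 (by norm_num) p q)
          (Rep.smul 2 (L _ (by norm_num)) (Rep.add (L _ (by norm_num))
            (Jobs_RK hw hm hX hM h1 5 (by norm_num) p q)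
            (Jobs_RK hw hm hX hM h0 6 (by norm_num) p q)))))))))).mask hv).mono le_rfl le_rfl
              fun x _ a _ => ?_
  have := tf_newton g.m 6 x a b c d
  simp only [Finset.sum_range_succ, Finset.sum_range_zero] at this
  push_cast at this ⊢
  linarith

theorem jobA_ok {g : Cfg} {XR : F3} {T : ℕ → Tab} (hw : g.v + 9 ≤ g.w) (hm : g.m ≤ 100) (hL : 6 ≤ g.L)
    (hX : XAnti XR) (hM : ∀ b c d, XR b c d ≤ g.XM) (hb : ((g.m + 5).choose 5 + 5) ^ 6 < 2 ^ g.v)
    (hT : ∀ i, TabOK (T i)) (co l x a b c d : ℕ) (_hl : l < 32) (h : jobA g XR T co l x a b c d = true) :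
    GoodAt l x a b c d := by
  have h' : (bcaseB% Nat.beq l (g.m + 2 * (d / 2)),
      (bcaseB% Nat.ble (XR (b - 2 * (d / 2)) (c - 2 * (d / 2)) (d - 2 * (d / 2))) (x - 2 * (d / 2)), false,
        bcaseB% Nat.ble g.L (a - 2 * (d / 2)), false,
          Nat.ble (dig g.w (dig (g.w * g.L)
            (A6 g XR (b - 2 * (d / 2)) (c - 2 * (d / 2)) (d - 2 * (d / 2))) (x - 2 * (d / 2)))
              (a - 2 * (d / 2))) (720 * lbv T co l x a b c d)), false) = true := h
  rw [bcase_beq, bcase_ble, bcase_ble] at h'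
  split_ifs at h' with e1 e2 e3
  rw [Nat.ble_eq, dig_dig _ _ _ _ (not_le.1 e3)] at h'
  intro ν hν hs h1 h2 h3 h4 h5
  obtain ⟨-, hanti, hsum, hle⟩ := hwd_le_div (t := d / 2) hν hs (by omega)
  have hm' : l - 2 * (d / 2) = g.m := by omega
  rw [hm'] at hsum hle
  have htf := hwd_eq_tf (j := 6) (m := g.m) hanti hsum
  have i45 : ν 5 ≤ ν 4 := hν (by decide)
  have i34 : ν 4 ≤ ν 3 := hν (by decide)
  have i23 : ν 3 ≤ ν 2 := hν (by decide)
  have i12 : ν 2 ≤ ν 1 := hν (by decide)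
  have k1 : ν 1 - 2 * (d / 2) + 4 = x - 2 * (d / 2) := by omega
  have k2 : ν 2 - 2 * (d / 2) + 3 = a - 2 * (d / 2) := by omega
  have k3 : ν 3 - 2 * (d / 2) + 2 = b - 2 * (d / 2) := by omega
  have k4 : ν 4 - 2 * (d / 2) + 1 = c - 2 * (d / 2) := by omega
  simp only [k1, k2, k3, k4, h5] at htf
  have hrep := (A6_rep hw hm hL hX hM (b - 2 * (d / 2)) (c - 2 * (d / 2)) (d - 2 * (d / 2))
    (by omega) (by omega) _ (not_le.1 e2) _ (not_le.1 e3)).2
  have hbd := tf_bound g.m (x - 2 * (d / 2)) (a - 2 * (d / 2)) (b - 2 * (d / 2)) (c - 2 * (d / 2))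
    (d - 2 * (d / 2))
  simp only at hrep
  rw [← htf] at hrep hbd
  have hlb := lbv_ok hT co hν hs
  rw [h1, h2, h3, h4, h5] at hlb
  generalize hwd 6 6 g.m (fun i => ν i - 2 * (d / 2)) = W at hrep hbd hle
  generalize dig g.w _ _ = D at hrep h'
  have hW : 720 * W < 2 ^ g.v := by
    rw [abs_of_nonneg (by positivity)] at hbd
    have : 720 * W ≤ ((g.m + 5).choose 5 + 5) ^ 6 := by exact_mod_cast hbd
    omega
  have hmod : D ≡ 720 * W [MOD 2 ^ g.v] := by
    rw [← Int.natCast_modEq_iff]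
    push_cast
    exact hrep
  have hD : 720 * W ≤ D := by
    unfold Nat.ModEq at hmod
    rw [Nat.mod_eq_of_lt hW] at hmod
    rw [← hmod]
    exact Nat.mod_le _ _
  omega

theorem jobD_ok {g : Cfg} {XR : F3} {T : ℕ → Tab} (hw : 1 ≤ g.w) (hT : ∀ i, TabOK (T i))
    (co l x a b c d : ℕ) (hl : l < 32) (h : jobD g XR T co l x a b c d = true) : GoodAt l x a b c d := by
  have h' : ubLe g XR
      (6 * l + 15 - (x + a + b + c + d) + (6 * l + 15 - (x + a + b + c + d) + 1) % 2 - c)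
      (6 * l + 15 - (x + a + b + c + d) + (6 * l + 15 - (x + a + b + c + d) + 1) % 2 - b)
      (6 * l + 15 - (x + a + b + c + d) + (6 * l + 15 - (x + a + b + c + d) + 1) % 2 - a)
      (6 * l + 15 - (x + a + b + c + d) + (6 * l + 15 - (x + a + b + c + d) + 1) % 2 - x)
      ((6 * l + 15 - (x + a + b + c + d) + 1) % 2) (lbv T co l x a b c d) = true := h
  have hub := ubLe_ok hw h'
  intro ν hν hs h1 h2 h3 h4 h5
  have hd := hwd_le_dual hν hs (by omega)
  have hlb := lbv_ok hT co hν hs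
  rw [h1, h2, h3, h4, h5] at hlb
  have i34 : ν 4 ≤ ν 3 := hν (by decide)
  have i23 : ν 3 ≤ ν 2 := hν (by decide)
  have i12 : ν 2 ≤ ν 1 := hν (by decide)
  have i01 : ν 1 ≤ ν 0 := hν (by decide)
  have hz : 6 * l + 15 - (x + a + b + c + d) = ν 0 + 5 := by
    rw [Fin.sum_univ_six] at hs
    omega
  have hp : (ν 0 + 5 + 1) % 2 = ν 0 % 2 := by omega
  rw [hz, hp] at hub
  have k1 : ν 0 + 5 + ν 0 % 2 - c = ν 0 - ν 4 + ν 0 % 2 + 4 := by omega
  have k2 : ν 0 + 5 + ν 0 % 2 - b = ν 0 - ν 3 + ν 0 % 2 + 3 := by omega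
  have k3 : ν 0 + 5 + ν 0 % 2 - a = ν 0 - ν 2 + ν 0 % 2 + 2 := by omega
  have k4 : ν 0 + 5 + ν 0 % 2 - x = ν 0 - ν 1 + ν 0 % 2 + 1 := by omega
  rw [k1, k2, k3, k4] at hub
  have := hd.trans hub
  have h6 : hwd 6 6 l ν ≤ lbv T co l x a b c d := by exact_mod_cast this
  exact h6.trans hlb

end Crest.Agent.R187
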