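import Crest.Agent.R187.EngU
import Crest.Agent.R187.Lb

/-!
# Row 187, part 2: the main loop

* `chkMa_ok`: let `n ∈ [7, lm]` and `l` as in `GoodAt n`.  Since `l 0 ≥ l 1`, `l0 ≤ n` (`l0` as in `chkMa`).  If `n < l0 + y % 32`
  use `allR_sound` and `tchk_ok`.  Otherwise `n₁ = l0 + y % 32 ≤ n ≤ lm`; let `l₁` be `l` with `6 (n - n₁)` removed from the
  first row (`Function.update`; antitone because `n₁ ≥ l0`), then
  `hwd 6 6 n l ≤ tf 700 6 … ≤ lbv … ≤ hwd n₁ 6 6 l₁ ≤ hwd n 6 6 l` by `hwd_le_stable`, `ubLe_ok`, `lbv_ok`, `hwd_le_succ`.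
* `chkMc_ok`: a weight `l` of size `6 n` with `s = l 5 / 2 < 6` has its primed coordinates in the ranges of the four loops
  (`omega` from `l 0 ≥ l 1 ≥ ⋯ ≥ l 5`, `∑ l = 6 n ≤ 6 lm`).
* `foulkes_of_checks`: strong induction on `n`; `n = 6` is trivial; if `n ≥ 12` and `l 5 ≥ 6` then
  `hwd 6 6 n l ≤ hwd 6 6 (n-6) (l-6) ≤ hwd (n-6) 6 6 (l-6) ≤ hwd n 6 6 l` by `hwd_le_div` (`t = 3`), induction and `hwd_mulS`
  with `ν = (6, …, 6)` (`h6` and `hT 0`); otherwise `chkMc_ok`.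
-/

set_option autoImplicit false

namespace Crest.Agent.R187

theorem Main_chkMa {M : MC} {t lm b c d b' c' d' x x' R a' : ℕ}
    (h : chkMa M t lm b c d b' c' d' x x' R a' = true) :
    ∃ y l0, l0 = max 7 ((x + x + (a' + t) + b + c + d - 15) / 6 + 1) ∧
      allR (tchk M.dir M.TT x (a' + t) b c d) l0 (y % 32) = true ∧
      (l0 + y % 32 ≤ lm → ubLe M.g M.XR x' a' b' c' d' (lbv M.T y (l0 + y % 32) x (a' + t) b c d) = true) := by
  obtain ⟨y, hy⟩ : ∃ y, y = fld R (Nat.mul 40 (Nat.sub a' (Nat.succ b'))) 1099511627776 := ⟨_, rfl⟩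
  obtain ⟨l0, hl0⟩ : ∃ l0, l0 = mx 7 ((x + x + (a' + t) + b + c + d - 15) / 6 + 1) := ⟨_, rfl⟩
  have h' : (bcaseB% allR (tchk M.dir M.TT x (a' + t) b c d) l0 (y % 32),
      (bcaseB% Nat.ble (l0 + y % 32) lm,
        ubLe M.g M.XR x' a' b' c' d' (lbv M.T y (l0 + y % 32) x (a' + t) b c d), true), false) = true := by
    rw [hy, hl0]
    exact h
  rw [bcase_eq, bcase_ble] at h'
  refine ⟨y, l0, by rw [hl0, mx_eq], ?_, fun hle => ?_⟩
  · by_contra hc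
    rw [if_neg hc] at h'
    exact Bool.false_ne_true h'
  · by_cases hc : allR (tchk M.dir M.TT x (a' + t) b c d) l0 (y % 32) = true
    · rwa [if_pos hc, if_pos hle] at h'
    · rw [if_neg hc] at h'
      exact absurd h' Bool.false_ne_true

theorem Main_chkMx {M : MC} {t lm b c d b' c' d' x' : ℕ} (h : chkMx M t lm b c d b' c' d' x' = true) :
    ∃ R, allR (chkMa M t lm b c d b' c' d' (x' + t) x' R) (b' + 1)
      (min x' (6 * lm + 15 - (x' + t + (x' + t) + b + c + d + t)) - (b' + 1)) = true := by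
  refine ⟨M.cert.get (pkey 0 (x' + t) 0 b c d), ?_⟩
  rw [← mn_eq]
  exact h

theorem Main_chkMt {M : MC} {b' c' d' s : ℕ} (h : chkMt M b' c' d' s = true) :
    ∃ lm, lm = (if d' + 2 * s ≤ 5 then 24 else 11) ∧
      allR (chkMx M (2 * s) lm (b' + 2 * s) (c' + 2 * s) (d' + 2 * s) b' c' d') (b' + 2)
        ((6 * lm + 15 - (b' + 2 * s + (b' + 2 * s) + (c' + 2 * s) + (d' + 2 * s))) / 2 - 2 * s - (b' + 2)) = true := by
  refine ⟨_, rfl, ?_⟩
  rw [← bcase_ble]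
  exact h

theorem chkMa_ok {M : MC} (hw : 1 ≤ M.g.w) (hT : ∀ i, TabOK (M.T i)) (hTT : ∀ i, TreeOK (M.TT i))
    {s lm b' c' d' x' R a' n : ℕ} (hlm : lm ≤ 24)
    (h : chkMa M (2 * s) lm (b' + 2 * s) (c' + 2 * s) (d' + 2 * s) b' c' d' (x' + 2 * s) x' R a' = true)
    (h7 : 7 ≤ n) (hn : n ≤ lm) : GoodAt n (x' + 2 * s) (a' + 2 * s) (b' + 2 * s) (c' + 2 * s) (d' + 2 * s) := by
  intro l hl hs e1 e2 e3 e4 e5
  obtain ⟨y, l0, hl0, h1, h2⟩ := Main_chkMa h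
  have a01 : l 1 ≤ l 0 := hl (by decide)
  have a45 : l 5 ≤ l 4 := hl (by decide)
  have hs' := hs
  rw [Fin.sum_univ_six] at hs'
  have hl0n : l0 ≤ n := by omega
  by_cases hlt : n < l0 + y % 32
  · exact tchk_ok hTT (allR_sound h1 hl0n hlt) l hl hs e1 e2 e3 e4 e5
  · have h3 := ubLe_ok hw (h2 (by omega))
    obtain ⟨r, hr⟩ : ∃ r, n = l0 + y % 32 + r := ⟨n - (l0 + y % 32), by omega⟩
    have hl1 : Antitone (![l 0 - 6 * r, l 1, l 2, l 3, l 4, l 5] : Fin 6 → ℕ) := by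
      refine Fin.antitone_iff_succ_le.2 fun i => ?_
      have a12 : l 2 ≤ l 1 := hl (by decide)
      have a23 : l 3 ≤ l 2 := hl (by decide)
      have a34 : l 4 ≤ l 3 := hl (by decide)
      fin_cases i
      · show l 1 ≤ l 0 - 6 * r
        omega
      · exact a12
      · exact a23
      · exact a34
      · exact a45
    have hs1 : ∑ i, (![l 0 - 6 * r, l 1, l 2, l 3, l 4, l 5] : Fin 6 → ℕ) i = 6 * (l0 + y % 32) := by
      rw [Fin.sum_univ_six]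
      show l 0 - 6 * r + l 1 + l 2 + l 3 + l 4 + l 5 = _
      omega
    have h4 : lbv M.T y (l0 + y % 32) (l 1 + 4) (l 2 + 3) (l 3 + 2) (l 4 + 1) (l 5) ≤
        hwd (l0 + y % 32) 6 6 ![l 0 - 6 * r, l 1, l 2, l 3, l 4, l 5] :=
      lbv_ok (l := ![l 0 - 6 * r, l 1, l 2, l 3, l 4, l 5]) hT y hl1 hs1
    have h5 : hwd (l0 + y % 32) 6 6 ![l 0 - 6 * r, l 1, l 2, l 3, l 4, l 5] ≤ hwd (l0 + y % 32 + r) 6 6 l := by
      refine hwd_le_succ ?_ fun i hi => ?_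
      · show l 0 = l 0 - 6 * r + 6 * r
        omega
      · fin_cases i
        · exact absurd rfl hi
        all_goals rfl
    have h6 := hwd_le_stable (t := s) hl hs (by omega) (by omega)
    rw [← hr] at h5
    have h9 := h4.trans h5
    rw [e1, e2, e3, e4, e5] at h9 h6
    simp only [Nat.add_sub_cancel] at h6
    have h8 := h6.trans h3
    omega

theorem chkMc_ok {M : MC} (hw : 1 ≤ M.g.w) (hT : ∀ i, TabOK (M.T i)) (hTT : ∀ i, TreeOK (M.TT i))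
    (hc : ∀ d' < 2, ∀ c' < 40, d' < c' → chkMc M d' c' = true) {n : ℕ} {l : Fin 6 → ℕ} (hl : Antitone l)
    (hs : ∑ i, l i = 6 * n) (h7 : 7 ≤ n) (hn : n ≤ 24) (h : n ≤ 11 ∨ l 5 ≤ 5) : hwd 6 6 n l ≤ hwd n 6 6 l := by
  have a01 : l 1 ≤ l 0 := hl (by decide)
  have a12 : l 2 ≤ l 1 := hl (by decide)
  have a23 : l 3 ≤ l 2 := hl (by decide)
  have a34 : l 4 ≤ l 3 := hl (by decide)
  have a45 : l 5 ≤ l 4 := hl (by decide)
  have hs' := hs
  rw [Fin.sum_univ_six] at hs'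
  obtain ⟨s, hs0⟩ : ∃ s, s = l 5 / 2 := ⟨_, rfl⟩
  obtain ⟨d', hd⟩ : ∃ d', l 5 = d' + 2 * s := ⟨l 5 - 2 * s, by omega⟩
  obtain ⟨c', hc'⟩ : ∃ c', l 4 + 1 = c' + 2 * s := ⟨l 4 + 1 - 2 * s, by omega⟩
  obtain ⟨b', hb⟩ : ∃ b', l 3 + 2 = b' + 2 * s := ⟨l 3 + 2 - 2 * s, by omega⟩
  obtain ⟨a', ha⟩ : ∃ a', l 2 + 3 = a' + 2 * s := ⟨l 2 + 3 - 2 * s, by omega⟩
  obtain ⟨x', hx⟩ : ∃ x', l 1 + 4 = x' + 2 * s := ⟨l 1 + 4 - 2 * s, by omega⟩
  have h1 : chkMc M d' c' = true := hc d' (by omega) c' (by omega) (by omega)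
  have h2 : chkMb M d' c' b' = true := by
    refine allR_sound (f := chkMb M d' c') (lo := c' + 1) (n := 40 - (c' + 1)) h1 (by omega) (by omega)
  have h3 : chkMt M b' c' d' s = true := by
    refine allR_sound (f := chkMt M b' c' d') (lo := 0) (n := 6) h2 (by omega) (by omega)
  obtain ⟨lm, hlm, h4⟩ := Main_chkMt h3
  have hlm1 : lm ≤ 24 := by split_ifs at hlm <;> omega
  have hlm2 : n ≤ lm := by split_ifs at hlm <;> omega
  have h5 := allR_sound h4 (y := x') (by omega) (by omega)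
  obtain ⟨R, h6⟩ := Main_chkMx h5
  have h8 := allR_sound h6 (y := a') (by omega) (by omega)
  exact chkMa_ok hw hT hTT hlm1 h8 h7 hlm2 l hl hs hx ha hb hc' hd

theorem foulkes_of_checks {M : MC} (hw : 1 ≤ M.g.w) (hT : ∀ i, TabOK (M.T i)) (hTT : ∀ i, TreeOK (M.TT i))
    (h6 : 1 ≤ M.T 0 6 10 9 8 7 6) (hc : ∀ d' < 2, ∀ c' < 40, d' < c' → chkMc M d' c' = true)
    (n : ℕ) (h1 : 6 ≤ n) (h2 : n ≤ 24) (l : Fin 6 → ℕ) (hl : Antitone l) (hs : ∑ i, l i = 6 * n) :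
    hwd 6 6 n l ≤ hwd n 6 6 l := by
  induction n using Nat.strong_induction_on generalizing l with
  | _ n ih =>
  by_cases hn6 : n = 6
  · subst hn6
    exact le_rfl
  by_cases h : n ≤ 11 ∨ l 5 ≤ 5
  · exact chkMc_ok hw hT hTT hc hl hs (by omega) h2 h
  · obtain ⟨-, k2, k3, k4⟩ := hwd_le_div (t := 3) hl hs (by omega)
    have k5 := ih (n - 2 * 3) (by omega) (by omega) (by omega) _ k2 k3
    have k6 : 0 < hwd 6 6 6 (fun _ : Fin 6 => 6) :=
      h6.trans (hT 0 6 (fun _ : Fin 6 => 6) antitone_const (by rw [Fin.sum_univ_six]))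
    have k7 := hwd_mulS (b := n - 2 * 3) (l := fun i => l i - 2 * 3) k6
    have e1 : n - 2 * 3 + 6 = n := by omega
    have e2 : ((fun i => l i - 2 * 3) + fun _ : Fin 6 => 6) = l := by
      funext i
      have : l 5 ≤ l i := hl (Fin.le_last i)
      show l i - 2 * 3 + 6 = l i
      omega
    rw [e1, e2] at k7
    exact k4.trans (k5.trans k7)

end Crest.Agent.R187
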