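import Crest.Prelude.Def_FoulkesHowe

/-!
# Row 187 (Foulkes, `a = 6`; effective Brion bound): definitions

`E a i j = ∑_r x_{r i} ∂/∂x_{r j}` are the `gl_n` operators acting on the columns,
`colW` the column weight, `hw M l` the space of highest weight vectors of weight `l` in `M`,
`hwd a n m l` its dimension for `M = blockSym a n m` (the multiplicity of the irreducible
module of highest weight `l` in `Sym^a (Sym^m ℂ^n)`).
`GlRep n V` is an abstract unitary polynomial `gl_n`-module.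
-/

set_option autoImplicit false

namespace Crest.Agent.R187

open MvPolynomial Crest.AlgebraR.FoulkesHowe

abbrev P (a n : ℕ) : Type := MvPolynomial (Var a n) ℂ

/-- `E a i j = ∑_r x_{r i} ∂/∂x_{r j}`. -/
noncomputable def E (a : ℕ) {n : ℕ} (i j : Fin n) : Derivation ℂ (P a n) (P a n) :=
  mkDerivation ℂ fun v => if v.2 = j then X (v.1, i) else 0

theorem E_X (a : ℕ) {n : ℕ} (i j : Fin n) (v : Var a n) :
    E a i j (X v) = if v.2 = j then X (v.1, i) else 0 := by
  simp [E, mkDerivation_X]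

/-- The column weight of a variable. -/
def colW {a n : ℕ} (v : Var a n) : Fin n → ℕ := Pi.single v.2 1

/-- Highest weight vectors of weight `l` in `M`. -/
noncomputable def hw {a n : ℕ} (M : Submodule ℂ (P a n)) (l : Fin n → ℕ) : Submodule ℂ (P a n) :=
  M ⊓ weightedHomogeneousSubmodule ℂ colW l ⊓
    ⨅ i : Fin n, ⨅ j : Fin n, ⨅ _ : i < j, LinearMap.ker (E a i j).toLinearMap

theorem mem_hw {a n : ℕ} {M : Submodule ℂ (P a n)} {l : Fin n → ℕ} {f : P a n} :
    f ∈ hw M l ↔ f ∈ M ∧ IsWeightedHomogeneous colW f l ∧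
      ∀ i j : Fin n, i < j → E a i j f = 0 := by
  simp [hw, Submodule.mem_iInf, and_assoc]

theorem mem_blockSym {a n m : ℕ} {f : P a n} :
    f ∈ blockSym a n m ↔ (∀ i : Fin a, IsWeightedHomogeneous (blockWeight i) f m) ∧
      ∀ σ : Equiv.Perm (Fin a), rename (blockPerm σ) f = f := by
  simp [blockSym, Submodule.mem_iInf]

/-- Multiplicity of the highest weight `l` in `Sym^a (Sym^m ℂ^n)`. -/
noncomputable def hwd (a n m : ℕ) (l : Fin n → ℕ) : ℕ :=
  Module.finrank ℂ (hw (blockSym a n m) l)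

/-- Dimension of the weight space `μ` of `Sym^a (Sym^m ℂ^n)`. -/
noncomputable def wtd (a n m : ℕ) (μ : Fin n → ℕ) : ℕ :=
  Module.finrank ℂ
    (blockSym a n m ⊓ weightedHomogeneousSubmodule ℂ colW μ : Submodule ℂ (P a n))

/-- The linear form `l` in block `i`. -/
noncomputable def lin {a n : ℕ} (l : Fin n → ℂ) (i : Fin a) : P a n := ∑ k, l k • X (i, k)

/-- `v(l) = ∏_i l(x_i)`. -/
noncomputable def vv (a : ℕ) {n : ℕ} (l : Fin n → ℂ) : P a n := ∏ i : Fin a, lin l i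

/-! ### Characters -/

/-- A function on `Fin n` as an exponent vector. -/
noncomputable def fs {n : ℕ} (μ : Fin n → ℕ) : Fin n →₀ ℕ := Finsupp.equivFunOnFinite.symm μ

@[simp] theorem fs_apply {n : ℕ} (μ : Fin n → ℕ) (i : Fin n) : fs μ i = μ i := rfl

/-- `ρ = (n-1, …, 1, 0)`. -/
def rho (n : ℕ) : Fin n → ℕ := fun i => n - 1 - i

/-- The Vandermonde polynomial `∏_{i<j} (x_i - x_j)`. -/
noncomputable def DD (n : ℕ) : MvPolynomial (Fin n) ℤ :=
  ∏ i : Fin n, ∏ j ∈ Finset.Ioi i, (X i - X j)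

/-- Exponent vectors of degree `m`. -/
abbrev Mon (n m : ℕ) : Type := {β : Fin n →₀ ℕ // β ∈ Finset.finsuppAntidiag Finset.univ m}

/-- The plethysm `h_a[h_m]` in `n` variables. -/
noncomputable def hh (n a m : ℕ) : MvPolynomial (Fin n) ℤ :=
  aeval (fun β : Mon n m => (monomial β.1 1 : MvPolynomial (Fin n) ℤ)) (hsymm (Mon n m) ℤ a)

/-- The plethysm `p_k[h_m] = h_m(x_1^k, …, x_n^k)`. -/
noncomputable def pk (n k m : ℕ) : MvPolynomial (Fin n) ℤ :=
  ∑ β ∈ Finset.finsuppAntidiag (Finset.univ : Finset (Fin n)) m, monomial (k • β) 1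

/-! ### Abstract unitary polynomial `gl_n`-modules -/

/-- A unitary `gl_n`-module spanned by weight vectors with weights in `ℕ^n`. -/
structure GlRep (n : ℕ) (V : Type) [AddCommGroup V] [Module ℂ V] where
  e : Fin n → Fin n → V →ₗ[ℂ] V
  ip : InnerProductSpace.Core ℂ V
  comm : ∀ i j k l v, e i j (e k l v) - e k l (e i j v) =
    (if j = k then e i l v else 0) - (if l = i then e k j v else 0)
  adj : ∀ i j u v, ip.inner (e i j u) v = ip.inner u (e j i v)
  span : ∀ v, v ∈ ⨆ μ : Fin n → ℕ, ⨅ i, Module.End.eigenspace (e i i) (μ i : ℂ)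

namespace GlRep

variable {n : ℕ} {V : Type} [AddCommGroup V] [Module ℂ V]

/-- Weight space. -/
noncomputable def wt (ρ : GlRep n V) (μ : Fin n → ℕ) : Submodule ℂ V :=
  ⨅ i, Module.End.eigenspace (ρ.e i i) (μ i : ℂ)

theorem mem_wt {ρ : GlRep n V} {μ : Fin n → ℕ} {v : V} :
    v ∈ ρ.wt μ ↔ ∀ i, ρ.e i i v = (μ i : ℂ) • v := by
  simp [wt, Submodule.mem_iInf]

/-- Highest weight vectors of weight `l`. -/
noncomputable def hw (ρ : GlRep n V) (l : Fin n → ℕ) : Submodule ℂ V :=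
  ρ.wt l ⊓ ⨅ i : Fin n, ⨅ j : Fin n, ⨅ _ : i < j, LinearMap.ker (ρ.e i j)

theorem mem_hw {ρ : GlRep n V} {l : Fin n → ℕ} {v : V} :
    v ∈ ρ.hw l ↔ v ∈ ρ.wt l ∧ ∀ i j : Fin n, i < j → ρ.e i j v = 0 := by
  simp [hw, Submodule.mem_iInf]

/-- Invariant subspace. -/
def Inv (ρ : GlRep n V) (U : Submodule ℂ V) : Prop := ∀ i j, ∀ v ∈ U, ρ.e i j v ∈ U

/-- `V` is generated by one nonzero highest weight vector of weight `Λ`. -/
def IsCyc (ρ : GlRep n V) (Λ : Fin n → ℕ) : Prop :=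
  ∃ v ∈ ρ.hw Λ, v ≠ 0 ∧ ∀ U : Submodule ℂ V, ρ.Inv U → v ∈ U → U = ⊤

end GlRep

end Crest.Agent.R187
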