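/-!
# Row 187, part 2: the kernel engine (definitions only, no Mathlib)

Everything here is written with raw recursors and the GMP-accelerated `Nat` primitives so that `decide +kernel`
evaluates it quickly.  `ncase% n, z, fun p _ => s` is `z` if `n = 0` and `s` with `p = n - 1` otherwise
(in particular `ncase% Nat.succ e, z, fun p _ => s` is `s` with `p = e`, by `rfl`);
`bcase% c, t, e` is `if c then t else e`.

A *block* is a natural number whose base `2^w` digit number `x * L + a` holds a value `f x a` modulo `2^v`.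
-/

set_option autoImplicit false

namespace Crest.Agent.R187

noncomputable section

/-- digit width `w`, value width `v`, row length `L`, inner degree `m`, maximal number of rows `XM` -/
structure Cfg where
  w : Nat
  v : Nat
  L : Nat
  m : Nat
  XM : Nat

notation "ncase% " n ", " z ", " s => Nat.rec (motive := fun _ => Nat) z s n
notation "bcase% " c ", " t ", " e => Bool.rec (motive := fun _ => Nat) e t c
notation "ncaseB% " n ", " z ", " s => Nat.rec (motive := fun _ => Bool) z s n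
notation "bcaseB% " c ", " t ", " e => Bool.rec (motive := fun _ => Bool) e t c
notation "ncaseZ% " n ", " z ", " s => Nat.rec (motive := fun _ => Int) z s n
notation "bcaseZ% " c ", " t ", " e => Bool.rec (motive := fun _ => Int) e t c

abbrev F3 : Type := Nat → Nat → Nat → Nat
abbrev Tab : Type := Nat → Nat → Nat → Nat → Nat → Nat → Nat

/-! ### Digits, masks, loops -/

/-- digit number `p` in base `2^u` -/
def dig (u y p : Nat) : Nat := Nat.mod (Nat.shiftRight y (Nat.mul u p)) (Nat.shiftLeft 1 u)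

/-- bit field -/
def fld (y o M : Nat) : Nat := Nat.mod (Nat.shiftRight y o) M

/-- `∑_{p<n} 2^(u p)` -/
def ones (u n : Nat) : Nat :=
  Nat.div (Nat.pred (Nat.shiftLeft 1 (Nat.mul u n))) (Nat.pred (Nat.shiftLeft 1 u))

/-- the block with `X` rows all of whose digits are `y` -/
def cst1 (g : Cfg) (y X : Nat) : Nat := Nat.mul (ones g.w (Nat.mul g.L X)) y
def cst (g : Cfg) (y X : Nat) : Nat := ncase% Nat.succ X, 0, fun X' _ => Nat.add (cst1 g y X') 0

/-- all digits `2^v - 1` -/
def MK (g : Cfg) (X : Nat) : Nat := cst g (Nat.pred (Nat.shiftLeft 1 g.v)) X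
/-- all digits `2^v` -/
def BG (g : Cfg) (X : Nat) : Nat := cst g (Nat.shiftLeft 1 g.v) X
/-- digits `2^v - 1` in the columns `a < L - k`, and `0` in the others -/
def MA (g : Cfg) (k : Nat) : Nat :=
  Nat.mul (Nat.mul (ones g.w (Nat.sub g.L k)) (Nat.pred (Nat.shiftLeft 1 g.v)))
    (ones (Nat.mul g.w g.L) g.XM)

def mx (x y : Nat) : Nat := bcase% Nat.ble x y, y, x
def mn (x y : Nat) : Nat := bcase% Nat.ble x y, x, y

def allS (f : Nat → Bool) (lo i : Nat) (ih : Bool) : Bool :=
  bcaseB% ih, (ncaseB% Nat.succ (Nat.add lo i), true, fun y _ => f y), false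
/-- `∀ i < n, f (lo + i)` -/
def allR (f : Nat → Bool) (lo n : Nat) : Bool := ncaseB% n, true, allS f lo

def sumS (f : Nat → Nat) (i ih : Nat) : Nat := Nat.add ih (f i)
/-- `∑ i < n, f i` -/
def sumR (f : Nat → Nat) (n : Nat) : Nat := ncase% n, 0, sumS f

inductive BT where
  | lf (y : Nat) : BT
  | nd (p : Nat) (l r : BT) : BT

def BT.get (t : BT) (k : Nat) : Nat :=
  BT.rec (motive := fun _ => Nat) (fun y => y) (fun p _ _ l r => bcase% Nat.ble k p, l, r) t

def BT.all (f : Nat → Bool) (t : BT) : Bool :=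
  BT.rec (motive := fun _ => Bool) f (fun _ _ _ l r => bcaseB% l, r, false) t

/-! ### Multiplication of a table of blocks by `p_k[h_m]` -/

def K2s (g : Cfg) (XR F : F3) (k s : Nat) (ih : F3) (b c d : Nat) : Nat :=
  bcase% Nat.ble (Nat.mul k (Nat.succ s)) (Nat.add c d),
    (ncase% Nat.sub (Nat.succ d) (Nat.mul k (Nat.succ s)),
      (ncase% Nat.sub (Nat.succ c) k, 0, fun c' _ =>
        bcase% Nat.ble c' d,
          (bcase% Nat.beq c' d, 0,
            Nat.land (Nat.sub (BG g (XR b c d)) (Nat.land (ih b d c') (MK g (XR b c d)))) (MK g (XR b c d))),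
          Nat.land (ih b c' d) (MK g (XR b c d))),
      fun d' _ =>
      (ncase% Nat.sub (Nat.succ c) k, Nat.land (F b c d') (MK g (XR b c d)), fun c' _ =>
        bcase% Nat.ble c' d,
          (bcase% Nat.beq c' d, Nat.land (F b c d') (MK g (XR b c d)),
            Nat.land (Nat.add (F b c d') (Nat.sub (BG g (XR b c d)) (Nat.land (ih b d c') (MK g (XR b c d)))))
              (MK g (XR b c d))),
          Nat.land (Nat.add (F b c d') (ih b c' d)) (MK g (XR b c d)))),
    0

notation "K2% " g ", " XR ", " F ", " k ", " s => Nat.rec (motive := fun _ => F3) F (K2s g XR F k) s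

def K3s (g : Cfg) (XR F : F3) (k s : Nat) (ih : F3) (b c d : Nat) : Nat :=
  bcase% Nat.ble (Nat.mul k (Nat.succ s)) (Nat.add (Nat.add b c) d),
    (ncase% Nat.succ (Nat.succ s), 0, fun s1 _ =>
      ncase% Nat.sub (Nat.succ b) k, Nat.add ((K2% g, XR, F, k, s1) b c d) 0, fun b' _ =>
        bcase% Nat.ble b' c,
          (bcase% Nat.beq b' c, Nat.add ((K2% g, XR, F, k, s1) b c d) 0,
            bcase% Nat.ble b' d,
              (bcase% Nat.beq b' d, Nat.add ((K2% g, XR, F, k, s1) b c d) 0,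
                Nat.land (Nat.add ((K2% g, XR, F, k, s1) b c d) (ih c d b')) (MK g (XR b c d))),
              Nat.land (Nat.add ((K2% g, XR, F, k, s1) b c d)
                (Nat.sub (BG g (XR b c d)) (Nat.land (ih c b' d) (MK g (XR b c d))))) (MK g (XR b c d))),
          Nat.land (Nat.add ((K2% g, XR, F, k, s1) b c d) (ih b' c d)) (MK g (XR b c d))),
    0

notation "K3% " g ", " XR ", " F ", " k ", " s => Nat.rec (motive := fun _ => F3) F (K3s g XR F k) s

def Vz (g : Cfg) (XR F : F3) (b c d : Nat) : Nat := Nat.land (F b c d) (MK g (XR b c d))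

def Vs (g : Cfg) (XR F : F3) (k b c d s ih : Nat) : Nat :=
  ncase% Nat.succ (Nat.succ s), 0, fun s1 _ =>
    Nat.add ((K3% g, XR, F, k, s1) b c d) (Nat.shiftLeft (Nat.land ih (MA g k)) (Nat.mul g.w k))

notation "V% " g ", " XR ", " F ", " k ", " b ", " c ", " d ", " s =>
  Nat.rec (motive := fun _ => Nat) (Vz g XR F b c d) (Vs g XR F k b c d) s

def Ws (g : Cfg) (XR F : F3) (k b c d s ih : Nat) : Nat :=
  ncase% Nat.succ (Nat.succ s), 0, fun s1 _ =>
    Nat.add (V% g, XR, F, k, b, c, d, s1)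
      (Nat.shiftLeft (Nat.land ih (MK g (Nat.sub (XR b c d) k))) (Nat.mul (Nat.mul g.w g.L) k))

notation "W% " g ", " XR ", " F ", " k ", " b ", " c ", " d ", " s =>
  Nat.rec (motive := fun _ => Nat) (Vz g XR F b c d) (Ws g XR F k b c d) s

def Rs (g : Cfg) (XR F : F3) (k b c d s ih : Nat) : Nat :=
  ncase% Nat.succ (Nat.succ s), 0, fun s1 _ => Nat.add ih (W% g, XR, F, k, b, c, d, s1)

/-- the block of `c6 f k m` at the key `(b, c, d)` when `F` is the table of `f` -/
def RK (g : Cfg) (XR F : F3) (k b c d : Nat) : Nat :=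
  Nat.land (Nat.rec (motive := fun _ => Nat) (Vz g XR F b c d) (Rs g XR F k b c d)
    (mn g.m (Nat.div (Nat.add (Nat.add (XR b c d) g.L) (Nat.add (Nat.add b c) d)) k)))
    (MK g (XR b c d))

/-! ### Level zero: the Vandermonde polynomial -/

def sg (p q : Nat) : Int := bcaseZ% Nat.ble p q, (bcaseZ% Nat.beq p q, 0, -1), 1

/-- coefficient of `DD 6` at `(15 - Σ, x, a, b, c, d)` -/
def d0 (x a b c d : Nat) : Int :=
  ncaseZ% Nat.sub 16 (Nat.add (Nat.add (Nat.add (Nat.add x a) b) c) d), 0, fun z _ =>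
    sg z x * sg z a * sg z b * sg z c * sg z d * sg x a * sg x b * sg x c * sg x d *
      sg a b * sg a c * sg a d * sg b c * sg b d * sg c d

def B0a (g : Cfg) (b c d x a : Nat) : Nat :=
  Nat.shiftLeft (Int.toNat (Int.emod (d0 x a b c d) (Int.ofNat (Nat.shiftLeft 1 g.v))))
    (Nat.mul g.w (Nat.add (Nat.mul x g.L) a))
def B0x (g : Cfg) (b c d x : Nat) : Nat := sumR (B0a g b c d x) 6
def B0 (g : Cfg) (b c d : Nat) : Nat := bcase% Nat.ble b 5, sumR (B0x g b c d) 6, 0

/-! ### The `S` engine (`m = 6`): verification of given tables -/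

/-- decoding: the value at a digit `y` of `raw j b c d` is `y % 2^(e j + 1) - 2^(e j)` -/
def DS (g : Cfg) (e : Nat → Nat) (XJ raw : Nat → F3) (j b c d : Nat) : Nat :=
  ncase% j, B0 g b c d, fun _ _ =>
    Nat.land (Nat.add (Nat.land (raw j b c d) (cst g (Nat.pred (Nat.shiftLeft 2 (e j))) (XJ j b c d)))
      (cst g (Nat.sub (Nat.shiftLeft 1 g.v) (Nat.shiftLeft 1 (e j))) (XJ j b c d))) (MK g (XJ j b c d))

def Sums (g : Cfg) (XR : F3) (D : Nat → F3) (j b c d i ih : Nat) : Nat :=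
  ncase% Nat.succ (Nat.sub j i), 0, fun k _ => Nat.add ih (RK g XR (D i) k b c d)

/-- `∑_{i<j} RK (D i) (j - i)` -/
def RHS (g : Cfg) (XR : F3) (D : Nat → F3) (j b c d : Nat) : Nat := ncase% j, 0, Sums g XR D j b c d

def chkKey (g : Cfg) (XR : F3) (D : Nat → F3) (j b c d : Nat) : Bool :=
  Nat.beq (Nat.land (Nat.mul j (D j b c d)) (MK g (XR b c d))) (Nat.land (RHS g XR D j b c d) (MK g (XR b c d)))

def chkB (g : Cfg) (XR : F3) (D : Nat → F3) (j d c b : Nat) : Bool :=
  ncaseB% XR b c d, true, fun _ _ => chkKey g XR D j b c d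
def chkC (g : Cfg) (XR : F3) (D : Nat → F3) (j B d c : Nat) : Bool :=
  allR (chkB g XR D j d c) (Nat.succ c) (Nat.sub B (Nat.succ c))
/-- check of all keys `d < c < b < B` of level `j` -/
def chkD (g : Cfg) (e : Nat → Nat) (XJ raw : Nat → F3) (j B d : Nat) : Bool :=
  allR (chkC g (XJ j) (DS g e XJ raw) j B d) (Nat.succ d) (Nat.sub B (Nat.succ d))

/-- number of rows for a clause `j ≤ J`, `b + c + d ≤ E3`, `c + d ≤ E2`, `d ≤ E1` -/
def XRc (J E3 E2 E1 j b c d : Nat) : Nat :=
  bcase% Nat.ble j J, (bcase% Nat.ble d E1, (bcase% Nat.ble (Nat.add c d) E2,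
    (bcase% Nat.ble (Nat.add (Nat.add b c) d) E3,
      (bcase% Nat.ble (Nat.add (Nat.add (Nat.mul 4 b) c) d) (Nat.add (Nat.mul 6 J) 9),
        Nat.succ (Nat.div (Nat.sub (Nat.add (Nat.mul 6 J) 14) (Nat.add (Nat.add (Nat.mul 2 b) c) d)) 2),
        0), 0), 0), 0), 0

def XRm (X1 X2 : Nat → F3) (j b c d : Nat) : Nat := mx (X1 j b c d) (X2 j b c d)

/-- table of lower bounds read off from verified data -/
def sLB (g : Cfg) (e : Nat → Nat) (XJ raw : Nat → F3) (j x a b c d : Nat) : Nat :=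
  bcase% Nat.ble (XJ j b c d) x, 0, bcase% Nat.ble g.L a, 0, ncase% j, 0, fun _ _ =>
    Nat.sub (Nat.mod (Nat.shiftRight (dig (Nat.mul g.w g.L) (raw j b c d) x) (Nat.mul g.w a))
      (Nat.shiftLeft 2 (e j))) (Nat.shiftLeft 1 (e j))

/-! ### The `A` engine: `Aj` is the table of `j! * tf m j` -/

def A1 (g : Cfg) (XR : F3) (b c d : Nat) : Nat := RK g XR (B0 g) 1 b c d
def A2 (g : Cfg) (XR : F3) (b c d : Nat) : Nat :=
  Nat.land (Nat.add (RK g XR (A1 g XR) 1 b c d) (RK g XR (B0 g) 2 b c d)) (MK g (XR b c d))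
def A3 (g : Cfg) (XR : F3) (b c d : Nat) : Nat :=
  Nat.land (Nat.add (RK g XR (A2 g XR) 1 b c d) (Nat.mul 2
    (Nat.add (RK g XR (A1 g XR) 2 b c d) (RK g XR (B0 g) 3 b c d)))) (MK g (XR b c d))
def A4 (g : Cfg) (XR : F3) (b c d : Nat) : Nat :=
  Nat.land (Nat.add (RK g XR (A3 g XR) 1 b c d) (Nat.mul 3
    (Nat.add (RK g XR (A2 g XR) 2 b c d) (Nat.mul 2
      (Nat.add (RK g XR (A1 g XR) 3 b c d) (RK g XR (B0 g) 4 b c d)))))) (MK g (XR b c d))
def A5 (g : Cfg) (XR : F3) (b c d : Nat) : Nat :=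
  Nat.land (Nat.add (RK g XR (A4 g XR) 1 b c d) (Nat.mul 4
    (Nat.add (RK g XR (A3 g XR) 2 b c d) (Nat.mul 3
      (Nat.add (RK g XR (A2 g XR) 3 b c d) (Nat.mul 2
        (Nat.add (RK g XR (A1 g XR) 4 b c d) (RK g XR (B0 g) 5 b c d)))))))) (MK g (XR b c d))
def A6 (g : Cfg) (XR : F3) (b c d : Nat) : Nat :=
  Nat.land (Nat.add (RK g XR (A5 g XR) 1 b c d) (Nat.mul 5
    (Nat.add (RK g XR (A4 g XR) 2 b c d) (Nat.mul 4
      (Nat.add (RK g XR (A3 g XR) 3 b c d) (Nat.mul 3
        (Nat.add (RK g XR (A2 g XR) 4 b c d) (Nat.mul 2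
          (Nat.add (RK g XR (A1 g XR) 5 b c d) (RK g XR (B0 g) 6 b c d)))))))))) (MK g (XR b c d))

/-! ### The stable upper bound -/

def geoS (k : Nat) (f : Nat → Nat) (r q ih : Nat) : Nat :=
  ncase% Nat.succ (Nat.add (Nat.mul k (Nat.succ q)) r), 0, fun n _ => Nat.add ih (f n)
/-- `geo k f n = ∑_{i ≤ n / k} f (n - k i)`: multiplication of a power series by `1 / (1 - y^k)` -/
def geo (k : Nat) (f : Nat → Nat) (n : Nat) : Nat :=
  ncase% Nat.succ (Nat.div n k), 0, fun q _ => ncase% Nat.succ (Nat.mod n k), 0, fun r _ =>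
    Nat.add (ncase% q, f r, geoS k f r) 0
def dlt (n : Nat) : Nat := ncase% n, 1, fun _ _ => 0
def posZ (f : Nat → Nat) (n : Nat) : Int := ncaseZ% Nat.succ (f n), 0, fun y _ => Int.ofNat y
/-- multiplication of a power series by `1 - y` -/
def difZ (f : Nat → Nat) (n : Nat) : Int := Int.subNatNat (f n) (ncase% n, 0, fun n' _ => f n')

def G0 : Nat → Int := posZ (geo 1 (geo 1 (geo 1 (geo 1 (geo 1 dlt)))))
def G1 : Nat → Int := posZ (geo 2 (geo 1 (geo 1 (geo 1 dlt))))
def G2 : Nat → Int := posZ (geo 2 (geo 2 (geo 1 dlt)))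
def G3 : Nat → Int := difZ (geo 2 (geo 2 (geo 2 dlt)))
def G4 : Nat → Int := posZ (geo 3 (geo 1 (geo 1 dlt)))
def G5 : Nat → Int := posZ (geo 3 (geo 2 dlt))
def G6 : Nat → Int := difZ (geo 3 (geo 3 dlt))
def G7 : Nat → Int := posZ (geo 4 (geo 1 dlt))
def G8 : Nat → Int := difZ (geo 4 (geo 2 dlt))
def G9 : Nat → Int := posZ (geo 5 dlt)
def G10 : Nat → Int := difZ (geo 6 dlt)

/-- `G (y - q)`, or `0` if `y < q` -/
def gs (G : Nat → Int) (q y : Nat) : Int := ncaseZ% Nat.sub (Nat.succ y) q, 0, fun y' _ => G y'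

def M2 (G : Nat → Int) (c d s u : Nat) : Int :=
  Int.sub (Int.mul (gs G s c) (gs G u d)) (Int.mul (gs G u c) (gs G s d))
def N3 (G : Nat → Int) (b c d r s u : Nat) : Int :=
  Int.add (Int.sub (Int.mul (gs G r b) (M2 G c d s u)) (Int.mul (gs G s b) (M2 G c d r u)))
    (Int.mul (gs G u b) (M2 G c d r s))
/-- expansion along the row `a`, whose entries are `H q` -/
def D4 (G H : Nat → Int) (b c d q r s u : Nat) : Int :=
  Int.sub (Int.add (Int.sub (Int.mul (H q) (N3 G b c d r s u)) (Int.mul (H r) (N3 G b c d q s u)))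
    (Int.mul (H s) (N3 G b c d q r u))) (Int.mul (H u) (N3 G b c d q r s))

def packS (u : Nat) (f : Nat → Int) (i : Nat) (ih : Int) : Int :=
  Int.add ih (Int.mul (f i) (Int.ofNat (Nat.shiftLeft 1 (Nat.mul u i))))
/-- `∑_{i<n} f i * 2^(u i)` -/
def pack (u : Nat) (f : Nat → Int) (n : Nat) : Int := ncaseZ% n, 0, packS u f

def rowA (g : Cfg) (G : Nat → Int) (q : Nat) : Int := pack g.w (gs G q) g.L
def rowX (g : Cfg) (G : Nat → Int) (X p : Nat) : Int :=
  ncaseZ% Nat.succ (Nat.sub X p), 0, fun n _ => pack (Nat.mul g.w g.L) G n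

def isNeg (z : Int) : Bool := Int.rec (motive := fun _ => Bool) (fun _ => false) (fun _ => true) z
/-- add `|y| * |z| * 2^sh` to `acc` if the sign of `y * z` is `sn` (`true` for negative) -/
def acc1 (sn : Bool) (y z : Int) (sh acc : Nat) : Nat :=
  bcase% (bcaseB% isNeg y, (bcaseB% isNeg z, sn, !sn), (bcaseB% isNeg z, !sn, sn)), acc,
    Nat.add acc (Nat.mul (Int.natAbs y) (Nat.shiftLeft (Int.natAbs z) sh))
def tm (g : Cfg) (G : Nat → Int) (n : Int) (b c d q r s u : Nat) : Int :=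
  Int.mul n (D4 G (rowA g G) b c d q r s u)
def accT (g : Cfg) (sn : Bool) (G : Nat → Int) (n n' : Int) (X b c d acc : Nat) : Nat :=
  acc1 sn (rowX g G X 4) (tm g G n b c d 3 2 1 0) (Nat.mul (Nat.mul g.w g.L) 4)
    (acc1 sn (rowX g G X 3) (tm g G n' b c d 4 2 1 0) (Nat.mul (Nat.mul g.w g.L) 3)
      (acc1 sn (rowX g G X 2) (tm g G n b c d 4 3 1 0) (Nat.mul (Nat.mul g.w g.L) 2)
        (acc1 sn (rowX g G X 1) (tm g G n' b c d 4 3 2 0) (Nat.mul g.w g.L)
          (acc1 sn (rowX g G X 0) (tm g G n b c d 4 3 2 1) 0 acc))))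
def accU (g : Cfg) (sn : Bool) (X b c d : Nat) : Nat :=
  accT g sn G0 1 (-1) X b c d (accT g sn G1 15 (-15) X b c d (accT g sn G2 45 (-45) X b c d
    (accT g sn G3 15 (-15) X b c d (accT g sn G4 40 (-40) X b c d (accT g sn G5 120 (-120) X b c d
      (accT g sn G6 40 (-40) X b c d (accT g sn G7 90 (-90) X b c d (accT g sn G8 90 (-90) X b c d
        (accT g sn G9 144 (-144) X b c d (accT g sn G10 120 (-120) X b c d 0))))))))))
/-- digits `2^(w-1) + 720 * (stable coefficient)` -/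
def UZ (g : Cfg) (XR : F3) (b c d : Nat) : Nat :=
  ncase% Nat.succ (XR b c d), 0, fun X _ =>
    Nat.sub (Nat.add (accU g false X b c d) (cst g (Nat.shiftLeft 1 (Nat.pred g.w)) X)) (accU g true X b c d)

def gam (n : Nat) : Nat := Nat.div (Nat.mul (Nat.mul (n + 1) (n + 2)) (Nat.mul (n + 3) (n + 4))) 24
/-- number of valid rows of `UZ` (zero if the digits might overflow) -/
def okU (g : Cfg) (XR : F3) (b c d : Nat) : Nat :=
  bcase% Nat.ble (Nat.add (Nat.add (Nat.add (Nat.add (XR b c d) g.L) b) c) d) 700,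
    (bcase% Nat.ble (Nat.shiftLeft 1 (Nat.pred g.w))
      (Nat.mul 86400 (Nat.mul (Nat.mul (Nat.mul (Nat.mul (gam (XR b c d)) (gam g.L)) (gam b)) (gam c)) (gam d))),
      0, XR b c d), 0
/-- `tf 700 6 x a b c d ≤ n` -/
def ubLe (g : Cfg) (XR : F3) (x a b c d n : Nat) : Bool :=
  bcaseB% Nat.ble (okU g XR b c d) x, false, bcaseB% Nat.ble g.L a, false,
    Nat.ble (dig g.w (dig (Nat.mul g.w g.L) (UZ g XR b c d) x) a)
      (Nat.add (Nat.mul 720 n) (Nat.shiftLeft 1 (Nat.pred g.w)))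

/-! ### Lower bounds from anchors

A code holds, from bit `5` on: table number (2 bits), `j` (5), `ν₂` (7), `ν₃` (6), `ν₄` (6), `ν₅` (5), `ν₆` (4). -/

def posOK (T : Nat → Tab) (y : Nat) : Bool :=
  ncaseB% Nat.succ (fld y 7 32), false, fun j _ => ncaseB% Nat.succ (fld y 12 128 + 4), false, fun x _ =>
    ncaseB% Nat.succ (fld y 19 64 + 3), false, fun a _ => ncaseB% Nat.succ (fld y 25 64 + 2), false, fun b _ =>
      ncaseB% Nat.succ (fld y 31 32 + 1), false, fun c _ => ncaseB% Nat.succ (fld y 36 16), false, fun d _ =>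
        bcaseB% Nat.ble c d, false, bcaseB% Nat.ble b c, false, bcaseB% Nat.ble a b, false,
          bcaseB% Nat.ble x a, false, bcaseB% Nat.ble (6 * j + 15) (x + x + a + b + c + d), false,
            ncaseB% j, true, fun _ _ => Nat.ble 1 (T 0 j x a b c d + T 1 j x a b c d + T 2 j x a b c d)

def lbv (T : Nat → Tab) (y l x a b c d : Nat) : Nat :=
  bcase% posOK T y,
    (ncase% Nat.sub (Nat.succ l) (fld y 7 32), 0, fun l0 _ =>
      ncase% Nat.sub (Nat.succ x) (fld y 12 128), 0, fun x0 _ =>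
      ncase% Nat.sub (Nat.succ a) (fld y 19 64), 0, fun a0 _ =>
      ncase% Nat.sub (Nat.succ b) (fld y 25 64), 0, fun b0 _ =>
      ncase% Nat.sub (Nat.succ c) (fld y 31 32), 0, fun c0 _ =>
      ncase% Nat.sub (Nat.succ d) (fld y 36 16), 0, fun d0 _ =>
        bcase% Nat.ble c0 d0, 0, bcase% Nat.ble b0 c0, 0, bcase% Nat.ble a0 b0, 0, bcase% Nat.ble x0 a0, 0,
          bcase% Nat.ble (Nat.add (Nat.mul 6 l0) 15)
            (Nat.add (Nat.add (Nat.add (Nat.add (Nat.add x0 x0) a0) b0) c0) d0), 0,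
            T (fld y 5 4) l0 x0 a0 b0 c0 d0), 0

/-! ### Jobs: trees of single cases.  A leaf is `key + 2^40 * code`. -/

def pkey (l x a b c d : Nat) : Nat :=
  Nat.add (Nat.mul (Nat.add (Nat.mul (Nat.add (Nat.mul (Nat.add (Nat.mul (Nat.add (Nat.mul l 128) x) 64) a) 64) b)
    64) c) 64) d

/-- call `f` with the fields `code, l, x, a, b, c, d` of a leaf -/
def leaf (f : Nat → Nat → Nat → Nat → Nat → Nat → Nat → Bool) (y : Nat) : Bool :=
  ncaseB% Nat.succ (Nat.shiftRight y 40), false, fun co _ => ncaseB% Nat.succ (fld y 31 32), false, fun l _ =>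
    ncaseB% Nat.succ (fld y 24 128), false, fun x _ => ncaseB% Nat.succ (fld y 18 64), false, fun a _ =>
      ncaseB% Nat.succ (fld y 12 64), false, fun b _ => ncaseB% Nat.succ (fld y 6 64), false, fun c _ =>
        ncaseB% Nat.succ (fld y 0 64), false, fun d _ => f co l x a b c d

/-- exact value from the `A` engine after removing `2 * (d / 2)` columns -/
def jobA (g : Cfg) (XR : F3) (T : Nat → Tab) (co l x a b c d : Nat) : Bool :=
  ncaseB% Nat.succ (Nat.mul 2 (Nat.div d 2)), false, fun t _ =>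
    ncaseB% Nat.succ (Nat.sub x t), false, fun x' _ => ncaseB% Nat.succ (Nat.sub a t), false, fun a' _ =>
      ncaseB% Nat.succ (Nat.sub b t), false, fun b' _ => ncaseB% Nat.succ (Nat.sub c t), false, fun c' _ =>
        ncaseB% Nat.succ (Nat.sub d t), false, fun d' _ =>
          bcaseB% Nat.beq l (Nat.add g.m t), (bcaseB% Nat.ble (XR b' c' d') x', false,
            bcaseB% Nat.ble g.L a', false,
              Nat.ble (dig g.w (dig (Nat.mul g.w g.L) (A6 g XR b' c' d') x') a')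
                (Nat.mul 720 (lbv T co l x a b c d))), false

/-- stable bound for the Gale dual weight -/
def jobD (g : Cfg) (XR : F3) (T : Nat → Tab) (co l x a b c d : Nat) : Bool :=
  ncaseB% Nat.succ (Nat.sub (6 * l + 15) (x + a + b + c + d)), false, fun z _ =>
    ncaseB% Nat.succ (Nat.mod (z + 1) 2), false, fun p _ =>
      ncaseB% Nat.succ (Nat.sub (z + p) c), false, fun x' _ => ncaseB% Nat.succ (Nat.sub (z + p) b), false, fun a' _ =>
        ncaseB% Nat.succ (Nat.sub (z + p) a), false, fun b' _ =>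
          ncaseB% Nat.succ (Nat.sub (z + p) x), false, fun c' _ =>
            ubLe g XR x' a' b' c' p (lbv T co l x a b c d)

/-- the case `(l, x, a, b, c, d)` is a leaf of the tree `TT (dir.get key)` -/
def tchk (dir : BT) (TT : Nat → BT) (x a b c d l : Nat) : Bool :=
  ncaseB% Nat.succ (pkey l x a b c d), false, fun k _ => ncaseB% Nat.succ (dir.get k), false, fun i _ =>
    leaf (fun _ l' x' a' b' c' d' => bcaseB% Nat.beq l l', (bcaseB% Nat.beq x x', (bcaseB% Nat.beq a a',
      (bcaseB% Nat.beq b b', (bcaseB% Nat.beq c c', Nat.beq d d', false), false), false), false), false)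
      ((TT i).get k)

/-! ### The main loop: primed coordinates have `t = 2 * (d / 2)` subtracted -/

structure MC where
  g : Cfg
  XR : F3
  T : Nat → Tab
  dir : BT
  TT : Nat → BT
  cert : BT

def chkMa (M : MC) (t lm b c d b' c' d' x x' R a' : Nat) : Bool :=
  ncaseB% Nat.succ (Nat.add a' t), false, fun a _ =>
    ncaseB% Nat.succ (fld R (Nat.mul 40 (Nat.sub a' (Nat.succ b'))) 1099511627776), false, fun y _ =>
      ncaseB% Nat.succ (mx 7 (Nat.succ (Nat.div (Nat.sub
          (Nat.add (Nat.add (Nat.add (Nat.add (Nat.add x x) a) b) c) d) 15) 6))), false, fun l0 _ =>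
        ncaseB% Nat.succ (Nat.add l0 (Nat.mod y 32)), false, fun l _ =>
          bcaseB% allR (tchk M.dir M.TT x a b c d) l0 (Nat.mod y 32),
            (bcaseB% Nat.ble l lm, ubLe M.g M.XR x' a' b' c' d' (lbv M.T y l x a b c d), true), false

def chkMx (M : MC) (t lm b c d b' c' d' x' : Nat) : Bool :=
  ncaseB% Nat.succ (Nat.add x' t), false, fun x _ =>
    ncaseB% Nat.succ (M.cert.get (pkey 0 x 0 b c d)), false, fun R _ =>
      allR (chkMa M t lm b c d b' c' d' x x' R) (Nat.succ b')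
        (Nat.sub (mn x' (Nat.sub (6 * lm + 15) (x + x + b + c + d + t))) (Nat.succ b'))

def chkMt (M : MC) (b' c' d' s : Nat) : Bool :=
  ncaseB% Nat.succ (Nat.mul 2 s), false, fun t _ =>
    ncaseB% Nat.succ (Nat.add b' t), false, fun b _ => ncaseB% Nat.succ (Nat.add c' t), false, fun c _ =>
      ncaseB% Nat.succ (Nat.add d' t), false, fun d _ =>
        ncaseB% Nat.succ (bcase% Nat.ble d 5, 24, 11), false, fun lm _ =>
          allR (chkMx M t lm b c d b' c' d') (b' + 2)
            (Nat.sub (Nat.sub (Nat.div (Nat.sub (6 * lm + 15) (b + b + c + d)) 2) t) (b' + 2))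

def chkMb (M : MC) (d' c' b' : Nat) : Bool := allR (chkMt M b' c' d') 0 6
def chkMc (M : MC) (d' c' : Nat) : Bool := allR (chkMb M d' c') (Nat.succ c') (Nat.sub 40 (Nat.succ c'))

end

end Crest.Agent.R187
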