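import Crest.Agent.R187.Rec2
import Crest.Agent.R187.Dig

/-!
# Row 187, part 2: soundness of the multiplication engine

Induction on `s`.  The recursor terms unfold by `rfl`/`show`:
`(K2% g, XR, F, k, s + 1) b c d = K2s g XR F k s (K2% g, XR, F, k, s) b c d`; then `unfold K2s` and rewrite with
`bcase_ble`, `bcase_beq`, `ncase_sub`, `ncase_succ`.  In each branch use the `Rep` lemmas of `Dig.lean`; the recursive
calls are at sorted keys that are componentwise smaller, so `hX` and `Rep.mono` restrict them to `XR b c d` rows.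
Signs come from `c2_swap`, `c3_anti` (equal entries give `0`, since `z = -z`), pruning from `c2_zero`, `c3_zero`, `c5_zero`.
Digit bounds: `K2`, `K3` have `n = 1`, `V` has `n = 2`, `W` has `n = 3`, the sum up to `s` has `n = 3 (s + 1)`.
`B0_rep`: `B0 g b c d = ∑_{x<6} ∑_{a<6} r x a * 2^(w (x L + a))` with `r x a < 2^v`; rewrite it as one sum over
`p < 6 L` of `(if p % L < 6 then r (p / L) (p % L) else 0) * 2^(w p)` and use `dig_sum`, or use `dig_dig` and `dig_sum`
twice; `d0_eq_zero` outside.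
-/

set_option autoImplicit false

namespace Crest.Agent.R187

theorem EngK_vw {g : Cfg} {n : ℕ} (hn : 1 ≤ n) (hw : n * 2 ^ g.v < 2 ^ g.w) : g.v < g.w := by
  have h : 2 ^ g.v < 2 ^ g.w := lt_of_le_of_lt (Nat.le_mul_of_pos_left _ hn) hw
  exact (Nat.pow_lt_pow_iff_right (by norm_num)).1 h

theorem EngK_le {g : Cfg} {n n' : ℕ} (hn : n ≤ n') (hw : n' * 2 ^ g.v < 2 ^ g.w) : n * 2 ^ g.v < 2 ^ g.w :=
  lt_of_le_of_lt (Nat.mul_le_mul_right _ hn) hw

theorem EngK_res {g : Cfg} {XR F : F3} {f : F5} (hX : XAnti XR) (hF : TRep g XR F f) (b c d : ℕ) {b' c' d' : ℕ}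
    (hb : b' ≤ b) (hc : c' ≤ c) (hd : d' ≤ d) (h1 : c' < b') (h2 : d' < c') :
    Rep g 1 (F b' c' d') (XR b c d) fun x a => f x a b' c' d' :=
  (hF b' c' d' h1 h2).mono le_rfl (hX _ _ _ _ _ _ hb hc hd) fun _ _ _ _ => rfl

theorem EngK_congr {g : Cfg} {n y X : ℕ} {f f' : ℕ → ℕ → ℤ} (h : Rep g n y X f) (hf : ∀ x a, f x a = f' x a) :
    Rep g n y X f' := h.mono le_rfl le_rfl fun x _ a _ => hf x a

noncomputable def EngK_K3a (g : Cfg) (XR : F3) (k s : Nat) (ih : F3) (Y b c d : Nat) : Nat :=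
  bcase% Nat.ble (Nat.mul k (Nat.succ s)) (Nat.add (Nat.add b c) d),
    (ncase% Nat.sub (Nat.succ b) k, Nat.add Y 0, fun b' _ =>
        bcase% Nat.ble b' c,
          (bcase% Nat.beq b' c, Nat.add Y 0,
            bcase% Nat.ble b' d,
              (bcase% Nat.beq b' d, Nat.add Y 0,
                Nat.land (Nat.add Y (ih c d b')) (MK g (XR b c d))),
              Nat.land (Nat.add Y
                (Nat.sub (BG g (XR b c d)) (Nat.land (ih c b' d) (MK g (XR b c d))))) (MK g (XR b c d))),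
          Nat.land (Nat.add Y (ih b' c d)) (MK g (XR b c d))),
    0

theorem EngK_K3s (g : Cfg) (XR F : F3) (k s : Nat) (ih : F3) (b c d : Nat) :
    K3s g XR F k s ih b c d = EngK_K3a g XR k s ih ((K2% g, XR, F, k, s + 1) b c d) b c d := rfl

theorem EngK_c2_succ (f : F5) (k s x a b c d : ℕ) : c2 f k (s + 1) x a b c d =
    (if k * (s + 1) ≤ d then f x a b c (d - k * (s + 1)) else 0) +
      if k ≤ c then c2 f k s x a b (c - k) d else 0 := rfl

theorem EngK_c3_succ (f : F5) (k s x a b c d : ℕ) : c3 f k (s + 1) x a b c d =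
    c2 f k (s + 1) x a b c d + if k ≤ b then c3 f k s x a (b - k) c d else 0 := rfl

theorem EngK_c4_succ (f : F5) (k s x a b c d : ℕ) : c4 f k (s + 1) x a b c d =
    c3 f k (s + 1) x a b c d + if k ≤ a then c4 f k s x (a - k) b c d else 0 := rfl

theorem EngK_c5_succ (f : F5) (k s x a b c d : ℕ) : c5 f k (s + 1) x a b c d =
    c4 f k (s + 1) x a b c d + if k ≤ x then c5 f k s (x - k) a b c d else 0 := rfl

theorem K2_rep {g : Cfg} {XR F : F3} {f : F5} {k : ℕ} (hw : 3 * 2 ^ g.v < 2 ^ g.w) (hX : XAnti XR)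
    (hf : AntiS f) (hF : TRep g XR F f) (s : ℕ) : TRep g XR (K2% g, XR, F, k, s) (c2 f k s) := by
  have hvw : g.v < g.w := EngK_vw (by norm_num) hw
  have h2 : (1 + 1) * 2 ^ g.v < 2 ^ g.w := EngK_le (by norm_num) hw
  induction s with
  | zero => exact hF
  | succ s ih =>
    intro b c d hcb hdc
    have hsw := c2_swap hf.2 k s
    have h00 : ∀ x a b c, c2 f k s x a b c c = 0 := fun x a b c => by
      have := hsw x a b c c
      omega
    show Rep g 1 (K2s g XR F k s (K2% g, XR, F, k, s) b c d) _ _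
    generalize (K2% g, XR, F, k, s) = G at ih ⊢
    unfold K2s
    simp only [bcase_ble, bcase_beq, ncase_sub, Nat.mul_eq, Nat.add_eq, Nat.succ_eq_add_one]
    split_ifs with h1 h3 h4 h5 h6 h4 h5 h6
    · refine EngK_congr ((EngK_res hX hF b c d le_rfl le_rfl (Nat.sub_le _ _) hcb (by omega)).mask hvw) ?_
      intro x a
      rw [EngK_c2_succ, if_pos h3, if_pos h4, h6, h00, add_zero]
    · refine EngK_congr (((EngK_res hX hF b c d le_rfl le_rfl (Nat.sub_le _ _) hcb (by omega)).add h2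
        ((EngK_res hX ih b c d le_rfl hdc.le h5 (by omega) (by omega)).neg hvw)).mask hvw) ?_
      intro x a
      rw [EngK_c2_succ, if_pos h3, if_pos h4, hsw x a b d (c - k)]
    · refine EngK_congr (((EngK_res hX hF b c d le_rfl le_rfl (Nat.sub_le _ _) hcb (by omega)).add h2
        (EngK_res hX ih b c d le_rfl (Nat.sub_le _ _) le_rfl (by omega) (by omega))).mask hvw) ?_
      intro x a
      rw [EngK_c2_succ, if_pos h3, if_pos h4]
    · refine EngK_congr ((EngK_res hX hF b c d le_rfl le_rfl (Nat.sub_le _ _) hcb (by omega)).mask hvw) ?_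
      intro x a
      rw [EngK_c2_succ, if_pos h3, if_neg h4, add_zero]
    · refine EngK_congr (Rep.zero g 1 _) ?_
      intro x a
      rw [EngK_c2_succ, if_neg h3, if_pos h4, h6, h00, add_zero]
    · refine EngK_congr (((EngK_res hX ih b c d le_rfl hdc.le h5 (by omega) (by omega)).neg hvw).mask hvw) ?_
      intro x a
      rw [EngK_c2_succ, if_neg h3, if_pos h4, hsw x a b d (c - k), zero_add]
    · refine EngK_congr ((EngK_res hX ih b c d le_rfl (Nat.sub_le _ _) le_rfl (by omega) (by omega)).mask hvw) ?_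
      intro x a
      rw [EngK_c2_succ, if_neg h3, if_pos h4, zero_add]
    · refine EngK_congr (Rep.zero g 1 _) ?_
      intro x a
      rw [EngK_c2_succ, if_neg h3, if_neg h4, zero_add]
    · refine EngK_congr (Rep.zero g 1 _) ?_
      intro x a
      rw [c2_zero f x a b (by omega)]

theorem K3_rep {g : Cfg} {XR F : F3} {f : F5} {k : ℕ} (hw : 3 * 2 ^ g.v < 2 ^ g.w) (hX : XAnti XR)
    (hf : AntiS f) (hF : TRep g XR F f) (s : ℕ) : TRep g XR (K3% g, XR, F, k, s) (c3 f k s) := by
  have hvw : g.v < g.w := EngK_vw (by norm_num) hw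
  have h2 : (1 + 1) * 2 ^ g.v < 2 ^ g.w := EngK_le (by norm_num) hw
  induction s with
  | zero => exact hF
  | succ s ih =>
    intro b c d hcb hdc
    obtain ⟨hs1, hs2⟩ := c3_anti hf k s
    have hK := K2_rep (k := k) hw hX hf hF (s + 1) b c d hcb hdc
    show Rep g 1 (K3s g XR F k s (K3% g, XR, F, k, s) b c d) _ _
    generalize (K3% g, XR, F, k, s) = G at ih ⊢
    rw [EngK_K3s]
    generalize (K2% g, XR, F, k, s + 1) b c d = Y at hK ⊢
    unfold EngK_K3a
    simp only [bcase_ble, bcase_beq, ncase_sub]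
    split_ifs with h1 h3 h4 h5 h6 h7
    · refine EngK_congr hK ?_
      intro x a
      have := hs1 x a c c d
      rw [EngK_c3_succ, if_pos h3, h5]
      omega
    · refine EngK_congr hK ?_
      intro x a
      have := hs1 x a d c d
      have := hs2 x a c d d
      rw [EngK_c3_succ, if_pos h3, h7]
      omega
    · refine EngK_congr ((hK.add h2
        (EngK_res hX ih b c d hcb.le hdc.le h6 hdc (by omega))).mask hvw) ?_
      intro x a
      have := hs1 x a (b - k) c d
      have := hs2 x a c (b - k) d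
      rw [EngK_c3_succ, if_pos h3]
      omega
    · refine EngK_congr ((hK.add h2
        ((EngK_res hX ih b c d hcb.le h4 le_rfl (by omega) (by omega)).neg hvw)).mask hvw) ?_
      intro x a
      have := hs1 x a (b - k) c d
      rw [EngK_c3_succ, if_pos h3]
      omega
    · refine EngK_congr ((hK.add h2
        (EngK_res hX ih b c d (Nat.sub_le _ _) le_rfl le_rfl (by omega) hdc)).mask hvw) ?_
      intro x a
      rw [EngK_c3_succ, if_pos h3]
    · refine EngK_congr hK ?_
      intro x a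
      rw [EngK_c3_succ, if_neg h3, add_zero]
    · refine EngK_congr (Rep.zero g 1 _) ?_
      intro x a
      rw [c3_zero f x a (not_le.1 h1)]

theorem EngK_V {g : Cfg} {XR F : F3} {f : F5} {k : ℕ} (hw : 3 * 2 ^ g.v < 2 ^ g.w) (hX : XAnti XR)
    (hM : ∀ b c d, XR b c d ≤ g.XM) (hf : AntiS f) (hF : TRep g XR F f) {b c d : ℕ} (hcb : c < b) (hdc : d < c)
    (s : ℕ) : Rep g 2 (V% g, XR, F, k, b, c, d, s) (XR b c d) fun x a => c4 f k s x a b c d := by
  have hvw : g.v < g.w := EngK_vw (by norm_num) hw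
  have h2 : (1 + 1) * 2 ^ g.v < 2 ^ g.w := EngK_le (by norm_num) hw
  induction s with
  | zero => exact ((hF b c d hcb hdc).mask hvw).mono (by norm_num) le_rfl fun _ _ _ _ => rfl
  | succ s ih =>
    exact EngK_congr ((K3_rep (k := k) hw hX hf hF (s + 1) b c d hcb hdc).add h2 (ih.shiftA hvw (hM b c d) k))
      fun x a => (EngK_c4_succ f k s x a b c d).symm

theorem EngK_W {g : Cfg} {XR F : F3} {f : F5} {k : ℕ} (hw : 3 * 2 ^ g.v < 2 ^ g.w) (hX : XAnti XR)
    (hM : ∀ b c d, XR b c d ≤ g.XM) (hf : AntiS f) (hF : TRep g XR F f) {b c d : ℕ} (hcb : c < b) (hdc : d < c)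
    (s : ℕ) : Rep g 3 (W% g, XR, F, k, b, c, d, s) (XR b c d) fun x a => c5 f k s x a b c d := by
  have hvw : g.v < g.w := EngK_vw (by norm_num) hw
  have h2 : (2 + 1) * 2 ^ g.v < 2 ^ g.w := hw
  induction s with
  | zero => exact ((hF b c d hcb hdc).mask hvw).mono (by norm_num) le_rfl fun _ _ _ _ => rfl
  | succ s ih =>
    exact EngK_congr ((EngK_V (k := k) hw hX hM hf hF hcb hdc (s + 1)).add h2 (ih.shiftX hvw k))
      fun x a => (EngK_c5_succ f k s x a b c d).symm

theorem EngK_R {g : Cfg} {XR F : F3} {f : F5} {k : ℕ} (hX : XAnti XR)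
    (hM : ∀ b c d, XR b c d ≤ g.XM) (hf : AntiS f) (hF : TRep g XR F f) {b c d : ℕ} (hcb : c < b) (hdc : d < c)
    (s : ℕ) (hw : 3 * (s + 1) * 2 ^ g.v < 2 ^ g.w) :
    Rep g (3 * (s + 1)) (Nat.rec (motive := fun _ => Nat) (Vz g XR F b c d) (Rs g XR F k b c d) s) (XR b c d)
      fun x a => ∑ i ∈ Finset.range (s + 1), c5 f k i x a b c d := by
  have hw3 : 3 * 2 ^ g.v < 2 ^ g.w := EngK_le (by omega) hw
  have hvw : g.v < g.w := EngK_vw (by norm_num) hw3
  induction s with
  | zero =>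
    refine ((hF b c d hcb hdc).mask hvw).mono (by norm_num) le_rfl fun _ _ _ _ => ?_
    rw [Finset.sum_range_one]
    rfl
  | succ s ih =>
    have h2 : (3 * (s + 1) + 3) * 2 ^ g.v < 2 ^ g.w := EngK_le (by omega) hw
    exact EngK_congr ((ih (EngK_le (by omega) hw)).add h2 (EngK_W (k := k) hw3 hX hM hf hF hcb hdc (s + 1)))
      fun x a => (Finset.sum_range_succ (fun i => c5 f k i x a b c d) (s + 1)).symm

theorem RK_rep {g : Cfg} {XR F : F3} {f : F5} {k : ℕ} (hw : 3 * (g.m + 1) * 2 ^ g.v < 2 ^ g.w)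
    (hX : XAnti XR) (hM : ∀ b c d, XR b c d ≤ g.XM) (hk : 1 ≤ k) (hf : AntiS f) (hF : TRep g XR F f) :
    TRep g XR (RK g XR F k) (c6 f k g.m) := by
  intro b c d hcb hdc
  have hvw : g.v < g.w := EngK_vw (by omega) hw
  unfold RK
  rw [mn_eq]
  set s := min g.m (Nat.div (Nat.add (Nat.add (XR b c d) g.L) (Nat.add (Nat.add b c) d)) k) with hs
  have hsm : s ≤ g.m := min_le_left _ _
  refine ((EngK_R (k := k) hX hM hf hF hcb hdc s (EngK_le (by omega) hw)).mask hvw).mono le_rfl le_rfl ?_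
  intro x hx a ha
  show _ = ∑ i ∈ Finset.range (g.m + 1), c5 f k i x a b c d
  refine Finset.sum_subset (Finset.range_subset_range.2 (by omega)) fun i hi hi' => ?_
  rw [Finset.mem_range] at hi hi'
  have h1 : (XR b c d + g.L + (b + c + d)) / k < i := by
    have : s = min g.m ((XR b c d + g.L + (b + c + d)) / k) := hs
    omega
  rw [Nat.div_lt_iff_lt_mul hk, Nat.mul_comm] at h1
  exact c5_zero f (by omega)

theorem EngK_sum_lt (u n : ℕ) (f : ℕ → ℕ) (hf : ∀ p < n, f p < 2 ^ u) :
    ∑ p ∈ Finset.range n, f p * 2 ^ (u * p) < 2 ^ (u * n) := by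
  induction n with
  | zero => simp
  | succ n ih =>
    rw [Finset.sum_range_succ, Nat.mul_succ, pow_add]
    have h1 := ih fun p hp => hf p (by omega)
    have h2 : f n + 1 ≤ 2 ^ u := hf n (by omega)
    have h3 := Nat.mul_le_mul_right (2 ^ (u * n)) h2
    nlinarith

theorem B0_rep {g : Cfg} (XR : F3) (hw : g.v < g.w) (hL : 6 ≤ g.L) : TRep g XR (B0 g) d0 := by
  intro b c d hcb hdc
  unfold B0
  rw [bcase_ble]
  split_ifs with hb
  · have hpos : (0 : ℤ) < 2 ^ g.v := by positivity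
    set r : ℕ → ℕ → ℕ := fun x a => Int.toNat (d0 x a b c d % 2 ^ g.v) with hr
    have hr1 : ∀ x a, ((r x a : ℕ) : ℤ) = d0 x a b c d % 2 ^ g.v := fun x a =>
      Int.toNat_of_nonneg (Int.emod_nonneg _ hpos.ne')
    have hr2 : ∀ x a, r x a < 2 ^ g.v := fun x a => by
      have h := Int.emod_lt_of_pos (d0 x a b c d) hpos
      rw [← hr1] at h
      exact_mod_cast h
    have hr3 : ∀ x a, r x a < 2 ^ g.w := fun x a =>
      (hr2 x a).trans (Nat.pow_lt_pow_right (by norm_num) hw)
    have hB : sumR (B0x g b c d) 6 = ∑ x ∈ Finset.range 6,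
        (∑ a ∈ Finset.range 6, r x a * 2 ^ (g.w * a)) * 2 ^ (g.w * g.L * x) := by
      rw [sumR_eq]
      refine Finset.sum_congr rfl fun x _ => ?_
      unfold B0x
      rw [sumR_eq, Finset.sum_mul]
      refine Finset.sum_congr rfl fun a _ => ?_
      show (Int.toNat (d0 x a b c d % ((1 <<< g.v : ℕ) : ℤ))) <<< (g.w * (x * g.L + a)) = _
      rw [Nat.shiftLeft_eq, Nat.one_shiftLeft, Nat.cast_pow, Nat.cast_ofNat, mul_assoc, ← pow_add]
      congr 2
      ring
    intro x hx a ha
    rw [hB, ← dig_dig _ _ _ _ ha, dig_sum]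
    · split_ifs with hx6
      · rw [dig_sum _ _ _ fun p _ => hr3 x p]
        split_ifs with ha6
        · refine ⟨by have := hr2 x a; omega, ?_⟩
          rw [hr1]
          exact Int.mod_modEq _ _
        · refine ⟨Nat.zero_le _, ?_⟩
          show ((0 : ℕ) : ℤ) ≡ d0 x a b c d [ZMOD _]
          rw [d0_eq_zero (by omega)]
          rfl
      · have h0 : dig g.w 0 a = 0 := by rw [dig_eq]; simp
        rw [h0]
        refine ⟨Nat.zero_le _, ?_⟩
        show ((0 : ℕ) : ℤ) ≡ d0 x a b c d [ZMOD _]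
        rw [d0_eq_zero (by omega)]
        rfl
    · intro p _
      exact lt_of_lt_of_le (EngK_sum_lt _ _ _ fun q _ => hr3 p q)
        (Nat.pow_le_pow_right (by norm_num) (Nat.mul_le_mul_left _ hL))
  · refine EngK_congr (Rep.zero g 1 _) ?_
    intro x a
    rw [d0_eq_zero (by omega)]

end Crest.Agent.R187
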