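import Crest.Agent.R187.Poly

/-!
# From Lie algebra equivariance to `GL_n`-equivariance; reduction of S0286 to multiplicities

Recipe.  `linSubst a (g * h) = (linSubst a h).comp (linSubst a g)` or the other order (check on variables),
`linSubst` preserves `blockSym`.  For a diagonal matrix `linSubst` multiplies a vector of weight `μ` by
`∏ d_i^{μ_i}`; an `E`-equivariant map preserves weights (`wt_iff`) and every element of `blockSym` is a sum of
weight vectors in `blockSym` (`GlRep.iSup_wt (bs a n m)`).  For a transvection `1 + c e_{kl}` (`k ≠ l`),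
`x_{r k} ↦ x_{r k} + c x_{r l}`, so `linSubst = exp (c E a l k)`:  prove
`linSubst (transvection k l c) f = ∑ t ∈ range N, (c^t / t!) • (E a l k)^[t] f` for `N` larger than the total degree
(e.g. both sides as algebra maps / Taylor's formula: `d/dc`, or induction on monomials with Leibniz
`Derivation.leibniz` + binomial formula; `(E a l k)^[t]` kills `f` once `t` exceeds the degree of `f` in
column `k`).  An alternative that avoids the exponential: the polynomial `c ↦ linSubst (1 + c e_{kl}) f`
has coefficients `f_t` with `(t+1) f_{t+1} = E a l k f_t`.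
Conclude with `Matrix.diagonal_transvection_induction_of_det_ne_zero`.
Extend `φ` from the subspace to the whole ring by `LinearMap.exists_extend`.
-/

set_option autoImplicit false

namespace Crest.Agent.R187

open MvPolynomial Crest.AlgebraR.FoulkesHowe

theorem Equiv_as_sum {a n : ℕ} (f : P a n) : f = ∑ d ∈ f.support, coeff d f • monomial d (1 : ℂ) := by
  conv_lhs => rw [f.as_sum]
  exact Finset.sum_congr rfl fun d _ => by rw [smul_monomial, smul_eq_mul, mul_one]

theorem Equiv_monomial_add {a n : ℕ} (d d' : Var a n →₀ ℕ) :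
    (monomial (d + d') (1 : ℂ) : P a n) = monomial d 1 * monomial d' 1 := by
  rw [monomial_mul, mul_one]

theorem Equiv_X {a n : ℕ} (g : Matrix (Fin n) (Fin n) ℂ) (v : Var a n) :
    linSubst a g (X v) = ∑ l : Fin n, g v.2 l • X (v.1, l) := by
  simp [linSubst]

theorem Equiv_block {a n : ℕ} (g : Matrix (Fin n) (Fin n) ℂ) (r : Fin a) (d : Var a n →₀ ℕ) :
    IsWeightedHomogeneous (blockWeight r) (linSubst a g (monomial d 1)) (Finsupp.weight (blockWeight r) d) := by
  induction d using Finsupp.induction_linear with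
  | zero => simpa using isWeightedHomogeneous_one ℂ (blockWeight r)
  | add d d' h h' => rw [Equiv_monomial_add, map_mul, map_add]; exact h.mul h'
  | single v k =>
    rw [← X_pow_eq_monomial, map_pow, Finsupp.weight_single, Equiv_X]
    refine IsWeightedHomogeneous.pow ?_ k
    refine IsWeightedHomogeneous.sum _ _ _ fun l _ => ?_
    exact (weightedHomogeneousSubmodule ℂ _ _).smul_mem _ (isWeightedHomogeneous_X ℂ (blockWeight r) (v.1, l))

theorem linSubst_mem {a n m : ℕ} (g : Matrix (Fin n) (Fin n) ℂ) {f : P a n}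
    (hf : f ∈ blockSym a n m) : linSubst a g f ∈ blockSym a n m := by
  rw [mem_blockSym] at hf ⊢
  refine ⟨fun r => ?_, fun σ => ?_⟩
  · rw [Equiv_as_sum f, map_sum]
    refine IsWeightedHomogeneous.sum _ _ _ fun d hd => ?_
    rw [map_smul, ← hf.1 r (mem_support_iff.1 hd)]
    exact (weightedHomogeneousSubmodule ℂ _ _).smul_mem _ (Equiv_block g r d)
  · have h : (rename (blockPerm σ)).comp (linSubst a g) = (linSubst a g).comp (rename (blockPerm σ)) := by
      ext v : 1
      simp [linSubst, blockPerm]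
    have h2 := AlgHom.congr_fun h f
    simp only [AlgHom.comp_apply] at h2
    rw [h2, hf.2 σ]

theorem Equiv_mul {a n : ℕ} (g h : Matrix (Fin n) (Fin n) ℂ) (f : P a n) :
    linSubst a (g * h) f = linSubst a h (linSubst a g f) := by
  have e : linSubst a (g * h) = (linSubst a h).comp (linSubst a g) := by
    ext v : 1
    simp only [AlgHom.comp_apply, Equiv_X, map_sum, map_smul, Matrix.mul_apply, Finset.sum_smul,
      Finset.smul_sum, smul_smul]
    exact Finset.sum_comm
  rw [e, AlgHom.comp_apply]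

theorem Equiv_diag_monomial {a n : ℕ} (c : Fin n → ℂ) (d : Var a n →₀ ℕ) :
    linSubst a (Matrix.diagonal c) (monomial d 1) =
      (∏ i, c i ^ Finsupp.weight colW d i) • monomial d (1 : ℂ) := by
  induction d using Finsupp.induction_linear with
  | zero => simp
  | add d d' h h' =>
    rw [Equiv_monomial_add, map_mul, h, h', map_add, smul_mul_smul_comm, ← Finset.prod_mul_distrib]
    simp only [Pi.add_apply, pow_add]
  | single v k =>
    rw [← X_pow_eq_monomial, map_pow, Finsupp.weight_single, Equiv_X, Finset.sum_eq_single v.2,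
      Finset.prod_eq_single v.2]
    · simp [colW, smul_pow]
    · intro i _ hi
      simp [colW, hi]
    · simp
    · intro i _ hi
      simp [Matrix.diagonal_apply_ne' _ hi]
    · simp

theorem Equiv_diag {a n : ℕ} (c : Fin n → ℂ) {f : P a n} {μ : Fin n → ℕ} (hf : IsWeightedHomogeneous colW f μ) :
    linSubst a (Matrix.diagonal c) f = (∏ i, c i ^ μ i) • f := by
  conv_rhs => rw [Equiv_as_sum f, Finset.smul_sum]
  conv_lhs => rw [Equiv_as_sum f, map_sum]
  refine Finset.sum_congr rfl fun d hd => ?_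
  rw [map_smul, Equiv_diag_monomial, hf (mem_support_iff.1 hd), smul_comm]

theorem Equiv_iter_mul {a n : ℕ} (D : Derivation ℂ (P a n) (P a n)) (f x : P a n) (hx : D (D x) = 0) (k : ℕ) :
    D^[k + 1] (f * x) = D^[k + 1] f * x + ((k + 1 : ℕ) : ℂ) • (D^[k] f * D x) := by
  induction k with
  | zero => simp [Derivation.leibniz]; ring
  | succ k ih =>
    rw [Function.iterate_succ_apply', ih, Function.iterate_succ_apply' _ (k + 1) f,
      Function.iterate_succ_apply' _ k f]
    rw [map_add, Derivation.map_smul, Derivation.leibniz, Derivation.leibniz, hx]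
    simp only [smul_eq_mul, mul_zero, zero_add, smul_eq_C_mul, map_natCast]
    push_cast
    ring

theorem Equiv_tv {a n : ℕ} (t : Matrix.TransvectionStruct (Fin n) ℂ) (f : P a n) : ∃ N₀, ∀ N, N₀ ≤ N →
    linSubst a t.toMatrix f = ∑ k ∈ Finset.range N, (t.c ^ k / k.factorial) • (E a t.j t.i)^[k] f := by
  induction f using MvPolynomial.induction_on with
  | C c =>
    refine ⟨1, fun N hN => ?_⟩
    obtain ⟨N, rfl⟩ : ∃ M, N = M + 1 := ⟨N - 1, by omega⟩
    have h0 : E a t.j t.i (C c) = 0 := (E a t.j t.i).map_algebraMap c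
    rw [Finset.sum_range_succ', Finset.sum_eq_zero fun k _ => by
      rw [Function.iterate_succ_apply, h0, Function.iterate_fixed (map_zero _), smul_zero]]
    simp
  | add f g hf hg =>
    obtain ⟨N₁, h₁⟩ := hf
    obtain ⟨N₂, h₂⟩ := hg
    refine ⟨max N₁ N₂, fun N hN => ?_⟩
    rw [map_add, h₁ N (le_of_max_le_left hN), h₂ N (le_of_max_le_right hN), ← Finset.sum_add_distrib]
    refine Finset.sum_congr rfl fun k _ => ?_
    rw [← smul_add]
    congr 1
    exact (iterate_map_add (E a t.j t.i).toLinearMap k f g).symm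
  | mul_X f v hf =>
    obtain ⟨N₁, h₁⟩ := hf
    refine ⟨N₁ + 1, fun N hN => ?_⟩
    obtain ⟨N, rfl⟩ : ∃ M, N = M + 1 := ⟨N - 1, by omega⟩
    have hx : E a t.j t.i (E a t.j t.i (X v)) = 0 := by
      rw [E_X]
      split_ifs
      · rw [E_X, if_neg t.hij.symm]
      · exact map_zero _
    have hX : linSubst a t.toMatrix (X v) = X v + t.c • E a t.j t.i (X v) := by
      rw [Equiv_X, E_X]
      simp only [Matrix.TransvectionStruct.toMatrix, Matrix.transvection, Matrix.add_apply, add_smul,
        Finset.sum_add_distrib, Matrix.one_apply, ite_smul, one_smul, zero_smul, Finset.sum_ite_eq,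
        Finset.mem_univ, if_true, Matrix.single_apply]
      congr 1
      by_cases h : v.2 = t.i
      · simp [h]
      · simp [h, Ne.symm h]
    rw [map_mul, hX, mul_add, Finset.sum_range_succ']
    simp only [Equiv_iter_mul _ f _ hx, smul_add, Finset.sum_add_distrib]
    rw [add_right_comm]
    congr 1
    · rw [h₁ (N + 1) (by omega), Finset.sum_range_succ', add_mul, Finset.sum_mul]
      simp only [smul_mul_assoc, Function.iterate_zero, id]
    · rw [h₁ N (by omega), Finset.sum_mul]
      refine Finset.sum_congr rfl fun k _ => ?_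
      rw [smul_mul_smul_comm, smul_smul]
      congr 1
      have h1 : ((k + 1 : ℕ) : ℂ) ≠ 0 := Nat.cast_ne_zero.2 (Nat.succ_ne_zero k)
      have h2 : ((k.factorial : ℕ) : ℂ) ≠ 0 := Nat.cast_ne_zero.2 (Nat.factorial_ne_zero k)
      rw [Nat.factorial_succ, Nat.cast_mul, pow_succ]
      field_simp

/-- `linSubst` on `blockSym` -/
noncomputable def Equiv_ls (a : ℕ) {n : ℕ} (m : ℕ) (g : Matrix (Fin n) (Fin n) ℂ) :
    blockSym a n m →ₗ[ℂ] blockSym a n m :=
  (linSubst a g).toLinearMap.restrict fun _ hf => linSubst_mem g hf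

theorem Equiv_ls_coe {a n m : ℕ} (g : Matrix (Fin n) (Fin n) ℂ) (f : blockSym a n m) :
    ((Equiv_ls a m g f : blockSym a n m) : P a n) = linSubst a g f := rfl

theorem Equiv_ls_mul {a n m : ℕ} (g h : Matrix (Fin n) (Fin n) ℂ) (f : blockSym a n m) :
    Equiv_ls a m (g * h) f = Equiv_ls a m h (Equiv_ls a m g f) :=
  Subtype.ext (by rw [Equiv_ls_coe, Equiv_ls_coe, Equiv_ls_coe, Equiv_mul])

theorem Equiv_ls_diag {a n m : ℕ} (c : Fin n → ℂ) {f : blockSym a n m} {μ : Fin n → ℕ}
    (hf : f ∈ (bs a n m).wt μ) : Equiv_ls a m (Matrix.diagonal c) f = (∏ i, c i ^ μ i) • f := by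
  refine Subtype.ext ?_
  rw [Equiv_ls_coe, Submodule.coe_smul]
  refine Equiv_diag c (wt_iff.2 fun i => ?_)
  rw [← bs_e, GlRep.mem_wt.1 hf i, Submodule.coe_smul]

theorem Equiv_ls_tv {a n m : ℕ} (t : Matrix.TransvectionStruct (Fin n) ℂ) (f : blockSym a n m) :
    ∃ N₀, ∀ N, N₀ ≤ N → Equiv_ls a m t.toMatrix f =
      ∑ k ∈ Finset.range N, (t.c ^ k / k.factorial) • ((bs a n m).e t.j t.i)^[k] f := by
  obtain ⟨N₀, h⟩ := Equiv_tv t (f : P a n)
  refine ⟨N₀, fun N hN => Subtype.ext ((h N hN).trans ?_)⟩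
  rw [Submodule.coe_sum]
  refine Finset.sum_congr rfl fun k _ => ?_
  rw [Submodule.coe_smul]
  congr 1
  exact ((Function.Semiconj.iterate_right (f := (Subtype.val : blockSym a n m → P a n))
    (bs_e m t.j t.i) k) f).symm

theorem equivariant_of_E {a a' n m m' : ℕ} (φ : blockSym a n m →ₗ[ℂ] blockSym a' n m')
    (hφ : ∀ i j f, φ ((bs a n m).e i j f) = (bs a' n m').e i j (φ f))
    (g : Matrix (Fin n) (Fin n) ℂ) (hg : IsUnit g) (f : blockSym a n m) :
    ((φ ⟨linSubst a g f, linSubst_mem g f.2⟩ : blockSym a' n m') : P a' n) =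
      linSubst a' g (φ f : P a' n) := by
  have key : ∀ f : blockSym a n m, φ (Equiv_ls a m g f) = Equiv_ls a' m' g (φ f) := by
    refine Matrix.diagonal_transvection_induction_of_det_ne_zero
      (fun g => ∀ f : blockSym a n m, φ (Equiv_ls a m g f) = Equiv_ls a' m' g (φ f)) g
      ((Matrix.isUnit_iff_isUnit_det g).1 hg).ne_zero (fun d _ f => ?_) (fun t f => ?_)
      fun A B _ _ hA hB f => ?_
    · have hf : f ∈ ⨆ μ, (bs a n m).wt μ := by rw [GlRep.iSup_wt]; trivial
      refine Submodule.iSup_induction _ (motive := fun f =>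
        φ (Equiv_ls a m (Matrix.diagonal d) f) = Equiv_ls a' m' (Matrix.diagonal d) (φ f)) hf
        (fun μ f hf => ?_) (by simp) fun f f' h h' => by simp only [map_add, h, h']
      have hf' : φ f ∈ (bs a' n m').wt μ := by
        rw [GlRep.mem_wt] at hf ⊢
        intro i
        rw [← hφ, hf i, map_smul]
      rw [Equiv_ls_diag d hf, Equiv_ls_diag d hf', map_smul]
    · obtain ⟨N, hN⟩ := Equiv_ls_tv t f
      obtain ⟨N', hN'⟩ := Equiv_ls_tv t (φ f)
      rw [hN _ (le_max_left N N'), hN' _ (le_max_right N N'), map_sum]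
      refine Finset.sum_congr rfl fun k _ => ?_
      rw [map_smul]
      congr 1
      exact (Function.Semiconj.iterate_right (f := φ) (hφ t.j t.i) k) f
    · rw [Equiv_ls_mul, Equiv_ls_mul, hB, hA]
  exact congrArg Subtype.val (key f)

theorem exists_map_of_hwd_le {a a' n m m' : ℕ} (h : ∀ l, hwd a n m l ≤ hwd a' n m' l) :
    ∃ φ : P a n →ₗ[ℂ] P a' n,
      (∀ f ∈ blockSym a n m, φ f ∈ blockSym a' n m') ∧
      Set.InjOn φ (blockSym a n m) ∧
      ∀ g : Matrix (Fin n) (Fin n) ℂ, IsUnit g →
        ∀ f ∈ blockSym a n m, φ (linSubst a g f) = linSubst a' g (φ f) := by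
  obtain ⟨φ, hinj, hφ⟩ := GlRep.exists_inj (bs a n m) (bs a' n m') fun l => by
    rw [finrank_bs_hw, finrank_bs_hw]; exact h l
  obtain ⟨ψ, hψ⟩ := LinearMap.exists_extend ((blockSym a' n m').subtype ∘ₗ φ)
  have hψ' : ∀ f (hf : f ∈ blockSym a n m), ψ f = (φ ⟨f, hf⟩ : P a' n) := fun f hf =>
    LinearMap.congr_fun hψ ⟨f, hf⟩
  refine ⟨ψ, fun f hf => ?_, fun f hf f' hf' e => ?_, fun g hg f hf => ?_⟩
  · rw [hψ' f hf]; exact (φ ⟨f, hf⟩).2
  · rw [hψ' f hf, hψ' f' hf'] at e
    exact congrArg Subtype.val (hinj (Subtype.ext e))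
  · rw [hψ' _ (linSubst_mem g hf), hψ' f hf]
    exact equivariant_of_E φ hφ g hg ⟨f, hf⟩

end Crest.Agent.R187
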