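import Crest.Agent.R187.Defs

/-!
# Abstract `gl_n`-modules I: restriction, decomposition into cyclic modules, additivity

Recipe.  Inside proofs put `letI : InnerProductSpace.Core ℂ V := ρ.ip`,
`letI := InnerProductSpace.Core.toNormedAddCommGroup (𝕜 := ℂ) (F := V)`,
`letI := InnerProductSpace.ofCore (𝕜 := ℂ) (F := V) ρ.ip.toCore` (check the exact names) to get orthogonal
complements, or work by hand with `ρ.ip.inner`.
* `wt_indep`: joint eigenspaces for distinct weights are independent (they are even orthogonal: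
  `e i i` is self-adjoint by `adj`, eigenvalues are real).
* `e_wt`: from `comm`, `e i j` maps weight `μ` to weight `μ + e_i - e_j`; a weight vector whose joint eigenvalue
  is not in `ℕ^n` is `0` because of `span` + independence (orthogonality to every `wt μ`).
* `res`: for `span`, write `v ∈ U` as a finite sum of weight vectors; each component is obtained from `v` by a
  polynomial in the `e i i` (or: use orthogonality: the orthogonal projection onto `U` commutes with the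
  `e i j` because `U` and `Uᗮ` are both invariant), so lies in `U`.
* `exists_hw`: pick a weight `μ` with `wt μ ≠ ⊥` maximising `∑ i, (n - i) * μ i` (finitely many weights occur,
  `finite_wt`); any nonzero vector of that weight is killed by the `e i j`, `i < j`.
* `exists_decomp`: strong induction on `finrank V` (generalising `V`), or on the dimension of an invariant
  subspace `W`: take a highest weight vector `v`, `U = sInf {U | Inv U ∧ v ∈ U}`, `Uᗮ` is invariant by `adj`.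
* `finrank_hw_sum`, `finrank_wt_sum`: the projections of an internal direct sum of invariant subspaces commute
  with the `e i j`, so `hw l = ⨁ (hw l ⊓ U k)`.
-/

set_option autoImplicit false

namespace Crest.Agent.R187.GlRep

variable {n : ℕ} {V : Type} [AddCommGroup V] [Module ℂ V]

/-- The inner product as a linear form in the second variable. -/
def Gl1_ipL (ρ : GlRep n V) (u : V) : V →ₗ[ℂ] ℂ where
  toFun v := ρ.ip.inner u v
  map_add' v w := by
    rw [← ρ.ip.conj_inner_symm, ρ.ip.add_left, map_add, ρ.ip.conj_inner_symm,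
      ρ.ip.conj_inner_symm]
  map_smul' c v := by
    rw [← ρ.ip.conj_inner_symm, ρ.ip.smul_left, map_mul, ρ.ip.conj_inner_symm]
    simp

theorem Gl1_ipL_apply (ρ : GlRep n V) (u v : V) : ρ.Gl1_ipL u v = ρ.ip.inner u v := rfl

theorem Gl1_inner_symm (ρ : GlRep n V) {u v : V} (h : ρ.ip.inner u v = 0) :
    ρ.ip.inner v u = 0 := by
  rw [← ρ.ip.conj_inner_symm, h, map_zero]

/-- Pairwise orthogonal subspaces are independent. -/
theorem Gl1_indep (ρ : GlRep n V) {ι : Type*} {U : ι → Submodule ℂ V}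
    (h : ∀ k l, k ≠ l → ∀ u ∈ U k, ∀ v ∈ U l, ρ.ip.inner u v = 0) : iSupIndep U := by
  intro k
  rw [Submodule.disjoint_def]
  intro v hv hv'
  have hle : (⨆ l, ⨆ _ : l ≠ k, U l) ≤ LinearMap.ker (ρ.Gl1_ipL v) :=
    iSup₂_le fun l hl w hw => h k l hl.symm v hv w hw
  exact ρ.ip.definite v (hle hv')

/-- The orthogonal complement. -/
def Gl1_perp (ρ : GlRep n V) (U : Submodule ℂ V) : Submodule ℂ V :=
  ⨅ u ∈ U, LinearMap.ker (ρ.Gl1_ipL u)

theorem Gl1_mem_perp {ρ : GlRep n V} {U : Submodule ℂ V} {v : V} :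
    v ∈ ρ.Gl1_perp U ↔ ∀ u ∈ U, ρ.ip.inner u v = 0 := by
  simp [Gl1_perp, Submodule.mem_iInf, Gl1_ipL_apply]

theorem Gl1_perp_inv (ρ : GlRep n V) {U : Submodule ℂ V} (hU : ρ.Inv U) :
    ρ.Inv (ρ.Gl1_perp U) := fun i j v hv => Gl1_mem_perp.2 fun u hu => by
  rw [← ρ.adj j i u v]
  exact Gl1_mem_perp.1 hv _ (hU j i u hu)

theorem Gl1_isCompl [FiniteDimensional ℂ V] (ρ : GlRep n V) (U : Submodule ℂ V) :
    IsCompl U (ρ.Gl1_perp U) := by
  let _ : InnerProductSpace.Core ℂ V := ρ.ip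
  let _ := InnerProductSpace.Core.toNormedAddCommGroup (𝕜 := ℂ) (F := V)
  let _ := InnerProductSpace.ofCore (𝕜 := ℂ) (F := V) inferInstance
  have h : ρ.Gl1_perp U = Uᗮ := by
    ext v
    rw [Gl1_mem_perp, Submodule.mem_orthogonal]
  rw [h]
  exact U.isCompl_orthogonal

theorem wt_orth (ρ : GlRep n V) {μ ν : Fin n → ℕ} (h : μ ≠ ν) {u v : V} (hu : u ∈ ρ.wt μ)
    (hv : v ∈ ρ.wt ν) : ρ.ip.inner u v = 0 := by
  obtain ⟨i, hi⟩ := Function.ne_iff.1 h
  have h1 := ρ.adj i i u v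
  rw [mem_wt.1 hu i, mem_wt.1 hv i, ρ.ip.smul_left, ← ρ.Gl1_ipL_apply u (_ • v), map_smul,
    Gl1_ipL_apply, map_natCast, smul_eq_mul] at h1
  have h2 : (μ i : ℂ) ≠ ν i := by exact_mod_cast hi
  exact (mul_eq_mul_right_iff.1 h1).resolve_left h2

theorem wt_indep (ρ : GlRep n V) : iSupIndep ρ.wt := by
  exact ρ.Gl1_indep fun μ ν h u hu v hv => ρ.wt_orth h hu hv

theorem iSup_wt (ρ : GlRep n V) : ⨆ μ, ρ.wt μ = ⊤ := by
  exact eq_top_iff.2 fun v _ => ρ.span v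

theorem finite_wt [FiniteDimensional ℂ V] (ρ : GlRep n V) : {μ | ρ.wt μ ≠ ⊥}.Finite := by
  exact Submodule.finite_ne_bot_of_iSupIndep ρ.wt_indep

theorem Gl1_diag (ρ : GlRep n V) {μ : Fin n → ℕ} {v : V} (hv : v ∈ ρ.wt μ) (i j k : Fin n) :
    ρ.e k k (ρ.e i j v) =
      ((μ k : ℂ) + (if k = i then 1 else 0) - (if k = j then 1 else 0)) • ρ.e i j v := by
  have h1 := ρ.comm k k i j v
  rw [mem_wt.1 hv k, map_smul, sub_eq_iff_eq_add] at h1
  rw [h1, sub_smul, add_smul]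
  have h2 : (if k = i then ρ.e k j v else 0) = (if k = i then (1 : ℂ) else 0) • ρ.e i j v := by
    split_ifs with h
    · rw [h, one_smul]
    · rw [zero_smul]
  have h3 : (if j = k then ρ.e i k v else 0) = (if k = j then (1 : ℂ) else 0) • ρ.e i j v := by
    by_cases h : j = k
    · rw [if_pos h, if_pos h.symm, h, one_smul]
    · rw [if_neg h, if_neg (Ne.symm h), zero_smul]
  rw [h2, h3]
  abel

/-- `e i j` shifts weights by `e_i - e_j`. -/
theorem e_wt (ρ : GlRep n V) {μ ν : Fin n → ℕ} {i j : Fin n}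
    (h : ν + Pi.single j 1 = μ + Pi.single i 1) {v : V} (hv : v ∈ ρ.wt μ) :
    ρ.e i j v ∈ ρ.wt ν := by
  refine mem_wt.2 fun k => ?_
  rw [ρ.Gl1_diag hv]
  congr 1
  have h1 : ((ν k : ℕ) : ℂ) + (Pi.single j 1 : Fin n → ℕ) k =
      μ k + (Pi.single i 1 : Fin n → ℕ) k := by
    exact_mod_cast congrFun h k
  simp only [Pi.single_apply, Nat.cast_ite, Nat.cast_one, Nat.cast_zero] at h1
  rw [← h1, add_sub_cancel_right]

theorem e_wt_zero (ρ : GlRep n V) {μ : Fin n → ℕ} {i j : Fin n} (hij : i ≠ j) (h : μ j = 0)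
    {v : V} (hv : v ∈ ρ.wt μ) : ρ.e i j v = 0 := by
  have h1 := ρ.Gl1_diag hv i j j
  rw [h, if_neg hij.symm, if_pos rfl] at h1
  have hle : ⨆ ν, ρ.wt ν ≤ LinearMap.ker (ρ.Gl1_ipL (ρ.e i j v)) := by
    refine iSup_le fun ν u hu => ρ.Gl1_inner_symm ?_
    have h2 := ρ.adj j j u (ρ.e i j v)
    rw [mem_wt.1 hu j, h1, ρ.ip.smul_left, ← ρ.Gl1_ipL_apply u (_ • _), map_smul,
      Gl1_ipL_apply, map_natCast, smul_eq_mul] at h2
    refine (mul_eq_mul_right_iff.1 h2).resolve_left fun h3 => ?_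
    have h4 : ((ν j + 1 : ℕ) : ℂ) = 0 := by
      push_cast
      rw [h3]
      simp
    exact Nat.succ_ne_zero _ (Nat.cast_eq_zero.1 h4)
  rw [ρ.iSup_wt] at hle
  exact ρ.ip.definite _ (hle Submodule.mem_top)

theorem Gl1_proj (ρ : GlRep n V) {U W : Submodule ℂ V} (hU : ρ.Inv U) (hW : ρ.Inv W)
    (hc : IsCompl U W) (i j : Fin n) (v : V) :
    U.projectionOnto W hc (ρ.e i j v) = (ρ.e i j).restrict (hU i j) (U.projectionOnto W hc v) := by
  obtain ⟨u, w, rfl, -⟩ := Submodule.existsUnique_add_of_isCompl hc v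
  have h1 := Submodule.projectionOnto_apply_left hc ((ρ.e i j).restrict (hU i j) u)
  have h2 := Submodule.projectionOnto_apply_right hc ((ρ.e i j).restrict (hW i j) w)
  rw [LinearMap.coe_restrict_apply] at h1 h2
  rw [map_add, map_add, map_add, h1, h2, Submodule.projectionOnto_apply_left,
    Submodule.projectionOnto_apply_right, add_zero, add_zero]

theorem res_span [FiniteDimensional ℂ V] (ρ : GlRep n V) (U : Submodule ℂ V) (hU : ρ.Inv U)
    (v : U) : v ∈ ⨆ μ : Fin n → ℕ, ⨅ i,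
      Module.End.eigenspace ((ρ.e i i).restrict (hU i i)) (μ i : ℂ) := by
  have hc := ρ.Gl1_isCompl U
  have hle : ⨆ μ, ρ.wt μ ≤ (⨆ μ : Fin n → ℕ, ⨅ i,
      Module.End.eigenspace ((ρ.e i i).restrict (hU i i)) (μ i : ℂ)).comap
        (U.projectionOnto _ hc) := by
    refine iSup_le fun μ w hw => Submodule.mem_comap.2 (Submodule.mem_iSup_of_mem μ ?_)
    refine (Submodule.mem_iInf _).2 fun i => Module.End.mem_eigenspace_iff.2 ?_
    rw [← map_smul, ← mem_wt.1 hw i]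
    exact (ρ.Gl1_proj hU (ρ.Gl1_perp_inv hU) hc i i w).symm
  rw [ρ.iSup_wt] at hle
  have := hle (Submodule.mem_top (x := (v : V)))
  rwa [Submodule.mem_comap, Submodule.projectionOnto_apply_left] at this

/-- Restriction to an invariant subspace. -/
noncomputable def res [FiniteDimensional ℂ V] (ρ : GlRep n V) (U : Submodule ℂ V) (hU : ρ.Inv U) :
    GlRep n U where
  e i j := (ρ.e i j).restrict (hU i j)
  ip :=
    { inner := fun u v => ρ.ip.inner (u : V) (v : V)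
      conj_inner_symm := fun u v => ρ.ip.conj_inner_symm _ _
      re_inner_nonneg := fun u => ρ.ip.re_inner_nonneg _
      add_left := fun u v w => ρ.ip.add_left _ _ _
      smul_left := fun u v r => ρ.ip.smul_left _ _ _
      definite := fun u h => Subtype.ext (ρ.ip.definite _ h) }
  comm i j k l v := by
    apply Subtype.ext
    have := ρ.comm i j k l v
    by_cases h1 : j = k <;> by_cases h2 : l = i <;> simpa [h1, h2] using this
  adj i j u v := ρ.adj i j u v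
  span := ρ.res_span U hU

theorem res_e [FiniteDimensional ℂ V] (ρ : GlRep n V) (U : Submodule ℂ V) (hU : ρ.Inv U)
    (i j : Fin n) (v : U) : (((ρ.res U hU).e i j v : U) : V) = ρ.e i j v := rfl

theorem Gl1_mem_res_wt [FiniteDimensional ℂ V] {ρ : GlRep n V} {U : Submodule ℂ V} {hU : ρ.Inv U}
    {μ : Fin n → ℕ} {v : U} : v ∈ (ρ.res U hU).wt μ ↔ (v : V) ∈ ρ.wt μ := by
  simp only [mem_wt, Subtype.ext_iff, res_e, Submodule.coe_smul]

theorem Gl1_mem_res_hw [FiniteDimensional ℂ V] {ρ : GlRep n V} {U : Submodule ℂ V} {hU : ρ.Inv U}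
    {μ : Fin n → ℕ} {v : U} : v ∈ (ρ.res U hU).hw μ ↔ (v : V) ∈ ρ.hw μ := by
  simp only [mem_hw, Gl1_mem_res_wt, Subtype.ext_iff, res_e, Submodule.coe_zero]

theorem exists_hw [FiniteDimensional ℂ V] [Nontrivial V] (ρ : GlRep n V) :
    ∃ Λ, ∃ v ∈ ρ.hw Λ, v ≠ 0 := by
  classical
  have hne : {μ | ρ.wt μ ≠ ⊥}.Nonempty := by
    by_contra h
    have h1 : ∀ μ, ρ.wt μ = ⊥ := fun μ => by
      by_contra h2
      exact h ⟨μ, h2⟩
    have h2 := ρ.iSup_wt
    simp only [h1, iSup_bot] at h2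
    exact bot_ne_top h2
  obtain ⟨μ, hμ, hmax⟩ := Set.exists_max_image _ (fun μ : Fin n → ℕ => ∑ k, (n - k) * μ k)
    ρ.finite_wt hne
  obtain ⟨v, hv, hv0⟩ := Submodule.exists_mem_ne_zero_of_ne_bot hμ
  refine ⟨μ, v, mem_hw.2 ⟨hv, fun i j hij => ?_⟩, hv0⟩
  rcases Nat.eq_zero_or_pos (μ j) with h0 | hpos
  · exact ρ.e_wt_zero hij.ne h0 hv
  have hle : (Pi.single j 1 : Fin n → ℕ) ≤ μ + Pi.single i 1 := fun k => by
    by_cases hk : k = j
    · subst hk
      simp only [Pi.single_eq_same, Pi.add_apply]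
      omega
    · simp [Pi.single_eq_of_ne hk]
  have he := tsub_add_cancel_of_le hle
  have hw := ρ.e_wt he hv
  by_contra hne0
  have h1 := hmax _ ((Submodule.ne_bot_iff _).2 ⟨_, hw, hne0⟩)
  have h2 := congrArg (fun μ : Fin n → ℕ => ∑ k : Fin n, (n - k) * μ k) he
  simp only [Pi.add_apply, mul_add, Finset.sum_add_distrib, Pi.single_apply, mul_ite, mul_one,
    mul_zero, Finset.sum_ite_eq', Finset.mem_univ, if_true] at h1 h2
  have h3 : (i : ℕ) < j := hij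
  have h4 := j.2
  omega

/-- The invariant subspace generated by a vector. -/
def Gl1_gen (ρ : GlRep n V) (v : V) : Submodule ℂ V := sInf {U | ρ.Inv U ∧ v ∈ U}

theorem Gl1_gen_inv (ρ : GlRep n V) (v : V) : ρ.Inv (ρ.Gl1_gen v) := fun i j w hw =>
  Submodule.mem_sInf.2 fun U hU => hU.1 i j w (Submodule.mem_sInf.1 hw U hU)

theorem Gl1_mem_gen (ρ : GlRep n V) (v : V) : v ∈ ρ.Gl1_gen v :=
  Submodule.mem_sInf.2 fun _ hU => hU.2

theorem Gl1_gen_cyc [FiniteDimensional ℂ V] (ρ : GlRep n V) {Λ : Fin n → ℕ} {v : V}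
    (hv : v ∈ ρ.hw Λ) (h0 : v ≠ 0) : (ρ.res _ (ρ.Gl1_gen_inv v)).IsCyc Λ := by
  refine ⟨⟨v, ρ.Gl1_mem_gen v⟩, Gl1_mem_res_hw.2 hv, fun h => h0 (congrArg Subtype.val h),
    fun Z hZ hvZ => eq_top_iff.2 fun w _ => ?_⟩
  have hle : ρ.Gl1_gen v ≤ Z.map (ρ.Gl1_gen v).subtype := by
    refine sInf_le ⟨?_, ⟨_, hvZ, rfl⟩⟩
    rintro i j _ ⟨z, hz, rfl⟩
    exact ⟨_, hZ i j z hz, rfl⟩
  obtain ⟨z, hz, hzw⟩ := hle w.2
  rwa [← Subtype.ext hzw]

theorem Gl1_decomp [FiniteDimensional ℂ V] (ρ : GlRep n V) (W : Submodule ℂ V) (hW : ρ.Inv W) :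
    ∃ (N : ℕ) (U : Fin N → Submodule ℂ V) (hU : ∀ k, ρ.Inv (U k)) (Λ : Fin N → Fin n → ℕ),
      (∀ k l, k ≠ l → ∀ u ∈ U k, ∀ v ∈ U l, ρ.ip.inner u v = 0) ∧ ⨆ k, U k = W ∧
        ∀ k, (ρ.res (U k) (hU k)).IsCyc (Λ k) := by
  induction W using WellFoundedLT.induction with
  | ind W ih =>
  rcases eq_or_ne W ⊥ with rfl | hne
  · exact ⟨0, Fin.elim0, fun k => k.elim0, Fin.elim0, fun k => k.elim0, iSup_of_empty _,
      fun k => k.elim0⟩
  have : Nontrivial W := Submodule.nontrivial_iff_ne_bot.2 hne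
  obtain ⟨Λ₀, v, hv, hv0⟩ := (ρ.res W hW).exists_hw
  have hv' : (v : V) ∈ ρ.hw Λ₀ := Gl1_mem_res_hw.1 hv
  have hv0' : (v : V) ≠ 0 := fun h => hv0 (Subtype.ext h)
  have hG : ρ.Gl1_gen v ≤ W := sInf_le ⟨hW, v.2⟩
  have hc := ρ.Gl1_isCompl (ρ.Gl1_gen v)
  have hlt : W ⊓ ρ.Gl1_perp (ρ.Gl1_gen v) < W := by
    refine lt_of_le_of_ne inf_le_left fun h => hv0' ?_
    have h1 : (v : V) ∈ W ⊓ ρ.Gl1_perp (ρ.Gl1_gen v) := by
      rw [h]
      exact v.2
    exact Submodule.disjoint_def.1 hc.disjoint _ (ρ.Gl1_mem_gen v) h1.2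
  obtain ⟨N, U, hU, Λ, h1, h2, h3⟩ := ih _ hlt fun i j w hw =>
    ⟨hW i j w hw.1, ρ.Gl1_perp_inv (ρ.Gl1_gen_inv v) i j w hw.2⟩
  have hUp : ∀ k, U k ≤ ρ.Gl1_perp (ρ.Gl1_gen v) := fun k =>
    (le_iSup U k).trans (h2.le.trans inf_le_right)
  refine ⟨N + 1, Fin.cons (ρ.Gl1_gen v) U, Fin.cases (ρ.Gl1_gen_inv v) hU, Fin.cons Λ₀ Λ,
    ?_, ?_, Fin.cases (ρ.Gl1_gen_cyc hv' hv0') h3⟩
  · refine Fin.cases (Fin.cases (fun h => absurd rfl h) fun l _ u hu w hw => ?_) fun k =>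
      Fin.cases (fun _ u hu w hw => ?_) fun l h => h1 k l fun e => h (congrArg Fin.succ e)
    · exact Gl1_mem_perp.1 (hUp l hw) u hu
    · exact ρ.Gl1_inner_symm (Gl1_mem_perp.1 (hUp k hu) w hw)
  · have h4 : ⨆ k, (Fin.cons (ρ.Gl1_gen v) U : Fin (N + 1) → Submodule ℂ V) k =
        ρ.Gl1_gen v ⊔ ⨆ k, U k := by
      refine le_antisymm (iSup_le (Fin.cases le_sup_left fun k =>
        le_sup_of_le_right (le_iSup U k))) (sup_le ?_ (iSup_le fun k => ?_))
      · exact le_iSup (Fin.cons (ρ.Gl1_gen v) U : Fin (N + 1) → Submodule ℂ V) 0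
      · exact le_iSup (Fin.cons (ρ.Gl1_gen v) U : Fin (N + 1) → Submodule ℂ V) k.succ
    rw [h4, h2, inf_comm, ← sup_inf_assoc_of_le _ hG, hc.sup_eq_top, top_inf_eq]

/-- Complete reducibility: `V` is an internal direct sum of cyclic highest weight modules. -/
theorem exists_decomp [FiniteDimensional ℂ V] (ρ : GlRep n V) :
    ∃ (N : ℕ) (U : Fin N → Submodule ℂ V) (hU : ∀ k, ρ.Inv (U k)) (Λ : Fin N → Fin n → ℕ),
      DirectSum.IsInternal U ∧ ∀ k, (ρ.res (U k) (hU k)).IsCyc (Λ k) := by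
  obtain ⟨N, U, hU, Λ, h1, h2, h3⟩ := ρ.Gl1_decomp ⊤ fun _ _ _ _ => Submodule.mem_top
  exact ⟨N, U, hU, Λ,
    DirectSum.isInternal_submodule_of_iSupIndep_of_iSup_eq_top (ρ.Gl1_indep h1) h2, h3⟩

theorem Gl1_comp {N : ℕ} (U : Fin N → Submodule ℂ V) (h : DirectSum.IsInternal U)
    (T : V →ₗ[ℂ] V) (hT : ∀ k, ∀ v ∈ U k, T v ∈ U k) (u : ∀ k, U k)
    (hu : T (∑ k, (u k : V)) = 0) (k : Fin N) : T (u k) = 0 := by
  rw [map_sum] at hu
  exact (iSupIndep_iff_finsetSum_eq_zero_imp_eq_zero U).1 h.submodule_iSupIndep Finset.univ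
    (fun k => T (u k)) (fun k _ => hT k _ (u k).2) hu k (Finset.mem_univ k)

theorem Gl1_finrank [FiniteDimensional ℂ V] {N : ℕ} (U : Fin N → Submodule ℂ V)
    (h : DirectSum.IsInternal U) (S : Submodule ℂ V) (S' : ∀ k, Submodule ℂ (U k))
    (hS : ∀ k (v : U k), v ∈ S' k ↔ (v : V) ∈ S)
    (hc : ∀ u : ∀ k, U k, ∑ k, (u k : V) ∈ S → ∀ k, (u k : V) ∈ S) :
    Module.finrank ℂ S = ∑ k, Module.finrank ℂ (S' k) := by
  let Φ : (∀ k, S' k) →ₗ[ℂ] V :=
    ∑ k, (U k).subtype ∘ₗ (S' k).subtype ∘ₗ LinearMap.proj k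
  have hΦ : ∀ x, Φ x = ∑ k, ((x k : U k) : V) := fun x => by
    simp [Φ, LinearMap.sum_apply]
  have hinj : Function.Injective Φ := by
    refine (injective_iff_map_eq_zero Φ).2 fun x hx => funext fun k => ?_
    rw [hΦ] at hx
    exact Subtype.ext (Subtype.ext (Gl1_comp U h LinearMap.id (fun _ _ hv => hv)
      (fun k => (x k : U k)) hx k))
  have hr : LinearMap.range Φ = S := by
    refine le_antisymm ?_ fun v hv => ?_
    · rintro _ ⟨x, rfl⟩
      rw [hΦ]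
      exact S.sum_mem fun k _ => (hS k _).1 (x k).2
    · have h1 : v ∈ ⨆ k ∈ (Finset.univ : Finset (Fin N)), U k := by
        simp only [Finset.mem_univ, iSup_pos, h.submodule_iSup_eq_top, Submodule.mem_top]
      obtain ⟨u, rfl⟩ := (Submodule.mem_iSup_finset_iff_exists_sum U v).1 h1
      exact ⟨fun k => ⟨u k, (hS k _).2 (hc u hv k)⟩, hΦ _⟩
  rw [← hr, LinearMap.finrank_range_of_inj hinj, Module.finrank_pi_fintype]

theorem finrank_wt_sum [FiniteDimensional ℂ V] (ρ : GlRep n V) {N : ℕ}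
    (U : Fin N → Submodule ℂ V) (hU : ∀ k, ρ.Inv (U k)) (h : DirectSum.IsInternal U)
    (μ : Fin n → ℕ) :
    Module.finrank ℂ (ρ.wt μ) = ∑ k, Module.finrank ℂ ((ρ.res (U k) (hU k)).wt μ) := by
  refine Gl1_finrank U h _ _ (fun k v => Gl1_mem_res_wt) fun u hu k => mem_wt.2 fun i => ?_
  have := Gl1_comp U h (ρ.e i i - (μ i : ℂ) • LinearMap.id)
    (fun k v hv => (U k).sub_mem (hU k i i v hv) ((U k).smul_mem _ hv)) u
    (sub_eq_zero.2 (mem_wt.1 hu i)) k
  exact sub_eq_zero.1 this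

theorem finrank_hw_sum [FiniteDimensional ℂ V] (ρ : GlRep n V) {N : ℕ}
    (U : Fin N → Submodule ℂ V) (hU : ∀ k, ρ.Inv (U k)) (h : DirectSum.IsInternal U)
    (l : Fin n → ℕ) :
    Module.finrank ℂ (ρ.hw l) = ∑ k, Module.finrank ℂ ((ρ.res (U k) (hU k)).hw l) := by
  refine Gl1_finrank U h _ _ (fun k v => Gl1_mem_res_hw) fun u hu k =>
    mem_hw.2 ⟨mem_wt.2 fun i => ?_, fun i j hij => ?_⟩
  · have := Gl1_comp U h (ρ.e i i - (l i : ℂ) • LinearMap.id)
      (fun k v hv => (U k).sub_mem (hU k i i v hv) ((U k).smul_mem _ hv)) u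
      (sub_eq_zero.2 (mem_wt.1 (mem_hw.1 hu).1 i)) k
    exact sub_eq_zero.1 this
  · exact Gl1_comp U h (ρ.e i j) (fun k => hU k i j) u ((mem_hw.1 hu).2 i j hij) k

end Crest.Agent.R187.GlRep
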