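import Crest.Agent.R187.Gl1

/-!
# Abstract `gl_n`-modules II: cyclic highest weight modules

Recipe.  Let `v` be the generating highest weight vector of weight `Λ`.  Let `L` be the span of all
`e a₁ b₁ (e a₂ b₂ (… v))` with `a_t > b_t` (lowering words; use `List.foldr` over a list of pairs).
`L` is invariant under every `e i j` (induction on the length of the word using `comm`: for `i ≤ j`,
`e i j (f w) = f (e i j w) + [e i j, f] w`; prove "for all `i j`, `e i j` maps words of length `≤ m` into `L`"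
by induction on `m`), so `L = ⊤`.  A lowering word is a weight vector (or zero) of weight `μ` with
`Dom μ Λ`, and `μ = Λ` only for the empty word (the functional `∑ (n - i) μ i` drops).
* `IsCyc.antitone`: `‖e (j,i) v‖² = ⟪v, e i j (e j i v)⟫ = (Λ i - Λ j) ‖v‖²` for `i < j`.
* `IsCyc.hw_eq`: a highest weight vector `u` of weight `l ≠ Λ` is orthogonal to `v` (weights) and to every
  nonempty lowering word (`adj`), hence zero.
* `IsCyc.irred`: if `U` is invariant then so is `Uᗮ`; `v = v₁ + v₂`, both components have weight `Λ`, the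
  weight space is a line, so `v ∈ U` or `v ∈ Uᗮ`.
* `IsCyc.casimir`: `C = ∑_{i,j} e i j e j i` commutes with every `e k l` (from `comm`), so
  `{u | C u = c • u}` is invariant and contains `v`;
  `C v = (∑ Λ_i² + ∑_{i<j} (Λ_i - Λ_j)) v`.
* `IsCyc.exists_equiv`: on `V × V'` (with the sum inner product; build a `GlRep n (V × V')`) the vector
  `(v, v')` generates an invariant subspace `W` with `IsCyc`; it is irreducible, both projections are
  equivariant, nonzero, hence injective (kernel invariant) and surjective (range invariant, contains `v`).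
-/

set_option autoImplicit false

namespace Crest.Agent.R187.GlRep

variable {n : ℕ} {V : Type} [AddCommGroup V] [Module ℂ V] [FiniteDimensional ℂ V]

/-- Dominance order `μ ≤ Λ` (with equal total degree). -/
def Dom (μ Λ : Fin n → ℕ) : Prop :=
  (∀ k : Fin n, ∑ i ∈ Finset.Iic k, μ i ≤ ∑ i ∈ Finset.Iic k, Λ i) ∧ ∑ i, μ i = ∑ i, Λ i

/-- span of the lowering words of length `≤ m` -/
noncomputable def Gl2_L {W : Type} [AddCommGroup W] [Module ℂ W] (e : Fin n → Fin n → W →ₗ[ℂ] W)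
    (v : W) : ℕ → Submodule ℂ W
  | 0 => Submodule.span ℂ {v}
  | m + 1 => Gl2_L e v m ⊔ ⨆ a, ⨆ b, ⨆ _ : b < a, (Gl2_L e v m).map (e a b)

theorem Gl2_low {W : Type} [AddCommGroup W] [Module ℂ W] (e : Fin n → Fin n → W →ₗ[ℂ] W)
    (comm : ∀ i j k l v, e i j (e k l v) - e k l (e i j v) =
      (if j = k then e i l v else 0) - (if l = i then e k j v else 0))
    {v : W} {Λ : Fin n → ℂ} (h1 : ∀ i, e i i v = Λ i • v) (h2 : ∀ i j, i < j → e i j v = 0) :
    ∃ U : Submodule ℂ W, v ∈ U ∧ (∀ i j, ∀ w ∈ U, e i j w ∈ U) ∧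
      ∀ P : Submodule ℂ W, v ∈ P → (∀ a b, b < a → ∀ w ∈ P, e a b w ∈ P) → U ≤ P := by
  have mono : ∀ m, Gl2_L e v m ≤ Gl2_L e v (m + 1) := fun m => le_sup_left
  have low : ∀ m a b, b < a → ∀ w ∈ Gl2_L e v m, e a b w ∈ Gl2_L e v (m + 1) := by
    intro m a b hab w hw
    refine Submodule.mem_sup_right ?_
    exact Submodule.mem_iSup_of_mem a (Submodule.mem_iSup_of_mem b
      (Submodule.mem_iSup_of_mem hab (Submodule.mem_map_of_mem hw)))
  have up : ∀ m i j, i ≤ j → Gl2_L e v m ≤ (Gl2_L e v m).comap (e i j) := by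
    intro m
    induction m with
    | zero =>
      intro i j hij
      refine (Submodule.span_singleton_le_iff_mem _ _).2 ?_
      rw [Submodule.mem_comap]
      rcases hij.eq_or_lt with rfl | h
      · rw [h1]
        exact Submodule.smul_mem _ _ (Submodule.mem_span_singleton_self v)
      · rw [h2 i j h]
        exact Submodule.zero_mem _
    | succ m ih =>
      intro i j hij
      have any : ∀ a b, ∀ w ∈ Gl2_L e v m, e a b w ∈ Gl2_L e v (m + 1) := by
        intro a b w hw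
        rcases le_or_gt a b with h | h
        · exact mono m (ih a b h hw)
        · exact low m a b h w hw
      refine sup_le (fun w hw => any i j w hw) (iSup_le fun a => iSup_le fun b => iSup_le fun hab => ?_)
      rintro _ ⟨w, hw, rfl⟩
      rw [Submodule.mem_comap, eq_add_of_sub_eq (comm i j a b w)]
      refine Submodule.add_mem _ (Submodule.sub_mem _ ?_ ?_) (low m a b hab _ (ih i j hij hw))
      · split_ifs
        · exact any _ _ w hw
        · exact Submodule.zero_mem _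
      · split_ifs
        · exact any _ _ w hw
        · exact Submodule.zero_mem _
  refine ⟨⨆ m, Gl2_L e v m, Submodule.mem_iSup_of_mem 0 (Submodule.mem_span_singleton_self v),
    fun i j => ?_, fun P hv hP => iSup_le fun m => ?_⟩
  · have : ⨆ m, Gl2_L e v m ≤ (⨆ m, Gl2_L e v m).comap (e i j) := by
      refine iSup_le fun m w hw => ?_
      rw [Submodule.mem_comap]
      rcases le_or_gt i j with h | h
      · exact Submodule.mem_iSup_of_mem m (up m i j h hw)
      · exact Submodule.mem_iSup_of_mem (m + 1) (low m i j h w hw)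
    exact fun w hw => this hw
  · induction m with
    | zero => exact (Submodule.span_singleton_le_iff_mem _ _).2 hv
    | succ m ih =>
      refine sup_le ih (iSup_le fun a => iSup_le fun b => iSup_le fun hab => ?_)
      rintro _ ⟨w, hw, rfl⟩
      exact hP a b hab w (ih hw)

omit [FiniteDimensional ℂ V] in
/-- the induction principle of a cyclic module -/
theorem Gl2_ind {ρ : GlRep n V} {Λ : Fin n → ℕ} {v : V} (hv : v ∈ ρ.hw Λ)
    (hg : ∀ U : Submodule ℂ V, ρ.Inv U → v ∈ U → U = ⊤) (P : Submodule ℂ V) (hP : v ∈ P)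
    (hl : ∀ a b, b < a → ∀ w ∈ P, ρ.e a b w ∈ P) : P = ⊤ := by
  obtain ⟨h1, h2⟩ := mem_hw.1 hv
  obtain ⟨U, hU, hI, hle⟩ := Gl2_low ρ.e ρ.comm (mem_wt.1 h1) h2
  exact top_le_iff.1 (hg U hI hU ▸ hle P hP hl)

/-- `⟪u, ·⟫` as a linear functional -/
noncomputable def Gl2_ip (ρ : GlRep n V) (u : V) : V →ₗ[ℂ] ℂ where
  toFun w := ρ.ip.inner u w
  map_add' a b := by
    rw [← ρ.ip.conj_inner_symm u (a + b), ρ.ip.add_left, map_add, ρ.ip.conj_inner_symm,
      ρ.ip.conj_inner_symm]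
  map_smul' c a := by
    rw [← ρ.ip.conj_inner_symm u (c • a), ρ.ip.smul_left, map_mul, ρ.ip.conj_inner_symm]
    simp

omit [FiniteDimensional ℂ V] in
theorem Gl2_ip_apply (ρ : GlRep n V) (u w : V) : Gl2_ip ρ u w = ρ.ip.inner u w := rfl

omit [FiniteDimensional ℂ V] in
theorem Gl2_ip_zero (ρ : GlRep n V) (w : V) : ρ.ip.inner 0 w = 0 := by
  have := ρ.ip.smul_left 0 w 0
  simpa using this

omit [FiniteDimensional ℂ V] in
/-- a weight vector lying in the sum of the weight spaces of other weights vanishes -/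
theorem Gl2_orth (ρ : GlRep n V) {μ : Fin n → ℕ} (p : (Fin n → ℕ) → Prop) (hμ : ¬ p μ) {u : V}
    (hu : u ∈ ρ.wt μ) (h : u ∈ ⨆ ν, ⨆ _ : p ν, ρ.wt ν) : u = 0 := by
  have : ⨆ ν, ⨆ _ : p ν, ρ.wt ν ≤ LinearMap.ker (Gl2_ip ρ u) := by
    refine iSup_le fun ν => iSup_le fun hν w hw => ?_
    rw [LinearMap.mem_ker, Gl2_ip_apply]
    exact ρ.wt_orth (μ := μ) (ν := ν) (fun e => hμ (e ▸ hν)) hu hw
  exact ρ.ip.definite u (this h)

omit [FiniteDimensional ℂ V] in
/-- a set of weights closed under lowering gives a subspace closed under lowering -/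
theorem Gl2_shift (ρ : GlRep n V) (p q : (Fin n → ℕ) → Prop) {a b : Fin n} (hab : b < a)
    (hp : ∀ μ ν, p μ → ν + Pi.single b 1 = μ + Pi.single a 1 → q ν) {w : V}
    (hw : w ∈ ⨆ ν, ⨆ _ : p ν, ρ.wt ν) : ρ.e a b w ∈ ⨆ ν, ⨆ _ : q ν, ρ.wt ν := by
  have : ⨆ ν, ⨆ _ : p ν, ρ.wt ν ≤ (⨆ ν, ⨆ _ : q ν, ρ.wt ν).comap (ρ.e a b) := by
    refine iSup_le fun μ => iSup_le fun hμ w hw => ?_
    rw [Submodule.mem_comap]
    by_cases h0 : μ b = 0
    · rw [ρ.e_wt_zero hab.ne' h0 hw]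
      exact Submodule.zero_mem _
    · have e : (μ + Pi.single a 1 - Pi.single b 1 : Fin n → ℕ) + Pi.single b 1 =
          μ + Pi.single a 1 := by
        ext i
        simp only [Pi.add_apply, Pi.sub_apply, Pi.single_apply]
        split_ifs with h1 h2 h2
        · omega
        · omega
        · subst h2
          omega
        · omega
      exact Submodule.mem_iSup_of_mem _ (Submodule.mem_iSup_of_mem (hp μ _ hμ e) (ρ.e_wt e hw))
  exact this hw

/-- depth of a weight -/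
def Gl2_g (μ : Fin n → ℕ) : ℕ := ∑ i : Fin n, (i : ℕ) * μ i

theorem Gl2_g_lt {μ ν : Fin n → ℕ} {a b : Fin n} (hab : b < a)
    (h : ν + Pi.single b 1 = μ + Pi.single a 1) : Gl2_g μ < Gl2_g ν := by
  have h1 := congrArg Gl2_g h
  simp only [Gl2_g, Pi.add_apply, mul_add, Finset.sum_add_distrib, Pi.single_apply, mul_ite,
    mul_one, mul_zero, Finset.sum_ite_eq', Finset.mem_univ, if_true] at h1
  have : (b : ℕ) < a := hab
  unfold Gl2_g
  omega

/-- the weight spaces below `Λ` -/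
noncomputable def Gl2_Hi (ρ : GlRep n V) (Λ : Fin n → ℕ) : Submodule ℂ V :=
  ⨆ ν, ⨆ _ : Gl2_g Λ < Gl2_g ν, ρ.wt ν

omit [FiniteDimensional ℂ V] in
theorem Gl2_Hi_low (ρ : GlRep n V) (Λ : Fin n → ℕ) {a b : Fin n} (hab : b < a) {w : V}
    (hw : w ∈ Gl2_Hi ρ Λ) : ρ.e a b w ∈ Gl2_Hi ρ Λ :=
  Gl2_shift ρ _ _ hab (fun _ _ h1 h2 => h1.trans (Gl2_g_lt hab h2)) hw

omit [FiniteDimensional ℂ V] in
theorem Gl2_Hi_top (ρ : GlRep n V) (Λ : Fin n → ℕ) {a b : Fin n} (hab : b < a) {w : V}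
    (hw : w ∈ ρ.wt Λ) : ρ.e a b w ∈ Gl2_Hi ρ Λ :=
  Gl2_shift ρ (· = Λ) _ hab (fun _ _ h1 h2 => h1 ▸ Gl2_g_lt hab h2)
    (Submodule.mem_iSup_of_mem Λ (Submodule.mem_iSup_of_mem rfl hw))

omit [FiniteDimensional ℂ V] in
theorem Gl2_Hi_zero (ρ : GlRep n V) {Λ : Fin n → ℕ} {w : V} (hw : w ∈ ρ.wt Λ)
    (h : w ∈ Gl2_Hi ρ Λ) : w = 0 :=
  Gl2_orth ρ (fun ν => Gl2_g Λ < Gl2_g ν) (lt_irrefl _) hw h

omit [FiniteDimensional ℂ V] in
theorem Gl2_wt_eq {ρ : GlRep n V} {Λ : Fin n → ℕ} {v : V} (hv : v ∈ ρ.hw Λ)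
    (hg : ∀ U : Submodule ℂ V, ρ.Inv U → v ∈ U → U = ⊤) : ρ.wt Λ = Submodule.span ℂ {v} := by
  have hvw := (mem_hw.1 hv).1
  have hle : Submodule.span ℂ {v} ≤ ρ.wt Λ := (Submodule.span_singleton_le_iff_mem _ _).2 hvw
  refine le_antisymm (fun u hu => ?_) hle
  have htop := Gl2_ind hv hg (Submodule.span ℂ {v} ⊔ Gl2_Hi ρ Λ)
    (Submodule.mem_sup_left (Submodule.mem_span_singleton_self v)) (fun a b hab w hw => by
      obtain ⟨x, hx, y, hy, rfl⟩ := Submodule.mem_sup.1 hw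
      rw [map_add]
      exact Submodule.mem_sup_right (Submodule.add_mem _ (Gl2_Hi_top ρ Λ hab (hle hx))
        (Gl2_Hi_low ρ Λ hab hy)))
  obtain ⟨x, hx, y, hy, e⟩ := Submodule.mem_sup.1 (htop ▸ Submodule.mem_top (x := u))
  have hy0 : y = 0 := by
    refine Gl2_Hi_zero ρ ?_ hy
    rw [eq_sub_of_add_eq' e]
    exact Submodule.sub_mem _ hu (hle hx)
  rw [hy0, add_zero] at e
  exact e ▸ hx

omit [FiniteDimensional ℂ V] in
theorem Gl2_hw_ne {ρ : GlRep n V} {Λ : Fin n → ℕ} {v : V} (hv : v ∈ ρ.hw Λ)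
    (hg : ∀ U : Submodule ℂ V, ρ.Inv U → v ∈ U → U = ⊤) {l : Fin n → ℕ} (hl : l ≠ Λ) {u : V}
    (hu : u ∈ ρ.hw l) : u = 0 := by
  obtain ⟨h1, h2⟩ := mem_hw.1 hu
  have htop := Gl2_ind hv hg (LinearMap.ker (Gl2_ip ρ u))
    (ρ.wt_orth hl h1 (mem_hw.1 hv).1) (fun a b hab w _ => by
      rw [LinearMap.mem_ker, Gl2_ip_apply, ← ρ.adj, h2 b a hab, Gl2_ip_zero])
  exact ρ.ip.definite u (show u ∈ LinearMap.ker (Gl2_ip ρ u) from htop ▸ Submodule.mem_top)

omit [FiniteDimensional ℂ V] in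
theorem Gl2_raise {ρ : GlRep n V} {Λ : Fin n → ℕ} {v : V} (hv : v ∈ ρ.hw Λ) {i j : Fin n}
    (hij : i < j) : ρ.e i j (ρ.e j i v) = ((Λ i : ℂ) - Λ j) • v := by
  obtain ⟨h1, h2⟩ := mem_hw.1 hv
  have := ρ.comm i j j i v
  rw [h2 i j hij, map_zero, sub_zero, if_pos rfl, if_pos rfl, mem_wt.1 h1, mem_wt.1 h1] at this
  rw [this, sub_smul]

theorem IsCyc.antitone {ρ : GlRep n V} {Λ : Fin n → ℕ} (h : ρ.IsCyc Λ) : Antitone Λ := by
  obtain ⟨v, hv, hv0, -⟩ := h
  intro i j hij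
  rcases hij.eq_or_lt with rfl | hij
  · exact le_rfl
  have h1 := ρ.ip.re_inner_nonneg (ρ.e j i v)
  rw [ρ.adj, Gl2_raise hv hij, ← Gl2_ip_apply, map_smul, Gl2_ip_apply] at h1
  have h2 := ρ.ip.re_inner_nonneg v
  have h3 : (ρ.ip.inner v v).im = 0 := Complex.conj_eq_iff_im.1 (ρ.ip.conj_inner_symm v v)
  have h4 : (ρ.ip.inner v v).re ≠ 0 := fun h0 =>
    hv0 (ρ.ip.definite v (Complex.ext h0 h3))
  simp only [smul_eq_mul, RCLike.re_to_complex, Complex.mul_re, Complex.sub_re, Complex.natCast_re,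
    h3, mul_zero, sub_zero] at h1 h2
  have h5 := nonneg_of_mul_nonneg_left h1 (lt_of_le_of_ne h2 h4.symm)
  exact_mod_cast sub_nonneg.1 h5

theorem IsCyc.dom {ρ : GlRep n V} {Λ : Fin n → ℕ} (h : ρ.IsCyc Λ) {μ : Fin n → ℕ}
    (hμ : ρ.wt μ ≠ ⊥) : Dom μ Λ := by
  obtain ⟨v, hv, -, hg⟩ := h
  by_contra hd
  refine hμ (eq_bot_iff.2 fun u hu => ?_)
  have htop := Gl2_ind hv hg (⨆ ν, ⨆ _ : Dom ν Λ, ρ.wt ν)
    (Submodule.mem_iSup_of_mem Λ (Submodule.mem_iSup_of_mem ⟨fun _ => le_rfl, rfl⟩ (mem_hw.1 hv).1))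
    (fun a b hab w hw => Gl2_shift ρ _ _ hab (fun μ ν h1 h2 => by
      have key : ∀ s : Finset (Fin n), ∑ i ∈ s, ν i + (if b ∈ s then 1 else 0) =
          ∑ i ∈ s, μ i + (if a ∈ s then 1 else 0) := by
        intro s
        have h3 := congrArg (fun f : Fin n → ℕ => ∑ i ∈ s, f i) h2
        simpa only [Pi.add_apply, Finset.sum_add_distrib, Pi.single_apply,
          Finset.sum_ite_eq'] using h3
      refine ⟨fun k => le_trans ?_ (h1.1 k), Eq.trans ?_ h1.2⟩
      · have h3 := key (Finset.Iic k)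
        simp only [Finset.mem_Iic] at h3
        split_ifs at h3 with h4 h5 h5
        · omega
        · omega
        · exact absurd (hab.le.trans h5) h4
        · omega
      · simpa using key Finset.univ) hw)
  exact Gl2_orth ρ (fun ν => Dom ν Λ) hd hu (htop ▸ Submodule.mem_top)

theorem IsCyc.finrank_wt {ρ : GlRep n V} {Λ : Fin n → ℕ} (h : ρ.IsCyc Λ) :
    Module.finrank ℂ (ρ.wt Λ) = 1 := by
  obtain ⟨v, hv, hv0, hg⟩ := h
  rw [Gl2_wt_eq hv hg, finrank_span_singleton hv0]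

theorem IsCyc.finrank_hw {ρ : GlRep n V} {Λ : Fin n → ℕ} (h : ρ.IsCyc Λ) (l : Fin n → ℕ) :
    Module.finrank ℂ (ρ.hw l) = if l = Λ then 1 else 0 := by
  obtain ⟨v, hv, hv0, hg⟩ := h
  split_ifs with hl
  · subst hl
    have : ρ.hw l = Submodule.span ℂ {v} :=
      le_antisymm (Gl2_wt_eq hv hg ▸ inf_le_left) ((Submodule.span_singleton_le_iff_mem _ _).2 hv)
    rw [this, finrank_span_singleton hv0]
  · have : ρ.hw l = ⊥ := eq_bot_iff.2 fun u hu => Gl2_hw_ne hv hg hl hu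
    rw [this, finrank_bot]

theorem IsCyc.irred {ρ : GlRep n V} {Λ : Fin n → ℕ} (h : ρ.IsCyc Λ) (U : Submodule ℂ V)
    (hU : ρ.Inv U) : U = ⊥ ∨ U = ⊤ := by
  obtain ⟨v, hv, hv0, hg⟩ := h
  by_cases hb : U = ⊥
  · exact Or.inl hb
  right
  have : Nontrivial U := Submodule.nontrivial_iff_ne_bot.2 hb
  obtain ⟨l, u, hu, hu0⟩ := (ρ.res U hU).exists_hw
  obtain ⟨h1, h2⟩ := mem_hw.1 hu
  have hu' : (u : V) ∈ ρ.hw l := by
    refine mem_hw.2 ⟨mem_wt.2 fun i => ?_, fun i j hij => ?_⟩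
    · rw [← res_e ρ U hU, mem_wt.1 h1 i]
      rfl
    · rw [← res_e ρ U hU, h2 i j hij]
      rfl
  have hu1 : (u : V) ≠ 0 := fun h0 => hu0 (Subtype.ext h0)
  by_cases hl : l = Λ
  · subst hl
    have h3 := (mem_hw.1 hu').1
    rw [Gl2_wt_eq hv hg, Submodule.mem_span_singleton] at h3
    obtain ⟨c, hc⟩ := h3
    have hc0 : c ≠ 0 := fun h0 => hu1 (by rw [← hc, h0, zero_smul])
    refine hg U hU ?_
    have h4 := U.smul_mem c⁻¹ u.2
    rwa [← hc, inv_smul_smul₀ hc0] at h4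
  · exact absurd (Gl2_hw_ne hv hg hl hu') hu1

omit [FiniteDimensional ℂ V] in
theorem Gl2_cas_comm (ρ : GlRep n V) (k l : Fin n) (u : V) :
    ∑ i, ∑ j, ρ.e i j (ρ.e j i (ρ.e k l u)) = ρ.e k l (∑ i, ∑ j, ρ.e i j (ρ.e j i u)) := by
  have key : ∀ i j, ρ.e i j (ρ.e j i (ρ.e k l u)) = ρ.e k l (ρ.e i j (ρ.e j i u)) +
      (((if i = k then ρ.e k j (ρ.e j l u) else 0) - (if l = j then ρ.e i l (ρ.e k i u) else 0)) +
       ((if j = k then ρ.e i l (ρ.e k i u) else 0) - (if l = i then ρ.e k j (ρ.e j l u) else 0))) := by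
    intro i j
    rw [eq_add_of_sub_eq (ρ.comm j i k l u), map_add, eq_add_of_sub_eq (ρ.comm i j k l (ρ.e j i u)),
      map_sub]
    have a1 : ρ.e i j (if i = k then ρ.e j l u else 0) =
        if i = k then ρ.e k j (ρ.e j l u) else 0 := by
      split_ifs with h
      · rw [h]
      · rw [map_zero]
    have a2 : ρ.e i j (if l = j then ρ.e k i u else 0) =
        if l = j then ρ.e i l (ρ.e k i u) else 0 := by
      split_ifs with h
      · rw [h]
      · rw [map_zero]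
    have a3 : (if j = k then ρ.e i l (ρ.e j i u) else 0) =
        if j = k then ρ.e i l (ρ.e k i u) else 0 := by
      split_ifs with h
      · rw [h]
      · rfl
    have a4 : (if l = i then ρ.e k j (ρ.e j i u) else 0) =
        if l = i then ρ.e k j (ρ.e j l u) else 0 := by
      split_ifs with h
      · rw [h]
      · rfl
    rw [a1, a2, a3, a4]
    abel
  simp only [key, Finset.sum_add_distrib, Finset.sum_sub_distrib, map_sum, Finset.sum_ite_eq,
    Finset.sum_ite_eq', Finset.mem_univ, if_true]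
  rw [Finset.sum_comm (f := fun i j => if i = k then ρ.e k j (ρ.e j l u) else 0),
    Finset.sum_comm (f := fun i j => if l = i then ρ.e k j (ρ.e j l u) else 0)]
  simp only [Finset.sum_ite_eq, Finset.sum_ite_eq', Finset.mem_univ, if_true]
  abel

theorem IsCyc.casimir {ρ : GlRep n V} {Λ : Fin n → ℕ} (h : ρ.IsCyc Λ) (u : V) :
    ∑ i, ∑ j, ρ.e i j (ρ.e j i u) =
      ((∑ i, (Λ i : ℂ) ^ 2) + ∑ i, ∑ j ∈ Finset.Ioi i, ((Λ i : ℂ) - Λ j)) • u := by
  obtain ⟨v, hv, -, hg⟩ := h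
  set c : ℂ := (∑ i, (Λ i : ℂ) ^ 2) + ∑ i, ∑ j ∈ Finset.Ioi i, ((Λ i : ℂ) - Λ j) with hc
  let C : V →ₗ[ℂ] V := ∑ i, ∑ j, ρ.e i j ∘ₗ ρ.e j i
  have hC : ∀ w, C w = ∑ i, ∑ j, ρ.e i j (ρ.e j i w) := fun w => by
    simp [C, LinearMap.sum_apply]
  have hmem : ∀ w, w ∈ LinearMap.eqLocus C (c • LinearMap.id) ↔
      ∑ i, ∑ j, ρ.e i j (ρ.e j i w) = c • w := fun w => by
    rw [LinearMap.mem_eqLocus, hC]
    rfl
  have htop := hg (LinearMap.eqLocus C (c • LinearMap.id)) (fun k l w hw => by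
    rw [hmem] at hw ⊢
    rw [Gl2_cas_comm, hw, map_smul]) (by
    rw [hmem, hc, add_smul, Finset.sum_smul, Finset.sum_smul, ← Finset.sum_add_distrib]
    refine Finset.sum_congr rfl fun i _ => ?_
    obtain ⟨h1, h2⟩ := mem_hw.1 hv
    have e : ∀ j, ρ.e i j (ρ.e j i v) = (if j = i then (Λ i : ℂ) ^ 2 • v else 0) +
        if j ∈ Finset.Ioi i then ((Λ i : ℂ) - Λ j) • v else 0 := by
      intro j
      rcases lt_trichotomy i j with hij | rfl | hij
      · rw [Gl2_raise hv hij, if_neg hij.ne', if_pos (Finset.mem_Ioi.2 hij), zero_add]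
      · rw [if_pos rfl, if_neg (by simp), add_zero, mem_wt.1 h1, map_smul, mem_wt.1 h1, smul_smul,
          sq]
      · rw [h2 j i hij, map_zero, if_neg hij.ne, if_neg (by simpa using hij.le), add_zero]
    simp only [e, Finset.sum_add_distrib, Finset.sum_ite_eq', Finset.mem_univ, if_true,
      Finset.sum_ite_mem, Finset.univ_inter, Finset.sum_smul])
  exact (hmem u).1 (htop ▸ Submodule.mem_top)

theorem IsCyc.exists_equiv {V' : Type} [AddCommGroup V'] [Module ℂ V'] [FiniteDimensional ℂ V']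
    {ρ : GlRep n V} {ρ' : GlRep n V'} {Λ : Fin n → ℕ} (h : ρ.IsCyc Λ) (h' : ρ'.IsCyc Λ) :
    ∃ φ : V ≃ₗ[ℂ] V', ∀ i j v, φ (ρ.e i j v) = ρ'.e i j (φ v) := by
  have hi := h.irred
  have hi' := h'.irred
  obtain ⟨v, hv, hv0, hg⟩ := h
  obtain ⟨v', hv', hv0', hg'⟩ := h'
  obtain ⟨h1, h2⟩ := mem_hw.1 hv
  obtain ⟨h1', h2'⟩ := mem_hw.1 hv'
  obtain ⟨W, hW, hI, hle⟩ := Gl2_low (fun i j => (ρ.e i j).prodMap (ρ'.e i j))
    (fun i j k l x => by
      ext
      · simp only [Prod.fst_sub, LinearMap.prodMap_apply, ρ.comm]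
        split_ifs <;> rfl
      · simp only [Prod.snd_sub, LinearMap.prodMap_apply, ρ'.comm]
        split_ifs <;> rfl)
    (v := (v, v')) (Λ := fun i => (Λ i : ℂ))
    (fun i => by simp [mem_wt.1 h1, mem_wt.1 h1'])
    (fun i j hij => by simp [h2 i j hij, h2' i j hij])
  have hdec : ∀ x ∈ W, ∃ c : ℂ, x.1 - c • v ∈ Gl2_Hi ρ Λ ∧ x.2 - c • v' ∈ Gl2_Hi ρ' Λ := by
    intro x hx
    have := hle (Submodule.span ℂ {(v, v')} ⊔ (Gl2_Hi ρ Λ).prod (Gl2_Hi ρ' Λ))
      (Submodule.mem_sup_left (Submodule.mem_span_singleton_self _)) (fun a b hab w hw => by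
        obtain ⟨y, hy, z, hz, rfl⟩ := Submodule.mem_sup.1 hw
        obtain ⟨c, rfl⟩ := Submodule.mem_span_singleton.1 hy
        refine Submodule.mem_sup_right ⟨?_, ?_⟩
        · simp only [LinearMap.prodMap_apply, Prod.fst_add, Prod.smul_mk, map_add]
          exact Submodule.add_mem _ (Gl2_Hi_top ρ Λ hab (Submodule.smul_mem _ _ h1))
            (Gl2_Hi_low ρ Λ hab hz.1)
        · simp only [LinearMap.prodMap_apply, Prod.snd_add, Prod.smul_mk, map_add]
          exact Submodule.add_mem _ (Gl2_Hi_top ρ' Λ hab (Submodule.smul_mem _ _ h1'))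
            (Gl2_Hi_low ρ' Λ hab hz.2)) hx
    obtain ⟨y, hy, z, hz, rfl⟩ := Submodule.mem_sup.1 this
    obtain ⟨c, rfl⟩ := Submodule.mem_span_singleton.1 hy
    exact ⟨c, by simpa using hz.1, by simpa using hz.2⟩
  have k1 : W.comap (LinearMap.inr ℂ V V') = ⊥ := by
    refine (hi' _ (fun i j y hy => ?_)).resolve_right fun ht => ?_
    · simpa using hI i j _ hy
    · obtain ⟨c, a1, a2⟩ := hdec _ (show v' ∈ W.comap (LinearMap.inr ℂ V V') from
        ht ▸ Submodule.mem_top)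
      simp only [LinearMap.inr_apply, zero_sub, neg_mem_iff] at a1 a2
      have hc := Gl2_Hi_zero ρ (Submodule.smul_mem _ c h1) a1
      rw [(smul_eq_zero.1 hc).resolve_right hv0, zero_smul, sub_zero] at a2
      exact hv0' (Gl2_Hi_zero ρ' h1' a2)
  have k2 : W.comap (LinearMap.inl ℂ V V') = ⊥ := by
    refine (hi _ (fun i j y hy => ?_)).resolve_right fun ht => ?_
    · simpa using hI i j _ hy
    · obtain ⟨c, a1, a2⟩ := hdec _ (show v ∈ W.comap (LinearMap.inl ℂ V V') from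
        ht ▸ Submodule.mem_top)
      simp only [LinearMap.inl_apply, zero_sub, neg_mem_iff] at a1 a2
      have hc := Gl2_Hi_zero ρ' (Submodule.smul_mem _ c h1') a2
      rw [(smul_eq_zero.1 hc).resolve_right hv0', zero_smul, sub_zero] at a1
      exact hv0 (Gl2_Hi_zero ρ h1 a1)
  have s1 : W.map (LinearMap.fst ℂ V V') = ⊤ := by
    refine hg _ ?_ ⟨(v, v'), hW, rfl⟩
    rintro i j _ ⟨x, hx, rfl⟩
    exact ⟨_, hI i j x hx, rfl⟩
  have s2 : W.map (LinearMap.snd ℂ V V') = ⊤ := by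
    refine hg' _ ?_ ⟨(v, v'), hW, rfl⟩
    rintro i j _ ⟨x, hx, rfl⟩
    exact ⟨_, hI i j x hx, rfl⟩
  obtain ⟨φ, hφ⟩ := Submodule.exists_equiv_eq_graph (G := W)
    ⟨fun x y hxy => by
      have a1 : (x : V × V').1 = (y : V × V').1 := hxy
      have a2 : (x : V × V').2 - (y : V × V').2 ∈ W.comap (LinearMap.inr ℂ V V') := by
        have := W.sub_mem x.2 y.2
        rw [Submodule.mem_comap]
        convert this using 1
        ext <;> simp [a1]
      rw [k1, Submodule.mem_bot, sub_eq_zero] at a2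
      exact Subtype.ext (Prod.ext a1 a2),
    fun x => by
      obtain ⟨y, hy, e⟩ := (show x ∈ W.map (LinearMap.fst ℂ V V') from s1 ▸ Submodule.mem_top)
      exact ⟨⟨y, hy⟩, e⟩⟩
    ⟨fun x y hxy => by
      have a1 : (x : V × V').2 = (y : V × V').2 := hxy
      have a2 : (x : V × V').1 - (y : V × V').1 ∈ W.comap (LinearMap.inl ℂ V V') := by
        have := W.sub_mem x.2 y.2
        rw [Submodule.mem_comap]
        convert this using 1
        ext <;> simp [a1]
      rw [k2, Submodule.mem_bot, sub_eq_zero] at a2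
      exact Subtype.ext (Prod.ext a2 a1),
    fun x => by
      obtain ⟨y, hy, e⟩ := (show x ∈ W.map (LinearMap.snd ℂ V V') from s2 ▸ Submodule.mem_top)
      exact ⟨⟨y, hy⟩, e⟩⟩
  refine ⟨φ, fun i j x => ?_⟩
  have a1 : (x, φ x) ∈ W := by
    rw [hφ, LinearMap.mem_graph_iff]
    rfl
  have a2 := hI i j _ a1
  rw [hφ, LinearMap.mem_graph_iff] at a2
  exact a2.symm

end Crest.Agent.R187.GlRep
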