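import Crest.Agent.R187.Defs

/-!
# Newton's identity for complete homogeneous symmetric polynomials and plethysms

`hsymm_newton`: `a h_a = ∑_{k=1}^a p_k h_{a-k}`.  Double counting: both sides equal
`∑_{s : Sym σ a} ∑_x count x s · x^s`; `count x s = #{k ∈ [1, a] | k ≤ count x s}` and
`s ↦ s - replicate k x` is a bijection from `{s | k ≤ count x s}` onto `Sym σ (a-k)`.
(Or compare coefficients: `coeff d (hsymm a) = if d.degree = a then 1 else 0`.)
`hh_six`: solve the recursion for `a = 1, …, 6` (`linear_combination`).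
`hh_rename`: `hh` is symmetric (induction with `hh_newton` in a torsion free ring, `pk_rename`).
-/

set_option autoImplicit false

namespace Crest.Agent.R187

open MvPolynomial

theorem newton_prod_X {σ : Type} [DecidableEq σ] (s : Multiset σ) :
    (s.map (X : σ → MvPolynomial σ ℤ)).prod = monomial (Multiset.toFinsupp s) 1 := by
  induction s using Multiset.induction_on with
  | empty => simp
  | cons x s ih =>
    rw [Multiset.map_cons, Multiset.prod_cons, ih, ← Multiset.singleton_add, map_add,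
      Multiset.toFinsupp_singleton, X, monomial_mul, one_mul]

theorem newton_degree_toFinsupp {σ : Type} [DecidableEq σ] (s : Multiset σ) :
    (Multiset.toFinsupp s).degree = Multiset.card s := by
  induction s using Multiset.induction_on with
  | empty => simp
  | cons x s ih =>
    rw [← Multiset.singleton_add, map_add, map_add, ih, Multiset.toFinsupp_singleton,
      Finsupp.degree_single, Multiset.card_add, Multiset.card_singleton]

theorem newton_coeff_hsymm (σ : Type) [Fintype σ] [DecidableEq σ] (a : ℕ) (d : σ →₀ ℕ) :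
    coeff d (hsymm σ ℤ a) = if d.degree = a then 1 else 0 := by
  rw [hsymm, coeff_sum]
  simp only [newton_prod_X, coeff_monomial]
  by_cases hd : d.degree = a
  · rw [if_pos hd]
    have hc : Multiset.card (Finsupp.toMultiset d) = a := by
      rw [← newton_degree_toFinsupp, Finsupp.toMultiset_toFinsupp, hd]
    refine (Finset.sum_eq_single (Sym.mk (Finsupp.toMultiset d) hc) ?_ ?_).trans ?_
    rotate_left 2
    · rw [if_pos]
      exact Finsupp.toMultiset_toFinsupp d
    · intro s _ hs
      rw [if_neg]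
      intro h
      apply hs
      apply Subtype.ext
      show s.1 = Finsupp.toMultiset d
      rw [← h, Multiset.toFinsupp_toMultiset]
    · intro h
      exact absurd (Finset.mem_univ _) h
  · rw [if_neg hd]
    refine Finset.sum_eq_zero fun s _ => ?_
    rw [if_neg]
    intro h
    apply hd
    rw [← h, newton_degree_toFinsupp]
    exact s.2

theorem hsymm_newton (σ : Type) [Fintype σ] [DecidableEq σ] (a : ℕ) :
    (a : MvPolynomial σ ℤ) * hsymm σ ℤ a =
      ∑ k ∈ Finset.range a, psum σ ℤ (k + 1) * hsymm σ ℤ (a - 1 - k) := by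
  ext d
  have hL : coeff d ((a : MvPolynomial σ ℤ) * hsymm σ ℤ a) =
      if d.degree = a then (a : ℤ) else 0 := by
    rw [← map_natCast (C : ℤ →+* MvPolynomial σ ℤ) a, coeff_C_mul, newton_coeff_hsymm]
    split_ifs <;> simp
  rw [hL, coeff_sum]
  have hR : ∀ k ∈ Finset.range a, coeff d (psum σ ℤ (k + 1) * hsymm σ ℤ (a - 1 - k)) =
      ∑ x : σ, if d.degree = a ∧ k + 1 ≤ d x then (1 : ℤ) else 0 := by
    intro k hk
    have hk' : k < a := Finset.mem_range.1 hk
    rw [psum, Finset.sum_mul, coeff_sum]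
    refine Finset.sum_congr rfl fun x _ => ?_
    rw [X_pow_eq_monomial, coeff_monomial_mul', newton_coeff_hsymm]
    by_cases hx : k + 1 ≤ d x
    · have hle : Finsupp.single x (k + 1) ≤ d := Finsupp.single_le_iff.2 hx
      have hdeg : (d - Finsupp.single x (k + 1)).degree + (k + 1) = d.degree := by
        conv_rhs => rw [← tsub_add_cancel_of_le hle]
        rw [map_add, Finsupp.degree_single]
      rw [if_pos hle, one_mul]
      by_cases hd : d.degree = a
      · rw [if_pos (by omega), if_pos ⟨hd, hx⟩]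
      · rw [if_neg (by omega), if_neg (fun h => hd h.1)]
    · rw [if_neg (fun h => hx (Finsupp.single_le_iff.1 h)), if_neg (fun h => hx h.2)]
  rw [Finset.sum_congr rfl hR, Finset.sum_comm]
  by_cases hd : d.degree = a
  · rw [if_pos hd]
    have hx : ∀ x : σ, (∑ k ∈ Finset.range a,
        if d.degree = a ∧ k + 1 ≤ d x then (1 : ℤ) else 0) = (d x : ℤ) := by
      intro x
      have hxa : d x ≤ a := hd ▸ Finsupp.le_degree x d
      rw [← Finset.sum_filter]
      have : (Finset.range a).filter (fun k => d.degree = a ∧ k + 1 ≤ d x) =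
          Finset.range (d x) := by
        ext k
        simp only [Finset.mem_filter, Finset.mem_range]
        omega
      rw [this]
      simp
    rw [Finset.sum_congr rfl fun x _ => hx x, ← hd, Finsupp.degree_eq_sum]
    push_cast
    rfl
  · simp [hd]

theorem hh_zero (n m : ℕ) : hh n 0 m = 1 := by
  simp [hh]

theorem newton_aeval_psum (n k m : ℕ) :
    aeval (fun β : Mon n m => (monomial β.1 1 : MvPolynomial (Fin n) ℤ))
      (psum (Mon n m) ℤ k) = pk n k m := by
  rw [psum, map_sum, pk]
  simp only [map_pow, aeval_X, monomial_pow, one_pow]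
  exact Finset.sum_coe_sort (Finset.finsuppAntidiag (Finset.univ : Finset (Fin n)) m)
    (fun β => (monomial (k • β) 1 : MvPolynomial (Fin n) ℤ))

theorem hh_newton (n a m : ℕ) : (a : MvPolynomial (Fin n) ℤ) * hh n a m =
    ∑ k ∈ Finset.range a, pk n (k + 1) m * hh n (a - 1 - k) m := by
  have h := congrArg (aeval (R := ℤ)
    (fun β : Mon n m => (monomial β.1 1 : MvPolynomial (Fin n) ℤ))) (hsymm_newton (Mon n m) a)
  rw [map_mul, map_natCast, map_sum] at h
  rw [hh, h]
  refine Finset.sum_congr rfl fun k _ => ?_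
  rw [map_mul, newton_aeval_psum, hh]

theorem hh_six (n m : ℕ) : 720 * hh n 6 m =
    pk n 1 m ^ 6 + 15 * (pk n 2 m * pk n 1 m ^ 4) + 45 * (pk n 2 m ^ 2 * pk n 1 m ^ 2)
      + 15 * pk n 2 m ^ 3 + 40 * (pk n 3 m * pk n 1 m ^ 3) + 120 * (pk n 3 m * pk n 2 m * pk n 1 m)
      + 40 * pk n 3 m ^ 2 + 90 * (pk n 4 m * pk n 1 m ^ 2) + 90 * (pk n 4 m * pk n 2 m)
      + 144 * (pk n 5 m * pk n 1 m) + 120 * pk n 6 m := by
  have h0 := hh_zero n m
  have h1 := hh_newton n 1 m
  have h2 := hh_newton n 2 m
  have h3 := hh_newton n 3 m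
  have h4 := hh_newton n 4 m
  have h5 := hh_newton n 5 m
  have h6 := hh_newton n 6 m
  simp only [Finset.sum_range_succ, Finset.sum_range_zero, zero_add, Nat.reduceAdd,
    Nat.reduceSub, h0, Nat.cast_ofNat, Nat.cast_one, one_mul, mul_one] at h1 h2 h3 h4 h5 h6
  generalize pk n 1 m = p1 at *
  generalize pk n 2 m = p2 at *
  generalize pk n 3 m = p3 at *
  generalize pk n 4 m = p4 at *
  generalize pk n 5 m = p5 at *
  generalize pk n 6 m = p6 at *
  generalize hh n 1 m = g1 at *
  generalize hh n 2 m = g2 at *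
  generalize hh n 3 m = g3 at *
  generalize hh n 4 m = g4 at *
  generalize hh n 5 m = g5 at *
  generalize hh n 6 m = g6 at *
  subst h1
  have e2 : 2 * g2 = g1 ^ 2 + p2 := by linear_combination h2
  have e3 : 6 * g3 = g1 ^ 3 + 3 * (p2 * g1) + 2 * p3 := by
    linear_combination 2 * h3 + g1 * e2
  have e4 : 24 * g4 = g1 ^ 4 + 6 * (p2 * g1 ^ 2) + 3 * p2 ^ 2 + 8 * (p3 * g1) + 6 * p4 := by
    linear_combination 6 * h4 + g1 * e3 + 3 * p2 * e2
  have e5 : 120 * g5 = g1 ^ 5 + 10 * (p2 * g1 ^ 3) + 15 * (p2 ^ 2 * g1) + 20 * (p3 * g1 ^ 2)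
      + 20 * (p3 * p2) + 30 * (p4 * g1) + 24 * p5 := by
    linear_combination 24 * h5 + g1 * e4 + 4 * p2 * e3 + 12 * p3 * e2
  linear_combination 120 * h6 + g1 * e5 + 5 * p2 * e4 + 20 * p3 * e3 + 60 * p4 * e2

theorem newton_mem_iff {n m : ℕ} {β : Fin n →₀ ℕ} :
    β ∈ Finset.finsuppAntidiag (Finset.univ : Finset (Fin n)) m ↔ β.degree = m := by
  rw [Finset.mem_finsuppAntidiag, Finsupp.degree_eq_sum]
  simp

theorem newton_mem_mapDomain {n m : ℕ} (σ : Equiv.Perm (Fin n)) {β : Fin n →₀ ℕ}
    (hβ : β ∈ Finset.finsuppAntidiag (Finset.univ : Finset (Fin n)) m) :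
    Finsupp.mapDomain σ β ∈ Finset.finsuppAntidiag (Finset.univ : Finset (Fin n)) m := by
  rw [newton_mem_iff] at hβ ⊢
  rw [← hβ, Finsupp.degree_eq_sum, Finsupp.degree_eq_sum, ← Equiv.sum_comp σ (fun i => Finsupp.mapDomain σ β i)]
  refine Finset.sum_congr rfl fun i _ => ?_
  exact Finsupp.mapDomain_apply σ.injective β i

theorem pk_rename (n k m : ℕ) (σ : Equiv.Perm (Fin n)) : rename σ (pk n k m) = pk n k m := by
  rw [pk, map_sum]
  simp only [rename_monomial]
  refine Finset.sum_bij' (fun β _ => Finsupp.mapDomain σ β) (fun β _ => Finsupp.mapDomain σ.symm β)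
    (fun β hβ => newton_mem_mapDomain σ hβ) (fun β hβ => newton_mem_mapDomain σ.symm hβ) ?_ ?_ ?_
  · intro β _
    rw [← Finsupp.mapDomain_comp]
    simp
  · intro β _
    rw [← Finsupp.mapDomain_comp]
    simp
  · intro β _
    rw [Finsupp.mapDomain_smul]

theorem hh_rename (n a m : ℕ) (σ : Equiv.Perm (Fin n)) : rename σ (hh n a m) = hh n a m := by
  induction a using Nat.strong_induction_on with
  | _ a ih =>
    rcases Nat.eq_zero_or_pos a with rfl | ha
    · simp [hh_zero]
    have h := congrArg (rename σ) (hh_newton n a m)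
    rw [map_mul, map_natCast, map_sum] at h
    have h2 : ∑ k ∈ Finset.range a, rename σ (pk n (k + 1) m * hh n (a - 1 - k) m) =
        ∑ k ∈ Finset.range a, pk n (k + 1) m * hh n (a - 1 - k) m := by
      refine Finset.sum_congr rfl fun k _ => ?_
      rw [map_mul, pk_rename, ih _ (by omega)]
    rw [h2, ← hh_newton] at h
    exact mul_left_cancel₀ (Nat.cast_ne_zero.2 ha.ne') h

/-- Expansion of the Vandermonde polynomial (`Matrix.det_vandermonde`, reversed order). -/
theorem DD_eq_sum (n : ℕ) : DD n =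
    ∑ σ : Equiv.Perm (Fin n), monomial (fs fun i => rho n (σ i)) ((Equiv.Perm.sign σ : ℤˣ) : ℤ) := by
  have h := Matrix.det_projVandermonde (fun _ : Fin n => (1 : MvPolynomial (Fin n) ℤ)) X
  simp only [one_mul] at h
  rw [DD, ← h, ← Matrix.det_transpose, Matrix.det_apply']
  refine Finset.sum_congr rfl fun σ _ => ?_
  simp only [Matrix.transpose_apply, Matrix.projVandermonde_apply, one_pow, one_mul]
  rw [monomial_eq, Finsupp.prod_fintype _ _ (by simp)]
  simp only [fs_apply, rho, Fin.val_rev]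
  congr 1
  refine Finset.prod_congr rfl fun i _ => ?_
  congr 1
  omega

theorem DD_rename (n : ℕ) (σ : Equiv.Perm (Fin n)) :
    rename σ (DD n) = ((Equiv.Perm.sign σ : ℤˣ) : ℤ) • DD n := by
  rw [DD, map_prod]
  simp only [map_prod, map_sub, rename_X]
  rw [σ.prod_Ioi_comp_eq_sign_mul_prod (f := fun i j => (X i - X j : MvPolynomial (Fin n) ℤ))
    (fun i j => by ring), zsmul_eq_mul]

theorem pk_isHomogeneous (n k m : ℕ) : (pk n k m).IsHomogeneous (k * m) := by
  rw [pk]
  refine IsHomogeneous.sum _ _ _ fun β hβ => isHomogeneous_monomial _ ?_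
  rw [newton_mem_iff] at hβ
  rw [← hβ, Finsupp.degree_eq_sum, Finsupp.degree_eq_sum, Finset.mul_sum]
  simp

theorem hh_isHomogeneous (n a m : ℕ) : (hh n a m).IsHomogeneous (a * m) := by
  have h1 : (hsymm (Mon n m) ℤ a).IsHomogeneous a := by
    intro d hd
    rw [newton_coeff_hsymm] at hd
    have : d.degree = a := by
      by_contra h
      exact hd (if_neg h)
    rw [← this, Finsupp.degree_eq_weight_one]
    rfl
  have h2 := h1.aeval (fun β : Mon n m => (monomial β.1 1 : MvPolynomial (Fin n) ℤ))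
    (fun β => isHomogeneous_monomial _ (newton_mem_iff.1 β.2))
  rw [hh, mul_comm]
  exact h2

theorem DD_six_isHomogeneous : (DD 6).IsHomogeneous 15 := by
  have h := IsHomogeneous.prod (Finset.univ : Finset (Fin 6))
    (fun i => ∏ j ∈ Finset.Ioi i, (X i - X j : MvPolynomial (Fin 6) ℤ))
    (fun i => ∑ _j ∈ Finset.Ioi i, 1)
    (fun i _ => IsHomogeneous.prod _ _ _ fun j _ =>
      (isHomogeneous_X ℤ i).sub (isHomogeneous_X ℤ j))
  have h15 : (∑ i : Fin 6, ∑ _j ∈ Finset.Ioi i, 1) = 15 := by decide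
  rw [h15] at h
  exact h

theorem coeff_pk_nonneg (n k m : ℕ) (d : Fin n →₀ ℕ) : 0 ≤ coeff d (pk n k m) := by
  rw [pk, coeff_sum]
  refine Finset.sum_nonneg fun β _ => ?_
  rw [coeff_monomial]
  split_ifs <;> simp

end Crest.Agent.R187
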