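import Crest.Agent.R187.Gl2
import Crest.Agent.R187.Newton

/-!
# Abstract `gl_n`-modules III: Weyl's character formula (Casimir / Freudenthal proof)

Let `χ = ∑ dim(V_μ) x^μ`, `θ_i = x_i ∂_i` (acts on `coeff μ` by `μ i`), `D = DD n`, all over `ℂ`
(map the integer polynomials by `MvPolynomial.map (Int.castRingHom ℂ)`), `V` cyclic of highest weight `Λ`.
For `i ≠ j` let `T_{ij} = ∑_μ tr(e i j e j i | V_μ) x^μ`.  Cyclicity of the trace
(`LinearMap.trace_comp_comm'` for the restricted maps `V_μ → V_ν → V_μ`, `ν + e_i = μ + e_j`) gives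
`x_j T_{ij} = x_i T_{ji}`, precisely: `tr(e i j e j i | V_μ) = tr(e j i e i j | V_ν)` when
`ν + e_i = μ + e_j` (and both vanish when `μ i = 0`, `e_wt_zero`), and `comm` gives
`T_{ij} - T_{ji} = (θ_i - θ_j) χ`.  Hence `(x_i - x_j)(T_{ij} + T_{ji}) = (x_i + x_j)(θ_i - θ_j) χ`.
The Casimir identity gives `c χ = ∑ θ_i² χ + ∑_{i<j} (T_{ij} + T_{ji})`, `c = ∑ Λ_i² + ∑_{i<j}(Λ_i - Λ_j)`.
With `D_{ij} = D / (x_i - x_j)` (product over the other pairs), `θ_i D = ∑_{j ≠ i} ± x_i D_{ij}`, so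
`2 ∑_i θ_i D θ_i χ = 2 ∑_{i<j} D_{ij} (x_i θ_i - x_j θ_j) χ
   = D ∑_{i<j} (T_{ij} + T_{ji}) + D ∑_{i<j} (θ_i + θ_j) χ`, and `∑_{i<j} (θ_i + θ_j) χ = (n-1) |Λ| χ`.
Also `∑ θ_i² D = |ρ|² D` (every monomial of `D = det (x_i^{ρ_j})` is a permutation of `ρ`, `DD_eq_sum`).
Therefore `∑ θ_i² (D χ) = (c + (n-1)|Λ| + |ρ|²) D χ = |Λ + ρ|² D χ`
(`∑_{i<j}(Λ_i - Λ_j) + (n-1)|Λ| = 2 ∑ ρ_i Λ_i`).  So `coeff ν (D χ) ≠ 0` forces `|ν|² = |Λ+ρ|²`, and
`ν = μ + σρ` with `Dom μ Λ`, so `Dom ν (Λ+ρ)`; if `ν = l + ρ` with `l` antitone then Abel summation of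
`|Λ+ρ|² - |ν|² = ∑ (Λ+ρ-ν)_i (Λ+ρ+ν)_i` (the second factor is strictly decreasing) forces `ν = Λ+ρ`.
For `ν = Λ + ρ` only `σ = 1`, `μ = Λ` contributes (`Dom (Λ + ρ - σρ) Λ` forces `σρ = ρ`).
-/

set_option autoImplicit false

namespace Crest.Agent.R187

open MvPolynomial

/-- `θ_i = x_i ∂_i` -/
noncomputable def Gl3_th {n : ℕ} (i : Fin n) (p : MvPolynomial (Fin n) ℂ) : MvPolynomial (Fin n) ℂ :=
  X i * pderiv i p

theorem Gl3_th_mul {n : ℕ} (i : Fin n) (p q : MvPolynomial (Fin n) ℂ) :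
    Gl3_th i (p * q) = p * Gl3_th i q + q * Gl3_th i p := by
  simp only [Gl3_th, Derivation.leibniz, smul_eq_mul]
  ring

theorem Gl3_th_add {n : ℕ} (i : Fin n) (p q : MvPolynomial (Fin n) ℂ) :
    Gl3_th i (p + q) = Gl3_th i p + Gl3_th i q := by
  simp only [Gl3_th, map_add, mul_add]

theorem Gl3_coeff_th {n : ℕ} (i : Fin n) (p : MvPolynomial (Fin n) ℂ) (d : Fin n →₀ ℕ) :
    coeff d (Gl3_th i p) = d i * coeff d p := by
  induction p using MvPolynomial.induction_on' with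
  | monomial m r =>
    rw [Gl3_th, X_mul_pderiv_monomial, coeff_smul, coeff_monomial]
    split_ifs with h
    · rw [h, nsmul_eq_mul]
    · simp
  | add p q hp hq => rw [Gl3_th_add, coeff_add, coeff_add, hp, hq, mul_add]

theorem Gl3_logder {R ι : Type} [CommRing R] (B : R → R) (h1 : B 1 = 0)
    (hB : ∀ p q, B (p * q) = p * B q + q * B p) (s : Finset ι) (f g : ι → R)
    (h : ∀ i ∈ s, B (f i) = f i * g i) : B (∏ i ∈ s, f i) = (∏ i ∈ s, f i) * ∑ i ∈ s, g i := by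
  classical
  induction s using Finset.induction_on with
  | empty => simpa using h1
  | insert a s ha ih =>
    rw [Finset.prod_insert ha, Finset.sum_insert ha, hB, ih fun i hi => h i (by simp [hi]),
      h a (by simp)]
    ring

theorem Gl3_fs_coe {n : ℕ} (d : Fin n →₀ ℕ) : fs d = d := by
  ext i
  rfl

theorem Gl3_abel {n : ℕ} (a b : Fin n → ℤ) (ha : ∀ k, 0 ≤ ∑ i ∈ Finset.Iic k, a i)
    (hb : StrictAnti b) (hb0 : ∀ i, 0 < b i) :
    0 ≤ ∑ i, a i * b i ∧ (∑ i, a i * b i = 0 → a = 0) := by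
  induction n with
  | zero => exact ⟨by simp, fun _ => Subsingleton.elim _ _⟩
  | succ n ih =>
    obtain ⟨h1, h2⟩ := ih (fun i => a i.castSucc) (fun i => b i.castSucc - b (Fin.last n))
      (fun k => by
        have := ha k.castSucc
        rwa [← Fin.map_castSuccEmb_Iic, Finset.sum_map] at this)
      (fun i j hij => sub_lt_sub_right (hb (Fin.castSucc_lt_castSucc_iff.2 hij)) _)
      (fun i => sub_pos.2 (hb (Fin.castSucc_lt_last i)))
    have h3 : 0 ≤ ∑ i, a i := by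
      have := ha (Fin.last n)
      rwa [show Finset.Iic (Fin.last n) = Finset.univ from Finset.Iic_top] at this
    have h4 : ∑ i, a i * b i = ∑ i : Fin n, a i.castSucc * (b i.castSucc - b (Fin.last n))
        + (∑ i, a i) * b (Fin.last n) := by
      simp only [Fin.sum_univ_castSucc, mul_sub, Finset.sum_sub_distrib, add_mul, Finset.sum_mul]
      ring
    have h5 := mul_nonneg h3 (hb0 (Fin.last n)).le
    refine ⟨by linarith, fun h => ?_⟩
    have h6 := h2 (by linarith)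
    have h7 : ∑ i, a i = 0 := (mul_eq_zero.1 (by linarith : (∑ i, a i) * b (Fin.last n) = 0)).resolve_right
      (hb0 _).ne'
    have h8 : ∀ i : Fin n, a i.castSucc = 0 := fun i => congrFun h6 i
    rw [Fin.sum_univ_castSucc, Finset.sum_eq_zero fun i _ => h8 i, zero_add] at h7
    funext i
    exact Fin.lastCases h7 h8 i

theorem Gl3_rho_anti (n : ℕ) : StrictAnti (rho n) := fun i j hij => by
  have := j.2
  have : i.1 < j.1 := hij
  simp only [rho]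
  omega

/-- the only contribution on the sphere `|ν| = |Λ + ρ|` -/
theorem Gl3_key {n : ℕ} {Λ l μ : Fin n → ℕ} {σ : Equiv.Perm (Fin n)} (hΛ : Antitone Λ)
    (hl : Antitone l) (hμ : GlRep.Dom μ Λ) (h : ∀ i, μ i + rho n (σ i) = l i + rho n i)
    (hn : ∑ i, (l i + rho n i) ^ 2 = ∑ i, (Λ i + rho n i) ^ 2) : μ = Λ ∧ σ = 1 := by
  set b : Fin n → ℤ := fun i => (Λ i : ℤ) + rho n i + (l i + rho n i) + 1 with hb
  have hρ : StrictAnti fun i => (rho n i : ℤ) := fun i j hij =>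
    Nat.cast_lt.2 (Gl3_rho_anti n hij)
  have hb1 : StrictAnti b := fun i j hij => by
    have h1 : (Λ j : ℤ) ≤ Λ i := by exact_mod_cast hΛ hij.le
    have h2 : (l j : ℤ) ≤ l i := by exact_mod_cast hl hij.le
    have h3 := hρ hij
    simp only [hb] at h3 ⊢
    linarith
  obtain ⟨a1, a2⟩ := Gl3_abel (fun i => (Λ i : ℤ) - μ i) b (fun k => by
    rw [Finset.sum_sub_distrib, sub_nonneg]
    exact_mod_cast hμ.1 k) hb1 fun i => by simp only [hb]; positivity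
  have hm : Monovary b fun i => (rho n i : ℤ) := hb1.antitone.monovary hρ.antitone
  have a3 := hm.sum_mul_comp_perm_le_sum_mul (σ := σ)
  have h' : ∀ i, (μ i : ℤ) = l i + rho n i - rho n (σ i) := fun i => by
    rw [eq_sub_iff_add_eq]
    exact_mod_cast h i
  have hn' : ∑ i, ((l i : ℤ) + rho n i) ^ 2 = ∑ i, ((Λ i : ℤ) + rho n i) ^ 2 := by exact_mod_cast hn
  have hs : ∑ i, (μ i : ℤ) = ∑ i, (Λ i : ℤ) := by exact_mod_cast hμ.2
  have hs2 : ∑ i, (rho n (σ i) : ℤ) = ∑ i, (rho n i : ℤ) :=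
    Equiv.sum_comp σ fun i => (rho n i : ℤ)
  have a4 : ∑ i, ((Λ i : ℤ) - μ i) * b i + (∑ i, b i * rho n i - ∑ i, b i * rho n (σ i))
      = ∑ i, ((Λ i : ℤ) + rho n i) ^ 2 - ∑ i, ((l i : ℤ) + rho n i) ^ 2
        + (∑ i, (Λ i : ℤ) - ∑ i, (μ i : ℤ)) + (∑ i, (rho n i : ℤ) - ∑ i, (rho n (σ i) : ℤ)) := by
    simp only [← Finset.sum_sub_distrib, ← Finset.sum_add_distrib]
    refine Finset.sum_congr rfl fun i _ => ?_
    simp only [hb, h' i]
    ring
  rw [hn', hs, hs2, sub_self, sub_self, sub_self] at a4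
  constructor
  · funext i
    have := congrFun (a2 (by linarith)) i
    simp only [Pi.zero_apply, sub_eq_zero] at this
    exact_mod_cast this.symm
  · have h1 := hm.sum_mul_comp_perm_eq_sum_mul_iff.1 (show ∑ i, b i * rho n (σ i) = _ by linarith)
    refine (Equiv.Perm.monotone_iff σ).1 (monotone_iff_forall_lt.2 fun i j hij => ?_)
    by_contra h2
    exact absurd (h1 (hρ (not_le.1 h2))) (not_le.2 (hb1 hij))

namespace GlRep

variable {n : ℕ} {V : Type} [AddCommGroup V] [Module ℂ V] [FiniteDimensional ℂ V]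

omit [FiniteDimensional ℂ V] in
theorem Gl3_kk (ρ : GlRep n V) (k i j : Fin n) (w : V) : ρ.e k k (ρ.e i j w) = ρ.e i j (ρ.e k k w)
    + ((if k = i then 1 else 0) - (if j = k then 1 else 0) : ℂ) • ρ.e i j w := by
  rw [← sub_eq_iff_eq_add', ρ.comm, sub_smul]
  congr 1
  · split_ifs with h
    · rw [h, one_smul]
    · rw [zero_smul]
  · split_ifs with h
    · rw [h, one_smul]
    · rw [zero_smul]

omit [FiniteDimensional ℂ V] in
theorem Gl3_ee (ρ : GlRep n V) (i j : Fin n) (μ : Fin n → ℕ) :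
    ∀ v ∈ ρ.wt μ, (ρ.e i j ∘ₗ ρ.e j i) v ∈ ρ.wt μ := by
  intro v hv
  rw [mem_wt] at hv ⊢
  intro k
  rw [LinearMap.comp_apply, Gl3_kk, Gl3_kk, hv, map_add, map_smul, map_smul, map_smul, add_assoc,
    ← add_smul]
  simp only [eq_comm (a := k)]
  rw [sub_add_sub_cancel, sub_self, zero_smul, add_zero]

/-- `tr (e i j e j i | V_μ)` -/
noncomputable def Gl3_t (ρ : GlRep n V) (i j : Fin n) (μ : Fin n → ℕ) : ℂ :=
  LinearMap.trace ℂ (ρ.wt μ) ((ρ.e i j ∘ₗ ρ.e j i).restrict (ρ.Gl3_ee i j μ))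

theorem Gl3_tr (U : Submodule ℂ V) (A : U →ₗ[ℂ] U) (c : ℂ) (h : ∀ v : U, (A v : V) = c • (v : V)) :
    LinearMap.trace ℂ U A = c * Module.finrank ℂ U := by
  have : A = c • LinearMap.id := LinearMap.ext fun v => Subtype.ext (h v)
  rw [this, map_smul, LinearMap.trace_id, smul_eq_mul]

theorem Gl3_t_sub (ρ : GlRep n V) (i j : Fin n) (μ : Fin n → ℕ) :
    ρ.Gl3_t i j μ - ρ.Gl3_t j i μ = ((μ i : ℂ) - μ j) * Module.finrank ℂ (ρ.wt μ) := by
  rw [Gl3_t, Gl3_t, ← map_sub]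
  refine Gl3_tr _ _ _ fun v => ?_
  have h := ρ.comm i j j i v
  rw [if_pos rfl, if_pos rfl, mem_wt.1 v.2, mem_wt.1 v.2, ← sub_smul] at h
  exact h

theorem Gl3_t_self (ρ : GlRep n V) (i : Fin n) (μ : Fin n → ℕ) :
    ρ.Gl3_t i i μ = (μ i : ℂ) ^ 2 * Module.finrank ℂ (ρ.wt μ) := by
  refine Gl3_tr _ _ _ fun v => ?_
  show ρ.e i i (ρ.e i i v) = _
  rw [mem_wt.1 v.2, map_smul, mem_wt.1 v.2, smul_smul, sq]

theorem Gl3_t_zero (ρ : GlRep n V) {i j : Fin n} (hij : i ≠ j) {μ : Fin n → ℕ} (h : μ i = 0) :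
    ρ.Gl3_t i j μ = 0 := by
  refine (Gl3_tr _ _ 0 fun v => ?_).trans (zero_mul _)
  show ρ.e i j (ρ.e j i v) = _
  rw [ρ.e_wt_zero hij.symm h v.2, map_zero, zero_smul]

theorem Gl3_t_bot (ρ : GlRep n V) (i j : Fin n) {μ : Fin n → ℕ} (h : ρ.wt μ = ⊥) :
    ρ.Gl3_t i j μ = 0 := by
  refine (Gl3_tr _ _ 0 fun v => ?_).trans (zero_mul _)
  show ρ.e i j (ρ.e j i v) = _
  have : (v : V) = 0 := (Submodule.eq_bot_iff _).1 h _ v.2
  rw [this, map_zero, map_zero, zero_smul]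

theorem Gl3_t_swap (ρ : GlRep n V) {i j : Fin n} {μ ν : Fin n → ℕ}
    (h : ν + Pi.single i 1 = μ + Pi.single j 1) : ρ.Gl3_t i j μ = ρ.Gl3_t j i ν :=
  LinearMap.trace_comp_comm' ((ρ.e j i).restrict (p := ρ.wt μ) (q := ρ.wt ν) fun _ hv => ρ.e_wt h hv)
    ((ρ.e i j).restrict (p := ρ.wt ν) (q := ρ.wt μ) fun _ hv => ρ.e_wt h.symm hv)

theorem Gl3_t_sum {ρ : GlRep n V} {Λ : Fin n → ℕ} (h : ρ.IsCyc Λ) (μ : Fin n → ℕ) :
    ∑ i, ∑ j, ρ.Gl3_t i j μ = ((∑ i, (Λ i : ℂ) ^ 2) + ∑ i, ∑ j ∈ Finset.Ioi i, ((Λ i : ℂ) - Λ j))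
      * Module.finrank ℂ (ρ.wt μ) := by
  simp only [Gl3_t, ← map_sum]
  refine Gl3_tr _ _ _ fun v => ?_
  rw [← h.casimir]
  simp only [LinearMap.sum_apply, Submodule.coe_sum]
  rfl

/-- the generating function of the traces -/
noncomputable def Gl3_T (ρ : GlRep n V) (i j : Fin n) : MvPolynomial (Fin n) ℂ :=
  ∑ μ ∈ ρ.finite_wt.toFinset, monomial (fs μ) (ρ.Gl3_t i j μ)

theorem Gl3_coeff_T (ρ : GlRep n V) (i j : Fin n) (d : Fin n →₀ ℕ) :
    coeff d (ρ.Gl3_T i j) = ρ.Gl3_t i j d := by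
  rw [Gl3_T, coeff_sum, Finset.sum_eq_single (d : Fin n → ℕ)]
  · rw [Gl3_fs_coe, coeff_monomial, if_pos rfl]
  · intro μ _ hμ
    rw [coeff_monomial, if_neg]
    rintro rfl
    exact hμ rfl
  · intro hd
    rw [ρ.Gl3_t_bot i j (by simpa using hd), map_zero, coeff_zero]

theorem Gl3_XT (ρ : GlRep n V) {i j : Fin n} (hij : i ≠ j) :
    X j * ρ.Gl3_T i j = X i * ρ.Gl3_T j i := by
  ext d
  simp only [coeff_X_mul', Gl3_coeff_T, Finsupp.mem_support_iff]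
  by_cases hi : d i = 0 <;> by_cases hj : d j = 0
  · simp [hi, hj]
  · rw [if_pos hj, if_neg (not_not.2 hi)]
    exact ρ.Gl3_t_zero hij (by simp [hi])
  · rw [if_pos hi, if_neg (not_not.2 hj)]
    exact (ρ.Gl3_t_zero hij.symm (by simp [hj])).symm
  · rw [if_pos hi, if_pos hj]
    refine ρ.Gl3_t_swap (funext fun k => ?_)
    simp only [Pi.add_apply, Finsupp.coe_tsub, Pi.sub_apply, Finsupp.single_apply, Pi.single_apply]
    by_cases h1 : k = i <;> by_cases h2 : k = j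
    · exact absurd (h1.symm.trans h2) hij
    · subst h1
      simp only [if_true, if_neg h2, if_neg (Ne.symm h2)]
      omega
    · subst h2
      simp only [if_true, if_neg h1, if_neg (Ne.symm h1)]
      omega
    · simp only [if_neg h1, if_neg h2, if_neg (Ne.symm h1), if_neg (Ne.symm h2)]

theorem Gl3_eigen {ρ : GlRep n V} {Λ : Fin n → ℕ} (h : ρ.IsCyc Λ) (χ D : MvPolynomial (Fin n) ℂ)
    (hχ : ∀ d : Fin n →₀ ℕ, coeff d χ = Module.finrank ℂ (ρ.wt d))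
    (hD : D = ∏ i : Fin n, ∏ j ∈ Finset.Ioi i, (X i - X j))
    (hD' : ∑ k, Gl3_th k (Gl3_th k D) = C (∑ i, (rho n i : ℂ) ^ 2) * D) :
    ∑ k, Gl3_th k (Gl3_th k (D * χ)) = C (∑ i, ((Λ i : ℂ) + rho n i) ^ 2) * (D * χ) := by
  have h1 : ∀ i j, ρ.Gl3_T i j - ρ.Gl3_T j i = Gl3_th i χ - Gl3_th j χ := fun i j => by
    ext d
    simp only [coeff_sub, Gl3_coeff_T, Gl3_coeff_th, Gl3_t_sub, hχ, sub_mul]
  have h2 : 2 * ∑ k, Gl3_th k D * Gl3_th k χ = D * ∑ i, ∑ j ∈ Finset.Ioi i,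
      (ρ.Gl3_T i j + ρ.Gl3_T j i + (Gl3_th i χ + Gl3_th j χ)) := by
    have b1 : 2 * ∑ k, Gl3_th k 1 * Gl3_th k χ = 0 := by simp [Gl3_th]
    have b2 : ∀ p q, 2 * ∑ k, Gl3_th k (p * q) * Gl3_th k χ = p * (2 * ∑ k, Gl3_th k q * Gl3_th k χ)
        + q * (2 * ∑ k, Gl3_th k p * Gl3_th k χ) := fun p q => by
      simp only [Gl3_th_mul, Finset.mul_sum, ← Finset.sum_add_distrib]
      exact Finset.sum_congr rfl fun k _ => by ring
    rw [hD]
    refine Gl3_logder (fun p => 2 * ∑ k, Gl3_th k p * Gl3_th k χ) b1 b2 _ _ _ fun i _ =>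
      Gl3_logder (fun p => 2 * ∑ k, Gl3_th k p * Gl3_th k χ) b1 b2 _ _ _ fun j hj => ?_
    have hij : i ≠ j := (Finset.mem_Ioi.1 hj).ne
    have b3 : ∀ k, Gl3_th k (X i - X j) * Gl3_th k χ = (if k = i then X k * Gl3_th k χ else 0)
        - (if k = j then X k * Gl3_th k χ else 0) := fun k => by
      rw [Gl3_th, map_sub, pderiv_X, pderiv_X, Pi.single_apply, Pi.single_apply]
      simp only [eq_comm (b := k)]
      split_ifs <;> ring
    simp only [b3, Finset.sum_sub_distrib, Finset.sum_ite_eq', Finset.mem_univ, if_true]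
    linear_combination 2 * ρ.Gl3_XT hij - (X i + X j) * h1 i j
  have h3 : ∑ k, Gl3_th k (Gl3_th k χ) + ∑ i, ∑ j ∈ Finset.Ioi i,
      (ρ.Gl3_T i j + ρ.Gl3_T j i + (Gl3_th i χ + Gl3_th j χ))
      = C (∑ i, ((Λ i : ℂ) ^ 2 + 2 * (rho n i * Λ i))) * χ := by
    ext d
    simp only [coeff_add, coeff_sum, Gl3_coeff_th, Gl3_coeff_T, coeff_C_mul, hχ]
    have c1 := Gl3_t_sum h d
    have c2 : ∑ i, ∑ j, ρ.Gl3_t i j d = ∑ i, ρ.Gl3_t i i d
        + ∑ i, ∑ j ∈ Finset.Ioi i, (ρ.Gl3_t i j d + ρ.Gl3_t j i d) := by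
      rw [Finset.sum_sum_Ioi_add_eq_sum_sum_off_diag fun j i => ρ.Gl3_t i j d,
        ← Finset.sum_add_distrib]
      exact Finset.sum_congr rfl fun i _ => Fintype.sum_eq_add_sum_compl i _
    have c3 : ∀ a : Fin n → ℂ, ∑ i, ∑ j ∈ Finset.Ioi i, (a i + a j) = (n - 1 : ℕ) * ∑ i, a i := by
      intro a
      rw [Finset.sum_sum_Ioi_add_eq_sum_sum_off_diag fun _ i => a i, Finset.mul_sum]
      exact Finset.sum_congr rfl fun i _ => by simp [Finset.card_compl]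
    have c4 : ∑ i, ∑ j ∈ Finset.Ioi i, ((Λ i : ℂ) - Λ j) + ∑ i, ∑ j ∈ Finset.Ioi i, ((Λ i : ℂ) + Λ j)
        = ∑ i, 2 * ((rho n i : ℂ) * Λ i) := by
      rw [← Finset.sum_add_distrib]
      refine Finset.sum_congr rfl fun i _ => ?_
      rw [← Finset.sum_add_distrib]
      simp only [sub_add_add_cancel, Finset.sum_const, Fin.card_Ioi, nsmul_eq_mul, rho]
      ring
    have c5 : (∑ i, (d i : ℂ)) * Module.finrank ℂ (ρ.wt d)
        = (∑ i, (Λ i : ℂ)) * Module.finrank ℂ (ρ.wt d) := by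
      by_cases hd : ρ.wt d = ⊥
      · rw [hd, finrank_bot, Nat.cast_zero, mul_zero, mul_zero]
      · congr 1
        exact_mod_cast (h.dom hd).2
    have c6 := c3 fun i => (d i : ℂ) * Module.finrank ℂ (ρ.wt d)
    rw [← Finset.sum_mul, c5] at c6
    have c7 : ∑ i, ρ.Gl3_t i i d = ∑ i, (d i : ℂ) * (d i * Module.finrank ℂ (ρ.wt d)) :=
      Finset.sum_congr rfl fun i _ => by rw [Gl3_t_self]; ring
    rw [c3] at c4
    simp only [Finset.sum_add_distrib] at c2 c6 ⊢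
    rw [← c4]
    linear_combination c1 - c2 - c7 + c6
  have h4 : ∑ k, Gl3_th k (Gl3_th k (D * χ)) = ∑ k, Gl3_th k (Gl3_th k D) * χ
      + 2 * ∑ k, Gl3_th k D * Gl3_th k χ + D * ∑ k, Gl3_th k (Gl3_th k χ) := by
    simp only [Gl3_th_mul, Gl3_th_add, Finset.mul_sum, ← Finset.sum_add_distrib]
    exact Finset.sum_congr rfl fun k _ => by ring
  have h5 : ∑ i, ((Λ i : ℂ) + rho n i) ^ 2
      = ∑ i, (rho n i : ℂ) ^ 2 + ∑ i, ((Λ i : ℂ) ^ 2 + 2 * (rho n i * Λ i)) := by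
    rw [← Finset.sum_add_distrib]
    exact Finset.sum_congr rfl fun k _ => by ring
  rw [h4, ← Finset.sum_mul, hD', h2, h5, C_add]
  linear_combination D * h3

/-- The eigen-equation `∑ θ_i² (D χ) = |Λ+ρ|² D χ`, read on coefficients. -/
theorem IsCyc.coeff_norm {ρ : GlRep n V} {Λ : Fin n → ℕ} (h : ρ.IsCyc Λ)
    (χ : MvPolynomial (Fin n) ℤ) (hχ : ∀ μ, coeff (fs μ) χ = Module.finrank ℂ (ρ.wt μ))
    (ν : Fin n → ℕ) (hν : coeff (fs ν) (DD n * χ) ≠ 0) :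
    ∑ i, ν i ^ 2 = ∑ i, (Λ i + rho n i) ^ 2 := by
  have e := Gl3_eigen h (map (Int.castRingHom ℂ) χ) (map (Int.castRingHom ℂ) (DD n))
    (fun d => by rw [coeff_map, ← Gl3_fs_coe d, hχ]; simp; rfl) (by simp [DD]) (by
      ext d
      simp only [coeff_sum, Gl3_coeff_th, coeff_C_mul, ← mul_assoc, ← Finset.sum_mul]
      by_cases hd : ∃ σ : Equiv.Perm (Fin n), (fs fun i => rho n (σ i)) = d
      · obtain ⟨σ, rfl⟩ := hd
        simp only [fs_apply, ← sq]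
        rw [Equiv.sum_comp σ fun i => (rho n i : ℂ) ^ 2]
      · have h0 : coeff d (DD n) = 0 := by
          rw [DD_eq_sum, coeff_sum]
          exact Finset.sum_eq_zero fun σ _ => by rw [coeff_monomial, if_neg fun e => hd ⟨σ, e⟩]
        rw [coeff_map, h0, map_zero, mul_zero, mul_zero])
  have e2 := congrArg (coeff (fs ν)) e
  rw [coeff_C_mul, ← map_mul] at e2
  simp only [coeff_sum, Gl3_coeff_th, ← mul_assoc, ← Finset.sum_mul, fs_apply, ← sq] at e2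
  have e3 := mul_right_cancel₀ (by rw [coeff_map]; simpa using hν) e2
  exact_mod_cast e3

theorem IsCyc.weyl {ρ : GlRep n V} {Λ : Fin n → ℕ} (h : ρ.IsCyc Λ)
    (χ : MvPolynomial (Fin n) ℤ) (hχ : ∀ μ, coeff (fs μ) χ = Module.finrank ℂ (ρ.wt μ))
    (l : Fin n → ℕ) (hl : Antitone l) :
    coeff (fs (l + rho n)) (DD n * χ) = if l = Λ then 1 else 0 := by
  have key : ∀ σ : Equiv.Perm (Fin n), coeff (fs (l + rho n))
      (monomial (fs fun i => rho n (σ i)) ((Equiv.Perm.sign σ : ℤˣ) : ℤ) * χ) ≠ 0 →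
      ∑ i, (l i + rho n i) ^ 2 = ∑ i, (Λ i + rho n i) ^ 2 → l = Λ ∧ σ = 1 := by
    intro σ h1 h2
    rw [coeff_monomial_mul'] at h1
    split_ifs at h1 with h3
    · have h4 := right_ne_zero_of_mul h1
      rw [← Gl3_fs_coe (_ - _), hχ] at h4
      have h5 : ∀ i, (fs (l + rho n) - fs fun i => rho n (σ i)) i + rho n (σ i) = l i + rho n i :=
        fun i => Nat.sub_add_cancel (h3 i)
      obtain ⟨h6, rfl⟩ := Gl3_key h.antitone hl (h.dom fun e => h4 (by rw [e]; simp)) h5 h2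
      refine ⟨funext fun i => ?_, rfl⟩
      have := h5 i
      rw [congrFun h6 i] at this
      exact (Nat.add_right_cancel this).symm
    · exact absurd rfl h1
  split_ifs with hl'
  · subst hl'
    rw [DD_eq_sum, Finset.sum_mul, coeff_sum, Finset.sum_eq_single 1, coeff_monomial_mul', if_pos]
    · have : (fs (l + rho n) - fs fun i => rho n ((1 : Equiv.Perm (Fin n)) i)) = fs l := by
        ext i
        simp
      rw [this, hχ, h.finrank_wt]
      simp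
    · exact fun i => Nat.le_add_left _ _
    · intro σ _ hσ
      by_contra h1
      exact hσ (key σ h1 rfl).2
    · simp
  · by_contra h1
    have h2 := h.coeff_norm χ hχ _ h1
    rw [DD_eq_sum, Finset.sum_mul, coeff_sum] at h1
    obtain ⟨σ, -, h3⟩ := Finset.exists_ne_zero_of_sum_ne_zero h1
    exact hl' (key σ h3 h2).1

end GlRep

end Crest.Agent.R187
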