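import Crest.Agent.R187.Gl3

/-!
# Abstract `gl_n`-modules IV: the four final theorems

* `hw_eq_coeff`: decompose (`exists_decomp`); each piece has a character polynomial (finite sum of monomials,
  `finite_wt`), `χ` is their sum (`finrank_wt_sum`, `MvPolynomial.ext`), use `IsCyc.weyl`, `IsCyc.finrank_hw`.
* `exists_inj`: decompose both; `#{k | Λ k = l} ≤ #{k' | Λ' k' = l}` for all `l` gives an injection
  `τ : Fin N → Fin N'` with `Λ' (τ k) = Λ k` (fibrewise `Function.Embedding.nonempty_of_card_le`); glue the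
  equivalences `IsCyc.exists_equiv` with `DirectSum.toModule` / `LinearEquiv.ofBijective`.
* `hw_le_of_surj`: the adjoint `ψ* : V → V'` of a surjective equivariant `ψ` is injective and equivariant
  (`adj`), so it maps `hw l` injectively into `hw l`.  (Or: restrict `ψ` to `(ker ψ)ᗮ`, an invariant subspace.)
-/

set_option autoImplicit false

namespace Crest.Agent.R187.GlRep

open MvPolynomial

variable {n : ℕ} {V V' : Type} [AddCommGroup V] [Module ℂ V] [FiniteDimensional ℂ V]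
  [AddCommGroup V'] [Module ℂ V'] [FiniteDimensional ℂ V']

theorem Gl4_fs_inj {μ ν : Fin n → ℕ} : fs μ = fs ν ↔ μ = ν :=
  Finsupp.equivFunOnFinite.symm.injective.eq_iff

theorem Gl4_fs_coe (d : Fin n →₀ ℕ) : fs d = d := by
  ext i; rfl

theorem Gl4_exists_char (ρ : GlRep n V) :
    ∃ χ : MvPolynomial (Fin n) ℤ, ∀ μ, coeff (fs μ) χ = Module.finrank ℂ (ρ.wt μ) := by
  classical
  refine ⟨∑ ν ∈ ρ.finite_wt.toFinset, monomial (fs ν) (Module.finrank ℂ (ρ.wt ν) : ℤ), fun μ => ?_⟩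
  simp only [coeff_sum, coeff_monomial, Gl4_fs_inj, Finset.sum_ite_eq', Set.Finite.mem_toFinset,
    Set.mem_ofPred_eq]
  split_ifs with h
  · rfl
  · rw [not_not.1 h, finrank_bot, Nat.cast_zero]

theorem Gl4_exists_inj {α β γ : Type} [Fintype α] [Fintype β] [DecidableEq γ] (f : α → γ) (g : β → γ)
    (h : ∀ l, (Finset.univ.filter fun a => f a = l).card ≤ (Finset.univ.filter fun b => g b = l).card) :
    ∃ τ : α → β, Function.Injective τ ∧ ∀ a, g (τ a) = f a := by
  classical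
  have h1 : ∀ l, Nonempty ({a // f a = l} ↪ {b // g b = l}) := fun l =>
    Function.Embedding.nonempty_of_card_le (by
      rw [Fintype.card_subtype, Fintype.card_subtype]; exact h l)
  let e := fun l => (h1 l).some
  refine ⟨fun a => (e (f a) ⟨a, rfl⟩ : β), fun a a' hh => ?_, fun a => (e (f a) ⟨a, rfl⟩).2⟩
  have h2 : f a = f a' := by
    rw [← (e (f a) ⟨a, rfl⟩).2, ← (e (f a') ⟨a', rfl⟩).2]
    exact congrArg g hh
  have key : ∀ l (ha : f a = l), (e l ⟨a, ha⟩ : β) = e (f a) ⟨a, rfl⟩ := by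
    rintro l rfl; rfl
  have h3 : e (f a') ⟨a, h2⟩ = e (f a') ⟨a', rfl⟩ := Subtype.ext ((key _ h2).trans hh)
  exact congrArg Subtype.val ((e (f a')).injective h3)

theorem Gl4_finrank_hw (ρ : GlRep n V) {N : ℕ} (U : Fin N → Submodule ℂ V) (hU : ∀ k, ρ.Inv (U k))
    (Λ : Fin N → Fin n → ℕ) (h : DirectSum.IsInternal U)
    (hc : ∀ k, (ρ.res (U k) (hU k)).IsCyc (Λ k)) (l : Fin n → ℕ) :
    Module.finrank ℂ (ρ.hw l) = (Finset.univ.filter fun k => Λ k = l).card := by
  rw [ρ.finrank_hw_sum U hU h, Finset.card_filter]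
  refine Finset.sum_congr rfl fun k _ => ?_
  rw [(hc k).finrank_hw]
  simp only [eq_comm]

theorem Gl4_orth (ρ : GlRep n V) (K : Submodule ℂ V) (v : V) :
    ∃ y ∈ K, ∀ u ∈ K, ρ.ip.inner u (v - y) = 0 := by
  let _ : InnerProductSpace.Core ℂ V := ρ.ip
  let _ : NormedAddCommGroup V := InnerProductSpace.Core.toNormedAddCommGroup (𝕜 := ℂ) (F := V)
  let _ : InnerProductSpace ℂ V := InnerProductSpace.ofCore (𝕜 := ℂ) (F := V) inferInstance
  obtain ⟨y, hy, z, hz, hv⟩ := Submodule.exists_add_mem_mem_orthogonal (K := K) v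
  refine ⟨y, hy, fun u hu => ?_⟩
  have e : v - y = z := by rw [hv, add_sub_cancel_left]
  rw [e]
  exact (Submodule.mem_orthogonal K z).1 hz u hu

theorem hw_eq_coeff (ρ : GlRep n V) (χ : MvPolynomial (Fin n) ℤ)
    (hχ : ∀ μ, coeff (fs μ) χ = Module.finrank ℂ (ρ.wt μ)) (l : Fin n → ℕ) (hl : Antitone l) :
    (Module.finrank ℂ (ρ.hw l) : ℤ) = coeff (fs (l + rho n)) (DD n * χ) := by
  classical
  obtain ⟨N, U, hU, Λ, h, hc⟩ := ρ.exists_decomp
  choose χ' hχ' using fun k => Gl4_exists_char (ρ.res (U k) (hU k))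
  have e : χ = ∑ k, χ' k := by
    ext d
    rw [← Gl4_fs_coe d, hχ, coeff_sum, ρ.finrank_wt_sum U hU h, Nat.cast_sum]
    exact Finset.sum_congr rfl fun k _ => (hχ' k d).symm
  rw [e, Finset.mul_sum, coeff_sum, ρ.finrank_hw_sum U hU h, Nat.cast_sum]
  refine Finset.sum_congr rfl fun k _ => ?_
  rw [(hc k).weyl (χ' k) (hχ' k) l hl, (hc k).finrank_hw]
  split_ifs <;> rfl

theorem hw_eq_zero (ρ : GlRep n V) (l : Fin n → ℕ) (hl : ¬ Antitone l) :
    Module.finrank ℂ (ρ.hw l) = 0 := by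
  obtain ⟨N, U, hU, Λ, h, hc⟩ := ρ.exists_decomp
  rw [ρ.finrank_hw_sum U hU h]
  refine Finset.sum_eq_zero fun k _ => ?_
  rw [(hc k).finrank_hw, if_neg]
  rintro rfl
  exact hl (hc k).antitone

theorem exists_inj (ρ : GlRep n V) (ρ' : GlRep n V')
    (h : ∀ l, Module.finrank ℂ (ρ.hw l) ≤ Module.finrank ℂ (ρ'.hw l)) :
    ∃ φ : V →ₗ[ℂ] V', Function.Injective φ ∧ ∀ i j v, φ (ρ.e i j v) = ρ'.e i j (φ v) := by
  classical
  obtain ⟨N, U, hU, Λ, hd, hc⟩ := ρ.exists_decomp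
  obtain ⟨N', U', hU', Λ', hd', hc'⟩ := ρ'.exists_decomp
  obtain ⟨τ, hτ, hΛ⟩ := Gl4_exists_inj Λ Λ' fun l => by
    have := h l
    rwa [Gl4_finrank_hw ρ U hU Λ hd hc, Gl4_finrank_hw ρ' U' hU' Λ' hd' hc'] at this
  choose e he using fun k => (hc k).exists_equiv (hΛ k ▸ hc' (τ k))
  let E := LinearEquiv.ofBijective (DirectSum.coeLinearMap U) hd
  let φ : V →ₗ[ℂ] V' := ∑ k, (U' (τ k)).subtype ∘ₗ (e k).toLinearMap ∘ₗ
    DirectSum.component ℂ (Fin N) (fun k => U k) k ∘ₗ E.symm.toLinearMap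
  have hφ : ∀ v, φ v = ∑ k, (e k (E.symm v k) : V') := fun v => by
    simp only [φ, LinearMap.sum_apply, LinearMap.comp_apply]
    rfl
  have hφk : ∀ k (x : U k), φ x = e k x := fun k x => by
    rw [hφ, Finset.sum_eq_single k]
    · rw [hd.ofBijective_coeLinearMap_same]
    · intro j _ hj
      rw [hd.ofBijective_coeLinearMap_of_ne hj.symm, map_zero, Submodule.coe_zero]
    · intro hk
      exact absurd (Finset.mem_univ k) hk
  refine ⟨φ, (injective_iff_map_eq_zero φ).2 fun v hv => ?_, fun i j v => ?_⟩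
  · have hi : iSupIndep fun k => U' (τ k) := hd'.submodule_iSupIndep.comp hτ
    rw [hφ] at hv
    have h0 := (iSupIndep_iff_finsetSum_eq_zero_imp_eq_zero _).1 hi Finset.univ _
      (fun k _ => (e k (E.symm v k)).2) hv
    have h1 : E.symm v = 0 := by
      ext k
      have := h0 k (Finset.mem_univ k)
      rw [Submodule.coe_eq_zero, LinearEquiv.map_eq_zero_iff] at this
      rw [this]
      rfl
    exact E.symm.map_eq_zero_iff.1 h1
  · have hv : v ∈ ⨆ k, U k := by rw [hd.submodule_iSup_eq_top]; trivial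
    induction hv using Submodule.iSup_induction' with
    | mem k x hx =>
      have h1 := hφk k ((ρ.res (U k) (hU k)).e i j ⟨x, hx⟩)
      have h2 := hφk k ⟨x, hx⟩
      rw [res_e] at h1
      rw [h1, he, res_e, ← h2]
    | zero => simp
    | add x y _ _ hx hy => simp only [map_add, hx, hy]

theorem hw_le_of_surj (ρ : GlRep n V) (ρ' : GlRep n V') (ψ : V' →ₗ[ℂ] V)
    (hψ : Function.Surjective ψ) (he : ∀ i j v, ψ (ρ'.e i j v) = ρ.e i j (ψ v)) (l : Fin n → ℕ) :
    Module.finrank ℂ (ρ.hw l) ≤ Module.finrank ℂ (ρ'.hw l) := by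
  refine le_trans (Submodule.finrank_mono fun u hu => ?_) (Submodule.finrank_map_le ψ (ρ'.hw l))
  obtain ⟨v, rfl⟩ := hψ u
  obtain ⟨y, hy, hw⟩ := Gl4_orth ρ' (LinearMap.ker ψ) v
  have hy0 : ψ y = 0 := hy
  have hψw : ψ (v - y) = ψ v := by rw [map_sub, hy0, sub_zero]
  set w := v - y with hwdef
  have hK : ∀ i j, ∀ u ∈ LinearMap.ker ψ, ρ'.e i j u ∈ LinearMap.ker ψ := fun i j u hu => by
    rw [LinearMap.mem_ker] at hu ⊢
    rw [he, hu, map_zero]
  have hperp : ∀ i j (c : ℂ), ψ (ρ'.e i j w - c • w) = 0 → ρ'.e i j w - c • w = 0 := by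
    intro i j c hz
    let _ : InnerProductSpace.Core ℂ V' := ρ'.ip
    let _ : NormedAddCommGroup V' := InnerProductSpace.Core.toNormedAddCommGroup (𝕜 := ℂ) (F := V')
    let _ : InnerProductSpace ℂ V' := InnerProductSpace.ofCore (𝕜 := ℂ) (F := V') inferInstance
    have h1 : inner ℂ (ρ'.e i j w - c • w) (ρ'.e i j w) = 0 :=
      (ρ'.adj j i _ w).symm.trans (hw _ (hK j i _ hz))
    have h2 : inner ℂ (ρ'.e i j w - c • w) w = 0 := hw _ hz
    rw [← inner_self_eq_zero (𝕜 := ℂ), inner_sub_right, inner_smul_right, h1, h2, mul_zero, sub_zero]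
  rw [mem_hw, mem_wt] at hu
  refine ⟨w, mem_hw.2 ⟨mem_wt.2 fun i => ?_, fun i j hij => ?_⟩, hψw⟩
  · refine sub_eq_zero.1 (hperp i i _ ?_)
    rw [map_sub, map_smul, he, hψw, hu.1, sub_self]
  · have := hperp i j 0 (by rw [zero_smul, sub_zero, he, hψw, hu.2 i j hij])
    rwa [zero_smul, sub_zero] at this

end Crest.Agent.R187.GlRep
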