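import Crest.Agent.R187.Poly

/-!
# Symmetric tensors versus polynomials in the monomials; the character of `blockSym`

`Phi a n` sends the monomial with rows `m_1, …, m_a` to `∏_r c_{m_r}` in the polynomial ring on the exponent
vectors.  It is invariant under block permutations, and injective on block-symmetric polynomials:
the coefficient of `Phi f` at the multiset of rows of `m₀` is `|orbit of m₀| · f_{m₀}` (two monomials have the
same multiset of rows iff they differ by a block permutation: `Multiset.map f univ.val = Multiset.map g univ.val`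
gives a permutation, e.g. through `Tuple.sort`/`List.Perm` or `Equiv.ofFiberEquiv` + equal fibre cardinalities).
A slick way: let `Sy f = ∑_σ rename (blockPerm σ) f`; `Sy (monomial m 1)` only depends on the multiset of
rows, so `Sy` factors linearly through `Phi` (`Sy = Psi ∘ Phi`), and `Sy f = a! • f` for symmetric `f`.
`wtd_eq`: the orbit sums `Sy (monomial m 1)`, indexed by the multisets `s : Sym (Mon n m) a` with
`∑ s = μ`, form a basis of the weight space (independent: `Phi` sends them to nonzero multiples of distinct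
monomials; spanning: `f = (1/a!) ∑ f_m Sy (monomial m 1)`).  `hsymm σ R a = ∑ s : Sym σ a, (s.1.map X).prod`.
-/

set_option autoImplicit false

namespace Crest.Agent.R187

open MvPolynomial Crest.AlgebraR.FoulkesHowe

/-- Row `r` of an exponent matrix. -/
noncomputable def row {a n : ℕ} (m : Var a n →₀ ℕ) (r : Fin a) : Fin n →₀ ℕ :=
  fs fun k => m (r, k)

/-- Monomial with rows `m_r` ↦ `∏_r c_{m_r}`. -/
noncomputable def Phi (a n : ℕ) : P a n →ₗ[ℂ] MvPolynomial (Fin n →₀ ℕ) ℂ :=
  (basisMonomials (Var a n) ℂ).constr ℂ fun m => ∏ r : Fin a, X (row m r)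

/-- the multiset of rows -/
noncomputable def Orbit_ms {a n : ℕ} (m : Var a n →₀ ℕ) : Multiset (Fin n →₀ ℕ) :=
  Finset.univ.val.map (row m)

theorem Orbit_inj {a n : ℕ} (σ : Equiv.Perm (Fin a)) :
    Function.Injective (blockPerm σ : Var a n → Var a n) := by
  rintro ⟨i, k⟩ ⟨j, l⟩ h
  simp only [blockPerm, Prod.mk.injEq, EmbeddingLike.apply_eq_iff_eq] at h
  exact Prod.ext h.1 h.2

theorem Orbit_row_perm {a n : ℕ} (σ : Equiv.Perm (Fin a)) (m : Var a n →₀ ℕ) (r : Fin a) :
    row (Finsupp.mapDomain (blockPerm σ) m) (σ r) = row m r := by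
  ext k
  exact Finsupp.mapDomain_apply (Orbit_inj σ) m (r, k)

theorem Orbit_ms_perm {a n : ℕ} (σ : Equiv.Perm (Fin a)) (m : Var a n →₀ ℕ) :
    Orbit_ms (Finsupp.mapDomain (blockPerm σ) m) = Orbit_ms m := by
  unfold Orbit_ms
  conv_lhs => rw [← Multiset.map_univ_val_equiv σ, Multiset.map_map]
  exact Multiset.map_congr rfl fun r _ => Orbit_row_perm σ m r

theorem Orbit_prod_multiset {ι : Type} [DecidableEq ι] (t : Multiset ι) :
    (t.map X).prod = (monomial (Multiset.toFinsupp t) 1 : MvPolynomial ι ℂ) := by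
  induction t using Multiset.induction_on with
  | empty => simp
  | cons x t ih =>
    rw [Multiset.map_cons, Multiset.prod_cons, ih, ← Multiset.singleton_add, map_add,
      Multiset.toFinsupp_singleton, X, monomial_mul, one_mul]

theorem Orbit_prod_X {a n : ℕ} (m : Var a n →₀ ℕ) :
    (∏ r : Fin a, X (row m r) : MvPolynomial (Fin n →₀ ℕ) ℂ) =
      monomial (Multiset.toFinsupp (Orbit_ms m)) 1 := by
  rw [← Orbit_prod_multiset, Orbit_ms, Multiset.map_map]
  rfl

theorem Orbit_exists_perm {a : ℕ} {β : Type} {f g : Fin a → β}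
    (h : Finset.univ.val.map f = Finset.univ.val.map g) :
    ∃ σ : Equiv.Perm (Fin a), ∀ r, g (σ r) = f r := by
  classical
  have hc : ∀ c, Fintype.card {r // f r = c} = Fintype.card {r // g r = c} := by
    intro c
    have h1 := congrArg (Multiset.count c) h
    rw [Multiset.count_map, Multiset.count_map] at h1
    rw [Fintype.card_subtype, Fintype.card_subtype]
    simp only [eq_comm (a := c)] at h1
    exact h1
  exact ⟨Equiv.ofFiberEquiv fun c => Fintype.equivOfCardEq (hc c), fun r => Equiv.ofFiberEquiv_map _ r⟩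

theorem Orbit_eq_of_ms {a n : ℕ} {m m' : Var a n →₀ ℕ} (h : Orbit_ms m = Orbit_ms m') :
    ∃ σ : Equiv.Perm (Fin a), m' = Finsupp.mapDomain (blockPerm σ) m := by
  obtain ⟨σ, hσ⟩ := Orbit_exists_perm h
  refine ⟨σ, Finsupp.ext fun v => ?_⟩
  obtain ⟨i, k⟩ := v
  obtain ⟨r, rfl⟩ := σ.surjective i
  have h1 := DFunLike.congr_fun ((hσ r).trans (Orbit_row_perm σ m r).symm) k
  exact h1

theorem Orbit_coeff_eq {a n : ℕ} {f : P a n} (hf : ∀ σ, rename (blockPerm σ) f = f)
    {m m' : Var a n →₀ ℕ} (h : Orbit_ms m = Orbit_ms m') : coeff m f = coeff m' f := by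
  obtain ⟨σ, rfl⟩ := Orbit_eq_of_ms h
  conv_rhs => rw [← hf σ]
  exact (coeff_rename_mapDomain _ (Orbit_inj σ) f m).symm

theorem Phi_monomial {a n : ℕ} (m : Var a n →₀ ℕ) (c : ℂ) :
    Phi a n (monomial m c) = c • ∏ r : Fin a, X (row m r) := by
  have h : (monomial m c : P a n) = c • basisMonomials (Var a n) ℂ m := by
    rw [coe_basisMonomials, smul_monomial, smul_eq_mul, mul_one]
  rw [h, map_smul, Phi, Module.Basis.constr_basis]

theorem Phi_rename {a n : ℕ} (σ : Equiv.Perm (Fin a)) (f : P a n) :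
    Phi a n (rename (blockPerm σ) f) = Phi a n f := by
  induction f using MvPolynomial.induction_on' with
  | monomial m c =>
    rw [rename_monomial, Phi_monomial, Phi_monomial, Orbit_prod_X, Orbit_prod_X, Orbit_ms_perm]
  | add p q hp hq => rw [map_add, map_add, map_add, hp, hq]

theorem Phi_inj {a n : ℕ} {f : P a n} (hf : ∀ σ, rename (blockPerm σ) f = f)
    (h : Phi a n f = 0) : f = 0 := by
  classical
  ext m₀
  rw [coeff_zero]
  by_contra h0
  have h1 : coeff (Multiset.toFinsupp (Orbit_ms m₀)) (Phi a n f) =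
      ∑ m ∈ f.support, if Orbit_ms m = Orbit_ms m₀ then coeff m₀ f else 0 := by
    conv_lhs => rw [f.as_sum, map_sum, coeff_sum]
    refine Finset.sum_congr rfl fun m _ => ?_
    rw [Phi_monomial, Orbit_prod_X, smul_monomial, smul_eq_mul, mul_one, coeff_monomial]
    by_cases hm : Orbit_ms m = Orbit_ms m₀
    · rw [if_pos hm, if_pos (by rw [hm]), Orbit_coeff_eq hf hm]
    · rw [if_neg hm, if_neg fun h => hm (Multiset.toFinsupp.injective h)]
  rw [h, coeff_zero, ← Finset.sum_filter, Finset.sum_const, nsmul_eq_mul] at h1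
  have h2 : (f.support.filter fun m => Orbit_ms m = Orbit_ms m₀).card ≠ 0 :=
    Finset.card_ne_zero.2 ⟨m₀, Finset.mem_filter.2 ⟨mem_support_iff.2 h0, rfl⟩⟩
  exact mul_ne_zero (Nat.cast_ne_zero.2 h2) h0 h1.symm

theorem Orbit_weight_block {a n : ℕ} (d : Var a n →₀ ℕ) (r : Fin a) :
    Finsupp.weight (blockWeight r) d = ∑ k, row d r k := by
  rw [Finsupp.weight_apply, Finsupp.sum_fintype _ _ (by simp), Fintype.sum_prod_type,
    Finset.sum_eq_single r]
  · simp [blockWeight, row]
  · intro b _ hb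
    simp [blockWeight, hb]
  · simp

theorem Orbit_weight_col {a n : ℕ} (d : Var a n →₀ ℕ) :
    (Orbit_ms d).sum = fs (Finsupp.weight colW d) := by
  ext k
  have h : (Orbit_ms d).sum = ∑ r, row d r := rfl
  rw [h, fs_apply, Finsupp.weight_apply, Finsupp.sum_fintype _ _ (by simp), Fintype.sum_prod_type,
    Finsupp.finsetSum_apply, Finset.sum_apply]
  refine Finset.sum_congr rfl fun r _ => ?_
  rw [Finset.sum_apply, Finset.sum_eq_single k]
  · simp [colW, row]
  · intro b _ hb
    simp [colW, Pi.single_eq_of_ne hb.symm]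
  · simp

theorem Orbit_exists_rep {a n : ℕ} (t : Multiset (Fin n →₀ ℕ)) (ht : t.card = a) :
    ∃ d : Var a n →₀ ℕ, Orbit_ms d = t := by
  induction t using Quotient.inductionOn with
  | h l =>
    have hl : l.length = a := ht
    subst hl
    refine ⟨Finsupp.equivFunOnFinite.symm fun v => l.get v.1 v.2, ?_⟩
    have h : row (Finsupp.equivFunOnFinite.symm fun v : Var l.length n => l.get v.1 v.2) = l.get := by
      funext r
      ext k
      rfl
    rw [Orbit_ms, h, Fin.univ_val_map, List.ofFn_get]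
    rfl

/-- orbit sum -/
noncomputable def Orbit_Sy {a n : ℕ} (d : Var a n →₀ ℕ) : P a n :=
  ∑ σ : Equiv.Perm (Fin a), monomial (Finsupp.mapDomain (blockPerm σ) d) 1

theorem Orbit_Sy_mem {a n m : ℕ} {μ : Fin n → ℕ} {d : Var a n →₀ ℕ} (h1 : ∀ r, ∑ k, row d r k = m)
    (h2 : (Orbit_ms d).sum = fs μ) :
    Orbit_Sy d ∈ (blockSym a n m ⊓ weightedHomogeneousSubmodule ℂ colW μ : Submodule ℂ (P a n)) := by
  refine ⟨mem_blockSym.2 ⟨fun i => ?_, fun τ => ?_⟩, ?_⟩
  · refine IsWeightedHomogeneous.sum _ _ _ fun σ _ => isWeightedHomogeneous_monomial _ _ _ ?_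
    obtain ⟨r, rfl⟩ := σ.surjective i
    rw [Orbit_weight_block, Orbit_row_perm, h1]
  · unfold Orbit_Sy
    rw [map_sum]
    refine Fintype.sum_equiv (Equiv.mulLeft τ) _ _ fun σ => ?_
    rw [rename_monomial, ← Finsupp.mapDomain_comp]
    rfl
  · refine IsWeightedHomogeneous.sum _ _ _ fun σ _ => isWeightedHomogeneous_monomial _ _ _ ?_
    have h3 := Orbit_weight_col (Finsupp.mapDomain (blockPerm σ) d)
    rw [Orbit_ms_perm, h2] at h3
    exact (Finsupp.equivFunOnFinite.symm.injective h3).symm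

theorem Orbit_coeff_Sy_self {a n : ℕ} (d : Var a n →₀ ℕ) : coeff d (Orbit_Sy d) ≠ 0 := by
  classical
  unfold Orbit_Sy
  simp only [coeff_sum, coeff_monomial]
  rw [← Finset.sum_filter, Finset.sum_const, nsmul_eq_mul, mul_one, Nat.cast_ne_zero]
  refine Finset.card_ne_zero.2 ⟨1, Finset.mem_filter.2 ⟨Finset.mem_univ _, ?_⟩⟩
  exact Finsupp.mapDomain_id

theorem Orbit_coeff_Sy_ne {a n : ℕ} {d d' : Var a n →₀ ℕ} (h : Orbit_ms d ≠ Orbit_ms d') :
    coeff d' (Orbit_Sy d) = 0 := by
  classical
  unfold Orbit_Sy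
  rw [coeff_sum]
  refine Finset.sum_eq_zero fun σ _ => ?_
  rw [coeff_monomial, if_neg]
  rintro rfl
  exact h (Orbit_ms_perm σ d).symm

theorem Orbit_coeff_hh (a n m : ℕ) (μ : Fin n → ℕ) :
    coeff (fs μ) (hh n a m) =
      ((Finset.univ.filter fun s : Sym (Mon n m) a => (s.1.map Subtype.val).sum = fs μ).card : ℤ) := by
  have h : ∀ t : Multiset (Mon n m),
      aeval (fun β : Mon n m => (monomial β.1 1 : MvPolynomial (Fin n) ℤ))
        ((t.map X).prod : MvPolynomial (Mon n m) ℤ) = monomial (t.map Subtype.val).sum 1 := by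
    intro t
    induction t using Multiset.induction_on with
    | empty => simp
    | cons x t ih =>
      rw [Multiset.map_cons, Multiset.prod_cons, map_mul, ih, aeval_X, monomial_mul, one_mul,
        Multiset.map_cons, Multiset.sum_cons]
  unfold hh hsymm
  rw [map_sum, coeff_sum]
  simp only [h, coeff_monomial]
  rw [Finset.sum_boole]

/-- The character of `Sym^a (Sym^m ℂ^n)` is `h_a[h_m]`. -/
theorem wtd_eq (a n m : ℕ) (μ : Fin n → ℕ) : coeff (fs μ) (hh n a m) = (wtd a n m μ : ℤ) := by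
  classical
  rw [Orbit_coeff_hh, Nat.cast_inj]
  choose rep hrep using fun s : Sym (Mon n m) a =>
    Orbit_exists_rep (a := a) (s.1.map Subtype.val) ((Multiset.card_map _ _).trans s.2)
  let T := {s : Sym (Mon n m) a // (s.1.map Subtype.val).sum = fs μ}
  let W : Submodule ℂ (P a n) := blockSym a n m ⊓ weightedHomogeneousSubmodule ℂ colW μ
  let F : W →ₗ[ℂ] (T → ℂ) := LinearMap.pi fun s => (lcoeff ℂ (rep s.1)).comp W.subtype
  have hF : ∀ (f : W) (s : T), F f s = coeff (rep s.1) f.1 := fun _ _ => rfl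
  have hinj : Function.Injective F := by
    rw [injective_iff_map_eq_zero]
    rintro ⟨f, hf1, hf2⟩ hf
    obtain ⟨h1, h2⟩ := mem_blockSym.1 hf1
    refine Subtype.ext (MvPolynomial.ext _ _ fun d => ?_)
    by_contra hd
    have hd' : coeff d f ≠ 0 := hd
    have hrow : ∀ r, row d r ∈ Finset.finsuppAntidiag (Finset.univ : Finset (Fin n)) m := fun r =>
      Finset.mem_finsuppAntidiag.2 ⟨by rw [← Orbit_weight_block]; exact h1 r hd', Finset.subset_univ _⟩
    let s : Sym (Mon n m) a := ⟨Finset.univ.val.map fun r => ⟨row d r, hrow r⟩, by simp⟩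
    have hs : s.1.map Subtype.val = Orbit_ms d := by
      simp only [s, Multiset.map_map, Orbit_ms]
      rfl
    have hs2 : (s.1.map Subtype.val).sum = fs μ := by
      rw [hs, Orbit_weight_col, hf2 hd']
    have h3 : coeff (rep s) f = 0 := congrFun hf ⟨s, hs2⟩
    exact hd' ((Orbit_coeff_eq h2 (hs.symm.trans (hrep s).symm)).trans h3)
  have hsurj : Function.Surjective F := by
    rw [← LinearMap.range_eq_top, eq_top_iff, ← (Pi.basisFun ℂ T).span_eq, Submodule.span_le]
    rintro _ ⟨s, rfl⟩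
    have hrow : ∀ r, row (rep s.1) r ∈ Finset.finsuppAntidiag (Finset.univ : Finset (Fin n)) m := by
      intro r
      have : row (rep s.1) r ∈ s.1.1.map Subtype.val := by
        rw [← hrep]
        exact Multiset.mem_map_of_mem _ (Finset.mem_univ r)
      obtain ⟨b, -, hb⟩ := Multiset.mem_map.1 this
      exact hb ▸ b.2
    have hmem : Orbit_Sy (rep s.1) ∈ W :=
      Orbit_Sy_mem (fun r => (Finset.mem_finsuppAntidiag.1 (hrow r)).1) ((hrep s.1).symm ▸ s.2)
    have hne := Orbit_coeff_Sy_self (rep s.1)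
    refine ⟨(coeff (rep s.1) (Orbit_Sy (rep s.1)))⁻¹ • ⟨_, hmem⟩, ?_⟩
    funext t
    rw [map_smul, Pi.smul_apply, hF, Pi.basisFun_apply, smul_eq_mul]
    by_cases ht : t = s
    · subst ht
      rw [Pi.single_eq_same]
      exact inv_mul_cancel₀ hne
    · rw [Pi.single_eq_of_ne ht]
      refine mul_eq_zero_of_right _ (Orbit_coeff_Sy_ne ?_)
      rw [hrep, hrep]
      intro h
      exact ht (Subtype.ext (Subtype.ext (Multiset.map_injective Subtype.val_injective h.symm)))
  have := (LinearEquiv.ofBijective F ⟨hinj, hsurj⟩).finrank_eq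
  rw [Module.finrank_fintype_fun_eq_card, Fintype.card_subtype] at this
  exact this.symm

/-- Multiplicities as coefficients. -/
theorem hwd_eq_coeff (a n m : ℕ) {l : Fin n → ℕ} (hl : Antitone l) :
    (hwd a n m l : ℤ) = coeff (fs (l + rho n)) (DD n * hh n a m) := by
  rw [← finrank_bs_hw]
  exact GlRep.hw_eq_coeff _ _ (fun μ => by rw [wtd_eq, finrank_bs_wt]) l hl

end Crest.Agent.R187
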