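import Crest.Agent.R187.Poly

/-!
# Changing the number of columns

* `hwd_pad`: `rename (Prod.map id (Fin.castLE h))` is injective and maps `hw` to `hw` (the operators `E i j` with
  `j ≥ n` kill polynomials in the first `n` columns); conversely a vector of weight `l'` supported on the first
  `n` columns only involves those variables, so it is a `rename` of `killCompl`/`aeval (x_{r k} ↦ 0, k ≥ n)` of it.
  Use `hwd_le_of_map` in both directions (the backward map is `aeval` sending the other variables to `0`).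
* `hwd_eq_zero_of_rows`: let `f` be a highest weight vector, `k ≥ a`.  Then `∑_r x_{r j} ∂_{r k} f = 0` for
  `j < a` (`E_eq_sum`); the `a × a` matrix `(x_{r j})` has nonzero determinant
  (rename of `Matrix.det_mvPolynomialX_ne_zero`, or evaluate at the identity matrix), so all
  `∂_{r k} f = 0` (`Matrix.eq_zero_of_mulVec_eq_zero`/`vecMul`), hence `l k • f = E k k f = 0`.
-/

set_option autoImplicit false

namespace Crest.Agent.R187

open MvPolynomial Crest.AlgebraR.FoulkesHowe

/-- The inclusion of variables. -/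
def padInc (a : ℕ) {n n' : ℕ} (h : n ≤ n') : Var a n → Var a n' := Prod.map id (Fin.castLE h)

theorem padInc_inj (a : ℕ) {n n' : ℕ} (h : n ≤ n') : Function.Injective (padInc a h) :=
  Function.injective_id.prodMap (Fin.castLE_injective h)

theorem pad_E {a n n' : ℕ} (h : n ≤ n') (i j : Fin n) (f : P a n) :
    E a (Fin.castLE h i) (Fin.castLE h j) (rename (padInc a h) f) =
      rename (padInc a h) (E a i j f) := by
  induction f using MvPolynomial.induction_on with
  | C c => simp [derivation_C]
  | add p q hp hq => simp [map_add, hp, hq]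
  | mul_X p v hp =>
    rw [map_mul, rename_X, Derivation.leibniz, Derivation.leibniz, hp, E_X, E_X]
    by_cases hv : v.2 = j
    · simp [hv, padInc, smul_eq_mul]
    · have : (padInc a h v).2 ≠ Fin.castLE h j := fun e => hv (Fin.castLE_injective h e)
      simp [hv, this, smul_eq_mul]

theorem pad_E_zero {a n n' : ℕ} (h : n ≤ n') (i j : Fin n') (hj : n ≤ (j : ℕ)) (f : P a n) :
    E a i j (rename (padInc a h) f) = 0 := by
  induction f using MvPolynomial.induction_on with
  | C c => simp [derivation_C]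
  | add p q hp hq => simp [map_add, hp, hq]
  | mul_X p v hp =>
    rw [map_mul, rename_X, Derivation.leibniz, hp, E_X]
    have : (padInc a h v).2 ≠ j := by
      intro e
      have h1 : ((padInc a h v).2 : ℕ) = v.2 := rfl
      have h2 := v.2.2
      rw [e] at h1
      omega
    simp [this]

theorem pad_weight_mapDomain {σ τ : Type} (g : σ → τ) (w : τ → ℕ) (d : σ →₀ ℕ) :
    Finsupp.weight w (d.mapDomain g) = Finsupp.weight (w ∘ g) d := by
  rw [Finsupp.weight_apply, Finsupp.weight_apply, Finsupp.sum_mapDomain_index]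
  · rfl
  · simp
  · intro b m₁ m₂; exact add_smul _ _ _

theorem pad_homog_iff {σ τ : Type} {g : σ → τ} (hg : Function.Injective g) (w : τ → ℕ)
    (f : MvPolynomial σ ℂ) (m : ℕ) :
    IsWeightedHomogeneous w (rename g f) m ↔ IsWeightedHomogeneous (w ∘ g) f m := by
  constructor
  · intro H d hd
    rw [← pad_weight_mapDomain]
    apply H
    rwa [coeff_rename_mapDomain g hg]
  · intro H d hd
    obtain ⟨u, rfl, hu⟩ := coeff_rename_ne_zero g f d hd
    rw [pad_weight_mapDomain]
    exact H hu

theorem pad_mem_blockSym {a n n' m : ℕ} (h : n ≤ n') (f : P a n) :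
    rename (padInc a h) f ∈ blockSym a n' m ↔ f ∈ blockSym a n m := by
  rw [mem_blockSym, mem_blockSym]
  refine and_congr (forall_congr' fun i => ?_) (forall_congr' fun σ => ?_)
  · rw [pad_homog_iff (padInc_inj a h)]
    rfl
  · have : rename (blockPerm σ) (rename (padInc a h) f) =
        rename (padInc a h) (rename (blockPerm σ) f) := by
      rw [rename_rename, rename_rename]
      rfl
    rw [this]
    exact (rename_injective _ (padInc_inj a h)).eq_iff

theorem pad_mem_hw {a n n' m : ℕ} (h : n ≤ n') (l' : Fin n' → ℕ)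
    (hl : ∀ i : Fin n', n ≤ (i : ℕ) → l' i = 0) (f : P a n) :
    rename (padInc a h) f ∈ hw (blockSym a n' m) l' ↔
      f ∈ hw (blockSym a n m) fun i => l' (Fin.castLE h i) := by
  have hinj := rename_injective (R := ℂ) _ (padInc_inj a h)
  rw [mem_hw, mem_hw, pad_mem_blockSym, wt_iff, wt_iff]
  refine and_congr Iff.rfl (and_congr ⟨fun H i => ?_, fun H i => ?_⟩
    ⟨fun H i j hij => ?_, fun H i j hij => ?_⟩)
  · apply hinj
    rw [← pad_E, H, map_smul]
  · by_cases hi : (i : ℕ) < n
    · have e : i = Fin.castLE h ⟨i, hi⟩ := rfl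
      rw [e, pad_E, H, map_smul]
    · rw [pad_E_zero h i i (not_lt.1 hi), hl i (not_lt.1 hi)]
      simp
  · apply hinj
    rw [← pad_E, H _ _ (by simpa using hij), map_zero]
  · by_cases hj : (j : ℕ) < n
    · have hi : (i : ℕ) < n := lt_trans hij hj
      have e : i = Fin.castLE h ⟨i, hi⟩ := rfl
      have e' : j = Fin.castLE h ⟨j, hj⟩ := rfl
      rw [e, e', pad_E, H _ _ hij, map_zero]
    · exact pad_E_zero h i j (not_lt.1 hj) f

theorem pad_surj {a n n' : ℕ} (h : n ≤ n') (l' : Fin n' → ℕ)
    (hl : ∀ i : Fin n', n ≤ (i : ℕ) → l' i = 0) {f : P a n'}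
    (hf : IsWeightedHomogeneous colW f l') : ∃ g : P a n, rename (padInc a h) g = f := by
  classical
  apply exists_rename_eq_of_vars_subset_range f _ (padInc_inj a h)
  intro v hv
  obtain ⟨d, hd, hvd⟩ := (mem_vars_iff_mem_support v).1 (Finset.mem_coe.1 hv)
  have hw := hf (mem_support_iff.1 hd)
  by_cases hv2 : (v.2 : ℕ) < n
  · exact ⟨(v.1, ⟨v.2, hv2⟩), rfl⟩
  · exfalso
    have h0 := hl v.2 (not_lt.1 hv2)
    rw [← hw, Finsupp.weight_apply, Finsupp.sum, Finset.sum_apply, Finset.sum_eq_zero_iff] at h0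
    have := h0 v hvd
    simp [colW] at this
    exact (Finsupp.mem_support_iff.1 hvd) this

theorem hwd_pad {a n n' m : ℕ} (h : n ≤ n') (l' : Fin n' → ℕ)
    (hl : ∀ i : Fin n', n ≤ (i : ℕ) → l' i = 0) :
    hwd a n' m l' = hwd a n m fun i => l' (Fin.castLE h i) := by
  apply le_antisymm
  · refine hwd_le_of_map (killCompl (padInc_inj a h)).toLinearMap (fun f hf => ?_)
      (fun f hf h0 => ?_)
    · obtain ⟨g, rfl⟩ := pad_surj h l' hl (mem_hw.1 hf).2.1
      rw [AlgHom.toLinearMap_apply, killCompl_rename_app]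
      exact (pad_mem_hw h l' hl g).1 hf
    · obtain ⟨g, rfl⟩ := pad_surj h l' hl (mem_hw.1 hf).2.1
      rw [AlgHom.toLinearMap_apply, killCompl_rename_app] at h0
      rw [h0, map_zero]
  · refine hwd_le_of_map (rename (padInc a h) : P a n →ₐ[ℂ] P a n').toLinearMap
      (fun f hf => (pad_mem_hw h l' hl f).2 hf) (fun f _ h0 => ?_)
    apply rename_injective (R := ℂ) _ (padInc_inj a h)
    rw [map_zero]
    exact h0

theorem hwd_eq_zero_of_rows {a n m : ℕ} {l : Fin n → ℕ} (k : Fin n) (hk : a ≤ (k : ℕ))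
    (hl : l k ≠ 0) : hwd a n m l = 0 := by
  have hbot : hw (blockSym a n m) l = ⊥ := by
    rw [Submodule.eq_bot_iff]
    intro f hf
    obtain ⟨-, hw, hE⟩ := mem_hw.1 hf
    let jj : Fin a → Fin n := fun j => ⟨j, lt_of_lt_of_le j.2 (hk.trans k.2.le)⟩
    let M : Matrix (Fin a) (Fin a) (P a n) := Matrix.of fun j r => X (r, jj j)
    have hdet : M.det ≠ 0 := by
      intro h0
      let x : Var a n → ℂ := fun v => if (v.2 : ℕ) = v.1 then 1 else 0
      have h1 := RingHom.map_det (eval x) M
      have h2 : (eval x).mapMatrix M = 1 := by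
        ext j r
        simp [M, x, jj, Matrix.one_apply, Fin.ext_iff]
      rw [h0, h2, map_zero, Matrix.det_one] at h1
      exact zero_ne_one h1
    have hmul : M.mulVec (fun r => pderiv (r, k) f) = 0 := by
      funext j
      have := hE (jj j) k (Fin.lt_def.2 (lt_of_lt_of_le j.2 hk))
      rw [E_eq_sum] at this
      simpa [M, Matrix.mulVec, dotProduct] using this
    have hz := Matrix.eq_zero_of_mulVec_eq_zero hdet hmul
    have h3 := wt_iff.1 hw k
    rw [E_eq_sum, Finset.sum_eq_zero fun r _ => by rw [congrFun hz r]; simp] at h3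
    exact (smul_eq_zero.1 h3.symm).resolve_left (Nat.cast_ne_zero.2 hl)
  rw [hwd, hbot, finrank_bot]

/-- It suffices to compare multiplicities for `n = 6` columns. -/
theorem hwd_le_of_six {b : ℕ} (h : ∀ l : Fin 6 → ℕ, Antitone l → ∑ i, l i = 6 * b →
    hwd 6 6 b l ≤ hwd b 6 6 l) (n : ℕ) (l : Fin n → ℕ) : hwd 6 n b l ≤ hwd b n 6 l := by
  have h6 : ∀ l : Fin 6 → ℕ, hwd 6 6 b l ≤ hwd b 6 6 l := by
    intro l
    by_cases h1 : Antitone l
    · by_cases h2 : ∑ i, l i = 6 * b
      · exact h l h1 h2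
      · rw [hwd_eq_zero_of_sum b h2]; exact Nat.zero_le _
    · rw [hwd_eq_zero_of_not_antitone b h1]; exact Nat.zero_le _
  rcases le_total n 6 with hn | hn
  · let l' : Fin 6 → ℕ := fun i => if hi : (i : ℕ) < n then l ⟨i, hi⟩ else 0
    have hl' : ∀ i : Fin 6, n ≤ (i : ℕ) → l' i = 0 := fun i hi => dif_neg (not_lt.2 hi)
    have e : (fun i => l' (Fin.castLE hn i)) = l := by
      funext i
      simp [l']
    have := h6 l'
    rwa [hwd_pad hn l' hl', hwd_pad hn l' hl', e] at this
  · by_cases hl : ∀ i : Fin n, 6 ≤ (i : ℕ) → l i = 0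
    · rw [hwd_pad hn l hl, hwd_pad hn l hl]
      exact h6 _
    · push Not at hl
      obtain ⟨k, hk, hlk⟩ := hl
      rw [hwd_eq_zero_of_rows k hk hlk]
      exact Nat.zero_le _

end Crest.Agent.R187
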