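import Crest.Agent.R187.Gl4

/-!
# The polynomial model as a unitary `gl_n`-module

Recipe.  `E_comm`: both sides are derivations (`Derivation.commutator`, or induction `MvPolynomial.induction_on`),
compare on variables with `E_X` (`MvPolynomial.derivation_ext`).  `E a i j = ∑ r, X (r,i) * pderiv (r,j)`.
Fischer product `⟪f, g⟫ = ∑_m m! conj(f_m) g_m` (`m! = ∏ v, (m v)!`); `X v * ·` and `pderiv v` are adjoint
(check on monomials), whence `adj`.  `E i i` acts on the monomial `m` by its column degree
`Finsupp.weight colW m i`, which gives `wt_iff`.  `E` preserves block degrees and commutes with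
`rename (blockPerm σ)`.  `blockSym a n m` lies in the homogeneous polynomials of degree `a * m`
(or: in the span of finitely many monomials), so it is finite dimensional; it is stable under taking
`weightedHomogeneousComponent colW μ` (or use `E i i`-stability), which gives `span`.
-/

set_option autoImplicit false

namespace Crest.Agent.R187

open MvPolynomial Crest.AlgebraR.FoulkesHowe

variable {a n : ℕ}

theorem E_eq_sum (i j : Fin n) (f : P a n) :
    E a i j f = ∑ r : Fin a, X (r, i) * pderiv (r, j) f := by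
  induction f using MvPolynomial.induction_on with
  | C c => simp
  | add p q hp hq => simp only [map_add, hp, hq, mul_add, Finset.sum_add_distrib]
  | mul_X p v hp =>
    have h1 : ∑ r : Fin a, X (r, i) * pderiv (r, j) (X v : P a n) = E a i j (X v) := by
      rw [E_X, Finset.sum_eq_single v.1]
      · split_ifs with h
        · rw [← h, pderiv_X_self, mul_one]
        · rw [pderiv_X_of_ne (fun h' => h (congrArg Prod.snd h')), mul_zero]
      · intro r _ hr
        rw [pderiv_X_of_ne (fun h' => hr (congrArg Prod.fst h').symm), mul_zero]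
      · simp
    rw [Derivation.leibniz, hp, ← h1]
    simp only [pderiv_mul, smul_eq_mul, Finset.mul_sum, ← Finset.sum_add_distrib]
    exact Finset.sum_congr rfl fun r _ => by ring

theorem E_comm (i j k l : Fin n) (f : P a n) :
    E a i j (E a k l f) - E a k l (E a i j f) =
      (if j = k then E a i l f else 0) - (if l = i then E a k j f else 0) := by
  have h : ⁅E a i j, E a k l⁆ =
      (if j = k then E a i l else 0) - (if l = i then E a k j else 0) := by
    refine derivation_ext fun v => ?_
    obtain ⟨r, c⟩ := v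
    rw [Derivation.commutator_apply, Derivation.sub_apply, E_X, E_X]
    split_ifs <;> simp_all [E_X] <;> grind
  rw [← Derivation.commutator_apply, h, Derivation.sub_apply]
  split_ifs <;> rfl

theorem Poly_blockPerm_inj (σ : Equiv.Perm (Fin a)) :
    Function.Injective (blockPerm σ : Var a n → Var a n) := by
  intro v w h
  simp only [blockPerm, Prod.mk.injEq] at h
  exact Prod.ext (σ.injective h.1) h.2

theorem E_rename (i j : Fin n) (σ : Equiv.Perm (Fin a)) (f : P a n) :
    E a i j (rename (blockPerm σ) f) = rename (blockPerm σ) (E a i j f) := by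
  rw [E_eq_sum, E_eq_sum, map_sum, ← Equiv.sum_comp σ]
  refine Finset.sum_congr rfl fun r _ => ?_
  rw [map_mul, rename_X, ← pderiv_rename (Poly_blockPerm_inj σ)]
  rfl

theorem Poly_X_mul_pderiv {σ : Type} {w : σ → ℕ} {u v : σ} (huv : w u = w v) {m : ℕ}
    {f : MvPolynomial σ ℂ} (hf : IsWeightedHomogeneous w f m) :
    IsWeightedHomogeneous w (X u * pderiv v f) m := by
  classical
  intro d hd
  rw [coeff_X_mul'] at hd
  split_ifs at hd with h
  · rw [coeff_pderiv] at hd
    have h1 := hf (left_ne_zero_of_mul hd)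
    rw [map_add, Finsupp.weight_single, one_smul, ← huv,
      Finsupp.weight_sub_single_add (Finsupp.mem_support_iff.1 h)] at h1
    exact h1
  · exact absurd rfl hd

theorem E_block (i j : Fin n) (r : Fin a) {m : ℕ} {f : P a n}
    (hf : IsWeightedHomogeneous (blockWeight r) f m) :
    IsWeightedHomogeneous (blockWeight r) (E a i j f) m := by
  rw [E_eq_sum]
  refine IsWeightedHomogeneous.sum _ _ _ fun r' _ => ?_
  exact Poly_X_mul_pderiv (w := blockWeight r) (u := (r', i)) (v := (r', j))
    (by simp only [blockWeight]) hf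

theorem E_mem_blockSym (i j : Fin n) {m : ℕ} {f : P a n} (hf : f ∈ blockSym a n m) :
    E a i j f ∈ blockSym a n m := by
  rw [mem_blockSym] at hf ⊢
  exact ⟨fun r => E_block i j r (hf.1 r), fun σ => by rw [← E_rename, hf.2]⟩

theorem Poly_weight_colW (d : Var a n →₀ ℕ) (i : Fin n) :
    Finsupp.weight colW d i = ∑ r : Fin a, d (r, i) := by
  rw [Finsupp.weight_eq_sum, Finset.sum_apply, Fintype.sum_prod_type]
  refine Finset.sum_congr rfl fun r _ => ?_
  simp [colW, Pi.single_apply]

theorem Poly_weight_block (d : Var a n →₀ ℕ) (r : Fin a) :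
    Finsupp.weight (blockWeight r) d = ∑ i : Fin n, d (r, i) := by
  rw [Finsupp.weight_eq_sum, Fintype.sum_prod_type_right]
  refine Finset.sum_congr rfl fun i _ => ?_
  simp [blockWeight]

theorem Poly_coeff_E (i : Fin n) (f : P a n) (d : Var a n →₀ ℕ) :
    coeff d (E a i i f) = (Finsupp.weight colW d i : ℂ) * coeff d f := by
  classical
  induction f using MvPolynomial.induction_on' with
  | add p q hp hq => simp only [map_add, coeff_add, hp, hq, mul_add]
  | monomial e c =>
    rw [E_eq_sum]
    simp only [X_mul_pderiv_monomial]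
    rw [← Finset.sum_smul, ← Poly_weight_colW, coeff_smul, coeff_monomial]
    split_ifs with h
    · rw [h, nsmul_eq_mul]
    · simp

theorem wt_iff {f : P a n} {μ : Fin n → ℕ} :
    IsWeightedHomogeneous colW f μ ↔ ∀ i, E a i i f = (μ i : ℂ) • f := by
  constructor
  · intro h i
    ext d
    rw [Poly_coeff_E, coeff_smul, smul_eq_mul]
    by_cases hd : coeff d f = 0
    · simp [hd]
    · rw [h hd]
  · intro h d hd
    funext i
    have h1 := congrArg (coeff d) (h i)
    rw [Poly_coeff_E, coeff_smul, smul_eq_mul] at h1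
    exact_mod_cast mul_right_cancel₀ hd h1

theorem Poly_sum_eq {m : ℕ} {f : P a n} (hf : f ∈ blockSym a n m) {d : Var a n →₀ ℕ}
    (hd : coeff d f ≠ 0) : ∑ v, d v = a * m := by
  rw [Fintype.sum_prod_type]
  have h : ∀ r : Fin a, ∑ i, d (r, i) = m := fun r => by
    rw [← Poly_weight_block]
    exact (mem_blockSym.1 hf).1 r hd
  simp [h]

instance finite_blockSym (a n m : ℕ) : FiniteDimensional ℂ (blockSym a n m) := by
  have h : (weightedHomogeneousSubmodule ℂ (fun _ : Var a n => (1 : ℕ)) (a * m)).FG :=
    weightedHomogeneousSubmodule_fg _ _ (fun _ => one_ne_zero) _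
  have := Module.Finite.iff_fg.2 h
  refine Submodule.finiteDimensional_of_le
    (S₂ := weightedHomogeneousSubmodule ℂ (fun _ : Var a n => (1 : ℕ)) (a * m)) fun f hf d hd => ?_
  rw [Finsupp.weight_eq_sum, ← Poly_sum_eq hf hd]
  simp

instance finite_hw (a n m : ℕ) (l : Fin n → ℕ) : FiniteDimensional ℂ (hw (blockSym a n m) l) :=
  Submodule.finiteDimensional_of_le (S₂ := blockSym a n m) fun _ h => (mem_hw.1 h).1

/-- `d!` -/
def Poly_fac (d : Var a n →₀ ℕ) : ℕ := ∏ v, (d v).factorial

theorem Poly_fac_pos (d : Var a n →₀ ℕ) : 0 < Poly_fac d :=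
  Finset.prod_pos fun _ _ => Nat.factorial_pos _

theorem Poly_fac_add (d : Var a n →₀ ℕ) (v : Var a n) :
    Poly_fac (d + Finsupp.single v 1) = Poly_fac d * (d v + 1) := by
  unfold Poly_fac
  rw [← Finset.mul_prod_erase _ _ (Finset.mem_univ v),
    ← Finset.mul_prod_erase _ (fun v => (d v).factorial) (Finset.mem_univ v)]
  have h : ∏ x ∈ Finset.univ.erase v, ((d + Finsupp.single v 1 : Var a n →₀ ℕ) x).factorial =
      ∏ x ∈ Finset.univ.erase v, (d x).factorial := by
    refine Finset.prod_congr rfl fun x hx => ?_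
    rw [Finsupp.add_apply, Finsupp.single_eq_of_ne (Finset.ne_of_mem_erase hx), add_zero]
  rw [h, Finsupp.add_apply, Finsupp.single_eq_same, Nat.factorial_succ]
  ring

/-- The Fischer product. -/
noncomputable def Poly_fis (f g : P a n) : ℂ :=
  ∑ d ∈ f.support, (Poly_fac d : ℂ) * ((starRingEnd ℂ) (coeff d f) * coeff d g)

theorem Poly_fis_eq (f g : P a n) (s : Finset (Var a n →₀ ℕ))
    (hs : ∀ d, coeff d f ≠ 0 → coeff d g ≠ 0 → d ∈ s) :
    Poly_fis f g = ∑ d ∈ s, (Poly_fac d : ℂ) * ((starRingEnd ℂ) (coeff d f) * coeff d g) := by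
  classical
  unfold Poly_fis
  rw [← Finset.sum_subset (Finset.inter_subset_left (s₂ := s)),
    ← Finset.sum_subset (Finset.inter_subset_right (s₁ := f.support) (s₂ := s))]
  · intro d hd hd'
    have : coeff d f = 0 := by
      by_contra h
      exact hd' (Finset.mem_inter.2 ⟨mem_support_iff.2 h, hd⟩)
    simp [this]
  · intro d hd hd'
    have : coeff d g = 0 := by
      by_contra h
      exact hd' (Finset.mem_inter.2 ⟨hd, hs d (mem_support_iff.1 hd) h⟩)
    simp [this]

theorem Poly_fis_conj (f g : P a n) : (starRingEnd ℂ) (Poly_fis g f) = Poly_fis f g := by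
  rw [Poly_fis_eq f g g.support fun d _ h => mem_support_iff.2 h, Poly_fis, map_sum]
  refine Finset.sum_congr rfl fun d _ => ?_
  simp only [map_mul, map_natCast, Complex.conj_conj]
  ring

theorem Poly_fis_add (f f' g : P a n) : Poly_fis (f + f') g = Poly_fis f g + Poly_fis f' g := by
  rw [Poly_fis_eq _ g g.support fun d _ h => mem_support_iff.2 h,
    Poly_fis_eq f g g.support fun d _ h => mem_support_iff.2 h,
    Poly_fis_eq f' g g.support fun d _ h => mem_support_iff.2 h, ← Finset.sum_add_distrib]
  refine Finset.sum_congr rfl fun d _ => ?_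
  rw [coeff_add, map_add]
  ring

theorem Poly_fis_smul (c : ℂ) (f g : P a n) :
    Poly_fis (c • f) g = (starRingEnd ℂ) c * Poly_fis f g := by
  rw [Poly_fis_eq _ g g.support fun d _ h => mem_support_iff.2 h,
    Poly_fis_eq f g g.support fun d _ h => mem_support_iff.2 h, Finset.mul_sum]
  refine Finset.sum_congr rfl fun d _ => ?_
  rw [coeff_smul, smul_eq_mul, map_mul]
  ring

theorem Poly_fis_zero (g : P a n) : Poly_fis 0 g = 0 := by simp [Poly_fis]

theorem Poly_fis_sum {ι : Type} (s : Finset ι) (f : ι → P a n) (g : P a n) :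
    Poly_fis (∑ r ∈ s, f r) g = ∑ r ∈ s, Poly_fis (f r) g := by
  classical
  induction s using Finset.induction_on with
  | empty => simp [Poly_fis_zero]
  | insert r s hr ih => rw [Finset.sum_insert hr, Finset.sum_insert hr, Poly_fis_add, ih]

theorem Poly_fis_monomial (d : Var a n →₀ ℕ) (c : ℂ) (g : P a n) :
    Poly_fis (monomial d c) g = (Poly_fac d : ℂ) * ((starRingEnd ℂ) c * coeff d g) := by
  classical
  rw [Poly_fis_eq _ g {d}, Finset.sum_singleton, coeff_monomial, if_pos rfl]
  intro e he _
  rw [coeff_monomial] at he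
  split_ifs at he with h
  · simp [h]
  · exact absurd rfl he

theorem Poly_fis_X_mul (v : Var a n) (f g : P a n) :
    Poly_fis (X v * f) g = Poly_fis f (pderiv v g) := by
  induction f using MvPolynomial.induction_on' with
  | add p q hp hq => rw [mul_add, Poly_fis_add, Poly_fis_add, hp, hq]
  | monomial d c =>
    rw [X, monomial_mul, one_mul, add_comm, Poly_fis_monomial, Poly_fis_monomial, Poly_fac_add,
      coeff_pderiv]
    push_cast
    ring

theorem Poly_fis_E (i j : Fin n) (f g : P a n) :
    Poly_fis (E a i j f) g = Poly_fis f (E a j i g) := by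
  rw [← Poly_fis_conj f, E_eq_sum, E_eq_sum, Poly_fis_sum, Poly_fis_sum, map_sum]
  refine Finset.sum_congr rfl fun r _ => ?_
  rw [Poly_fis_X_mul, Poly_fis_X_mul, Poly_fis_conj]

theorem Poly_fis_self (f : P a n) :
    Poly_fis f f = ((∑ d ∈ f.support, (Poly_fac d : ℝ) * Complex.normSq (coeff d f) : ℝ) : ℂ) := by
  unfold Poly_fis
  push_cast
  refine Finset.sum_congr rfl fun d _ => ?_
  rw [Complex.normSq_eq_conj_mul_self]

theorem Poly_fis_def (f : P a n) (h : Poly_fis f f = 0) : f = 0 := by
  rw [Poly_fis_self, Complex.ofReal_eq_zero, Finset.sum_eq_zero_iff_of_nonneg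
    fun d _ => mul_nonneg (Nat.cast_nonneg _) (Complex.normSq_nonneg _)] at h
  ext d
  by_contra hd
  have h1 := h d (mem_support_iff.2 hd)
  rw [mul_eq_zero, Complex.normSq_eq_zero, Nat.cast_eq_zero] at h1
  rcases h1 with h1 | h1
  · exact (Poly_fac_pos d).ne' h1
  · exact hd h1

theorem Poly_comp_mem {m : ℕ} {f : P a n} (hf : f ∈ blockSym a n m) (μ : Fin n → ℕ) :
    weightedHomogeneousComponent colW μ f ∈ blockSym a n m := by
  classical
  rw [mem_blockSym] at hf ⊢
  refine ⟨fun r d hd => ?_, fun σ => ?_⟩
  · rw [coeff_weightedHomogeneousComponent] at hd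
    split_ifs at hd with h
    · exact hf.1 r hd
    · exact absurd rfl hd
  · have h : ∀ g : P a n, rename (blockPerm σ) (weightedHomogeneousComponent colW μ g) =
        weightedHomogeneousComponent colW μ (rename (blockPerm σ) g) := by
      intro g
      induction g using MvPolynomial.induction_on' with
      | add p q hp hq => simp only [map_add, hp, hq]
      | monomial d c =>
        have h1 : Finsupp.weight colW (d.mapDomain (blockPerm σ)) = Finsupp.weight colW d := by
          funext i
          rw [Poly_weight_colW, Poly_weight_colW, ← Equiv.sum_comp σ]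
          exact Finset.sum_congr rfl fun r _ =>
            Finsupp.mapDomain_apply (Poly_blockPerm_inj σ) d (r, i)
        rw [rename_monomial, weightedHomogeneousComponent_of_mem
          (isWeightedHomogeneous_monomial colW d c rfl), weightedHomogeneousComponent_of_mem
          (isWeightedHomogeneous_monomial colW _ c h1)]
        split_ifs
        · rw [rename_monomial]
        · rw [map_zero]
    rw [h, hf.2]

/-- `blockSym a n m` is a unitary `gl_n`-module through the operators `E`. -/
theorem exists_glRep (a n m : ℕ) : ∃ ρ : GlRep n (blockSym a n m),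
    ∀ i j (f : blockSym a n m), ((ρ.e i j f : blockSym a n m) : P a n) = E a i j f := by
  classical
  refine ⟨⟨fun i j => (E a i j).toLinearMap.restrict fun f hf => E_mem_blockSym i j hf,
    { inner := fun f g => Poly_fis (f : P a n) (g : P a n)
      conj_inner_symm := fun f g => Poly_fis_conj _ _
      re_inner_nonneg := fun f => ?_
      add_left := fun f f' g => Poly_fis_add _ _ _
      smul_left := fun f g c => Poly_fis_smul _ _ _
      definite := fun f h => Subtype.ext (Poly_fis_def _ h) },
    fun i j k l f => Subtype.ext ?_, fun i j f g => Poly_fis_E i j _ _, fun f => ?_⟩,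
    fun _ _ _ => rfl⟩
  · rw [Poly_fis_self]
    exact Finset.sum_nonneg fun d _ => mul_nonneg (Nat.cast_nonneg _) (Complex.normSq_nonneg _)
  · have h := E_comm i j k l (f : P a n)
    split_ifs at h ⊢ <;> exact h
  · have h : f = ∑ μ ∈ (weightedHomogeneousComponent_finsupp (w := colW) (f : P a n)).toFinset,
        (⟨weightedHomogeneousComponent colW μ f, Poly_comp_mem f.2 μ⟩ : blockSym a n m) := by
      refine Subtype.ext ?_
      rw [Submodule.coe_sum, ← finsum_eq_sum, sum_weightedHomogeneousComponent]
    rw [h]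
    refine Submodule.sum_mem _ fun μ _ => Submodule.mem_iSup_of_mem μ ?_
    rw [Submodule.mem_iInf]
    intro i
    rw [Module.End.mem_eigenspace_iff]
    exact Subtype.ext (wt_iff.1 (weightedHomogeneousComponent_isWeightedHomogeneous μ _) i)

/-- The chosen structure. -/
noncomputable def bs (a n m : ℕ) : GlRep n (blockSym a n m) := (exists_glRep a n m).choose

theorem bs_e (m : ℕ) (i j : Fin n) (f : blockSym a n m) :
    (((bs a n m).e i j f : blockSym a n m) : P a n) = E a i j f :=
  (exists_glRep a n m).choose_spec i j f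

theorem Poly_mem_wt {m : ℕ} {μ : Fin n → ℕ} {f : blockSym a n m} :
    f ∈ (bs a n m).wt μ ↔ IsWeightedHomogeneous colW (f : P a n) μ := by
  rw [GlRep.mem_wt, wt_iff]
  refine forall_congr' fun i => ?_
  rw [Subtype.ext_iff, bs_e, Submodule.coe_smul]

theorem finrank_bs_hw (m : ℕ) (l : Fin n → ℕ) :
    Module.finrank ℂ ((bs a n m).hw l) = hwd a n m l := by
  suffices h : Submodule.map (blockSym a n m).subtype ((bs a n m).hw l) =
      hw (blockSym a n m) l by rw [← Submodule.finrank_map_subtype_eq, hwd, h]
  ext f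
  rw [Submodule.mem_map, mem_hw]
  constructor
  · rintro ⟨g, hg, rfl⟩
    rw [GlRep.mem_hw, Poly_mem_wt] at hg
    refine ⟨g.2, hg.1, fun i j hij => ?_⟩
    rw [Submodule.subtype_apply, ← bs_e, hg.2 i j hij, Submodule.coe_zero]
  · rintro ⟨h1, h2, h3⟩
    refine ⟨⟨f, h1⟩, ?_, rfl⟩
    rw [GlRep.mem_hw, Poly_mem_wt]
    exact ⟨h2, fun i j hij => Subtype.ext (by rw [bs_e]; exact h3 i j hij)⟩

theorem finrank_bs_wt (m : ℕ) (μ : Fin n → ℕ) :
    Module.finrank ℂ ((bs a n m).wt μ) = wtd a n m μ := by
  suffices h : Submodule.map (blockSym a n m).subtype ((bs a n m).wt μ) =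
      blockSym a n m ⊓ weightedHomogeneousSubmodule ℂ colW μ by
    rw [← Submodule.finrank_map_subtype_eq, wtd, h]
  ext f
  rw [Submodule.mem_map, Submodule.mem_inf, mem_weightedHomogeneousSubmodule]
  constructor
  · rintro ⟨g, hg, rfl⟩
    exact ⟨g.2, Poly_mem_wt.1 hg⟩
  · rintro ⟨h1, h2⟩
    exact ⟨⟨f, h1⟩, Poly_mem_wt.2 h2, rfl⟩

theorem hwd_eq_zero_of_not_antitone (m : ℕ) {l : Fin n → ℕ} (hl : ¬ Antitone l) :
    hwd a n m l = 0 := by
  rw [← finrank_bs_hw]; exact GlRep.hw_eq_zero _ _ hl

/-- Total degree: a nonzero vector of `blockSym a n m` of weight `l` has `∑ l = a m`. -/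
theorem hwd_eq_zero_of_sum (m : ℕ) {l : Fin n → ℕ} (hl : ∑ i, l i ≠ a * m) :
    hwd a n m l = 0 := by
  rw [hwd, Submodule.finrank_eq_zero, eq_bot_iff]
  intro f hf
  rw [mem_hw] at hf
  rw [Submodule.mem_bot]
  ext d
  by_contra hd
  refine hl ?_
  rw [← Poly_sum_eq hf.1 hd, ← hf.2.1 hd, Fintype.sum_prod_type_right]
  exact Finset.sum_congr rfl fun i _ => Poly_weight_colW d i

/-- An injective linear map between highest weight spaces bounds the multiplicities. -/
theorem hwd_le_of_map {a' n' m m' : ℕ} {l : Fin n → ℕ} {l' : Fin n' → ℕ}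
    (φ : P a n →ₗ[ℂ] P a' n')
    (h1 : ∀ f ∈ hw (blockSym a n m) l, φ f ∈ hw (blockSym a' n' m') l')
    (h2 : ∀ f ∈ hw (blockSym a n m) l, φ f = 0 → f = 0) :
    hwd a n m l ≤ hwd a' n' m' l' := by
  refine LinearMap.finrank_le_finrank_of_injective (f := φ.restrict h1) ?_
  rw [injective_iff_map_eq_zero]
  intro f hf
  exact Subtype.ext (h2 f f.2 (congrArg Subtype.val hf))

end Crest.Agent.R187
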