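import Crest.Agent.R187.Newton
import Crest.Agent.R187.Orbit
import Crest.Agent.R187.Eng

/-!
# Row 187, part 2: coefficient functions (definitions and small tools; sorry-free)

`cf N Q x a b c d` is the coefficient of `Q` at the exponent `(N - Σ, x, a, b, c, d)`, `Σ = x + a + b + c + d`.
`c_i f k s` is the convolution of `f` with `h_s(y^k)` in the last `i` of the five coordinates, and `c6 f k m` is the
convolution with `∑_{s ≤ m} h_s(y_1^k, …, y_5^k)`, the dehomogenisation of `pk 6 k m`.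
-/

set_option autoImplicit false

namespace Crest.Agent.R187

open MvPolynomial

abbrev F5 : Type := ℕ → ℕ → ℕ → ℕ → ℕ → ℤ

def c1 (f : F5) (k s : ℕ) : F5 := fun x a b c d => if k * s ≤ d then f x a b c (d - k * s) else 0
def c2 (f : F5) (k : ℕ) : ℕ → F5
  | 0 => f
  | s + 1 => fun x a b c d => c1 f k (s + 1) x a b c d + if k ≤ c then c2 f k s x a b (c - k) d else 0
def c3 (f : F5) (k : ℕ) : ℕ → F5
  | 0 => f
  | s + 1 => fun x a b c d => c2 f k (s + 1) x a b c d + if k ≤ b then c3 f k s x a (b - k) c d else 0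
def c4 (f : F5) (k : ℕ) : ℕ → F5
  | 0 => f
  | s + 1 => fun x a b c d => c3 f k (s + 1) x a b c d + if k ≤ a then c4 f k s x (a - k) b c d else 0
def c5 (f : F5) (k : ℕ) : ℕ → F5
  | 0 => f
  | s + 1 => fun x a b c d => c4 f k (s + 1) x a b c d + if k ≤ x then c5 f k s (x - k) a b c d else 0
def c6 (f : F5) (k m : ℕ) : F5 := fun x a b c d => ∑ s ∈ Finset.range (m + 1), c5 f k s x a b c d

noncomputable def cf (N : ℕ) (Q : MvPolynomial (Fin 6) ℤ) : F5 := fun x a b c d =>
  if x + a + b + c + d ≤ N then coeff (fs ![N - (x + a + b + c + d), x, a, b, c, d]) Q else 0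

/-- Coefficients of `DD 6 * h_j[h_m]`. -/
noncomputable def tf (m j : ℕ) : F5 := cf (j * m + 15) (DD 6 * hh 6 j m)

/-- Antisymmetry in the last three coordinates. -/
def AntiS (f : F5) : Prop :=
  (∀ x a b c d, f x a c b d = - f x a b c d) ∧ ∀ x a b c d, f x a b d c = - f x a b c d

/-- The `5 × 5` determinant `det (G (y_i - (4 - j)))`, `y = (x, a, b, c, d)`. -/
noncomputable def det5 (G : ℕ → ℤ) : F5 := fun x a b c d =>
  gs G 4 x * D4 G (fun q => gs G q a) b c d 3 2 1 0 - gs G 3 x * D4 G (fun q => gs G q a) b c d 4 2 1 0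
    + gs G 2 x * D4 G (fun q => gs G q a) b c d 4 3 1 0 - gs G 1 x * D4 G (fun q => gs G q a) b c d 4 3 2 0
    + gs G 0 x * D4 G (fun q => gs G q a) b c d 4 3 2 1

/-- `y` is a block with `X` valid rows for `f`, with digits at most `n * 2^v`. -/
def Rep (g : Cfg) (n y X : ℕ) (f : ℕ → ℕ → ℤ) : Prop :=
  ∀ x < X, ∀ a < g.L, dig g.w y (x * g.L + a) ≤ n * 2 ^ g.v ∧
    ((dig g.w y (x * g.L + a) : ℕ) : ℤ) ≡ f x a [ZMOD 2 ^ g.v]

/-- `F` is a table of blocks for `f` at the keys `b > c > d`. -/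
def TRep (g : Cfg) (XR F : F3) (f : F5) : Prop :=
  ∀ b c d, c < b → d < c → Rep g 1 (F b c d) (XR b c d) fun x a => f x a b c d

def XAnti (XR : F3) : Prop :=
  ∀ b c d b' c' d', b' ≤ b → c' ≤ c → d' ≤ d → XR b c d ≤ XR b' c' d'

structure XOK (XJ : ℕ → F3) (J B XM : ℕ) : Prop where
  anti : ∀ j b c d j' b' c' d', j' ≤ j → b' ≤ b → c' ≤ c → d' ≤ d → XJ j b c d ≤ XJ j' b' c' d'
  bnd : ∀ j b c d, XJ j b c d ≠ 0 → j ≤ J ∧ b < B
  le : ∀ j b c d, XJ j b c d ≤ XM

/-- A table of lower bounds for the multiplicities in `Sym^j (Sym^6)`. -/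
def TabOK (T : Tab) : Prop := ∀ (j : ℕ) (l : Fin 6 → ℕ), Antitone l → ∑ i, l i = 6 * j →
  T j (l 1 + 4) (l 2 + 3) (l 3 + 2) (l 4 + 1) (l 5) ≤ hwd j 6 6 l

/-- Foulkes' inequality at the weight of size `6 n` with `(l₂, …, l₆) + (4, 3, 2, 1, 0) = (x, a, b, c, d)`. -/
def GoodAt (n x a b c d : ℕ) : Prop := ∀ l : Fin 6 → ℕ, Antitone l → ∑ i, l i = 6 * n →
  l 1 + 4 = x → l 2 + 3 = a → l 3 + 2 = b → l 4 + 1 = c → l 5 = d → hwd 6 6 n l ≤ hwd n 6 6 l

def TreeOK (t : BT) : Prop := ∀ k, GoodAt (fld (t.get k) 31 32) (fld (t.get k) 24 128) (fld (t.get k) 18 64)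
  (fld (t.get k) 12 64) (fld (t.get k) 6 64) (fld (t.get k) 0 64)

/-! ### Unfolding raw recursors -/

theorem ncase_succ {α : Type} (y : ℕ) (z : α) (f : ℕ → α) :
    Nat.rec (motive := fun _ => α) z (fun p _ => f p) (Nat.succ y) = f y := rfl

theorem ncase_eq {α : Type} (y : ℕ) (z : α) (f : ℕ → α) :
    Nat.rec (motive := fun _ => α) z (fun p _ => f p) y = if y = 0 then z else f (y - 1) := by
  cases y <;> simp

theorem ncase_sub {α : Type} (y k : ℕ) (z : α) (f : ℕ → α) :
    Nat.rec (motive := fun _ => α) z (fun p _ => f p) (Nat.sub (Nat.succ y) k) =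
      if k ≤ y then f (y - k) else z := by
  rw [ncase_eq]
  show (if y + 1 - k = 0 then z else f (y + 1 - k - 1)) = _
  by_cases h : k ≤ y
  · rw [if_neg (by omega), if_pos h]; congr 1; omega
  · rw [if_pos (by omega), if_neg h]

theorem bcase_eq {α : Type} (c : Bool) (t e : α) :
    Bool.rec (motive := fun _ => α) e t c = if c = true then t else e := by
  cases c <;> simp

theorem bcase_ble {α : Type} (x y : ℕ) (t e : α) :
    Bool.rec (motive := fun _ => α) e t (Nat.ble x y) = if x ≤ y then t else e := by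
  rw [bcase_eq]; simp only [Nat.ble_eq]

theorem bcase_beq {α : Type} (x y : ℕ) (t e : α) :
    Bool.rec (motive := fun _ => α) e t (Nat.beq x y) = if x = y then t else e := by
  rw [bcase_eq]; simp only [Nat.beq_eq]

theorem mx_eq (x y : ℕ) : mx x y = max x y := by
  unfold mx; rw [bcase_ble]; split_ifs <;> omega

theorem mn_eq (x y : ℕ) : mn x y = min x y := by
  unfold mn; rw [bcase_ble]; split_ifs <;> omega

theorem allR_sound {f : ℕ → Bool} {lo n : ℕ} (h : allR f lo n = true) {y : ℕ} (h1 : lo ≤ y)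
    (h2 : y < lo + n) : f y = true := by
  induction n with
  | zero => omega
  | succ n ih =>
    have h' : allS f lo n (allR f lo n) = true := h
    unfold allS at h'
    rw [bcase_eq] at h'
    split_ifs at h' with h3
    by_cases h4 : y < lo + n
    · exact ih h3 h4
    · have : y = lo + n := by omega
      subst this
      exact h'

theorem sumR_eq (f : ℕ → ℕ) (n : ℕ) : sumR f n = ∑ i ∈ Finset.range n, f i := by
  induction n with
  | zero => rfl
  | succ n ih => rw [Finset.sum_range_succ, ← ih]; rfl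

theorem gs_eq (G : ℕ → ℤ) (q y : ℕ) : gs G q y = if q ≤ y then G (y - q) else 0 := ncase_sub _ _ _ _

theorem dig_eq (u y p : ℕ) : dig u y p = y / 2 ^ (u * p) % 2 ^ u := by
  show (y >>> (u * p)) % (1 <<< u) = _
  rw [Nat.shiftRight_eq_div_pow, Nat.one_shiftLeft]

end Crest.Agent.R187
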