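import Crest.Agent.R187.Rec

/-!
# Row 187, part 2: the Newton recursion on coefficients

* `cf_mul_pk`.  Either unfold `pk`, use `coeff_mul_monomial'` and show by induction on `s` that `c_i f k s` is the sum over
  the compositions of `s` into `i` parts; or (shorter) introduce the polynomials `H_i s` (`i = 1..6`, recursively
  `H_1 s = X 5 ^ (k s)`, `H_{i+1} (s+1) = H_i (s+1) + X _ ^ k * H_{i+1} s`, `H_{i+1} 0 = 1`), prove
  `pk 6 k m = ∑_{s ≤ m} X 0 ^ (k (m - s)) * H_5 s` (e.g. through `Finset.finsuppAntidiag_insert`, or `pk` is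
  `aeval (X · ^ k)` of `hsymm`, or generating series), and `cf (N + k s) (Q * H_i s) = c_i (cf N Q) k s` by induction with
  `coeff_mul_X'`-like lemmas.  For `Σ > N + k m` both sides vanish.
* `tf_newton`: `hh_newton`, `cf_mul_pk`, linearity of `cf` in `Q`, `Finset.sum_range_reflect`.
* `tf_zero`: `hh_zero`, `DD_eq_sum`.  One way: both sides vanish unless `Σ ≤ 15`; the coefficient of `DD 6` at `e` is
  `∑_σ if rho ∘ σ = e then sign σ else 0`.  If `e = rho ∘ σ` use `Equiv.Perm.sign_eq_prod_prod_Ioi`-like formulas or check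
  the 720 permutations by `decide +kernel`; otherwise `d0` vanishes (six distinct naturals with sum 15 are `0..5`;
  a finite check `∀ x a b c d < 16, Σ ≤ 15 → d0 ≠ 0 → all six entries < 6 and distinct` by `decide +kernel` with `allR`).
* `tf_anti`: `coeff_rename_mapDomain`, `DD_rename`, `hh_rename` with `Equiv.swap 3 4`, `Equiv.swap 4 5`.
* `hwd_eq_tf`: `hwd_eq_coeff`, `Fin.sum_univ_six`.
-/

set_option autoImplicit false

namespace Crest.Agent.R187

open MvPolynomial

/-- `h_s(x_i^k : i ∈ S)` -/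
noncomputable def Rec1_H (S : Finset (Fin 6)) (k s : ℕ) : MvPolynomial (Fin 6) ℤ :=
  ∑ β ∈ Finset.finsuppAntidiag S s, monomial (k • β) 1

theorem Rec1_H_zero (S : Finset (Fin 6)) (k : ℕ) : Rec1_H S k 0 = 1 := by
  simp [Rec1_H]

theorem Rec1_H_empty (k s : ℕ) : Rec1_H ∅ k (s + 1) = 0 := by
  simp [Rec1_H]

theorem Rec1_H_succ {S : Finset (Fin 6)} {a : Fin 6} (ha : a ∉ S) (k s : ℕ) :
    Rec1_H (insert a S) k (s + 1) = Rec1_H S k (s + 1) + Rec1_H (insert a S) k s * X a ^ k := by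
  unfold Rec1_H
  rw [← Finset.sum_filter_add_sum_filter_not _ (fun β : Fin 6 →₀ ℕ => β a = 0)]
  congr 1
  · refine Finset.sum_congr ?_ fun _ _ => rfl
    ext β
    simp only [Finset.mem_filter, Finset.mem_finsuppAntidiag, Finset.sum_insert ha]
    constructor
    · rintro ⟨⟨h1, h2⟩, h3⟩
      refine ⟨by simpa [h3] using h1, fun i hi => ?_⟩
      rcases Finset.mem_insert.1 (h2 hi) with rfl | h
      · exact absurd h3 (Finsupp.mem_support_iff.1 hi)
      · exact h
    · rintro ⟨h1, h2⟩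
      have h3 : β a = 0 := by
        by_contra h
        exact ha (h2 (Finsupp.mem_support_iff.2 h))
      exact ⟨⟨by simpa [h3] using h1, h2.trans (Finset.subset_insert _ _)⟩, h3⟩
  · rw [Finset.sum_mul]
    symm
    refine Finset.sum_nbij' (fun β => β + Finsupp.single a 1) (fun β => β - Finsupp.single a 1)
      ?_ ?_ ?_ ?_ ?_
    · intro β hβ
      simp only [Finset.mem_filter, Finset.mem_finsuppAntidiag] at hβ ⊢
      refine ⟨⟨?_, ?_⟩, by simp⟩
      · simp only [Finsupp.coe_add, Pi.add_apply, Finset.sum_add_distrib, hβ.1]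
        simp [Finsupp.single_apply]
      · refine Finsupp.support_add.trans (Finset.union_subset hβ.2 ?_)
        exact Finsupp.support_single_subset.trans (by simp)
    · intro β hβ
      simp only [Finset.mem_filter, Finset.mem_finsuppAntidiag] at hβ ⊢
      obtain ⟨⟨h1, h2⟩, h3⟩ := hβ
      refine ⟨?_, Finsupp.support_tsub.trans h2⟩
      rw [Finset.sum_insert ha] at h1 ⊢
      have h4 : ∑ i ∈ S, (β - Finsupp.single a 1 : Fin 6 →₀ ℕ) i = ∑ i ∈ S, β i :=
        Finset.sum_congr rfl fun i hi => by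
          have : a ≠ i := fun h => ha (h ▸ hi)
          simp [Finsupp.single_apply, this]
      rw [h4]
      simp only [Finsupp.coe_tsub, Pi.sub_apply, Finsupp.single_eq_same]
      omega
    · intro β _
      simp
    · intro β hβ
      simp only [Finset.mem_filter] at hβ
      exact tsub_add_cancel_of_le (Finsupp.single_le_iff.2 (by omega))
    · intro β _
      rw [X_pow_eq_monomial, monomial_mul, smul_add, Finsupp.smul_single, smul_eq_mul, mul_one,
        mul_one]

theorem Rec1_coeff (Q : MvPolynomial (Fin 6) ℤ) (e : Fin 6 → ℕ) (i : Fin 6) (k : ℕ) :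
    coeff (fs e) (Q * X i ^ k) =
      if k ≤ e i then coeff (fs (Function.update e i (e i - k))) Q else 0 := by
  rw [X_pow_eq_monomial, coeff_mul_monomial', mul_one]
  simp only [Finsupp.single_le_iff, fs_apply]
  congr 2
  ext j
  by_cases h : j = i
  · subst h; simp
  · simp [Finsupp.single_apply, h, Ne.symm h]

theorem Rec1_cf_add (N : ℕ) (Q Q' : MvPolynomial (Fin 6) ℤ) (x a b c d : ℕ) :
    cf N (Q + Q') x a b c d = cf N Q x a b c d + cf N Q' x a b c d := by
  unfold cf
  split_ifs <;> simp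

theorem Rec1_cf0 (N k : ℕ) (Q : MvPolynomial (Fin 6) ℤ) (x a b c d : ℕ) :
    cf (N + k) (Q * X 0 ^ k) x a b c d = cf N Q x a b c d := by
  unfold cf
  rw [Rec1_coeff]
  simp only [Matrix.cons_val_zero]
  split_ifs <;> first | rfl | omega | skip
  congr 2
  funext j
  fin_cases j <;> simp
  omega

theorem Rec1_cf1 (N k : ℕ) (Q : MvPolynomial (Fin 6) ℤ) (x a b c d : ℕ) :
    cf (N + k) (Q * X 1 ^ k) x a b c d = if k ≤ x then cf N Q (x - k) a b c d else 0 := by
  unfold cf
  rw [Rec1_coeff]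
  simp only [Matrix.cons_val]
  split_ifs <;> first | rfl | omega | skip
  congr 2
  funext j
  fin_cases j <;> simp
  omega

theorem Rec1_cf2 (N k : ℕ) (Q : MvPolynomial (Fin 6) ℤ) (x a b c d : ℕ) :
    cf (N + k) (Q * X 2 ^ k) x a b c d = if k ≤ a then cf N Q x (a - k) b c d else 0 := by
  unfold cf
  rw [Rec1_coeff]
  simp only [Matrix.cons_val]
  split_ifs <;> first | rfl | omega | skip
  congr 2
  funext j
  fin_cases j <;> simp
  omega

theorem Rec1_cf3 (N k : ℕ) (Q : MvPolynomial (Fin 6) ℤ) (x a b c d : ℕ) :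
    cf (N + k) (Q * X 3 ^ k) x a b c d = if k ≤ b then cf N Q x a (b - k) c d else 0 := by
  unfold cf
  rw [Rec1_coeff]
  simp only [Matrix.cons_val]
  split_ifs <;> first | rfl | omega | skip
  congr 2
  funext j
  fin_cases j <;> simp
  omega

theorem Rec1_cf4 (N k : ℕ) (Q : MvPolynomial (Fin 6) ℤ) (x a b c d : ℕ) :
    cf (N + k) (Q * X 4 ^ k) x a b c d = if k ≤ c then cf N Q x a b (c - k) d else 0 := by
  unfold cf
  rw [Rec1_coeff]
  simp only [Matrix.cons_val]
  split_ifs <;> first | rfl | omega | skip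
  congr 2
  funext j
  fin_cases j <;> simp
  omega

theorem Rec1_cf5 (N k : ℕ) (Q : MvPolynomial (Fin 6) ℤ) (x a b c d : ℕ) :
    cf (N + k) (Q * X 5 ^ k) x a b c d = if k ≤ d then cf N Q x a b c (d - k) else 0 := by
  unfold cf
  rw [Rec1_coeff]
  simp only [Matrix.cons_val]
  split_ifs <;> first | rfl | omega | skip
  congr 2
  funext j
  fin_cases j <;> simp
  omega

theorem Rec1_H1 (k s : ℕ) : Rec1_H {5} k s = X 5 ^ (k * s) := by
  induction s with
  | zero => rw [Rec1_H_zero, Nat.mul_zero, pow_zero]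
  | succ s ih =>
    have h := Rec1_H_succ (S := ∅) (a := 5) (by simp) k s
    rw [Rec1_H_empty, zero_add, show (insert 5 ∅ : Finset (Fin 6)) = {5} from rfl, ih] at h
    rw [h, Nat.mul_succ, pow_add]

theorem Rec1_c1 (N k s : ℕ) (Q : MvPolynomial (Fin 6) ℤ) :
    cf (N + k * s) (Q * Rec1_H {5} k s) = c1 (cf N Q) k s := by
  funext x a b c d
  rw [Rec1_H1, Rec1_cf5, c1]

theorem Rec1_c2 (N k s : ℕ) (Q : MvPolynomial (Fin 6) ℤ) :
    cf (N + k * s) (Q * Rec1_H {4, 5} k s) = c2 (cf N Q) k s := by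
  induction s with
  | zero => rw [Rec1_H_zero, mul_one]; rfl
  | succ s ih =>
    funext x a b c d
    rw [Rec1_H_succ (by decide), mul_add Q, Rec1_cf_add, Rec1_c1, ← mul_assoc, Nat.mul_succ,
      ← Nat.add_assoc, Rec1_cf4, ih, c2]

theorem Rec1_c3 (N k s : ℕ) (Q : MvPolynomial (Fin 6) ℤ) :
    cf (N + k * s) (Q * Rec1_H {3, 4, 5} k s) = c3 (cf N Q) k s := by
  induction s with
  | zero => rw [Rec1_H_zero, mul_one]; rfl
  | succ s ih =>
    funext x a b c d
    rw [Rec1_H_succ (by decide), mul_add Q, Rec1_cf_add, Rec1_c2, ← mul_assoc, Nat.mul_succ,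
      ← Nat.add_assoc, Rec1_cf3, ih, c3]

theorem Rec1_c4 (N k s : ℕ) (Q : MvPolynomial (Fin 6) ℤ) :
    cf (N + k * s) (Q * Rec1_H {2, 3, 4, 5} k s) = c4 (cf N Q) k s := by
  induction s with
  | zero => rw [Rec1_H_zero, mul_one]; rfl
  | succ s ih =>
    funext x a b c d
    rw [Rec1_H_succ (by decide), mul_add Q, Rec1_cf_add, Rec1_c3, ← mul_assoc, Nat.mul_succ,
      ← Nat.add_assoc, Rec1_cf2, ih, c4]

theorem Rec1_c5 (N k s : ℕ) (Q : MvPolynomial (Fin 6) ℤ) :
    cf (N + k * s) (Q * Rec1_H {1, 2, 3, 4, 5} k s) = c5 (cf N Q) k s := by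
  induction s with
  | zero => rw [Rec1_H_zero, mul_one]; rfl
  | succ s ih =>
    funext x a b c d
    rw [Rec1_H_succ (by decide), mul_add Q, Rec1_cf_add, Rec1_c4, ← mul_assoc, Nat.mul_succ,
      ← Nat.add_assoc, Rec1_cf1, ih, c5]

theorem Rec1_c6 (N k s : ℕ) (Q : MvPolynomial (Fin 6) ℤ) :
    cf (N + k * s) (Q * Rec1_H {0, 1, 2, 3, 4, 5} k s) = c6 (cf N Q) k s := by
  induction s with
  | zero =>
    rw [Rec1_H_zero, mul_one]
    funext x a b c d
    simp [c6, c5]
  | succ s ih =>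
    funext x a b c d
    rw [Rec1_H_succ (by decide), mul_add Q, Rec1_cf_add, Rec1_c5, ← mul_assoc, Nat.mul_succ,
      ← Nat.add_assoc, Rec1_cf0, ih, c6, c6, Finset.sum_range_succ _ (s + 1), add_comm]

theorem cf_mul_pk (N k m : ℕ) (hk : 1 ≤ k) (Q : MvPolynomial (Fin 6) ℤ) :
    cf (N + k * m) (Q * pk 6 k m) = c6 (cf N Q) k m := by
  have h : (Finset.univ : Finset (Fin 6)) = {0, 1, 2, 3, 4, 5} := by decide
  rw [← Rec1_c6, pk, h]
  rfl

theorem tf_newton (m j x a b c d : ℕ) :
    (j : ℤ) * tf m j x a b c d = ∑ i ∈ Finset.range j, c6 (tf m i) (j - i) m x a b c d := by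
  have h1 : (j : ℤ) * tf m j x a b c d =
      ∑ k ∈ Finset.range j, cf (j * m + 15) (DD 6 * hh 6 (j - 1 - k) m * pk 6 (k + 1) m)
        x a b c d := by
    have h2 : ∑ k ∈ Finset.range j, DD 6 * hh 6 (j - 1 - k) m * pk 6 (k + 1) m =
        C (j : ℤ) * (DD 6 * hh 6 j m) := by
      rw [map_natCast, mul_left_comm, hh_newton, Finset.mul_sum]
      exact Finset.sum_congr rfl fun k _ => by ring
    unfold tf cf
    split_ifs
    · rw [← coeff_sum, h2, coeff_C_mul]
    · simp
  rw [h1, ← Finset.sum_range_reflect (fun i => c6 (tf m i) (j - i) m x a b c d)]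
  refine Finset.sum_congr rfl fun k hk => ?_
  have hk' := Finset.mem_range.1 hk
  have e1 : j - (j - 1 - k) = k + 1 := by omega
  have e2 : j * m + 15 = (j - 1 - k) * m + 15 + (k + 1) * m := by
    have : j = (j - 1 - k) + (k + 1) := by omega
    conv_lhs => rw [this]
    ring
  rw [e1, e2, cf_mul_pk _ _ _ (by omega)]
  rfl

theorem Rec1_sg (p q : ℕ) : sg p q = if p ≤ q then (if p = q then 0 else -1) else 1 := by
  unfold sg
  rw [bcase_ble, bcase_beq]

theorem Rec1_sg_anti (p q : ℕ) : sg p q = -sg q p := by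
  rw [Rec1_sg, Rec1_sg]
  split_ifs <;> first | rfl | omega

theorem Rec1_exists_perm {e : Fin 6 → ℕ} (hs : ∑ i, e i = 15) (hi : Function.Injective e) :
    ∃ τ : Equiv.Perm (Fin 6), e = fun i => rho 6 (τ i) := by
  set σ := Tuple.sort e
  have hm : StrictMono (e ∘ σ) :=
    (Tuple.monotone_sort e).strictMono_of_injective (hi.comp σ.injective)
  have h1 : ∑ i, (e ∘ σ) i = 15 := (Equiv.sum_comp σ e).trans hs
  rw [Fin.sum_univ_six] at h1
  have a1 := hm (show (0 : Fin 6) < 1 by decide)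
  have a2 := hm (show (1 : Fin 6) < 2 by decide)
  have a3 := hm (show (2 : Fin 6) < 3 by decide)
  have a4 := hm (show (3 : Fin 6) < 4 by decide)
  have a5 := hm (show (4 : Fin 6) < 5 by decide)
  have h2 : ∀ i, (e ∘ σ) i = rho 6 (Fin.rev i) := by
    intro i
    fin_cases i
    · show (e ∘ σ) 0 = 0; omega
    · show (e ∘ σ) 1 = 1; omega
    · show (e ∘ σ) 2 = 2; omega
    · show (e ∘ σ) 3 = 3; omega
    · show (e ∘ σ) 4 = 4; omega
    · show (e ∘ σ) 5 = 5; omega
  refine ⟨σ.symm.trans Fin.revPerm, funext fun i => ?_⟩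
  have := h2 (σ.symm i)
  simpa using this

theorem Rec1_coeff_DD {e : Fin 6 → ℕ} (hs : ∑ i, e i = 15) :
    coeff (fs e) (DD 6) = ∏ i, ∏ j ∈ Finset.Ioi i, sg (e i) (e j) := by
  have hr : Function.Injective (rho 6) := by decide
  have hfs : ∀ {u v : Fin 6 → ℕ}, fs u = fs v → u = v := fun h =>
    Finsupp.equivFunOnFinite.symm.injective h
  rw [DD_eq_sum, coeff_sum]
  simp only [coeff_monomial]
  by_cases hi : Function.Injective e
  · obtain ⟨τ, rfl⟩ := Rec1_exists_perm hs hi
    rw [Finset.sum_eq_single τ, if_pos rfl,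
      τ.prod_Ioi_comp_eq_sign_mul_prod (f := fun i j => sg (rho 6 i) (rho 6 j))
        fun i j => Rec1_sg_anti _ _]
    · have : ∏ i : Fin 6, ∏ j ∈ Finset.Ioi i, sg (rho 6 i) (rho 6 j) = 1 :=
        Finset.prod_eq_one fun i _ => Finset.prod_eq_one fun j hj => by
          have h1 : (i : ℕ) < j := Fin.lt_def.1 (Finset.mem_Ioi.1 hj)
          have h2 := j.2
          rw [Rec1_sg, if_neg]
          unfold rho
          omega
      rw [this, mul_one]
      rfl
    · intro σ _ hσ
      exact if_neg fun h => hσ (Equiv.ext fun i => hr (congrFun (hfs h) i))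
    · simp
  · rw [Finset.sum_eq_zero fun σ _ => if_neg fun h => hi (by
      rw [← hfs h]; exact hr.comp σ.injective)]
    obtain ⟨i, j, h1, h2⟩ := Function.not_injective_iff.1 hi
    symm
    rcases lt_or_gt_of_ne h2 with h3 | h3
    · exact Finset.prod_eq_zero (Finset.mem_univ i)
        (Finset.prod_eq_zero (Finset.mem_Ioi.2 h3) (by rw [Rec1_sg, h1]; simp))
    · exact Finset.prod_eq_zero (Finset.mem_univ j)
        (Finset.prod_eq_zero (Finset.mem_Ioi.2 h3) (by rw [Rec1_sg, h1]; simp))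

theorem Rec1_prod_Ioi (f : Fin 6 → Fin 6 → ℤ) : ∏ i, ∏ j ∈ Finset.Ioi i, f i j =
    f 0 1 * f 0 2 * f 0 3 * f 0 4 * f 0 5 * f 1 2 * f 1 3 * f 1 4 * f 1 5 *
      f 2 3 * f 2 4 * f 2 5 * f 3 4 * f 3 5 * f 4 5 := by
  have h0 : Finset.Ioi (0 : Fin 6) = {1, 2, 3, 4, 5} := by decide
  have h1 : Finset.Ioi (1 : Fin 6) = {2, 3, 4, 5} := by decide
  have h2 : Finset.Ioi (2 : Fin 6) = {3, 4, 5} := by decide
  have h3 : Finset.Ioi (3 : Fin 6) = {4, 5} := by decide
  have h4 : Finset.Ioi (4 : Fin 6) = {5} := by decide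
  have h5 : Finset.Ioi (5 : Fin 6) = ∅ := by decide
  rw [Fin.prod_univ_six, h0, h1, h2, h3, h4, h5]
  repeat rw [Finset.prod_insert (by decide)]
  simp only [Finset.prod_singleton, Finset.prod_empty]
  ring

theorem cf_DD : cf 15 (DD 6) = d0 := by
  funext x a b c d
  unfold cf d0
  rw [show (Nat.sub 16 (Nat.add (Nat.add (Nat.add (Nat.add x a) b) c) d)) =
    Nat.sub (Nat.succ 15) (x + a + b + c + d) from rfl, ncase_sub]
  split_ifs with h
  · rw [Rec1_coeff_DD (by simp [Fin.sum_univ_six]; omega), Rec1_prod_Ioi]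
    rfl
  · rfl

theorem tf_zero (m : ℕ) : tf m 0 = d0 := by
  rw [tf, hh_zero, mul_one, Nat.zero_mul, Nat.zero_add, cf_DD]

theorem Rec1_coeff_perm (m j : ℕ) (e : Fin 6 → ℕ) (σ : Equiv.Perm (Fin 6)) :
    coeff (fs (e ∘ σ)) (DD 6 * hh 6 j m) =
      ((Equiv.Perm.sign σ : ℤˣ) : ℤ) * coeff (fs e) (DD 6 * hh 6 j m) := by
  have h1 : Finsupp.mapDomain σ (fs (e ∘ σ)) = fs e := by
    ext i
    obtain ⟨j, rfl⟩ := σ.surjective i
    rw [Finsupp.mapDomain_apply σ.injective]
    rfl
  rw [← coeff_rename_mapDomain σ σ.injective, h1, map_mul, DD_rename, hh_rename, smul_mul_assoc,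
    coeff_smul, smul_eq_mul]

theorem tf_anti (m j : ℕ) : AntiS (tf m j) := by
  constructor
  · intro x a b c d
    unfold tf cf
    rw [show x + a + c + b + d = x + a + b + c + d by ring]
    split_ifs
    · have h := Rec1_coeff_perm m j ![j * m + 15 - (x + a + b + c + d), x, a, b, c, d]
        (Equiv.swap 3 4)
      rw [Equiv.Perm.sign_swap (by decide)] at h
      rw [← neg_one_mul]
      refine Eq.trans ?_ h
      congr 2
      funext i
      fin_cases i <;> rfl
    · simp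
  · intro x a b c d
    unfold tf cf
    rw [show x + a + b + d + c = x + a + b + c + d by ring]
    split_ifs
    · have h := Rec1_coeff_perm m j ![j * m + 15 - (x + a + b + c + d), x, a, b, c, d]
        (Equiv.swap 4 5)
      rw [Equiv.Perm.sign_swap (by decide)] at h
      rw [← neg_one_mul]
      refine Eq.trans ?_ h
      congr 2
      funext i
      fin_cases i <;> rfl
    · simp

theorem hwd_eq_tf {j m : ℕ} {l : Fin 6 → ℕ} (hl : Antitone l) (hs : ∑ i, l i = j * m) :
    (hwd j 6 m l : ℤ) = tf m j (l 1 + 4) (l 2 + 3) (l 3 + 2) (l 4 + 1) (l 5) := by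
  rw [Fin.sum_univ_six] at hs
  rw [hwd_eq_coeff j 6 m hl]
  unfold tf cf
  rw [if_pos (by omega)]
  congr 2
  funext i
  fin_cases i
  · show l 0 + 5 = j * m + 15 - (l 1 + 4 + (l 2 + 3) + (l 3 + 2) + (l 4 + 1) + l 5)
    omega
  all_goals rfl

end Crest.Agent.R187
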