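import Crest.Agent.R187.Rec1

/-!
# Row 187, part 2: properties of the convolutions `c_i`

* `c2_swap`: show the second recursion `c2 f k (s+1) x a b c d = (f at c - k (s+1)) + (c2 f k s at d - k)` by induction
  on `s` (or `c2 f k s = ∑_{i ≤ s}` of `f` at `(c - k i, d - k (s - i))` and `Finset.sum_range_reflect`).
* `c3_anti`: the swap of `c, d` by induction from `c2_swap`; for the swap of `b, c` write
  `c3 f k s x a b c d = ∑_{i ≤ s} [k i ≤ d] c2' (s - i) (b, c) (d - k i)` where `c2'` is the two-variable convolution in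
  `(b, c)`, or the closed triple sum.  (A neat way: shift operators `Sb, Sc, Sd` on `F5` are commuting additive maps,
  `c3 f k s = ∑_{i+j+l=s} Sb^i Sc^j Sd^l f`.)
* `c6_bound`: `|c_i f k s| ≤ C(s + i - 1, i - 1) β` by induction on `s` (generalising the point), Pascal's rule, and
  `∑_{s ≤ m} C(s + 4, 4) = C(m + 5, 5)` (`Nat.sum_range_add_choose`).
* `tf_bound`: with `C = C(m+5, 5)`, `tf_newton`, `c6_bound` and `|d0| ≤ 1` give bounds `β_j` with
  `j! β_j = C (C+1) ⋯ (C+j-1)`; do the six steps by hand (`1 * |tf 1| ≤ C`, `2 |tf 2| ≤ C (C + 1)`, …; multiply the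
  Newton identity by `(j-1)!` and use `c6_smul`).
-/

set_option autoImplicit false

namespace Crest.Agent.R187

def rec2Sb (k : ℕ) (f : F5) : F5 := fun x a b c d => if k ≤ b then f x a (b - k) c d else 0
def rec2Sc (k : ℕ) (f : F5) : F5 := fun x a b c d => if k ≤ c then f x a b (c - k) d else 0
def rec2Sd (k : ℕ) (f : F5) : F5 := fun x a b c d => if k ≤ d then f x a b c (d - k) else 0
/-- swap of the coordinates `b, c` -/
def rec2P (f : F5) : F5 := fun x a b c d => f x a c b d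
/-- swap of the coordinates `c, d` -/
def rec2Q (f : F5) : F5 := fun x a b c d => f x a b d c
/-- two-variable convolution in the coordinates `b, d` -/
def rec2c2 (f : F5) (k : ℕ) : ℕ → F5
  | 0 => f
  | s + 1 => c1 f k (s + 1) + rec2Sb k (rec2c2 f k s)

theorem rec2_c2_succ (f : F5) (k s : ℕ) : c2 f k (s + 1) = c1 f k (s + 1) + rec2Sc k (c2 f k s) := rfl
theorem rec2_c3_succ (f : F5) (k s : ℕ) : c3 f k (s + 1) = c2 f k (s + 1) + rec2Sb k (c3 f k s) := rfl
theorem rec2_c1_eq (f : F5) (k s : ℕ) : c1 f k s = rec2Sd (k * s) f := rfl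

theorem rec2Sb_add (k : ℕ) (f g : F5) : rec2Sb k (f + g) = rec2Sb k f + rec2Sb k g := by
  funext x a b c d; simp only [rec2Sb, Pi.add_apply]; split_ifs <;> simp
theorem rec2Sc_add (k : ℕ) (f g : F5) : rec2Sc k (f + g) = rec2Sc k f + rec2Sc k g := by
  funext x a b c d; simp only [rec2Sc, Pi.add_apply]; split_ifs <;> simp
theorem rec2Sd_add (k : ℕ) (f g : F5) : rec2Sd k (f + g) = rec2Sd k f + rec2Sd k g := by
  funext x a b c d; simp only [rec2Sd, Pi.add_apply]; split_ifs <;> simp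
theorem rec2Sb_Sc (k l : ℕ) (f : F5) : rec2Sb k (rec2Sc l f) = rec2Sc l (rec2Sb k f) := by
  funext x a b c d; simp only [rec2Sb, rec2Sc]; split_ifs <;> rfl
theorem rec2Sc_Sd (k l : ℕ) (f : F5) : rec2Sc k (rec2Sd l f) = rec2Sd l (rec2Sc k f) := by
  funext x a b c d; simp only [rec2Sd, rec2Sc]; split_ifs <;> rfl
theorem rec2Sc_Sc (k l : ℕ) (f : F5) : rec2Sc k (rec2Sc l f) = rec2Sc (l + k) f := by
  funext x a b c d; simp only [rec2Sc]
  by_cases h1 : k ≤ c
  · by_cases h2 : l ≤ c - k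
    · rw [if_pos h1, if_pos h2, if_pos (by omega)]; congr 1; omega
    · rw [if_pos h1, if_neg h2, if_neg (by omega)]
  · rw [if_neg h1, if_neg (by omega)]
theorem rec2Sd_Sd (k l : ℕ) (f : F5) : rec2Sd k (rec2Sd l f) = rec2Sd (l + k) f := by
  funext x a b c d; simp only [rec2Sd]
  by_cases h1 : k ≤ d
  · by_cases h2 : l ≤ d - k
    · rw [if_pos h1, if_pos h2, if_pos (by omega)]; congr 1; omega
    · rw [if_pos h1, if_neg h2, if_neg (by omega)]
  · rw [if_neg h1, if_neg (by omega)]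

/-- the second recursion for `c2` -/
theorem rec2_c2_succ' (f : F5) (k s : ℕ) :
    c2 f k (s + 1) = rec2Sc (k * (s + 1)) f + rec2Sd k (c2 f k s) := by
  induction s with
  | zero =>
    rw [rec2_c2_succ, rec2_c1_eq, add_comm]
    simp only [zero_add, mul_one]
    rfl
  | succ s ih =>
    have e : k * (s + 1 + 1) = k * (s + 1) + k := by ring
    conv_lhs => rw [rec2_c2_succ, ih]
    conv_rhs => rw [rec2_c2_succ]
    rw [rec2_c1_eq, rec2_c1_eq, rec2Sc_add, rec2Sd_add, rec2Sc_Sc, rec2Sd_Sd, rec2Sc_Sd, e]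
    abel

/-- the second recursion for `c3` -/
theorem rec2_c3_succ' (f : F5) (k s : ℕ) :
    c3 f k (s + 1) = rec2c2 f k (s + 1) + rec2Sc k (c3 f k s) := by
  induction s with
  | zero =>
    show (c1 f k (0 + 1) + rec2Sc k f) + rec2Sb k f = (c1 f k (0 + 1) + rec2Sb k f) + rec2Sc k f
    abel
  | succ s ih =>
    conv_lhs => rw [rec2_c3_succ, ih, rec2_c2_succ]
    conv_rhs => rw [rec2_c3_succ, rec2c2]
    rw [rec2Sb_add, rec2Sc_add, rec2Sb_Sc]
    abel

theorem rec2Q_c2 (f : F5) (k s : ℕ) : rec2Q (c2 f k s) = c2 (rec2Q f) k s := by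
  induction s with
  | zero => rfl
  | succ s ih =>
    rw [rec2_c2_succ' (rec2Q f), ← ih, rec2_c2_succ]
    rfl

theorem rec2Q_c3 (f : F5) (k s : ℕ) : rec2Q (c3 f k s) = c3 (rec2Q f) k s := by
  induction s with
  | zero => rfl
  | succ s ih =>
    rw [rec2_c3_succ (rec2Q f), ← ih, ← rec2Q_c2, rec2_c3_succ]
    rfl

theorem rec2P_c2 (f : F5) (k s : ℕ) : rec2P (c2 f k s) = rec2c2 (rec2P f) k s := by
  induction s with
  | zero => rfl
  | succ s ih =>
    rw [rec2c2, ← ih, rec2_c2_succ]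
    rfl

theorem rec2P_c3 (f : F5) (k s : ℕ) : rec2P (c3 f k s) = c3 (rec2P f) k s := by
  induction s with
  | zero => rfl
  | succ s ih =>
    rw [rec2_c3_succ' (rec2P f), ← ih, ← rec2P_c2, rec2_c3_succ]
    rfl

theorem rec2_c1_smul (n : ℤ) (f : F5) (k s x a b c d : ℕ) :
    c1 (fun x a b c d => n * f x a b c d) k s x a b c d = n * c1 f k s x a b c d := by
  simp only [c1]; split_ifs <;> simp

theorem rec2_c2_smul (n : ℤ) (f : F5) (k s x a b c d : ℕ) :
    c2 (fun x a b c d => n * f x a b c d) k s x a b c d = n * c2 f k s x a b c d := by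
  induction s generalizing c with
  | zero => rfl
  | succ s ih => simp only [c2, rec2_c1_smul, ih]; split_ifs <;> ring

theorem rec2_c3_smul (n : ℤ) (f : F5) (k s x a b c d : ℕ) :
    c3 (fun x a b c d => n * f x a b c d) k s x a b c d = n * c3 f k s x a b c d := by
  induction s generalizing b with
  | zero => rfl
  | succ s ih => simp only [c3, rec2_c2_smul, ih]; split_ifs <;> ring

theorem rec2_c4_smul (n : ℤ) (f : F5) (k s x a b c d : ℕ) :
    c4 (fun x a b c d => n * f x a b c d) k s x a b c d = n * c4 f k s x a b c d := by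
  induction s generalizing a with
  | zero => rfl
  | succ s ih => simp only [c4, rec2_c3_smul, ih]; split_ifs <;> ring

theorem rec2_c5_smul (n : ℤ) (f : F5) (k s x a b c d : ℕ) :
    c5 (fun x a b c d => n * f x a b c d) k s x a b c d = n * c5 f k s x a b c d := by
  induction s generalizing x with
  | zero => rfl
  | succ s ih => simp only [c5, rec2_c4_smul, ih]; split_ifs <;> ring

theorem c2_swap {f : F5} (hf : ∀ x a b c d, f x a b d c = - f x a b c d) (k s x a b c d : ℕ) :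
    c2 f k s x a b d c = - c2 f k s x a b c d := by
  have h1 : rec2Q f = fun x a b c d => (-1) * f x a b c d := by
    funext x a b c d; simp only [rec2Q]; rw [hf]; ring
  have h2 := congrFun (congrFun (congrFun (congrFun (congrFun (rec2Q_c2 f k s) x) a) b) c) d
  rw [h1, rec2_c2_smul] at h2
  simpa [rec2Q] using h2

theorem c3_anti {f : F5} (hf : AntiS f) (k s : ℕ) : AntiS (c3 f k s) := by
  constructor
  · intro x a b c d
    have h1 : rec2P f = fun x a b c d => (-1) * f x a b c d := by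
      funext x a b c d; simp only [rec2P]; rw [hf.1]; ring
    have h2 := congrFun (congrFun (congrFun (congrFun (congrFun (rec2P_c3 f k s) x) a) b) c) d
    rw [h1, rec2_c3_smul] at h2
    simpa [rec2P] using h2
  · intro x a b c d
    have h1 : rec2Q f = fun x a b c d => (-1) * f x a b c d := by
      funext x a b c d; simp only [rec2Q]; rw [hf.2]; ring
    have h2 := congrFun (congrFun (congrFun (congrFun (congrFun (rec2Q_c3 f k s) x) a) b) c) d
    rw [h1, rec2_c3_smul] at h2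
    simpa [rec2Q] using h2

theorem c2_zero (f : F5) {k s : ℕ} (x a b : ℕ) {c d : ℕ} (h : c + d < k * s) : c2 f k s x a b c d = 0 := by
  induction s generalizing c with
  | zero => omega
  | succ s ih =>
    simp only [c2, c1]
    rw [if_neg (by omega), zero_add]
    split_ifs with h1
    · exact ih (by rw [Nat.mul_succ] at h; omega)
    · rfl

theorem c3_zero (f : F5) {k s : ℕ} (x a : ℕ) {b c d : ℕ} (h : b + c + d < k * s) : c3 f k s x a b c d = 0 := by
  induction s generalizing b with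
  | zero => omega
  | succ s ih =>
    simp only [c3]
    rw [c2_zero f x a b (by omega), zero_add]
    split_ifs with h1
    · exact ih (by rw [Nat.mul_succ] at h; omega)
    · rfl

theorem rec2_c4_zero (f : F5) {k s : ℕ} (x : ℕ) {a b c d : ℕ} (h : a + b + c + d < k * s) :
    c4 f k s x a b c d = 0 := by
  induction s generalizing a with
  | zero => omega
  | succ s ih =>
    simp only [c4]
    rw [c3_zero f x a (by omega), zero_add]
    split_ifs with h1
    · exact ih (by rw [Nat.mul_succ] at h; omega)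
    · rfl

theorem c5_zero (f : F5) {k s x a b c d : ℕ} (h : x + a + b + c + d < k * s) : c5 f k s x a b c d = 0 := by
  induction s generalizing x with
  | zero => omega
  | succ s ih =>
    simp only [c5]
    rw [rec2_c4_zero f x (by omega), zero_add]
    split_ifs with h1
    · exact ih (by rw [Nat.mul_succ] at h; omega)
    · rfl

theorem c6_smul (n : ℤ) (f : F5) (k m x a b c d : ℕ) :
    c6 (fun x a b c d => n * f x a b c d) k m x a b c d = n * c6 f k m x a b c d := by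
  simp only [c6, rec2_c5_smul, Finset.mul_sum]

theorem rec2_c1_congr {f f' : F5} {x a b c d : ℕ} (k s : ℕ)
    (h : ∀ d' ≤ d, f x a b c d' = f' x a b c d') : c1 f k s x a b c d = c1 f' k s x a b c d := by
  simp only [c1]; rw [h _ (Nat.sub_le _ _)]

theorem rec2_c2_congr {f f' : F5} {x a b c d : ℕ} (k s : ℕ)
    (h : ∀ c' ≤ c, ∀ d' ≤ d, f x a b c' d' = f' x a b c' d') : c2 f k s x a b c d = c2 f' k s x a b c d := by
  induction s generalizing c with
  | zero => exact h _ le_rfl _ le_rfl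
  | succ s ih =>
    simp only [c2]
    rw [rec2_c1_congr k _ (h _ le_rfl), ih fun c' hc => h c' (hc.trans (Nat.sub_le _ _))]

theorem rec2_c3_congr {f f' : F5} {x a b c d : ℕ} (k s : ℕ)
    (h : ∀ b' ≤ b, ∀ c' ≤ c, ∀ d' ≤ d, f x a b' c' d' = f' x a b' c' d') :
    c3 f k s x a b c d = c3 f' k s x a b c d := by
  induction s generalizing b with
  | zero => exact h _ le_rfl _ le_rfl _ le_rfl
  | succ s ih =>
    simp only [c3]
    rw [rec2_c2_congr k _ (h _ le_rfl), ih fun c' hc => h c' (hc.trans (Nat.sub_le _ _))]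

theorem rec2_c4_congr {f f' : F5} {x a b c d : ℕ} (k s : ℕ)
    (h : ∀ a' ≤ a, ∀ b' ≤ b, ∀ c' ≤ c, ∀ d' ≤ d, f x a' b' c' d' = f' x a' b' c' d') :
    c4 f k s x a b c d = c4 f' k s x a b c d := by
  induction s generalizing a with
  | zero => exact h _ le_rfl _ le_rfl _ le_rfl _ le_rfl
  | succ s ih =>
    simp only [c4]
    rw [rec2_c3_congr k _ (h _ le_rfl), ih fun c' hc => h c' (hc.trans (Nat.sub_le _ _))]

theorem rec2_c5_congr {f f' : F5} {x a b c d : ℕ} (k s : ℕ)
    (h : ∀ x' ≤ x, ∀ a' ≤ a, ∀ b' ≤ b, ∀ c' ≤ c, ∀ d' ≤ d, f x' a' b' c' d' = f' x' a' b' c' d') :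
    c5 f k s x a b c d = c5 f' k s x a b c d := by
  induction s generalizing x with
  | zero => exact h _ le_rfl _ le_rfl _ le_rfl _ le_rfl _ le_rfl
  | succ s ih =>
    simp only [c5]
    rw [rec2_c4_congr k _ (h _ le_rfl), ih fun c' hc => h c' (hc.trans (Nat.sub_le _ _))]

/-- `c6 f` at a point only depends on `f` below that point. -/
theorem c6_congr {f f' : F5} {x a b c d : ℕ} (k m : ℕ)
    (h : ∀ x' ≤ x, ∀ a' ≤ a, ∀ b' ≤ b, ∀ c' ≤ c, ∀ d' ≤ d, f x' a' b' c' d' = f' x' a' b' c' d') :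
    c6 f k m x a b c d = c6 f' k m x a b c d := by
  simp only [c6]
  exact Finset.sum_congr rfl fun s _ => rec2_c5_congr k s h

theorem rec2_step {u v β : ℤ} {n j : ℕ} {p : Prop} [Decidable p] (hβ : 0 ≤ β)
    (hu : |u| ≤ (n.choose j : ℕ) * β) (hv : |v| ≤ (n.choose (j + 1) : ℕ) * β) :
    |u + if p then v else 0| ≤ ((n + 1).choose (j + 1) : ℕ) * β := by
  rw [Nat.choose_succ_succ']
  push_cast
  have h1 := abs_add_le u (if p then v else 0)
  have h2 : |if p then v else 0| ≤ (n.choose (j + 1) : ℕ) * β := by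
    split_ifs
    · exact hv
    · rw [abs_zero]; positivity
  linarith

theorem rec2_c1_bound {f : F5} {x a b c d : ℕ} {β : ℤ} (k s : ℕ)
    (h : ∀ d' ≤ d, |f x a b c d'| ≤ β) : |c1 f k s x a b c d| ≤ (s.choose 0 : ℕ) * β := by
  have hβ : 0 ≤ β := (abs_nonneg _).trans (h _ le_rfl)
  simp only [c1, Nat.choose_zero_right, Nat.cast_one, one_mul]
  split_ifs
  · exact h _ (Nat.sub_le _ _)
  · simpa using hβ

theorem rec2_c2_bound {f : F5} {x a b c d : ℕ} {β : ℤ} (k s : ℕ)
    (h : ∀ c' ≤ c, ∀ d' ≤ d, |f x a b c' d'| ≤ β) : |c2 f k s x a b c d| ≤ ((s + 1).choose 1 : ℕ) * β := by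
  induction s generalizing c with
  | zero => simpa [c2] using h _ le_rfl _ le_rfl
  | succ s ih =>
    have hβ : 0 ≤ β := (abs_nonneg _).trans (h _ le_rfl _ le_rfl)
    exact rec2_step hβ (rec2_c1_bound k _ (h _ le_rfl)) (ih fun c' hc => h c' (hc.trans (Nat.sub_le _ _)))

theorem rec2_c3_bound {f : F5} {x a b c d : ℕ} {β : ℤ} (k s : ℕ)
    (h : ∀ b' ≤ b, ∀ c' ≤ c, ∀ d' ≤ d, |f x a b' c' d'| ≤ β) :
    |c3 f k s x a b c d| ≤ ((s + 2).choose 2 : ℕ) * β := by
  induction s generalizing b with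
  | zero => simpa [c3] using h _ le_rfl _ le_rfl _ le_rfl
  | succ s ih =>
    have hβ : 0 ≤ β := (abs_nonneg _).trans (h _ le_rfl _ le_rfl _ le_rfl)
    exact rec2_step (n := s + 2) hβ (rec2_c2_bound k _ (h _ le_rfl))
      (ih fun c' hc => h c' (hc.trans (Nat.sub_le _ _)))

theorem rec2_c4_bound {f : F5} {x a b c d : ℕ} {β : ℤ} (k s : ℕ)
    (h : ∀ a' ≤ a, ∀ b' ≤ b, ∀ c' ≤ c, ∀ d' ≤ d, |f x a' b' c' d'| ≤ β) :
    |c4 f k s x a b c d| ≤ ((s + 3).choose 3 : ℕ) * β := by
  induction s generalizing a with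
  | zero => simpa [c4] using h _ le_rfl _ le_rfl _ le_rfl _ le_rfl
  | succ s ih =>
    have hβ : 0 ≤ β := (abs_nonneg _).trans (h _ le_rfl _ le_rfl _ le_rfl _ le_rfl)
    exact rec2_step (n := s + 3) hβ (rec2_c3_bound k _ (h _ le_rfl))
      (ih fun c' hc => h c' (hc.trans (Nat.sub_le _ _)))

theorem rec2_c5_bound {f : F5} {x a b c d : ℕ} {β : ℤ} (k s : ℕ)
    (h : ∀ x' ≤ x, ∀ a' ≤ a, ∀ b' ≤ b, ∀ c' ≤ c, ∀ d' ≤ d, |f x' a' b' c' d'| ≤ β) :
    |c5 f k s x a b c d| ≤ ((s + 4).choose 4 : ℕ) * β := by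
  induction s generalizing x with
  | zero => simpa [c5] using h _ le_rfl _ le_rfl _ le_rfl _ le_rfl _ le_rfl
  | succ s ih =>
    have hβ : 0 ≤ β := (abs_nonneg _).trans (h _ le_rfl _ le_rfl _ le_rfl _ le_rfl _ le_rfl)
    exact rec2_step (n := s + 4) hβ (rec2_c4_bound k _ (h _ le_rfl))
      (ih fun c' hc => h c' (hc.trans (Nat.sub_le _ _)))

theorem c6_bound {f : F5} {x a b c d : ℕ} {β : ℤ} (k m : ℕ)
    (h : ∀ x' ≤ x, ∀ a' ≤ a, ∀ b' ≤ b, ∀ c' ≤ c, ∀ d' ≤ d, |f x' a' b' c' d'| ≤ β) :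
    |c6 f k m x a b c d| ≤ ((m + 5).choose 5 : ℕ) * β := by
  simp only [c6]
  refine (Finset.abs_sum_le_sum_abs _ _).trans ?_
  refine (Finset.sum_le_sum fun s _ => rec2_c5_bound k s h).trans (le_of_eq ?_)
  rw [← Finset.sum_mul, ← Nat.cast_sum, Nat.sum_range_add_choose]

theorem rec2_sg_eq (p q : ℕ) : sg p q = if p ≤ q then (if p = q then 0 else -1) else 1 := by
  unfold sg; rw [bcase_ble, bcase_beq]

theorem rec2_sg_abs (p q : ℕ) : |sg p q| ≤ 1 := by
  rw [rec2_sg_eq]; split_ifs <;> simp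

theorem rec2_sg_ne {p q : ℕ} (h : sg p q ≠ 0) : p ≠ q := by
  rintro rfl
  rw [rec2_sg_eq] at h
  simp at h

theorem rec2_d0_eq (x a b c d : ℕ) : d0 x a b c d = if x + a + b + c + d ≤ 15 then
    (fun z => sg z x * sg z a * sg z b * sg z c * sg z d * sg x a * sg x b * sg x c * sg x d *
      sg a b * sg a c * sg a d * sg b c * sg b d * sg c d) (15 - (x + a + b + c + d)) else 0 :=
  ncase_sub 15 (x + a + b + c + d) (0 : ℤ) _

theorem rec2_abs_mul {u v : ℤ} (hu : |u| ≤ 1) (hv : |v| ≤ 1) : |u * v| ≤ 1 := by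
  rw [abs_mul]; exact mul_le_one₀ hu (abs_nonneg _) hv

theorem d0_bound (x a b c d : ℕ) : |d0 x a b c d| ≤ 1 := by
  rw [rec2_d0_eq]
  split_ifs
  · beta_reduce
    iterate 14 refine rec2_abs_mul ?_ (rec2_sg_abs _ _)
    exact rec2_sg_abs _ _
  · simp

theorem rec2_five {p q r s t : ℕ} (h1 : p ≠ q) (h2 : p ≠ r) (h3 : p ≠ s) (h4 : p ≠ t) (h5 : q ≠ r) (h6 : q ≠ s)
    (h7 : q ≠ t) (h8 : r ≠ s) (h9 : r ≠ t) (h10 : s ≠ t) : 10 ≤ p + q + r + s + t := by
  omega

theorem rec2_fin {z x a b c d : ℕ} (h : 5 < x ∨ 5 < a ∨ 5 < b) (hs : x + a + b + c + d ≤ 15)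
    (hz : z = 15 - (x + a + b + c + d)) (k1 : 10 ≤ z + a + b + c + d) (k2 : 10 ≤ z + x + b + c + d)
    (k3 : 10 ≤ z + x + a + c + d) : False := by
  omega

theorem d0_eq_zero {x a b c d : ℕ} (h : 5 < x ∨ 5 < a ∨ 5 < b) : d0 x a b c d = 0 := by
  rw [rec2_d0_eq]
  split_ifs with hs
  · by_contra hne
    beta_reduce at hne
    obtain ⟨z, hz⟩ : ∃ z, z = 15 - (x + a + b + c + d) := ⟨_, rfl⟩
    rw [← hz] at hne
    simp only [mul_eq_zero, not_or] at hne
    obtain ⟨⟨⟨⟨⟨⟨⟨⟨⟨⟨⟨⟨⟨⟨h1, h2⟩, h3⟩, h4⟩, h5⟩, h6⟩, h7⟩, h8⟩, h9⟩, h10⟩, h11⟩, h12⟩, h13⟩, h14⟩, h15⟩ := hne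
    have g1 := rec2_sg_ne h1; have g2 := rec2_sg_ne h2; have g3 := rec2_sg_ne h3
    have g4 := rec2_sg_ne h4; have g5 := rec2_sg_ne h5; have g6 := rec2_sg_ne h6
    have g7 := rec2_sg_ne h7; have g8 := rec2_sg_ne h8; have g9 := rec2_sg_ne h9
    have g10 := rec2_sg_ne h10; have g11 := rec2_sg_ne h11; have g12 := rec2_sg_ne h12
    have g13 := rec2_sg_ne h13; have g14 := rec2_sg_ne h14; have g15 := rec2_sg_ne h15
    have k1 := rec2_five g2 g3 g4 g5 g10 g11 g12 g13 g14 g15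
    have k2 := rec2_five g1 g3 g4 g5 g7 g8 g9 g13 g14 g15
    have k3 := rec2_five g1 g2 g4 g5 g6 g8 g9 g11 g12 g15
    exact rec2_fin h hs hz k1 k2 k3
  · rfl

theorem rec2_c6_mul_bound {f : F5} {n β C : ℤ} {m : ℕ} (hC : C = ((m + 5).choose 5 : ℕ)) (hn : 0 ≤ n)
    (h : ∀ x a b c d, n * |f x a b c d| ≤ β) (k x a b c d : ℕ) : n * |c6 f k m x a b c d| ≤ C * β := by
  subst hC
  have h1 := c6_bound (f := fun x a b c d => n * f x a b c d) (x := x) (a := a) (b := b) (c := c) (d := d)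
    (β := β) k m fun x' _ a' _ b' _ c' _ d' _ => by
      rw [abs_mul, abs_of_nonneg hn]; exact h _ _ _ _ _
  rwa [c6_smul, abs_mul, abs_of_nonneg hn] at h1

theorem rec2_newton_abs (m j x a b c d : ℕ) :
    (j : ℤ) * |tf m j x a b c d| ≤ ∑ i ∈ Finset.range j, |c6 (tf m i) (j - i) m x a b c d| := by
  have h := Finset.abs_sum_le_sum_abs (fun i => c6 (tf m i) (j - i) m x a b c d) (Finset.range j)
  rwa [← tf_newton, abs_mul, Nat.abs_cast] at h

theorem tf_bound (m x a b c d : ℕ) :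
    720 * |tf m 6 x a b c d| ≤ ((((m + 5).choose 5 + 5) ^ 6 : ℕ) : ℤ) := by
  obtain ⟨C, hC⟩ : ∃ C : ℤ, C = ((m + 5).choose 5 : ℕ) := ⟨_, rfl⟩
  have hC0 : 0 ≤ C := by rw [hC]; positivity
  have h0 : ∀ x a b c d, 1 * |tf m 0 x a b c d| ≤ 1 := fun x a b c d => by
    rw [tf_zero, one_mul]; exact d0_bound _ _ _ _ _
  have u0 := rec2_c6_mul_bound hC (by norm_num) h0
  have h1 : ∀ x a b c d, 1 * |tf m 1 x a b c d| ≤ C := fun x a b c d => by
    have := rec2_newton_abs m 1 x a b c d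
    simp only [Finset.sum_range_succ, Finset.sum_range_zero] at this
    push_cast at this
    linarith [u0 1 x a b c d]
  have u1 := rec2_c6_mul_bound hC (by norm_num) h1
  have h2 : ∀ x a b c d, 2 * |tf m 2 x a b c d| ≤ C * (C + 1) := fun x a b c d => by
    have := rec2_newton_abs m 2 x a b c d
    simp only [Finset.sum_range_succ, Finset.sum_range_zero] at this
    push_cast at this
    linarith [u0 2 x a b c d, u1 1 x a b c d]
  have u2 := rec2_c6_mul_bound hC (by norm_num) h2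
  have h3 : ∀ x a b c d, 6 * |tf m 3 x a b c d| ≤ C * (C + 1) * (C + 2) := fun x a b c d => by
    have := rec2_newton_abs m 3 x a b c d
    simp only [Finset.sum_range_succ, Finset.sum_range_zero] at this
    push_cast at this
    linarith [u0 3 x a b c d, u1 2 x a b c d, u2 1 x a b c d]
  have u3 := rec2_c6_mul_bound hC (by norm_num) h3
  have h4 : ∀ x a b c d, 24 * |tf m 4 x a b c d| ≤ C * (C + 1) * (C + 2) * (C + 3) := fun x a b c d => by
    have := rec2_newton_abs m 4 x a b c d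
    simp only [Finset.sum_range_succ, Finset.sum_range_zero] at this
    push_cast at this
    linarith [u0 4 x a b c d, u1 3 x a b c d, u2 2 x a b c d, u3 1 x a b c d]
  have u4 := rec2_c6_mul_bound hC (by norm_num) h4
  have h5 : ∀ x a b c d, 120 * |tf m 5 x a b c d| ≤ C * (C + 1) * (C + 2) * (C + 3) * (C + 4) :=
    fun x a b c d => by
    have := rec2_newton_abs m 5 x a b c d
    simp only [Finset.sum_range_succ, Finset.sum_range_zero] at this
    push_cast at this
    linarith [u0 5 x a b c d, u1 4 x a b c d, u2 3 x a b c d, u3 2 x a b c d, u4 1 x a b c d]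
  have u5 := rec2_c6_mul_bound hC (by norm_num) h5
  have h6 : 720 * |tf m 6 x a b c d| ≤ C * (C + 1) * (C + 2) * (C + 3) * (C + 4) * (C + 5) := by
    have := rec2_newton_abs m 6 x a b c d
    simp only [Finset.sum_range_succ, Finset.sum_range_zero] at this
    push_cast at this
    linarith [u0 6 x a b c d, u1 5 x a b c d, u2 4 x a b c d, u3 3 x a b c d, u4 2 x a b c d, u5 1 x a b c d]
  push_cast
  rw [← hC]
  have h7 : 0 ≤ 15 * C ^ 5 + 290 * C ^ 4 + 2275 * C ^ 3 + 9101 * C ^ 2 + 18630 * C + 15625 := by positivity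
  linarith

end Crest.Agent.R187
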