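import Crest.Agent.R187.Rec2

/-!
# Row 187, part 2: the stable formula

Let `geoZ k G n = ∑_{i ≤ n / k} G (n - k i)` (so `geoZ k G n = G n + if k ≤ n then geoZ k G (n - k) else 0` for `k ≥ 1`).
* For a product function `f x a b c d = f₁ x * f₂ a * f₃ b * f₄ c * f₅ d`, `k ≥ 1` and `x + a + b + c + d ≤ m`,
  `c6 f k m = ∏ geoZ k f_i`.  Put `S_i = ∑_{s ≤ m} c_i f k s`; then `S_1 = f₁ f₂ f₃ f₄ geoZ f₅` and
  `S_{i+1} (m + 1) = S_i (m + 1) + shift (S_{i+1} m)` (`Finset.sum_range_succ'`), induction on `m` or on the shifted coordinate.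
  To reach sums of products it is easiest to prove the characterisation for arbitrary `f`: for `Σ ≤ m`,
  `c6 f k m x a b c d = Γx Γa Γb Γc Γd f` where each `Γ` applies `geoZ k` in one coordinate; then `det5 G` is multilinear
  in the five rows `gs G · x`, …, and `geoZ k (gs G q) = gs (geoZ k G) q`; `geoZ k` commutes with sums and constant factors.
  Conclusion: `c6 (det5 G) k m = det5 (geoZ k G)` at points with `Σ ≤ m`.
* `d0 = det5 D` with `D 0 = 1`, `D 1 = -1`, `D n = 0` otherwise: both vanish if a coordinate is `> 5`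
  (`d0`: `d0_eq_zero` and antisymmetry or a finite check), and `6^5` cases by `decide +kernel` (use `allR`, `allR_sound`).
* `cf (15 + k₁ B + ⋯) (DD 6 * pk k₁ * ⋯ * pk k_r) = det5 (geoZ k_r ⋯ geoZ k₁ D)` for `Σ ≤ B` (`cf_DD`, `cf_mul_pk`,
  `c6_congr`), `hh_six`, linearity of `cf`.
* `geoZ 1 D = δ`, `geoZ k (posZ f) = posZ (geo k f)`, `geoZ k (difZ f) = difZ (geo k f)`, `D = difZ dlt`; order the factors
  so that a factor `pk 6 1 B` comes first whenever there is one, then increasing `k`.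
-/

set_option autoImplicit false

namespace Crest.Agent.R187

theorem geo_eq {k : ℕ} (hk : 1 ≤ k) (f : ℕ → ℕ) (n : ℕ) :
    geo k f n = f n + if k ≤ n then geo k f (n - k) else 0 := by
  have h0 : ∀ n, geo k f n =
      Nat.rec (motive := fun _ => ℕ) (f (n % k)) (geoS k f (n % k)) (n / k) := fun n => rfl
  by_cases h : k ≤ n
  · rw [if_pos h, h0 n, h0 (n - k), Nat.div_eq_sub_div (by omega) h, ← Nat.mod_eq_sub_mod h]
    show Nat.rec (motive := fun _ => ℕ) (f (n % k)) (geoS k f (n % k)) ((n - k) / k) +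
      f (k * ((n - k) / k + 1) + n % k) = _
    have e : k * ((n - k) / k + 1) + n % k = n := by
      rw [← Nat.div_eq_sub_div (by omega) h]; exact Nat.div_add_mod n k
    rw [e, add_comm]
  · rw [if_neg h, h0 n, Nat.div_eq_of_lt (by omega), Nat.mod_eq_of_lt (by omega)]
    rfl

theorem posZ_eq (f : ℕ → ℕ) (n : ℕ) : posZ f n = f n := rfl

theorem difZ_eq (f : ℕ → ℕ) (n : ℕ) : difZ f n = (f n : ℤ) - if 1 ≤ n then (f (n - 1) : ℤ) else 0 := by
  unfold difZ
  rw [Int.subNatNat_eq_coe, ncase_eq]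
  cases n <;> simp

/-- multiplication of an integer power series by `1 / (1 - y^k)` -/
def stGz (k : ℕ) (G : ℕ → ℤ) (n : ℕ) : ℤ :=
  G n + if _h : 1 ≤ k ∧ k ≤ n then stGz k G (n - k) else 0
termination_by n
decreasing_by omega

theorem stGz_eq {k : ℕ} (hk : 1 ≤ k) (G : ℕ → ℤ) (n : ℕ) :
    stGz k G n = G n + if k ≤ n then stGz k G (n - k) else 0 := by
  rw [stGz]
  by_cases h : k ≤ n
  · rw [dif_pos ⟨hk, h⟩, if_pos h]
  · rw [dif_neg (fun h' => h h'.2), if_neg h]

theorem stGz_unique {k : ℕ} (hk : 1 ≤ k) {G H : ℕ → ℤ}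
    (h : ∀ n, H n = G n + if k ≤ n then H (n - k) else 0) : stGz k G = H := by
  funext n
  induction n using Nat.strong_induction_on with
  | _ n ih =>
    rw [stGz_eq hk, h n]
    by_cases hn : k ≤ n
    · rw [if_pos hn, if_pos hn, ih _ (by omega)]
    · rw [if_neg hn, if_neg hn]

theorem st_step {k : ℕ} (hk : 1 ≤ k) (u v : ℕ → ℕ → ℤ) (V : ℕ → ℤ) (r : ℕ)
    (h0 : ∀ y, u 0 y = v 0 y)
    (h1 : ∀ s y, u (s + 1) y = v (s + 1) y + if k ≤ y then u s (y - k) else 0)
    (hV : ∀ m y, y + r ≤ m → ∑ s ∈ Finset.range (m + 1), v s y = V y) (m y : ℕ) (h : y + r ≤ m) :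
    ∑ s ∈ Finset.range (m + 1), u s y = stGz k V y := by
  induction m generalizing y with
  | zero =>
    have hy : y = 0 := by omega
    subst hy
    rw [stGz_eq hk, if_neg (by omega), ← hV 0 0 h]
    simp [h0]
  | succ m ih =>
    rw [stGz_eq hk, ← hV (m + 1) y h, Finset.sum_range_succ' _ (m + 1),
      Finset.sum_range_succ' _ (m + 1), h0]
    simp only [h1]
    rw [Finset.sum_add_distrib]
    by_cases hy : k ≤ y
    · simp only [if_pos hy]
      rw [ih (y - k) (by omega)]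
      ring
    · simp only [if_neg hy]
      simp

theorem st_c1 {k : ℕ} (hk : 1 ≤ k) (f : F5) (x a b c m d : ℕ) (h : d ≤ m) :
    ∑ s ∈ Finset.range (m + 1), c1 f k s x a b c d = stGz k (fun d => f x a b c d) d := by
  refine st_step hk (fun s d => c1 f k s x a b c d)
    (fun s d => if s = 0 then f x a b c d else 0) _ 0 ?_ ?_ ?_ m d (by omega)
  · intro y; simp [c1]
  · intro s y
    simp only [c1, Nat.succ_ne_zero, if_false, zero_add, Nat.mul_succ]
    by_cases h1 : k * s + k ≤ y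
    · rw [if_pos h1, if_pos (by omega), if_pos (by omega)]
      congr 1; omega
    · rw [if_neg h1]
      by_cases h2 : k ≤ y
      · rw [if_pos h2, if_neg (by omega)]
      · rw [if_neg h2]
  · intro m y _
    simp

theorem st_c1_zero (f : F5) (k : ℕ) : c1 f k 0 = f := by
  funext x a b c d; simp [c1]

theorem st_c2 {k : ℕ} (hk : 1 ≤ k) (f : F5) (x a b d m c : ℕ) (h : c + d ≤ m) :
    ∑ s ∈ Finset.range (m + 1), c2 f k s x a b c d =
      stGz k (fun c => stGz k (fun d => f x a b c d) d) c :=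
  st_step hk (fun s c => c2 f k s x a b c d) (fun s c => c1 f k s x a b c d) _ d
    (fun y => by rw [st_c1_zero]; rfl) (fun _ _ => rfl)
    (fun m y hy => st_c1 hk f x a b y m d (by omega)) m c h

theorem st_c3 {k : ℕ} (hk : 1 ≤ k) (f : F5) (x a c d m b : ℕ) (h : b + (c + d) ≤ m) :
    ∑ s ∈ Finset.range (m + 1), c3 f k s x a b c d =
      stGz k (fun b => stGz k (fun c => stGz k (fun d => f x a b c d) d) c) b :=
  st_step hk (fun s b => c3 f k s x a b c d) (fun s b => c2 f k s x a b c d) _ (c + d)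
    (fun _ => rfl) (fun _ _ => rfl)
    (fun m y hy => st_c2 hk f x a y d m c (by omega)) m b h

theorem st_c4 {k : ℕ} (hk : 1 ≤ k) (f : F5) (x b c d m a : ℕ) (h : a + (b + (c + d)) ≤ m) :
    ∑ s ∈ Finset.range (m + 1), c4 f k s x a b c d =
      stGz k (fun a => stGz k (fun b => stGz k (fun c => stGz k (fun d => f x a b c d) d) c) b) a :=
  st_step hk (fun s a => c4 f k s x a b c d) (fun s a => c3 f k s x a b c d) _ (b + (c + d))
    (fun _ => rfl) (fun _ _ => rfl)
    (fun m y hy => st_c3 hk f x y c d m b (by omega)) m a h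

theorem st_c6 {k : ℕ} (hk : 1 ≤ k) (f : F5) (a b c d m x : ℕ) (h : x + (a + (b + (c + d))) ≤ m) :
    c6 f k m x a b c d = stGz k (fun x => stGz k (fun a => stGz k (fun b => stGz k (fun c =>
      stGz k (fun d => f x a b c d) d) c) b) a) x :=
  st_step hk (fun s x => c5 f k s x a b c d) (fun s x => c4 f k s x a b c d) _ (a + (b + (c + d)))
    (fun _ => rfl) (fun _ _ => rfl)
    (fun m y hy => st_c4 hk f y b c d m a (by omega)) m x h

/-! ### The determinant as a function of its rows -/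

def stM2 (u v : ℕ → ℤ) (s t : ℕ) : ℤ := u s * v t - u t * v s
def stN3 (w u v : ℕ → ℤ) (r s t : ℕ) : ℤ :=
  w r * stM2 u v s t - w s * stM2 u v r t + w t * stM2 u v r s
def stD4 (z w u v : ℕ → ℤ) (q r s t : ℕ) : ℤ :=
  z q * stN3 w u v r s t - z r * stN3 w u v q s t + z s * stN3 w u v q r t - z t * stN3 w u v q r s
def stD5 (y z w u v : ℕ → ℤ) : ℤ :=
  y 4 * stD4 z w u v 3 2 1 0 - y 3 * stD4 z w u v 4 2 1 0 + y 2 * stD4 z w u v 4 3 1 0
    - y 1 * stD4 z w u v 4 3 2 0 + y 0 * stD4 z w u v 4 3 2 1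

theorem st_det5_eq (G : ℕ → ℤ) (x a b c d : ℕ) : det5 G x a b c d =
    stD5 (fun q => gs G q x) (fun q => gs G q a) (fun q => gs G q b) (fun q => gs G q c)
      (fun q => gs G q d) := rfl

theorem st_gs {k : ℕ} (hk : 1 ≤ k) (G : ℕ → ℤ) (q y : ℕ) :
    gs (stGz k G) q y = gs G q y + if k ≤ y then gs (stGz k G) q (y - k) else 0 := by
  simp only [gs_eq]
  by_cases h1 : q ≤ y
  · rw [if_pos h1, if_pos h1, stGz_eq hk]
    by_cases h2 : k ≤ y - q
    · rw [if_pos h2, if_pos (by omega), if_pos (by omega)]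
      congr 2; omega
    · rw [if_neg h2]
      by_cases h3 : k ≤ y
      · rw [if_pos h3, if_neg (by omega)]
      · rw [if_neg h3]
  · rw [if_neg h1, if_neg h1]
    by_cases h3 : k ≤ y
    · rw [if_pos h3, if_neg (by omega)]; simp
    · rw [if_neg h3]; simp

theorem st_lin {k : ℕ} (hk : 1 ≤ k) (G : ℕ → ℤ) (φ : (ℕ → ℤ) → ℤ)
    (hφ : ∀ r r' : ℕ → ℤ, φ (fun q => r q + r' q) = φ r + φ r') (y : ℕ) :
    stGz k (fun y => φ (fun q => gs G q y)) y = φ (fun q => gs (stGz k G) q y) := by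
  rw [stGz_unique hk (H := fun y => φ (fun q => gs (stGz k G) q y))]
  intro n
  by_cases h : k ≤ n
  · rw [if_pos h, ← hφ]
    congr 1; funext q
    rw [st_gs hk G q n, if_pos h]
  · rw [if_neg h, add_zero]
    congr 1; funext q
    rw [st_gs hk G q n, if_neg h, add_zero]

theorem st_c6_det5 {k : ℕ} (hk : 1 ≤ k) (G : ℕ → ℤ) {m x a b c d : ℕ} (h : x + a + b + c + d ≤ m) :
    c6 (det5 G) k m x a b c d = det5 (stGz k G) x a b c d := by
  rw [st_c6 hk _ a b c d m x (by omega)]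
  simp only [st_det5_eq]
  have e5 : ∀ y z w u : ℕ → ℤ, stGz k (fun d => stD5 y z w u (fun q => gs G q d)) d =
      stD5 y z w u (fun q => gs (stGz k G) q d) := fun y z w u =>
    st_lin hk G (fun r => stD5 y z w u r)
      (fun r r' => by simp only [stD5, stD4, stN3, stM2]; ring) d
  have e4 : ∀ y z w v : ℕ → ℤ, stGz k (fun c => stD5 y z w (fun q => gs G q c) v) c =
      stD5 y z w (fun q => gs (stGz k G) q c) v := fun y z w v =>
    st_lin hk G (fun r => stD5 y z w r v)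
      (fun r r' => by simp only [stD5, stD4, stN3, stM2]; ring) c
  have e3 : ∀ y z u v : ℕ → ℤ, stGz k (fun b => stD5 y z (fun q => gs G q b) u v) b =
      stD5 y z (fun q => gs (stGz k G) q b) u v := fun y z u v =>
    st_lin hk G (fun r => stD5 y z r u v)
      (fun r r' => by simp only [stD5, stD4, stN3]; ring) b
  have e2 : ∀ y w u v : ℕ → ℤ, stGz k (fun a => stD5 y (fun q => gs G q a) w u v) a =
      stD5 y (fun q => gs (stGz k G) q a) w u v := fun y w u v =>
    st_lin hk G (fun r => stD5 y r w u v)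
      (fun r r' => by simp only [stD5, stD4]; ring) a
  have e1 : ∀ z w u v : ℕ → ℤ, stGz k (fun x => stD5 (fun q => gs G q x) z w u v) x =
      stD5 (fun q => gs (stGz k G) q x) z w u v := fun z w u v =>
    st_lin hk G (fun r => stD5 r z w u v)
      (fun r r' => by simp only [stD5]; ring) x
  simp only [e5, e4, e3, e2, e1]

/-! ### The Vandermonde coefficients -/

theorem st_gsD {q y : ℕ} (hq : q ≤ 4) (hy : 5 < y) : gs (difZ dlt) q y = 0 := by
  rw [gs_eq, if_pos (by omega), difZ_eq, if_pos (by omega)]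
  obtain ⟨n, hn⟩ : ∃ n, y - q = n + 2 := ⟨y - q - 2, by omega⟩
  rw [hn]
  rfl

theorem st_chk : allR (fun x => allR (fun a => allR (fun b => allR (fun c => allR (fun d =>
    decide (d0 x a b c d = det5 (difZ dlt) x a b c d)) 0 6) 0 6) 0 6) 0 6) 0 6 = true := by
  decide +kernel

theorem st_d0 (x a b c d : ℕ) : d0 x a b c d = det5 (difZ dlt) x a b c d := by
  have hA : AntiS d0 := tf_zero 0 ▸ tf_anti 0 0
  have hz : ∀ y, 5 < y → gs (difZ dlt) 0 y = 0 ∧ gs (difZ dlt) 1 y = 0 ∧ gs (difZ dlt) 2 y = 0 ∧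
      gs (difZ dlt) 3 y = 0 ∧ gs (difZ dlt) 4 y = 0 := fun y hy =>
    ⟨st_gsD (by omega) hy, st_gsD (by omega) hy, st_gsD (by omega) hy, st_gsD (by omega) hy,
      st_gsD (by omega) hy⟩
  by_cases hx : 5 < x
  · obtain ⟨h0, h1, h2, h3, h4⟩ := hz x hx
    rw [d0_eq_zero (Or.inl hx), st_det5_eq]
    simp [stD5, h0, h1, h2, h3, h4]
  by_cases ha : 5 < a
  · obtain ⟨h0, h1, h2, h3, h4⟩ := hz a ha
    rw [d0_eq_zero (Or.inr (Or.inl ha)), st_det5_eq]
    simp [stD5, stD4, h0, h1, h2, h3, h4]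
  by_cases hb : 5 < b
  · obtain ⟨h0, h1, h2, h3, h4⟩ := hz b hb
    rw [d0_eq_zero (Or.inr (Or.inr hb)), st_det5_eq]
    simp [stD5, stD4, stN3, h0, h1, h2, h3, h4]
  by_cases hc : 5 < c
  · obtain ⟨h0, h1, h2, h3, h4⟩ := hz c hc
    rw [hA.1 x a c b d, d0_eq_zero (Or.inr (Or.inr hc)), st_det5_eq]
    simp [stD5, stD4, stN3, stM2, h0, h1, h2, h3, h4]
  by_cases hd : 5 < d
  · obtain ⟨h0, h1, h2, h3, h4⟩ := hz d hd
    rw [hA.2 x a b d c, hA.1 x a d b c, d0_eq_zero (Or.inr (Or.inr hd)), st_det5_eq]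
    simp [stD5, stD4, stN3, stM2, h0, h1, h2, h3, h4]
  have h1 := allR_sound st_chk (y := x) (by omega) (by omega)
  have h2 := allR_sound h1 (y := a) (by omega) (by omega)
  have h3 := allR_sound h2 (y := b) (by omega) (by omega)
  have h4 := allR_sound h3 (y := c) (by omega) (by omega)
  have h5 := allR_sound h4 (y := d) (by omega) (by omega)
  exact of_decide_eq_true h5

/-! ### Products of power sums -/

/-- the coefficients of `Q` are given by `det5 G` in the stable range -/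
def StOK (B N : ℕ) (Q : MvPolynomial (Fin 6) ℤ) (G : ℕ → ℤ) : Prop :=
  ∀ x a b c d, x + a + b + c + d ≤ B → cf N Q x a b c d = det5 G x a b c d

theorem StOK.base (B : ℕ) : StOK B 15 (DD 6) (difZ dlt) := by
  intro x a b c d _
  rw [cf_DD, st_d0]

theorem StOK.mul {B N : ℕ} {Q : MvPolynomial (Fin 6) ℤ} {G : ℕ → ℤ} (h : StOK B N Q G) {k : ℕ}
    (hk : 1 ≤ k) : StOK B (N + k * B) (Q * pk 6 k B) (stGz k G) := by
  intro x a b c d hs
  rw [cf_mul_pk N k B hk, ← st_c6_det5 hk G hs]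
  exact c6_congr k B fun x' hx a' ha b' hb c' hc d' hd => h x' a' b' c' d' (by omega)

theorem st_pos {k : ℕ} (hk : 1 ≤ k) (f : ℕ → ℕ) : stGz k (posZ f) = posZ (geo k f) := by
  refine stGz_unique hk fun n => ?_
  simp only [posZ_eq]
  rw [geo_eq hk f n]
  split_ifs <;> simp

theorem st_dif {k : ℕ} (hk : 1 ≤ k) (f : ℕ → ℕ) : stGz k (difZ f) = difZ (geo k f) := by
  refine stGz_unique hk fun n => ?_
  simp only [difZ_eq]
  rw [geo_eq hk f n, geo_eq hk f (n - 1)]
  by_cases h1 : k ≤ n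
  · have h2 : 1 ≤ n := by omega
    by_cases h3 : k ≤ n - 1
    · have h4 : 1 ≤ n - k := by omega
      have e : n - 1 - k = n - k - 1 := by omega
      simp only [if_pos h1, if_pos h2, if_pos h3, if_pos h4, e]
      push_cast; ring
    · have h4 : ¬ 1 ≤ n - k := by omega
      simp only [if_pos h1, if_pos h2, if_neg h3, if_neg h4]
      push_cast; ring
  · have h3 : ¬ k ≤ n - 1 := by omega
    simp only [if_neg h1, if_neg h3]
    simp

theorem st_one : stGz 1 (difZ dlt) = posZ dlt := by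
  refine stGz_unique le_rfl fun n => ?_
  simp only [posZ_eq, difZ_eq]
  split_ifs <;> simp

theorem StOK.pos {B N : ℕ} {Q : MvPolynomial (Fin 6) ℤ} {f : ℕ → ℕ} (h : StOK B N Q (posZ f))
    (k : ℕ) (hk : 1 ≤ k) : StOK B (N + k * B) (Q * pk 6 k B) (posZ (geo k f)) :=
  st_pos hk f ▸ h.mul hk

theorem StOK.dif {B N : ℕ} {Q : MvPolynomial (Fin 6) ℤ} {f : ℕ → ℕ} (h : StOK B N Q (difZ f))
    (k : ℕ) (hk : 1 ≤ k) : StOK B (N + k * B) (Q * pk 6 k B) (difZ (geo k f)) :=
  st_dif hk f ▸ h.mul hk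

theorem StOK.one (B : ℕ) : StOK B (15 + 1 * B) (DD 6 * pk 6 1 B) (posZ dlt) :=
  st_one ▸ (StOK.base B).mul le_rfl

theorem StOK.cast {B N : ℕ} {Q : MvPolynomial (Fin 6) ℤ} {G : ℕ → ℤ} (h : StOK B N Q G)
    (hN : N = 6 * B + 15) : StOK B (6 * B + 15) Q G := hN ▸ h

theorem st_cf_add (N : ℕ) (Q Q' : MvPolynomial (Fin 6) ℤ) (x a b c d : ℕ) :
    cf N (Q + Q') x a b c d = cf N Q x a b c d + cf N Q' x a b c d := by
  unfold cf
  split_ifs <;> simp

theorem st_cf_smul (N : ℕ) (n : ℤ) (Q : MvPolynomial (Fin 6) ℤ) (x a b c d : ℕ) :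
    cf N (n • Q) x a b c d = n * cf N Q x a b c d := by
  unfold cf
  split_ifs
  · rw [MvPolynomial.coeff_smul, smul_eq_mul]
  · simp

theorem tf_stable {B x a b c d : ℕ} (h : x + a + b + c + d ≤ B) :
    720 * tf B 6 x a b c d = det5 G0 x a b c d + 15 * det5 G1 x a b c d + 45 * det5 G2 x a b c d
      + 15 * det5 G3 x a b c d + 40 * det5 G4 x a b c d + 120 * det5 G5 x a b c d + 40 * det5 G6 x a b c d
      + 90 * det5 G7 x a b c d + 90 * det5 G8 x a b c d + 144 * det5 G9 x a b c d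
      + 120 * det5 G10 x a b c d := by
  have h0 := (((((((StOK.one B).pos 1 le_rfl).pos 1 le_rfl).pos 1 le_rfl).pos 1 le_rfl).pos 1
    le_rfl).cast (by ring)) x a b c d h
  have h1 := ((((((StOK.one B).pos 1 le_rfl).pos 1 le_rfl).pos 1 le_rfl).pos 2
    (by norm_num)).cast (by ring)) x a b c d h
  have h2 := (((((StOK.one B).pos 1 le_rfl).pos 2 (by norm_num)).pos 2
    (by norm_num)).cast (by ring)) x a b c d h
  have h3 := (((((StOK.base B).dif 2 (by norm_num)).dif 2 (by norm_num)).dif 2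
    (by norm_num)).cast (by ring)) x a b c d h
  have h4 := (((((StOK.one B).pos 1 le_rfl).pos 1 le_rfl).pos 3
    (by norm_num)).cast (by ring)) x a b c d h
  have h5 := ((((StOK.one B).pos 2 (by norm_num)).pos 3 (by norm_num)).cast (by ring)) x a b c d h
  have h6 := ((((StOK.base B).dif 3 (by norm_num)).dif 3 (by norm_num)).cast (by ring)) x a b c d h
  have h7 := ((((StOK.one B).pos 1 le_rfl).pos 4 (by norm_num)).cast (by ring)) x a b c d h
  have h8 := ((((StOK.base B).dif 2 (by norm_num)).dif 4 (by norm_num)).cast (by ring)) x a b c d h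
  have h9 := (((StOK.one B).pos 5 (by norm_num)).cast (by ring)) x a b c d h
  have h10 := (((StOK.base B).dif 6 (by norm_num)).cast (by ring)) x a b c d h
  have hp : (720 : ℤ) • (DD 6 * hh 6 6 B) =
      DD 6 * pk 6 1 B * pk 6 1 B * pk 6 1 B * pk 6 1 B * pk 6 1 B * pk 6 1 B
      + (15 : ℤ) • (DD 6 * pk 6 1 B * pk 6 1 B * pk 6 1 B * pk 6 1 B * pk 6 2 B)
      + (45 : ℤ) • (DD 6 * pk 6 1 B * pk 6 1 B * pk 6 2 B * pk 6 2 B)
      + (15 : ℤ) • (DD 6 * pk 6 2 B * pk 6 2 B * pk 6 2 B)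
      + (40 : ℤ) • (DD 6 * pk 6 1 B * pk 6 1 B * pk 6 1 B * pk 6 3 B)
      + (120 : ℤ) • (DD 6 * pk 6 1 B * pk 6 2 B * pk 6 3 B)
      + (40 : ℤ) • (DD 6 * pk 6 3 B * pk 6 3 B)
      + (90 : ℤ) • (DD 6 * pk 6 1 B * pk 6 1 B * pk 6 4 B)
      + (90 : ℤ) • (DD 6 * pk 6 2 B * pk 6 4 B)
      + (144 : ℤ) • (DD 6 * pk 6 1 B * pk 6 5 B)
      + (120 : ℤ) • (DD 6 * pk 6 6 B) := by
    simp only [zsmul_eq_mul]
    push_cast
    linear_combination DD 6 * hh_six 6 B
  unfold tf G0 G1 G2 G3 G4 G5 G6 G7 G8 G9 G10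
  rw [← st_cf_smul, hp]
  simp only [st_cf_add, st_cf_smul]
  rw [h0, h1, h2, h3, h4, h5, h6, h7, h8, h9, h10]

end Crest.Agent.R187
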