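import Crest.Agent.R187.Brion2
import Crest.Agent.R187.Poly

/-!
# The Foulkes–Howe map and the range `b ≥ (a-1)²`

Define `ψ : P b n →ₗ P a n` as follows: substitute `x_{j k} ↦ ∑_i t_{j i} y_{i k}` (an algebra map into
`MvPolynomial (Fin b × Fin a) (P a n)`) and take the coefficient of `∏_{j,i} t_{j i}`.
* `ψ` commutes with the column operators: the derivation `E a i j` acting coefficientwise on
  `MvPolynomial (Fin b × Fin a) (P a n)` intertwines with the substitution (check on variables;
  e.g. `MvPolynomial.mkDerivation`-free: induction on `f` for the statement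
  `∀ d, coeff d (sub (E f)) = E (coeff d (sub f))`, using `coeff_mul`).
* `ψ (rename (blockPerm σ) f) = ψ f`, and `ψ f` is invariant under permutations of the `a` blocks and
  homogeneous of degree `b` in each of them (degree in `y_i` = degree in the `t_{· i}`).
* `ψ (∏_j l_j(x_j)^a) = (a!)^b ∏_j vv a l_j`.
So `ψ` restricted to `blockSym b n a` maps onto `spanV a n b = blockSym a n b` (apply it to
`Tr b n (∏_j l_j(x_j)^a)`), and `GlRep.hw_le_of_surj` concludes.
An alternative definition on monomials: `ψ (monomial m 1) = ∏_j pol (row j of m)` with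
`pol α = ∑_{w : Fin a → Fin n, content w = α} α! ∏_i y_{i, w i}`; choose whichever is easier.
-/

set_option autoImplicit false

namespace Crest.Agent.R187

open MvPolynomial Crest.AlgebraR.FoulkesHowe

/-- the substitution `x_{j k} ↦ ∑_i t_{j i} y_{i k}` -/
noncomputable def surjSub (a n b : ℕ) : P b n →ₐ[ℂ] MvPolynomial (Fin b × Fin a) (P a n) :=
  aeval fun v => ∑ i : Fin a, X (v.1, i) * C (X (i, v.2))

/-- the exponent of `∏_{j, k} t_{j, W j k}` -/
noncomputable def surjExp {a b : ℕ} (W : Fin b → Fin a → Fin a) : Fin b × Fin a →₀ ℕ :=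
  ∑ j, ∑ k, Finsupp.single (j, W j k) 1

/-- the Foulkes–Howe map -/
noncomputable def surjPsi (a n b : ℕ) : P b n →ₗ[ℂ] P a n where
  toFun f := coeff (surjExp fun _ k => k) (surjSub a n b f)
  map_add' f g := by rw [map_add, coeff_add]
  map_smul' c f := by rw [map_smul, coeff_smul]; rfl

theorem surj_coeff_E {a n b : ℕ} (i j : Fin n) (f : P b n) (d : Fin b × Fin a →₀ ℕ) :
    coeff d (surjSub a n b (E b i j f)) = E a i j (coeff d (surjSub a n b f)) := by
  classical
  have hX : ∀ (v : Var b n) (d : Fin b × Fin a →₀ ℕ),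
      coeff d (surjSub a n b (E b i j (X v))) = E a i j (coeff d (surjSub a n b (X v))) := by
    intro v d
    rw [E_X]
    have e : ∀ v : Var b n, coeff d (surjSub a n b (X v)) =
        ∑ r : Fin a, if Finsupp.single (v.1, r) 1 = d then (X (r, v.2) : P a n) else 0 := by
      intro v
      rw [surjSub, aeval_X, coeff_sum]
      refine Finset.sum_congr rfl fun r _ => ?_
      rw [mul_comm, C_mul_X_eq_monomial, coeff_monomial]
    rw [e, map_sum]
    split_ifs with h
    · rw [e]
      refine Finset.sum_congr rfl fun r _ => ?_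
      split_ifs
      · rw [E_X, if_pos h]
      · rw [map_zero]
    · rw [map_zero, coeff_zero]
      refine (Finset.sum_eq_zero fun r _ => ?_).symm
      split_ifs
      · rw [E_X, if_neg h]
      · rw [map_zero]
  induction f using MvPolynomial.induction_on generalizing d with
  | C c =>
    rw [derivation_C, map_zero, coeff_zero, algHom_C, MvPolynomial.algebraMap_apply, coeff_C]
    split_ifs
    · rw [Derivation.map_algebraMap]
    · rw [map_zero]
  | add p q hp hq => rw [map_add, map_add, coeff_add, hp, hq, map_add, coeff_add, map_add]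
  | mul_X p v hp =>
    rw [Derivation.leibniz, smul_eq_mul, smul_eq_mul, map_add, map_mul, map_mul, map_mul, coeff_add,
      mul_comm (surjSub a n b (X v)), coeff_mul, coeff_mul, coeff_mul, map_sum, ← Finset.sum_add_distrib]
    refine Finset.sum_congr rfl fun x _ => ?_
    rw [Derivation.leibniz, smul_eq_mul, smul_eq_mul, hX, hp, mul_comm (coeff x.2 _)]

theorem surjPsi_E {a n b : ℕ} (i j : Fin n) (f : P b n) :
    surjPsi a n b (E b i j f) = E a i j (surjPsi a n b f) := surj_coeff_E i j f _

theorem surjSub_lin {a n b : ℕ} (l : Fin n → ℂ) (j : Fin b) :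
    surjSub a n b (lin l j) = ∑ i : Fin a, monomial (Finsupp.single (j, i) 1) (lin l i) := by
  simp only [lin, map_sum, map_smul, surjSub, aeval_X, Finset.smul_sum]
  rw [Finset.sum_comm]
  refine Finset.sum_congr rfl fun i _ => Finset.sum_congr rfl fun k _ => ?_
  rw [mul_comm, C_mul_X_eq_monomial, smul_monomial]

open Classical in
/-- the multiplicity `(a!)^b` -/
noncomputable def surjN (a b : ℕ) : ℕ :=
  (Finset.univ.filter fun W : Fin b → Fin a → Fin a => surjExp W = surjExp fun _ k => k).card

theorem surjN_ne (a b : ℕ) : surjN a b ≠ 0 := by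
  classical
  refine Finset.card_ne_zero.2 ⟨fun _ k => k, ?_⟩
  simp

theorem surj_of_exp {a b : ℕ} {W : Fin b → Fin a → Fin a} (h : surjExp W = surjExp fun _ k => k) (j : Fin b) :
    Function.Bijective (W j) := by
  classical
  refine Finite.surjective_iff_bijective.1 fun i => ?_
  by_contra hc
  push Not at hc
  have h1 : surjExp W (j, i) = 0 := by
    simp only [surjExp, Finsupp.finsetSum_apply]
    refine Finset.sum_eq_zero fun j' _ => Finset.sum_eq_zero fun k _ => Finsupp.single_eq_of_ne ?_
    intro e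
    obtain ⟨rfl, e2⟩ := Prod.mk.inj e
    exact hc k e2.symm
  rw [h] at h1
  simp only [surjExp, Finsupp.finsetSum_apply, Finset.sum_eq_zero_iff, Finset.mem_univ, true_imp_iff] at h1
  simpa using h1 j i

theorem surjPsi_prod {a n b : ℕ} (l : Fin b → Fin n → ℂ) :
    surjPsi a n b (∏ j, lin (l j) j ^ a) = surjN a b • ∏ j, vv a (l j) := by
  classical
  have e : surjSub a n b (∏ j, lin (l j) j ^ a) =
      ∑ W : Fin b → Fin a → Fin a, monomial (surjExp W) (∏ j, ∏ k, lin (l j) (W j k)) := by
    rw [map_prod]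
    have e1 : ∀ j, surjSub a n b (lin (l j) j ^ a) =
        ∑ w : Fin a → Fin a, monomial (∑ k, Finsupp.single (j, w k) 1) (∏ k, lin (l j) (w k)) := by
      intro j
      rw [map_pow, surjSub_lin, Fintype.sum_pow]
      refine Finset.sum_congr rfl fun w _ => ?_
      rw [monomial_sum_prod]
    rw [Finset.prod_congr rfl fun j _ => e1 j, Fintype.prod_sum]
    refine Finset.sum_congr rfl fun W _ => ?_
    rw [surjExp, monomial_sum_prod]
  show coeff _ _ = _
  rw [e, coeff_sum, surjN, ← Finset.sum_const, Finset.sum_filter]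
  refine Finset.sum_congr rfl fun W _ => ?_
  rw [coeff_monomial]
  split_ifs with h
  · exact Finset.prod_congr rfl fun j _ => (surj_of_exp h j).prod_comp fun i => lin (l j) i
  · rfl

theorem surj_up_lin {a n : ℕ} (l : Fin n → ℂ) (i : Fin a) : up (lin l i) = lin l i.succ := by
  simp [up, lin]

theorem surj_mh_le (b n a : ℕ) : mh b n (fun _ => a) ≤
    Submodule.span ℂ {f | ∃ l : Fin b → Fin n → ℂ, f = ∏ j, lin (l j) j ^ a} := by
  induction b with
  | zero =>
    intro f _
    rw [eq_C_of_isEmpty f, ← mul_one (C _), C_mul']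
    exact Submodule.smul_mem _ _ (Submodule.subset_span ⟨fun _ => 0, by simp⟩)
  | succ b ih =>
    refine (mh_succ _).trans (Submodule.span_le.2 ?_)
    rintro _ ⟨F, hF, g, hg, rfl⟩
    have hF' := form_le_span_pow _ _ hF
    have hg' := ih hg
    clear hF hg
    induction hF' using Submodule.span_induction with
    | zero => rw [zero_mul]; exact Submodule.zero_mem _
    | add x y _ _ hx hy => rw [add_mul]; exact Submodule.add_mem _ hx hy
    | smul c x _ hx => rw [smul_mul_assoc]; exact Submodule.smul_mem _ _ hx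
    | mem x hx =>
      obtain ⟨m, rfl⟩ := hx
      induction hg' using Submodule.span_induction with
      | zero => rw [map_zero, mul_zero]; exact Submodule.zero_mem _
      | add x y _ _ hx hy => rw [map_add, mul_add]; exact Submodule.add_mem _ hx hy
      | smul c x _ hx => rw [map_smul, mul_smul_comm]; exact Submodule.smul_mem _ _ hx
      | mem x hx =>
        obtain ⟨l, rfl⟩ := hx
        refine Submodule.subset_span ⟨Fin.cons m l, ?_⟩
        simp only [Fin.prod_univ_succ, Fin.cons_zero, Fin.cons_succ, map_prod, map_pow, surj_up_lin]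

theorem surj_prod_mem {a n b : ℕ} (l : Fin b → Fin n → ℂ) :
    (∏ j, lin (l j) j ^ a : P b n) ∈ mh b n fun _ => a := by
  refine (Submodule.mem_iInf _).2 fun i => ?_
  have h1 : ∀ j : Fin b, IsWeightedHomogeneous (blockWeight i) (lin (l j) j : P b n) (if j = i then 1 else 0) :=
    fun j => (weightedHomogeneousSubmodule ℂ (blockWeight i) (if j = i then 1 else 0)).sum_mem fun k _ =>
      Submodule.smul_mem _ _ (isWeightedHomogeneous_X ℂ (blockWeight i) (j, k))
  have h2 := IsWeightedHomogeneous.prod Finset.univ (fun j => (lin (l j) j : P b n) ^ a)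
    (fun j => a • (if j = i then 1 else 0)) fun j _ => (h1 j).pow a
  simpa using h2

theorem surj_rename_lin {b n : ℕ} (σ : Equiv.Perm (Fin b)) (l : Fin n → ℂ) (j : Fin b) :
    rename (blockPerm σ) (lin l j : P b n) = lin l (σ j) := by
  simp [lin, blockPerm]

theorem surjPsi_Tr {a n b : ℕ} (l : Fin b → Fin n → ℂ) :
    surjPsi a n b (Tr b n (∏ j, lin (l j) j ^ a)) =
      (Fintype.card (Equiv.Perm (Fin b)) * surjN a b) • ∏ j, vv a (l j) := by
  rw [Tr, LinearMap.sum_apply, map_sum, mul_smul, ← Finset.card_univ, ← Finset.sum_const]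
  refine Finset.sum_congr rfl fun σ _ => ?_
  have e : (rename (blockPerm σ) : P b n →ₐ[ℂ] P b n).toLinearMap (∏ j, lin (l j) j ^ a) =
      ∏ j, lin (l (σ.symm j)) j ^ a := by
    rw [AlgHom.toLinearMap_apply, map_prod, ← Equiv.prod_comp σ fun j => lin (l (σ.symm j)) j ^ a]
    simp only [map_pow, surj_rename_lin, Equiv.symm_apply_apply]
  rw [e, surjPsi_prod, Equiv.prod_comp σ.symm fun j => vv a (l j)]

theorem surjPsi_mem {a n b : ℕ} {f : P b n} (hf : f ∈ blockSym b n a) : surjPsi a n b f ∈ blockSym a n b := by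
  have h1 : f ∈ mh b n fun _ => a := (Submodule.mem_iInf _).2 (mem_blockSym.1 hf).1
  refine spanV_le_blockSym a n b ?_
  have h2 : Submodule.span ℂ {f | ∃ l : Fin b → Fin n → ℂ, f = ∏ j, lin (l j) j ^ a} ≤
      (spanV a n b).comap (surjPsi a n b) := by
    refine Submodule.span_le.2 ?_
    rintro _ ⟨l, rfl⟩
    show surjPsi a n b _ ∈ spanV a n b
    rw [surjPsi_prod]
    refine nsmul_mem (Submodule.subset_span ?_) _
    exact ⟨l, rfl⟩
  exact h2 (surj_mh_le b n a h1)

theorem hwd_le_of_large {a n b : ℕ} (hb : (a - 1) ^ 2 ≤ b) (l : Fin n → ℕ) :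
    hwd a n b l ≤ hwd b n a l := by
  rw [← finrank_bs_hw, ← finrank_bs_hw]
  refine GlRep.hw_le_of_surj _ _ ((surjPsi a n b).restrict fun f hf => surjPsi_mem hf) (fun g => ?_)
    (fun i j v => Subtype.ext ?_) l
  · have h : spanV a n b ≤ (blockSym b n a).map (surjPsi a n b) := by
      refine Submodule.span_le.2 ?_
      rintro _ ⟨m, rfl⟩
      have hc : ((Fintype.card (Equiv.Perm (Fin b)) * surjN a b : ℕ) : ℂ) ≠ 0 :=
        Nat.cast_ne_zero.2 (mul_ne_zero Fintype.card_ne_zero (surjN_ne a b))
      refine ⟨((Fintype.card (Equiv.Perm (Fin b)) * surjN a b : ℕ) : ℂ)⁻¹ • Tr b n (∏ j, lin (m j) j ^ a),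
        Submodule.smul_mem _ _ (Tr_mem (surj_prod_mem m)), ?_⟩
      rw [map_smul, surjPsi_Tr, ← Nat.cast_smul_eq_nsmul ℂ, inv_smul_smul₀ hc]
    obtain ⟨f, hf, e⟩ := h (brion a n b hb g.2)
    exact ⟨⟨f, hf⟩, Subtype.ext e⟩
  · rw [bs_e, LinearMap.coe_restrict_apply, LinearMap.coe_restrict_apply, bs_e, surjPsi_E]

end Crest.Agent.R187
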